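import Crest.Agent.R176.Tower

/-! Row 176: the multi-level addresses of the physical system. -/

set_option autoImplicit false

namespace Crest.Agent.R176

namespace Addr0

theorem tower_length : ∀ (s : ℕ) (W : List C0) (u : List (Cell (mS s))), Tower s W u →
    W.length = u.length * DL s
  | 0, W, u, h => by
    have h' : W = u := h
    subst h'
    exact (mul_one _).symm
  | s + 1, W, u, h => by
    obtain ⟨v, h1, h2⟩ := h
    rw [tower_length s W v h1, h2.1.length_eq, DL, mul_assoc]
    rfl

theorem pre_of_le {α : Type} {a b c d : List α} (h : a ++ b = c ++ d)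
    (hl : c.length ≤ a.length) : ∃ e, a = c ++ e ∧ d = e ++ b := by
  rcases List.append_eq_append_iff.1 h with ⟨e, h1, h2⟩ | ⟨e, h1, h2⟩
  · have : e = [] := by
      have := congrArg List.length h1
      rw [List.length_append] at this
      exact List.eq_nil_of_length_eq_zero (by omega)
    subst this
    exact ⟨[], by simpa using h1.symm, by simpa using h2.symm⟩
  · exact ⟨e, h1, h2⟩

theorem cand_left {s : ℕ} {w : List C0} {p : ℕ} {X : Cell (mS s)} (h : Cand s w p X)
    (t : List C0) : Cand s (w ++ t) p X := by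
  obtain ⟨l, W, r, rfl, hp, hT, hP, hl, hr⟩ := h
  exact ⟨l, W, r ++ t, by simp, hp, hT, hP, hl, by rw [List.length_append]; omega⟩

theorem cand_right {s : ℕ} {w : List C0} {p : ℕ} {X : Cell (mS s)} (h : Cand s w p X)
    (t : List C0) : Cand s (t ++ w) (t.length + p) X := by
  obtain ⟨l, W, r, rfl, hp, hT, hP, hl, hr⟩ := h
  exact ⟨t ++ l, W, r, by simp, by rw [List.length_append, hp], hT, hP,
    by rw [List.length_append]; omega, hr⟩

theorem cand_mid1 {s : ℕ} {l m m' r : List C0} {p : ℕ} {X : Cell (mS s)}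
    (h : Cand s (l ++ m ++ r) p X) (hm : m'.length = m.length) (hp : p + DL s ≤ l.length) :
    Cand s (l ++ m' ++ r) p X := by
  obtain ⟨L, W, R, he, hL, hT, hP, hl, hr⟩ := h
  have hW := tower_length s W _ hT
  rw [List.append_assoc l m r] at he
  obtain ⟨e, rfl, rfl⟩ := pre_of_le he (by rw [List.length_append, hW]; simpa [hL] using hp)
  refine ⟨L, W, e ++ (m' ++ r), by simp, hL, hT, hP, hl, ?_⟩
  simp only [List.length_append] at hr ⊢
  omega

theorem cand_mid2 {s : ℕ} {l m m' r : List C0} {p : ℕ} {X : Cell (mS s)}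
    (h : Cand s (l ++ m ++ r) p X) (hm : m'.length = m.length) (hp : l.length + m.length ≤ p) :
    Cand s (l ++ m' ++ r) p X := by
  obtain ⟨L, W, R, he, hL, hT, hP, hl, hr⟩ := h
  rw [List.append_assoc L W R] at he
  obtain ⟨e, rfl, rfl⟩ := pre_of_le he.symm (by rw [List.length_append, hL]; exact hp)
  refine ⟨l ++ m' ++ e, W, R, by simp, ?_, hT, hP, ?_, hr⟩
  · simp only [List.length_append] at hL ⊢
    omega
  · simp only [List.length_append] at hl ⊢
    omega

theorem step_form {α : Type} {S : Sys α} {w w' : List α} (h : S.Step w w') :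
    ∃ l m m' r, w = l ++ m ++ r ∧ w' = l ++ m' ++ r ∧ m'.length = m.length ∧ m.length ≤ 2 := by
  cases h with
  | one l r a b _ => exact ⟨l, [a], [b], r, by simp, by simp, rfl, by simp⟩
  | two l r a b c d _ => exact ⟨l, [a, b], [c, d], r, by simp, by simp, rfl, by simp⟩

/-- The colour of the first letter. -/
def hd : List C0 → ℕ
  | [] => 0
  | a :: _ => a.a.st.κ.val

theorem hd_step {w w' : List C0} (h : S0.Step w w') : hd w = hd w' := by
  cases h with
  | one l r a b h =>
    cases l with
    | nil => exact congrArg (fun x : St => x.κ.val) (TIV.st_eq h.1).1.symm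
    | cons c l => rfl
  | two l r a b c d h =>
    cases l with
    | nil =>
      change a.a.st.κ.val = c.a.st.κ.val
      rcases h with ⟨h, -⟩ | ⟨-, -, rfl, rfl⟩ | ⟨k, -, -, -, h1, -, h2, -⟩
      · rw [(TI.st_eq h).1]
      · simp
      · rw [h1]
    | cons c l => rfl

theorem hd_left {s : List C0} (t : List C0) (hs : 1 ≤ s.length) : hd (s ++ t) = hd s := by
  cases s with
  | nil => simp at hs
  | cons a s => rfl

theorem hd_right : ∀ (s t : List C0), Loc (s ++ t) → 1 ≤ t.length →
    hd (s ++ t) + s.length ≡ hd t [MOD qq]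
  | [], t, _, _ => by simp [Nat.ModEq]
  | a :: s, t, h, ht => by
    have ih := hd_right s t (h.infix ⟨[a], [], by simp⟩) ht
    have hne : s ++ t ≠ [] := by
      intro h0
      have := congrArg List.length h0
      simp only [List.length_append, List.length_nil] at this
      omega
    obtain ⟨b, r, hb⟩ := List.exists_cons_of_ne_nil hne
    have h2 : Loc (([] : List C0) ++ a :: b :: r) := by
      rw [← hb]; exact h
    have hc := (Loc.pair h2).col
    rw [hb] at ih
    change a.a.st.κ.val + (s.length + 1) ≡ hd t [MOD qq]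
    change b.a.st.κ.val + s.length ≡ hd t [MOD qq] at ih
    refine Nat.ModEq.trans ?_ ih
    rw [hc, show a.a.st.κ.val + (s.length + 1) = (a.a.st.κ.val + 1) + s.length by ring]
    exact (Nat.mod_modEq _ _).symm.add_right _

theorem av_mod {M : ℕ} {X : Cell M} (h : OK1 X.a) (hP : X.a.mb.τ = Tag.P) :
    av X ≡ X.a.st.κ.val [MOD qq] := by
  have h1 := h.hP hP
  have : av X = X.a.st.κ.val + qq * (X.a.st.κu.val * M + X.d.val) := by
    have h2 := Nat.div_add_mod X.a.st.κ.val 2
    rw [av, lab, nb_eq, h1]
    generalize X.a.st.κ.val = k at h2 ⊢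
    generalize X.a.st.κu.val = ku
    rw [qq_eq]
    generalize k / 2 = k1 at h2 ⊢
    generalize k % 2 = k2 at h2 ⊢
    rw [← h2]; ring
  rw [this]
  simp [Nat.ModEq]

def NN : ℕ → ℕ
  | 0 => 5
  | l + 1 => qq * DL l

def lam : ℕ → ℕ
  | 0 => 1
  | 1 => 1
  | s + 2 => 100 * DL s

def dd : ℕ → ℕ
  | 0 => 2
  | s + 1 => 500 * DL s + (if (s + 1) % 2 = 0 then 2 else 3)

open Classical in
noncomputable def ad (hC : CandFacts) : ℕ → List C0 → ℕ
  | 0, w => hd w
  | 1, w => hd w
  | s + 2, w => if h : ¬ S0.Zero w then Classical.choose (hC.agree s w h) else 0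

theorem ad_spec (hC : CandFacts) {s : ℕ} {w : List C0} (h : ¬ S0.Zero w) {p : ℕ}
    {X : Cell (mS s)} (hX : Cand s w p X) :
    ad hC (s + 2) w + p ≡ av X * DL s [MOD qq * DL (s + 1)] := by
  have : ad hC (s + 2) w = Classical.choose (hC.agree s w h) := by
    rw [ad, dif_pos h]
  rw [this]
  exact Classical.choose_spec (hC.agree s w h) p X hX

theorem five_dvd : 5 ∣ qq := Dvd.dvd.trans (by norm_num) ten_dvd_qq

theorem le_DL (s : ℕ) : s ≤ DL s := by
  induction s with
  | zero => exact Nat.zero_le _
  | succ s ih => have := DL_succ_ge s; have := DL_pos s; omega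

end Addr0

open Addr0 in
theorem addr0 (hC : CandFacts) : Nonempty (Addr S0 vx0) := by
  have hN1 : NN 1 = qq := by simp [NN, DL]
  refine ⟨{
    N := NN
    lam := lam
    dd := dd
    ad := ad hC
    N_zero := rfl
    lam_zero := rfl
    ad_zero := fun a w => rfl
    N_dvd := ?_
    N_pos := ?_
    N_big := ?_
    lam_mono := ?_
    ad_step := ?_
    ad_left := ?_
    ad_right := ?_
    ad_succ := ?_
    dd_mod := ?_
    dd_lo := ?_
    dd_hi := ?_ }⟩
  · rintro (_ | l)
    · rw [hN1]; exact five_dvd
    · exact Nat.mul_dvd_mul_left _ (Dvd.intro_left _ rfl)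
  · rintro (_ | l)
    · exact (by norm_num : 0 < 5)
    · exact Nat.mul_pos qq_pos (DL_pos l)
  · refine fun n => ⟨n + 1, ?_⟩
    rintro (_ | l) hl
    · omega
    · have := le_DL l
      have := Nat.le_mul_of_pos_left (DL l) qq_pos
      change n ≤ qq * DL l
      omega
  · rintro (_ | _ | l)
    · exact le_rfl
    · change 1 ≤ 100 * DL 0
      have := DL_pos 0
      omega
    · change 100 * DL l ≤ 100 * DL (l + 1)
      have := DL_succ_ge l
      omega
  · rintro (_ | _ | s) w w' hw hl hs
    · exact congrArg (· % _) (hd_step hs)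
    · exact congrArg (· % _) (hd_step hs)
    · have hw' : ¬ S0.Zero w' := fun h => hw (hs.eqv.zero_iff.2 h)
      obtain ⟨p, X, p', X', h1, h2, hp⟩ := hC.two s w hw hl
      obtain ⟨l, m, m', r, rfl, rfl, hm, hm2⟩ := step_form hs
      by_cases hc : p + DL s ≤ l.length
      · exact Nat.ModEq.add_right_cancel' p
          ((ad_spec hC hw h1).trans (ad_spec hC hw' (cand_mid1 h1 hm hc)).symm)
      · exact Nat.ModEq.add_right_cancel' p'
          ((ad_spec hC hw h2).trans (ad_spec hC hw' (cand_mid2 h2 hm (by omega))).symm)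
  · rintro (_ | _ | s) u t hw hl
    · exact congrArg (· % _) (hd_left t hl)
    · exact congrArg (· % _) (hd_left t hl)
    · have hu : ¬ S0.Zero u := fun h => hw (h.append_right t)
      obtain ⟨p, X, -, -, h1, -, -⟩ := hC.two s u hu hl
      exact Nat.ModEq.add_right_cancel' p
        ((ad_spec hC hw (cand_left h1 t)).trans (ad_spec hC hu h1).symm)
  · rintro (_ | _ | s) u t hw hl
    · exact (hd_right u t (loc_of_not_zero hw) hl).of_dvd five_dvd
    · rw [hN1]; exact hd_right u t (loc_of_not_zero hw) hl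
    · have ht : ¬ S0.Zero t := fun h => hw (h.append_left u)
      obtain ⟨p, X, -, -, h1, -, -⟩ := hC.two s t ht hl
      refine Nat.ModEq.add_right_cancel' p ?_
      have h2 := ad_spec hC hw (cand_right h1 u)
      rw [← add_assoc] at h2
      exact h2.trans (ad_spec hC ht h1).symm
  · rintro (_ | _ | s) w hw hl
    · exact Nat.ModEq.refl _
    · obtain ⟨p, X, -, -, h1, -, -⟩ := hC.two 0 w hw hl
      have h2 := (ad_spec hC hw h1).of_dvd (Dvd.intro _ rfl : qq ∣ qq * DL (0 + 1))
      have h3 := av_mod (hC.ok 0 w p X hw h1) h1.choose_spec.choose_spec.choose_spec.2.2.2.1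
      obtain ⟨l, W, r, rfl, rfl, hT, -⟩ := h1
      have hW : W = [X] := hT
      subst hW
      have h4 := hd_right l (([X] : List C0) ++ r)
        (by rw [← List.append_assoc]; exact loc_of_not_zero hw) (Nat.succ_le_succ (Nat.zero_le _))
      rw [hN1]
      refine Nat.ModEq.add_right_cancel' l.length ?_
      refine h2.trans ?_
      rw [show DL 0 = 1 from rfl, mul_one]
      refine h3.trans ?_
      rw [← List.append_assoc] at h4
      exact h4.symm
    · obtain ⟨p, Y, -, -, h1, -, -⟩ := hC.two (s + 1) w hw hl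
      have h2 := (ad_spec hC hw h1).of_dvd
        (Nat.mul_dvd_mul_left _ (Dvd.intro_left _ rfl) : qq * DL (s + 1) ∣ qq * DL (s + 1 + 1))
      have h3 := av_mod (hC.ok _ w p Y hw h1) h1.choose_spec.choose_spec.choose_spec.2.2.2.1
      obtain ⟨γ, X, h4, h5⟩ := hC.down s w p Y h1
      have h6 := ad_spec hC hw h4
      rw [h5, add_mul, ← add_assoc, mul_assoc] at h6
      have h7 := Nat.ModEq.add_right_cancel' _ h6
      refine Nat.ModEq.add_right_cancel' p ?_
      exact (h2.trans (h3.mul_right' _)).trans h7.symm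
  · rintro (_ | s)
    · rfl
    · change (500 * DL s + (if (s + 1) % 2 = 0 then 2 else 3)) % 5 = _
      split_ifs <;> omega
  · rintro (_ | s)
    · exact (by norm_num : 1 ≤ 2)
    · change 100 * DL s ≤ 500 * DL s + _
      omega
  · rintro (_ | s)
    · exact (by norm_num : 1 + 2 < 5)
    · change 100 * DL s + (500 * DL s + (if (s + 1) % 2 = 0 then 2 else 3)) < qq * DL s
      have := Nat.mul_le_mul_right (DL s) qq_ge
      have := DL_pos s
      split_ifs <;> omega

end Crest.Agent.R176
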