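import Crest.Agent.R176.CBasic

/-! Row 176: nonzero words have a consistent address. -/

set_option autoImplicit false

namespace Crest.Agent.R176

namespace Adr

variable {M : ℕ} [NeZero M]

/-- The factor of length `n` starting at `w`. -/
def seg (v : List (Cell M)) (w n : ℕ) : List (Cell M) := (List.range n).map fun i => cat v (w + i)

theorem length_seg (v : List (Cell M)) (w n : ℕ) : (seg v w n).length = n := by simp [seg]

theorem cat_seg (v : List (Cell M)) (w : ℕ) {n i : ℕ} (hi : i < n) :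
    cat (seg v w n) i = cat v (w + i) := cat_map_range hi _

theorem seg_add (v : List (Cell M)) (w n m : ℕ) :
    seg v w (n + m) = seg v w n ++ seg v (w + n) m := by
  simp [seg, List.range_add, Function.comp_def, Nat.add_assoc]

theorem seg_one (v : List (Cell M)) (w : ℕ) : seg v w 1 = [cat v w] := by simp [seg]

theorem seg_infix {v : List (Cell M)} {w n : ℕ} (h : w + n ≤ v.length) : seg v w n <:+: v := by
  refine ⟨seg v 0 w, seg v (w + n) (v.length - (w + n)), ?_⟩
  conv_rhs => rw [eq_map_cat v]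
  have h1 := seg_add v 0 (w + n) (v.length - (w + n))
  have h2 := seg_add v 0 w n
  rw [Nat.zero_add] at h1 h2
  rw [← h2, ← h1, Nat.add_sub_cancel' h]
  simp [seg]

theorem kap_succ {v : List (Cell M)} (hL : Loc v) {i : ℕ} (hi : i + 1 < v.length) :
    (cat v (i + 1)).a.st.κ.val % 10 = ((cat v i).a.st.κ.val + 1) % 10 := by
  rw [((loc_iff_cat.1 hL).2 i hi).col, Nat.mod_mod_of_dvd _ ten_dvd_qq]

theorem kap_add {v : List (Cell M)} (hL : Loc v) (i : ℕ) : ∀ j, i + j < v.length →
    (cat v (i + j)).a.st.κ.val % 10 = ((cat v i).a.st.κ.val + j) % 10 := by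
  intro j
  induction j with
  | zero => intro _; rfl
  | succ j ih =>
    intro h
    have h1 := kap_succ hL (i := i + j) h
    have h2 := ih (by omega)
    rw [← Nat.add_assoc]
    omega

theorem nine_of_E {v : List (Cell M)} (hL : Loc v) {i : ℕ} (hi : i < v.length)
    (h : (cat v i).a.st.E = true) : (cat v i).a.st.κ.val % 10 = 9 := by
  have h1 := ((loc_iff_cat.1 hL).1 i hi).1.hE h
  have := ten_dvd_qq
  omega

theorem not_zero_unl (hU : UnlStmt M) {v : List (Cell M)} (hv : ¬ (RS M).Zero v) {w n : ℕ}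
    (h1 : 1 ≤ w) (h2 : w + n < v.length) : ¬ (RS M).Zero ((seg v w n).map unlC) := by
  intro hz
  obtain ⟨w, rfl⟩ : ∃ w', w = w' + 1 := ⟨w - 1, by omega⟩
  have e : seg v w (1 + n + 1) = cat v w :: seg v (w + 1) n ++ [cat v (w + (1 + n))] := by
    rw [seg_add, seg_add, seg_one, seg_one]; rfl
  have hi : seg v w (1 + n + 1) <:+: v := seg_infix (by omega)
  have hL := (loc_of_not_zero hv).infix hi
  rw [e] at hL
  refine hv (Sys.Zero.of_infix ?_ hi)
  rw [e]
  exact Sys.Zero.of_eqv (hU.mid _ _ _ hL) (hz.ctx [_] [_])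

/-- Normal form of one window. -/
theorem win (hU : UnlStmt M) (hP : PermStmt M) {v : List (Cell M)} (hL : Loc v) {w : ℕ}
    (hw : w + 10 ≤ v.length) (h0 : (cat v w).a.st.κ.val % 10 = 0) (f : ℕ → ℕ)
    (hf : ∀ i < 10, f i / 2 = i / 2) (hinj : ∀ i < 10, ∀ j < 10, f i = f j → i = j) (p : ℕ) :
    ∃ g : ℕ → Cell M, (RS M).Eqv ((seg v w 10).map unlC) ((List.range 10).map g) ∧
      ∀ i < 10, (g i).a.lk = Lk.none ∧ (g i).a.st = (cat v (w + i)).a.st ∧
        (g i).a.π = pmAt p i ∧ cont (g i) = cont (cat v (w + f i)) := by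
  have hf' : ∀ i < 10, f i < 10 := fun i hi => by have := hf i hi; omega
  obtain ⟨h1, h2⟩ := hU.ext (seg v w 10) (hL.infix (seg_infix hw)) (by rw [length_seg])
    (by rw [cat_seg v w (by omega)]; exact h0) (fun i hi => by
      rw [length_seg] at hi
      rw [cat_seg v w (by omega)]
      by_contra hE
      have e1 := nine_of_E hL (i := w + i) (by omega) (by simpa using hE)
      have e2 := kap_add hL w i (by omega)
      omega)
  rw [length_seg] at h1 h2
  have h3 := hP _ _ _ _ _ _ _ _ f h1 ((h1.perm hf' hinj fun i hi _ => hf i hi).pmAt p) hf' hinj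
      (fun _ _ => rfl) fun i hi _ => hf i hi
  rw [← h2] at h3
  refine ⟨_, h3, fun i hi => ?_⟩
  · refine ⟨rfl, ?_, rfl, ?_⟩
    · show (cat (seg v w 10) i).a.st = _
      rw [cat_seg v w hi]
    · rw [cont_layC, cat_seg v w (hf' i hi)]

omit [NeZero M] in
theorem lab_of_cont {x y : Cell M} (h : cont x = cont y) : lab x = lab y := by
  have h1 : x.a.mb.dg = y.a.mb.dg := congrArg Ct.dg h
  have h2 : x.d = y.d := congrArg Ct.d h
  rw [lab, lab, h1, h2]

/-- The test between the `P`-cells of consecutive groups does not fail. -/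
theorem step (hU : UnlStmt M) (hP : PermStmt M) {v : List (Cell M)} (hv : ¬ (RS M).Zero v)
    {p u u' : ℕ} (hp : (cat v p).a.st.κ.val % 2 = 0) (h1 : 9 ≤ p) (h2 : p + 20 < v.length)
    (hu : u = p ∨ u = p + 1) (hu' : u' = p + 2 ∨ u' = p + 3) (tu : (cat v u).a.mb.τ = Tag.P)
    (tu' : (cat v u').a.mb.τ = Tag.P) :
    ¬ fails (if (cat v (p + 1)).a.st.E = true then Kind.wr else Kind.ns) (M * BB)
      (lab (cat v u)) (lab (cat v u')) := by
  intro hf
  have hL := loc_of_not_zero hv
  obtain ⟨j, hj⟩ : ∃ j, j = (cat v p).a.st.κ.val % 10 := ⟨_, rfl⟩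
  obtain ⟨w, rfl⟩ : ∃ w, p = w + j := ⟨p - j, by omega⟩
  have k0 : (cat v w).a.st.κ.val % 10 = 0 := by
    have := kap_add hL w j (by omega)
    omega
  have k1 : (cat v (w + 10)).a.st.κ.val % 10 = 0 := by
    have := kap_add hL w 10 (by omega)
    omega
  obtain ⟨F, F1, F2, F3, F4⟩ : ∃ F : ℕ → ℕ, (∀ i, F i / 2 = i / 2) ∧ (∀ i i', F i = F i' → i = i') ∧
      w + F (j + 1) = u ∧ w + F (j + 2) = u' := by
    refine ⟨fun i => if i = j + 1 then u - w else if i = j then w + 2 * j + 1 - u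
      else if i = j + 2 then u' - w else if i = j + 3 then w + 2 * j + 5 - u' else i,
      fun i => ?_, fun i i' => ?_, ?_, ?_⟩
    · simp only; split_ifs <;> omega
    · simp only; split_ifs <;> omega
    · simp only [if_true]; omega
    · simp only; split_ifs <;> omega
  obtain ⟨g, e1, hg⟩ := win hU hP hL (w := w) (by omega) k0 F (fun i _ => F1 i)
    (fun i _ i' _ => F2 i i') (j + 1)
  obtain ⟨g', e2, hg'⟩ := win hU hP hL (w := w + 10) (by omega) k1 (fun i => F (i + 10) - 10)
    (fun i _ => by have := F1 (i + 10); omega) (fun i _ i' _ h => by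
      have := F1 (i + 10)
      have := F1 (i' + 10)
      have := F2 (i + 10) (i' + 10) (by omega)
      omega) 0
  refine not_zero_unl hU hv (w := w) (n := 10 + 10) (by omega) (by omega) ?_
  rw [seg_add, List.map_append]
  refine Sys.Zero.of_eqv (e1.append e2) ?_
  obtain ⟨a1, a2, a3, a4⟩ := hg (j + 1) (by omega)
  rw [F3] at a4
  have a5 : (g (j + 1)).a.π = true := by rw [a3]; simp [pmAt]
  have key : ∀ y : Cell M, y.a.lk = Lk.none → cont y = cont (cat v u') →
      (RS M).Zero [g (j + 1), y] := fun y b1 b2 => by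
    refine zero_of_req a1 b1 a5 ?_ (by rw [lab_of_cont a4, lab_of_cont b2]; exact hf)
    have t1 : (g (j + 1)).a.mb.τ = Tag.P := (congrArg Ct.τ a4).trans tu
    have t2 : y.a.mb.τ = Tag.P := (congrArg Ct.τ b2).trans tu'
    rw [Nat.add_assoc, ← a2]
    by_cases hE : (g (j + 1)).a.st.E = true
    · exact Or.inr ⟨hE, Or.inl ⟨t1, t2, if_pos hE⟩⟩
    · exact Or.inl ⟨by simpa using hE, Or.inl ⟨t1, t2, if_neg hE⟩⟩
  by_cases h8 : j = 8
  · subst h8
    obtain ⟨b1, -, -, b4⟩ := hg' 0 (by omega)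
    refine zero_junction (n := 9) (by omega) (key _ b1 ?_)
    have := F1 10
    have e : w + 10 + (F (0 + 10) - 10) = u' := by
      rw [← F4]
      show w + 10 + (F 10 - 10) = w + F 10
      omega
    rw [b4, e]
  · obtain ⟨b1, -, -, b4⟩ := hg (j + 2) (by omega)
    exact (zero_range2 (i := j + 1) (by omega) (key _ b1 (by rw [b4, F4]))).append_right _

/-- The position of the `P`-cell of the group starting at `p`. -/
def pu (v : List (Cell M)) (p : ℕ) : ℕ := if (cat v p).a.mb.τ = Tag.P then p else p + 1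

theorem pu_spec {v : List (Cell M)} (hL : Loc v) {p : ℕ} (hp : (cat v p).a.st.κ.val % 2 = 0)
    (h : p + 1 < v.length) : (pu v p = p ∨ pu v p = p + 1) ∧ (cat v (pu v p)).a.mb.τ = Tag.P ∧
      ∀ u, (u = p ∨ u = p + 1) → (cat v u).a.mb.τ = Tag.P → u = pu v p := by
  have hg := ((loc_iff_cat.1 hL).2 p h).grp hp
  unfold pu
  split_ifs with h1
  · refine ⟨Or.inl rfl, h1, ?_⟩
    rintro u (rfl | rfl) h2
    · rfl
    · exact absurd h2 (hg.1 h1)
  · refine ⟨Or.inr rfl, not_not.1 (mt hg.2 h1), ?_⟩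
    rintro u (rfl | rfl) h2
    · exact absurd h2 h1
    · rfl

theorem ku_even {v : List (Cell M)} (hL : Loc v) {p : ℕ} (hp : (cat v p).a.st.κ.val % 2 = 0)
    (h : p + 1 < v.length) : (cat v p).a.st.E = false ∧
      (cat v (p + 1)).a.st.κu.val = (cat v p).a.st.κu.val := by
  have hE : (cat v p).a.st.E = false := by
    by_contra hE
    have := nine_of_E hL (i := p) (by omega) (by simpa using hE)
    omega
  refine ⟨hE, ?_⟩
  rw [((loc_iff_cat.1 hL).2 p h).colu, hE]
  simp [Nat.mod_eq_of_lt (cat v p).a.st.κu.2]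

/-- The address of the group starting at `p`. -/
def val (v : List (Cell M)) (p : ℕ) : ℕ :=
  (cat v p).a.st.κu.val * nb M + 2 * lab (cat v (pu v p))

theorem step' (hU : UnlStmt M) (hP : PermStmt M) {v : List (Cell M)} (hv : ¬ (RS M).Zero v)
    {p : ℕ} (hp : (cat v p).a.st.κ.val % 2 = 0) (h1 : 9 ≤ p) (h2 : p + 20 < v.length) :
    (cat v (p + 2)).a.st.κ.val % 2 = 0 ∧ val v (p + 2) ≡ val v p + 2 [MOD qq * nb M] ∧
      ((cat v (p + 1)).a.st.E = true ↔ lab (cat v (pu v p)) + 1 = M * BB) := by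
  have hL := loc_of_not_zero hv
  have hp2 : (cat v (p + 2)).a.st.κ.val % 2 = 0 := by
    have := kap_add hL p 2 (by omega)
    omega
  obtain ⟨a1, a2, -⟩ := pu_spec hL hp (by omega)
  obtain ⟨b1, b2, -⟩ := pu_spec hL hp2 (by omega)
  have hs := step hU hP hv hp h1 h2 a1 b1 a2 b2
  have c1 := (ku_even hL hp (by omega)).2
  have c2 := ((loc_iff_cat.1 hL).2 (p + 1) (by omega)).colu
  rw [c1] at c2
  refine ⟨hp2, ?_⟩
  by_cases hE : (cat v (p + 1)).a.st.E = true
  · rw [if_pos hE] at hs c2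
    simp only [fails, not_not] at hs
    refine ⟨?_, fun _ => hs.1, fun _ => hE⟩
    unfold val
    rw [show p + 2 = p + 1 + 1 from rfl, c2, show p + 1 + 1 = p + 2 from rfl, hs.2, Nat.mul_zero,
      Nat.add_zero]
    refine ((Nat.mod_modEq _ qq).mul_right' (nb M)).trans (congrArg (· % _) ?_)
    rw [Nat.add_mul, Nat.one_mul, nb, ← hs.1]
    ring
  · rw [if_neg hE] at hs c2
    simp only [fails, not_not] at hs
    refine ⟨?_, fun h => absurd h hE, fun h => ?_⟩
    · unfold val
      rw [show p + 2 = p + 1 + 1 from rfl, c2, show p + 1 + 1 = p + 2 from rfl, hs, Nat.add_zero,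
        Nat.mod_eq_of_lt (cat v p).a.st.κu.2]
      exact congrArg (· % _) (by ring)
    · have := lab_lt (cat v (pu v (p + 2)))
      omega

end Adr

open Adr in
theorem adrStmt (M : ℕ) [NeZero M] (hU : UnlStmt M) (hP : PermStmt M) : AdrStmt M := by
  intro v hv
  have hL := loc_of_not_zero hv
  by_cases hlen : v.length ≤ 40
  · exact ⟨0, fun i h1 h2 => by omega⟩
  obtain ⟨p0, q1, q2, q3⟩ : ∃ p0, 19 ≤ p0 ∧ p0 ≤ 20 ∧ (cat v p0).a.st.κ.val % 2 = 0 := by
    by_cases h : (cat v 19).a.st.κ.val % 2 = 0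
    · exact ⟨19, le_rfl, by omega, h⟩
    · have := kap_succ hL (i := 19) (by omega)
      exact ⟨19 + 1, by omega, le_rfl, by omega⟩
  have hpos : 1 ≤ qq * nb M := Nat.mul_pos qq_pos (by have := nb_ge (M := M); omega)
  obtain ⟨z, hz⟩ : ∃ z, z + p0 = val v p0 + qq * nb M * p0 :=
    ⟨val v p0 + qq * nb M * p0 - p0, Nat.sub_add_cancel (by nlinarith)⟩
  have key : ∀ m, p0 + 2 * m + 20 < v.length → (cat v (p0 + 2 * m)).a.st.κ.val % 2 = 0 ∧
      val v (p0 + 2 * m) ≡ z + (p0 + 2 * m) [MOD qq * nb M] := by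
    intro m
    induction m with
    | zero =>
      intro _
      refine ⟨q3, ?_⟩
      rw [Nat.mul_zero, Nat.add_zero, hz]
      exact (Nat.modEq_iff_dvd' (Nat.le_add_right _ _)).2 (by simp)
    | succ m ih =>
      intro h
      obtain ⟨a1, a2⟩ := ih (by omega)
      obtain ⟨b1, b2, -⟩ := step' hU hP hv a1 (by omega) (by omega)
      exact ⟨b1, b2.trans (a2.add_right 2)⟩
  refine ⟨z, fun i h1 h2 => ?_⟩
  obtain ⟨p, hi, a1, a2, a3⟩ : ∃ p, (i = p ∨ i = p + 1) ∧ 19 ≤ p ∧
      (cat v p).a.st.κ.val % 2 = 0 ∧ val v p ≡ z + p [MOD qq * nb M] :=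
    ⟨p0 + 2 * ((i - p0) / 2), by omega, by omega, key _ (by omega)⟩
  obtain ⟨-, -, b3⟩ := pu_spec hL a2 (by omega)
  obtain ⟨c1, c2⟩ := ku_even hL a2 (by omega)
  obtain ⟨-, -, d3⟩ := step' hU hP hv a2 (by omega) (by omega)
  have e1 : 2 * lab (cat v (pu v p)) ≡ z + p [MOD nb M] := by
    refine Nat.ModEq.trans ?_ (a3.of_mul_left qq)
    unfold val
    exact (Nat.modEq_iff_dvd' (Nat.le_add_left _ _)).2 (by simp)
  have e2 := lab_lt (cat v (pu v p))
  have e3 : nb M = 2 * (M * BB) := rfl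
  constructor
  · intro ht
    have := b3 i hi ht
    unfold val at a3
    rw [← this] at a3
    unfold av
    rcases hi with rfl | rfl
    · rw [a2]; exact a3
    · have := kap_succ hL (i := p) (by omega)
      rw [c2, show (cat v (p + 1)).a.st.κ.val % 2 = 1 by omega]
      exact a3.add_right 1
  · rcases hi with rfl | rfl
    · rw [c1, ← (e1.add_right 1).dvd_iff dvd_rfl]
      refine ⟨fun h => by simp at h, fun h => ?_⟩
      have := Nat.le_of_dvd (by omega) h
      omega
    · rw [d3, show z + (p + 1) + 1 = z + p + 2 by ring, ← (e1.add_right 2).dvd_iff dvd_rfl]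
      refine ⟨fun h => ?_, fun h => ?_⟩
      · rw [e3, ← h]; exact Dvd.intro 1 (by ring)
      · have := Nat.le_of_dvd (by omega) h
        omega

end Crest.Agent.R176
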