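import Crest.Agent.R176.Sys

/-! Row 176: the contracted semigroup algebra of a system, and the ring-side statements. -/

set_option autoImplicit false

namespace Crest.Agent.R176

variable {α : Type}

/-- The defining relations of the algebra of `S`. -/
def Sys.rel (S : Sys α) (x y : FreeAlgebra (ZMod 2) α) : Prop :=
  (∃ a b, S.r1 a b ∧ x = FreeAlgebra.ι (ZMod 2) a ∧ y = FreeAlgebra.ι (ZMod 2) b) ∨
  (∃ a b c d, S.r2 a b c d ∧ x = FreeAlgebra.ι (ZMod 2) a * FreeAlgebra.ι (ZMod 2) b ∧
    y = FreeAlgebra.ι (ZMod 2) c * FreeAlgebra.ι (ZMod 2) d) ∨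
  (∃ a, S.z1 a ∧ x = FreeAlgebra.ι (ZMod 2) a ∧ y = 0) ∨
  (∃ a b, S.z2 a b ∧ x = FreeAlgebra.ι (ZMod 2) a * FreeAlgebra.ι (ZMod 2) b ∧ y = 0)

abbrev Alg (S : Sys α) : Type := RingQuot S.rel

noncomputable def gen (S : Sys α) (a : α) : Alg S :=
  RingQuot.mkAlgHom (ZMod 2) S.rel (FreeAlgebra.ι (ZMod 2) a)

/-- The monomial of a word. -/
noncomputable def mon (S : Sys α) (w : List α) : Alg S := (w.map (gen S)).prod

section
variable {S : Sys α}

@[simp] theorem mon_nil : mon S [] = 1 := by simp [mon]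

theorem mon_cons (a : α) (w : List α) : mon S (a :: w) = gen S a * mon S w := by simp [mon]

theorem mon_single (a : α) : mon S [a] = gen S a := by simp [mon]

theorem mon_append (u w : List α) : mon S (u ++ w) = mon S u * mon S w := by simp [mon]

theorem gen_r1 {a b : α} (h : S.r1 a b) : gen S a = gen S b :=
  RingQuot.mkAlgHom_rel (ZMod 2) (Or.inl ⟨a, b, h, rfl, rfl⟩)

theorem gen_r2 {a b c d : α} (h : S.r2 a b c d) : gen S a * gen S b = gen S c * gen S d := by
  have := RingQuot.mkAlgHom_rel (ZMod 2) (s := S.rel) (Or.inr (Or.inl ⟨a, b, c, d, h, rfl, rfl⟩))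
  simpa [gen] using this

theorem gen_z1 {a : α} (h : S.z1 a) : gen S a = 0 := by
  have := RingQuot.mkAlgHom_rel (ZMod 2) (s := S.rel) (Or.inr (Or.inr (Or.inl ⟨a, h, rfl, rfl⟩)))
  simpa [gen] using this

theorem gen_z2 {a b : α} (h : S.z2 a b) : gen S a * gen S b = 0 := by
  have := RingQuot.mkAlgHom_rel (ZMod 2) (s := S.rel)
    (Or.inr (Or.inr (Or.inr ⟨a, b, h, rfl, rfl⟩)))
  simpa [gen] using this

theorem mon_step {w w' : List α} (h : S.Step w w') : mon S w = mon S w' := by
  cases h with
  | one l r a b h => simp [mon_append, mon_cons, gen_r1 h]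
  | two l r a b c d h =>
    simp only [mon_append, mon_cons, ← mul_assoc]
    rw [mul_assoc (mon S l), mul_assoc (mon S l) (gen S c), gen_r2 h]

theorem mon_eqv {w w' : List α} (h : S.Eqv w w') : mon S w = mon S w' :=
  Sys.Eqv.fun_eq (f := mon S) (fun _ _ h => mon_step h) h

theorem mon_zpat {w : List α} (h : S.ZPat w) : mon S w = 0 := by
  cases h with
  | one l r a h => simp [mon_append, mon_cons, gen_z1 h]
  | two l r a b h =>
    simp only [mon_append, mon_cons, ← mul_assoc]
    rw [mul_assoc (mon S l), gen_z2 h]; simp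

theorem mon_zero {w : List α} (h : S.Zero w) : mon S w = 0 := by
  obtain ⟨v, h1, h2⟩ := h
  rw [mon_eqv h1, mon_zpat h2]

theorem alg_two (r : Alg S) : r + r = 0 := by
  have : (2 : ZMod 2) • r = r + r := two_smul _ r
  rw [← this, show (2 : ZMod 2) = 0 from rfl, zero_smul]

end

/-- The monomials span the algebra. -/
def SpanStmt (S : Sys α) : Prop := Submodule.span (ZMod 2) (Set.range (mon S)) = ⊤

/-- Linear maps out of the algebra can be prescribed on words (basis of nonzero classes). -/
def LiftStmt (S : Sys α) : Prop :=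
  ∀ (M : Type) [AddCommGroup M] [Module (ZMod 2) M] (f : List α → M),
    (∀ w w', S.Step w w' → f w = f w') → (∀ w, S.ZPat w → f w = 0) →
      ∃ φ : Alg S →ₗ[ZMod 2] M, ∀ w, φ (mon S w) = f w

/-- Homogeneous elements of degree `d`. -/
noncomputable def Hsp (S : Sys α) (d : ℕ) : Submodule (ZMod 2) (Alg S) :=
  Submodule.span (ZMod 2) {r | ∃ w : List α, w.length = d ∧ r = mon S w}

/-- The augmentation ideal. -/
noncomputable def Rpl (S : Sys α) : Submodule (ZMod 2) (Alg S) :=
  Submodule.span (ZMod 2) {r | ∃ w : List α, w ≠ [] ∧ r = mon S w}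

/-- Matrices over the augmentation ideal are nilpotent. -/
def NilStmt (S : Sys α) : Prop :=
  ∀ (n : ℕ) (A : Matrix (Fin n) (Fin n) (Alg S)), (∀ i j, A i j ∈ Rpl S) → IsNilpotent A

open Classical in
/-- Class sums of long nonzero words vanish in matrix algebras of characteristic two. -/
def CSStmt (S : Sys α) [Fintype α] : Prop :=
  ∀ (ι : Type) [Fintype ι] [DecidableEq ι], ∃ N : ℕ, ∀ (K : Type) [CommRing K],
    (∀ x : K, x + x = 0) → ∀ (ρ : α → Matrix ι ι K) (n : ℕ), N ≤ n →
      ∀ w : List α, w.length = n → ¬ S.Zero w →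
        ∑ f ∈ (Finset.univ : Finset (Fin n → α)).filter (fun f => S.Eqv w (List.ofFn f)),
          ((List.ofFn f).map ρ).prod = 0

/-- `w` is a path from vertex `i` to vertex `j`. -/
def Valid {S : Sys α} (X : Vtx S) : ZMod 5 → ZMod 5 → List α → Prop
  | i, j, [] => i = j
  | i, j, a :: w => X.vtx a = i ∧ Valid X (i + 1) j w

/-- The Peirce piece from `i` to `j` of the augmentation ideal. -/
noncomputable def Jsp {S : Sys α} (X : Vtx S) (i j : ZMod 5) : AddSubgroup (Alg S) :=
  AddSubgroup.closure {r | ∃ w : List α, w ≠ [] ∧ Valid X i j w ∧ r = mon S w}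

section
variable {S : Sys α} {X : Vtx S}

theorem valid_append {i j k : ZMod 5} {u w : List α} (h : Valid X i j u) (h' : Valid X j k w) :
    Valid X i k (u ++ w) := by
  induction u generalizing i with
  | nil => cases h; simpa using h'
  | cons a u ih => exact ⟨h.1, ih h.2⟩

theorem Valid.end_eq {i j : ZMod 5} {w : List α} (h : Valid X i j w) :
    j = i + (w.length : ZMod 5) := by
  induction w generalizing i with
  | nil => cases h; simp
  | cons a w ih => rw [ih h.2]; simp only [List.length_cons]; push_cast; ring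

theorem valid_append_iff {i k : ZMod 5} {u w : List α} :
    Valid X i k (u ++ w) ↔
      Valid X i (i + (u.length : ZMod 5)) u ∧ Valid X (i + (u.length : ZMod 5)) k w := by
  induction u generalizing i with
  | nil => simp [Valid]
  | cons a u ih =>
    have e : i + (((a :: u).length : ℕ) : ZMod 5) = i + 1 + (u.length : ZMod 5) := by
      simp only [List.length_cons]; push_cast; ring
    simp only [List.cons_append, Valid, ih, e, and_assoc]

theorem Valid.step_iff {i j : ZMod 5} {w w' : List α} (h : S.Step w w') :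
    Valid X i j w ↔ Valid X i j w' := by
  cases h with
  | one l r a b h => simp [valid_append_iff, Valid, X.vtx_r1 a b h]
  | two l r a b c d h =>
    simp [valid_append_iff, Valid, (X.vtx_r2 a b c d h).1, (X.vtx_r2 a b c d h).2]

theorem Valid.eqv_iff {i j : ZMod 5} {w w' : List α} (h : S.Eqv w w') :
    Valid X i j w ↔ Valid X i j w' :=
  Sys.Eqv.induct (P := Valid X i j) (fun _ _ h => (Valid.step_iff h).1)
    (fun _ _ h => (Valid.step_iff h).2) h

/-- Nonzero words are paths. -/
theorem valid_of_not_zero {a : α} {w : List α} (h : ¬ S.Zero (a :: w)) :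
    Valid X (X.vtx a) (X.vtx a + ((a :: w).length : ZMod 5)) (a :: w) := by
  induction w generalizing a with
  | nil => simp [Valid]
  | cons b w ih =>
    have hb : X.vtx b = X.vtx a + 1 := by
      by_contra hb
      exact h ((Sys.Zero.of_z2 (X.vtx_z a b hb)).append_right w)
    have := ih (a := b) (fun hz => h (hz.append_left [a]))
    refine ⟨rfl, ?_⟩
    rw [← hb]
    convert this using 1
    rw [hb]; simp only [List.length_cons]; push_cast; ring

theorem mon_mem_Jsp {i j : ZMod 5} {w : List α} (h0 : w ≠ []) (h : Valid X i j w) :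
    mon S w ∈ Jsp X i j := AddSubgroup.subset_closure ⟨w, h0, h, rfl⟩

end

/-- The conclusion of S0266. -/
def Goal266 : Prop :=
  ∃ (R : Type) (_ : Ring R) (_ : Algebra (ZMod 2) R) (𝒜 : ℕ → Submodule (ZMod 2) R)
      (_ : GradedAlgebra 𝒜),
      Infinite R ∧ 𝒜 0 = 1 ∧
      (∃ (m : ℕ) (rel : Finset (FreeAlgebra (ZMod 2) (Fin m) × FreeAlgebra (ZMod 2) (Fin m))),
        Nonempty (R ≃ₐ[ZMod 2] RingQuot fun x y : FreeAlgebra (ZMod 2) (Fin m) => (x, y) ∈ rel)) ∧
      ∀ (l : ℕ) (A : Matrix (Fin l) (Fin l) R), (∀ i j, GradedRing.proj 𝒜 0 (A i j) = 0) →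
        IsNilpotent A

end Crest.Agent.R176
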