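import Crest.Agent.R176.Cell

/-! Row 176: basic lemmas on controls, local checks, blocks and layouts. -/

set_option autoImplicit false

namespace Crest.Agent.R176

/-! ### Controls -/

@[simp] theorem V.flip_st (a : V) : a.flip.st = a.st := by
  unfold V.flip; split <;> rfl

@[simp] theorem V.flip_π (a : V) : a.flip.π = a.π := by
  unfold V.flip; split <;> rfl

@[simp] theorem V.flip_sπ (a : V) : a.flip.sπ = a.sπ := by
  unfold V.flip; split <;> rfl

@[simp] theorem V.flip_flip (a : V) : a.flip.flip = a := by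
  obtain ⟨st, p, sp, mb, lk⟩ := a
  cases lk <;> rfl

@[simp] theorem V.flip_sk (a : V) : a.flip.sk = a.sk := by
  obtain ⟨st, p, sp, mb, lk⟩ := a
  cases lk <;> rfl

theorem V.sk_of_none {a : V} (h : a.lk = Lk.none) : a.sk = none := by simp [V.sk, h]

theorem V.lk_none_of_sk {a : V} (h : a.sk = none) : a.lk = Lk.none := by
  obtain ⟨st, p, sp, mb, lk⟩ := a
  cases lk <;> simp_all [V.sk]

theorem V.not_isL_of_none {a : V} (h : a.lk = Lk.none) : ¬ a.isL := by
  simp [V.isL, V.sk_of_none h]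

theorem V.not_isR_of_none {a : V} (h : a.lk = Lk.none) : ¬ a.isR := by
  simp [V.isR, V.sk_of_none h]

theorem V.lk_none_iff {a : V} : a.lk = Lk.none ↔ ¬ a.isL ∧ ¬ a.isR := by
  refine ⟨fun h => ⟨V.not_isL_of_none h, V.not_isR_of_none h⟩, fun h => ?_⟩
  obtain ⟨st, p, sp, mb, lk⟩ := a
  rcases lk with _ | ⟨s, sv⟩ | ⟨s, k⟩
  · rfl
  · cases s <;> simp [V.isL, V.isR, V.sk] at h
  · cases s <;> simp [V.isL, V.isR, V.sk] at h

theorem V.isL.not_isR {a : V} (h : a.isL) : ¬ a.isR := by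
  rintro ⟨k, hk⟩; obtain ⟨k', hk'⟩ := h; rw [hk] at hk'; cases hk'

theorem V.sk_of_mkLk {a : V} {s : Side} {k : Kind} {sv : Mb} (h : a.lk = mkLk s k sv) :
    a.sk = some (s, k) := by
  unfold mkLk at h
  split_ifs at h with hk
  · simp [V.sk, h, hk]
  · simp [V.sk, h]

@[simp] theorem sk_lockL (k : Kind) (a b : V) : (lockL k a b).sk = some (Side.L, k) :=
  V.sk_of_mkLk rfl

@[simp] theorem sk_lockR (k : Kind) (a b : V) : (lockR k a b).sk = some (Side.R, k) :=
  V.sk_of_mkLk rfl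

theorem eff_st (x y : Arm) (t : V) : (eff x y t).st = t.st := by
  unfold eff; split <;> simp

theorem eff_sk (x y : Arm) (t : V) : (eff x y t).sk = t.sk := by
  unfold eff; split <;> simp

theorem TI.st_eq {a b a' b' : V} (h : TI a b a' b') : a'.st = a.st ∧ b'.st = b.st := by
  obtain ⟨-, -, h | ⟨k, -, rfl, rfl⟩ | ⟨-, -, -, -, s, k, φ, -, rfl, rfl⟩⟩ := h
  · obtain ⟨-, -, -, -, -, rfl, rfl⟩ := h; exact ⟨rfl, rfl⟩
  · exact ⟨rfl, rfl⟩
  · exact ⟨rfl, rfl⟩

theorem TIV.st_eq {a t a' t' : V} (h : TIV a t a' t') : a'.st = a.st ∧ t'.st = t.st := by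
  obtain ⟨-, -, -, s, k, φ, -, rfl, rfl⟩ := h
  refine ⟨rfl, ?_⟩
  split <;> simp

theorem LK.of_free {a b : V} (ha : ¬ a.isL) (hb : ¬ b.isR) : LK a b :=
  ⟨⟨fun h => (ha h).elim, fun h => (hb h).elim⟩, fun h => (ha h).elim⟩

/-- The lock of a matched pair. -/
theorem LK.of_sk {a b : V} (h : LK a b) {k : Kind} (hk : a.sk = some (Side.L, k)) :
    Allowed k a b ∧ a.lk = mkLk Side.L k (svL a b) ∧ b.lk = mkLk Side.R k (svR a b) := by
  obtain ⟨k', h1, h2, h3⟩ := h.2 ⟨k, hk⟩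
  have := V.sk_of_mkLk h2
  rw [hk] at this
  cases this
  exact ⟨h1, h2, h3⟩

/-- Unlocking a matched pair is a reverse `TI` rule. -/
theorem LK.unlock {a b : V} (h : LK a b) (ha : a.isL) : TI a.unl b.unl a b := by
  obtain ⟨k, h1, h2, h3⟩ := h.2 ha
  refine ⟨rfl, rfl, Or.inr (Or.inl ⟨k, h1, ?_, ?_⟩)⟩
  · exact V.ext rfl rfl rfl rfl h2
  · exact V.ext rfl rfl rfl rfl h3

theorem CB1.digit {x y d d' : ℕ} (hx : x < BB) (hy : y < BB) :
    x + BB * d = y + BB * d' ↔ x = y ∧ d = d' := by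
  refine ⟨fun h => ?_, fun h => by rw [h.1, h.2]⟩
  have h1 : x = y := by
    have := congrArg (· % BB) h
    simpa [Nat.add_mul_mod_self_left, Nat.mod_eq_of_lt hx, Nat.mod_eq_of_lt hy] using this
  subst h1
  exact ⟨rfl, Nat.eq_of_mul_eq_mul_left BB_pos (Nat.add_left_cancel h)⟩

/-- Digit recursion of the tests. -/
theorem fails_iff (k : Kind) (M : ℕ) {x y d d' : ℕ} (hx : x < BB) (hy : y < BB) :
    fails k (M * BB) (x + BB * d) (y + BB * d') ↔
      derZ k x y ∨ ∃ k', derGo k x y k' ∧ fails k' M d d' := by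
  have hB := BB_pos
  cases k
  case eq => simp [fails, derZ, derGo, CB1.digit hx hy]
  case ne =>
    simp only [fails, derZ, derGo, ne_eq, CB1.digit hx hy]
    constructor
    · intro h
      by_cases hxy : x = y
      · exact Or.inr ⟨Kind.ne, ⟨hxy, rfl⟩, fun hd => h ⟨hxy, hd⟩⟩
      · exact Or.inl hxy
    · rintro (h | ⟨k', ⟨h1, rfl⟩, h2⟩) h3
      · exact h h3.1
      · exact h2 h3.2
  case ns =>
    have key : y + BB * d' = x + BB * d + 1 ↔
        (y = x + 1 ∧ d = d') ∨ (x + 1 = BB ∧ y = 0 ∧ d' = d + 1) := by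
      by_cases h1 : x + 1 = BB
      · have e : x + BB * d + 1 = 0 + BB * (d + 1) := by rw [mul_add]; omega
        rw [e, CB1.digit hy hB]
        omega
      · have e : x + BB * d + 1 = (x + 1) + BB * d := by omega
        rw [e, CB1.digit hy (by omega)]
        omega
    simp only [fails, derZ, derGo, ne_eq, key]
    constructor
    · intro h
      by_cases h1 : y = x + 1
      · exact Or.inr ⟨Kind.ne, Or.inl ⟨h1, rfl⟩, fun hd => h (Or.inl ⟨h1, hd⟩)⟩
      by_cases h2 : x + 1 = BB ∧ y = 0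
      · exact Or.inr ⟨Kind.ns, Or.inr ⟨h2.1, h2.2, rfl⟩, fun hd => h (Or.inr ⟨h2.1, h2.2, hd⟩)⟩
      · exact Or.inl ⟨h1, h2⟩
    · rintro (h | ⟨k', ⟨h1, rfl⟩ | ⟨h1, h2, rfl⟩, h3⟩)
      · omega
      · simp only at h3; omega
      · simp only at h3; omega
  case wr =>
    have key : x + BB * d + 1 = M * BB ↔ x + 1 = BB ∧ d + 1 = M := by
      rw [show M * BB = 0 + BB * M by rw [mul_comm, zero_add]]
      by_cases h1 : x + 1 = BB
      · have e : x + BB * d + 1 = 0 + BB * (d + 1) := by rw [mul_add]; omega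
        rw [e, CB1.digit hB hB]
        omega
      · have e : x + BB * d + 1 = (x + 1) + BB * d := by omega
        rw [e, CB1.digit (by omega) hB]
        omega
    have key2 : y + BB * d' = 0 ↔ y = 0 ∧ d' = 0 := by
      have := CB1.digit (d := d') (d' := 0) hy hB
      simpa using this
    simp only [fails, derZ, derGo, key, key2]
    constructor
    · intro h
      by_cases h2 : x + 1 = BB ∧ y = 0
      · exact Or.inr ⟨Kind.wr, ⟨h2.1, h2.2, rfl⟩, fun hd => h ⟨⟨h2.1, hd.1⟩, h2.2, hd.2⟩⟩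
      · exact Or.inl h2
    · rintro (h | ⟨k', ⟨h1, h2, rfl⟩, h3⟩)
      · omega
      · simp only at h3; omega
  all_goals simp [fails, derZ, derGo]

variable {M : ℕ}

theorem lab_lt (x : Cell M) : lab x < M * BB := by
  have h1 := x.a.mb.dg.isLt
  have h2 : x.d.val + 1 ≤ M := x.d.isLt
  have h3 := Nat.mul_le_mul_left BB h2
  rw [lab, mul_comm M]
  rw [mul_add] at h3
  omega

theorem lab_inj {x y : Cell M} (h : lab x = lab y) : x.a.mb.dg = y.a.mb.dg ∧ x.d = y.d := by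
  have := (CB1.digit x.a.mb.dg.isLt y.a.mb.dg.isLt).1 h
  exact ⟨Fin.ext this.1, Fin.ext this.2⟩

/-- A requested test that fails on the labels of an unlocked pair with permit gives zero. -/
theorem zero_of_req {x y : Cell M} {k : Kind} (hx : x.a.lk = Lk.none) (hy : y.a.lk = Lk.none)
    (hp : x.a.π = true) (hr : Req x.a y.a k) (hf : fails k (M * BB) (lab x) (lab y)) :
    (RS M).Zero [x, y] := by
  rcases (fails_iff k M x.a.mb.dg.isLt y.a.mb.dg.isLt).1 hf with h | ⟨k', h1, h2⟩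
  · exact Sys.Zero.of_z2 (S := RS M) (Or.inl (Or.inr (Or.inr ⟨k, hr, h⟩)))
  · have hA : Allowed k' x.a y.a := ⟨hp, Or.inr (Or.inr (Or.inr (Or.inr ⟨k, hr, h1⟩)))⟩
    have hT : TI x.a y.a (lockL k' x.a y.a) (lockR k' x.a y.a) :=
      ⟨hx, hy, Or.inr (Or.inl ⟨k', hA, rfl, rfl⟩)⟩
    have he : (RS M).Eqv [x, y] [⟨lockL k' x.a y.a, x.t, x.d⟩, ⟨lockR k' x.a y.a, y.t, y.d⟩] :=
      Sys.Eqv.of_r2 (S := RS M) (Or.inl ⟨hT, rfl, rfl, rfl, rfl⟩)
    exact Sys.Zero.of_eqv he (Sys.Zero.of_z2 (S := RS M)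
      (Or.inr ⟨k', sk_lockL _ _ _, sk_lockR _ _ _, Or.inr h2⟩))

theorem nb_eq (M : ℕ) : nb M = M * qq := by
  rw [nb, qq_eq]; ring

theorem nb_ge [NeZero M] : 2000 ≤ nb M := by
  have := qq_ge; have := NeZero.pos M
  rw [nb_eq]; nlinarith

theorem ten_dvd_nb (M : ℕ) : 10 ∣ nb M := by
  rw [nb_eq]; exact Dvd.dvd.mul_left ten_dvd_qq M

/-! ### Loc -/

theorem Loc.infix {v w : List (Cell M)} (h : Loc v) (hw : w <:+: v) : Loc w := by
  exact ⟨fun x hx => h.1 x (hw.subset hx), h.2.infix hw⟩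

theorem loc_append {v w : List (Cell M)} :
    Loc (v ++ w) ↔ Loc v ∧ Loc w ∧ ∀ x ∈ v.getLast?, ∀ y ∈ w.head?, OK2 x.a y.a := by
  simp only [Loc, List.isChain_append, List.mem_append]
  constructor
  · rintro ⟨h1, h2, h3, h4⟩
    exact ⟨⟨fun x hx => h1 x (Or.inl hx), h2⟩, ⟨fun x hx => h1 x (Or.inr hx), h3⟩, h4⟩
  · rintro ⟨⟨h1, h2⟩, ⟨h3, h4⟩, h5⟩
    exact ⟨fun x hx => hx.elim (h1 x) (h3 x), h2, h4, h5⟩

theorem Loc.pair {l r : List (Cell M)} {x y : Cell M} (h : Loc (l ++ x :: y :: r)) :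
    OK2 x.a y.a := by
  have := (h.infix (w := [x, y]) ⟨l, r, by simp⟩).2
  simpa using this

theorem loc_of_not_zero {v : List (Cell M)} (h : ¬ (RS M).Zero v) : Loc v := by
  refine ⟨fun x hx => ?_, ?_⟩
  · by_contra hc
    obtain ⟨l, r, rfl⟩ := List.append_of_mem hx
    exact h (Sys.ZPat.one (S := RS M) l r x hc).zero
  · rw [List.isChain_iff_forall_rel_of_append_cons_cons]
    intro a b l r e
    by_contra hc
    subst e
    exact h (Sys.ZPat.two (S := RS M) l r a b (Or.inl (Or.inl hc))).zero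

theorem CB1.loc_single {x : Cell M} : Loc [x] ↔ OK1 x.a ∧ OKp x.a x.t := by
  simp [Loc]

theorem CB1.loc_cons {x : Cell M} {r : List (Cell M)} :
    Loc (x :: r) ↔ (OK1 x.a ∧ OKp x.a x.t) ∧ Loc r ∧ ∀ y ∈ r.head?, OK2 x.a y.a := by
  have := loc_append (v := [x]) (w := r)
  simpa [CB1.loc_single] using this

/-- Replacing one cell. -/
theorem Loc.replace1 {l r : List (Cell M)} {x x' : Cell M} (h : Loc (l ++ x :: r))
    (h1 : OK1 x'.a ∧ OKp x'.a x'.t) (hl : ∀ p : V, OK1 p → OK2 p x.a → OK2 p x'.a)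
    (hr : ∀ p : V, OK1 p → OK2 x.a p → OK2 x'.a p) : Loc (l ++ x' :: r) := by
  rw [loc_append, CB1.loc_cons] at h ⊢
  obtain ⟨hl0, ⟨-, hr0, h2⟩, h3⟩ := h
  refine ⟨hl0, ⟨h1, hr0, fun y hy => ?_⟩, fun p hp y hy => ?_⟩
  · exact hr _ (hr0.1 y (List.mem_of_mem_head? hy)).1 (h2 y hy)
  · simp only [List.head?_cons, Option.mem_def, Option.some.injEq] at hy
    subst hy
    exact hl _ (hl0.1 p (List.mem_of_mem_getLast? hp)).1 (h3 p hp x rfl)

/-- Replacing two adjacent cells. -/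
theorem Loc.replace2 {l r : List (Cell M)} {x y x' y' : Cell M} (h : Loc (l ++ x :: y :: r))
    (h1 : OK1 x'.a ∧ OKp x'.a x'.t) (h2 : OK1 y'.a ∧ OKp y'.a y'.t) (h12 : OK2 x'.a y'.a)
    (hl : ∀ p : V, OK1 p → OK2 p x.a → OK2 p x'.a)
    (hr : ∀ p : V, OK1 p → OK2 y.a p → OK2 y'.a p) : Loc (l ++ x' :: y' :: r) := by
  rw [loc_append, CB1.loc_cons, CB1.loc_cons] at h ⊢
  obtain ⟨hl0, ⟨-, ⟨-, hr0, h3⟩, -⟩, h4⟩ := h
  refine ⟨hl0, ⟨h1, ⟨h2, hr0, fun z hz => ?_⟩, fun z hz => ?_⟩, fun p hp z hz => ?_⟩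
  · exact hr _ (hr0.1 z (List.mem_of_mem_head? hz)).1 (h3 z hz)
  · simp only [List.head?_cons, Option.mem_def, Option.some.injEq] at hz
    subst hz
    exact h12
  · simp only [List.head?_cons, Option.mem_def, Option.some.injEq] at hz
    subst hz
    exact hl _ (hl0.1 p (List.mem_of_mem_getLast? hp)).1 (h4 p hp x rfl)

/-! ### Words given by functions -/

theorem CB1.split1 {α : Type} {n i : ℕ} (hi : i < n) (c : ℕ → α) :
    (List.range n).map c = (List.range i).map c ++ [c i] ++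
      (List.range (n - i - 1)).map (fun j => c (i + 1 + j)) := by
  obtain ⟨m, rfl⟩ : ∃ m, n = i + 1 + m := ⟨n - i - 1, by omega⟩
  rw [List.range_add, List.range_succ, show i + 1 + m - i - 1 = m by omega]
  simp [Function.comp_def]

theorem CB1.split2 {α : Type} {n i : ℕ} (hi : i + 1 < n) (c : ℕ → α) :
    (List.range n).map c = (List.range i).map c ++ [c i, c (i + 1)] ++
      (List.range (n - i - 2)).map (fun j => c (i + 2 + j)) := by
  obtain ⟨m, rfl⟩ : ∃ m, n = i + 2 + m := ⟨n - i - 2, by omega⟩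
  rw [List.range_add, List.range_succ, List.range_succ, show i + 2 + m - i - 2 = m by omega]
  simp [Function.comp_def]

theorem CB1.splitJ {α : Type} {n m : ℕ} (hm : 0 < m) (c e : ℕ → α) :
    (List.range (n + 1)).map c ++ (List.range m).map e = (List.range n).map c ++ [c n, e 0] ++
      (List.range (m - 1)).map (fun j => e (j + 1)) := by
  obtain ⟨m, rfl⟩ : ∃ m', m = m' + 1 := ⟨m - 1, by omega⟩
  rw [List.range_succ (n := n), List.range_succ_eq_map (n := m)]
  simp [Function.comp_def]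

theorem CB1.map_range_congr {α : Type} {n : ℕ} {c c' : ℕ → α} (h : ∀ j < n, c' j = c j) :
    (List.range n).map c' = (List.range n).map c :=
  List.map_congr_left fun j hj => h j (List.mem_range.1 hj)

theorem eqv_range1 {α : Type} {S : Sys α} {n i : ℕ} (hi : i < n) {c c' : ℕ → α}
    (h : ∀ j < n, j ≠ i → c' j = c j) (he : S.Eqv [c i] [c' i]) :
    S.Eqv ((List.range n).map c) ((List.range n).map c') := by
  rw [CB1.split1 hi c, CB1.split1 hi c',
    CB1.map_range_congr (c' := c') (c := c) (n := i) (fun j hj => h j (by omega) (by omega)),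
    CB1.map_range_congr (c' := fun j => c' (i + 1 + j)) (c := fun j => c (i + 1 + j))
      (fun j hj => h _ (by omega) (by omega))]
  exact he.ctx _ _

theorem eqv_range2 {α : Type} {S : Sys α} {n i : ℕ} (hi : i + 1 < n) {c c' : ℕ → α}
    (h : ∀ j < n, j ≠ i → j ≠ i + 1 → c' j = c j)
    (he : S.Eqv [c i, c (i + 1)] [c' i, c' (i + 1)]) :
    S.Eqv ((List.range n).map c) ((List.range n).map c') := by
  rw [CB1.split2 hi c, CB1.split2 hi c',
    CB1.map_range_congr (c' := c') (c := c) (n := i)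
      (fun j hj => h j (by omega) (by omega) (by omega)),
    CB1.map_range_congr (c' := fun j => c' (i + 2 + j)) (c := fun j => c (i + 2 + j))
      (fun j hj => h _ (by omega) (by omega) (by omega))]
  exact he.ctx _ _

/-- A rule across the junction of two words. -/
theorem eqv_junction {α : Type} {S : Sys α} {n m : ℕ} (hm : 0 < m) {c c' e e' : ℕ → α}
    (h : ∀ j < n, c' j = c j) (h' : ∀ j < m, j ≠ 0 → e' j = e j)
    (he : S.Eqv [c n, e 0] [c' n, e' 0]) :
    S.Eqv ((List.range (n + 1)).map c ++ (List.range m).map e)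
      ((List.range (n + 1)).map c' ++ (List.range m).map e') := by
  rw [CB1.splitJ hm c e, CB1.splitJ hm c' e', CB1.map_range_congr h,
    CB1.map_range_congr (c' := fun j => e' (j + 1)) (c := fun j => e (j + 1))
      (fun j hj => h' _ (by omega) (by omega))]
  exact he.ctx _ _

theorem zero_range2 {α : Type} {S : Sys α} {n i : ℕ} (hi : i + 1 < n) {c : ℕ → α}
    (hz : S.Zero [c i, c (i + 1)]) : S.Zero ((List.range n).map c) := by
  rw [CB1.split2 hi c]
  exact hz.ctx _ _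

theorem zero_junction {α : Type} {S : Sys α} {n m : ℕ} (hm : 0 < m) {c e : ℕ → α}
    (hz : S.Zero [c n, e 0]) : S.Zero ((List.range (n + 1)).map c ++ (List.range m).map e) := by
  rw [CB1.splitJ hm c e]
  exact hz.ctx _ _

@[simp] theorem length_lay (n : ℕ) (st : ℕ → St) (pm : ℕ → Bool) (ct : ℕ → Ct M)
    (sA0 sT0 : Bool) : (lay n st pm ct sA0 sT0).length = n := by simp [lay]

@[simp] theorem cont_layC (st : ℕ → St) (pm : ℕ → Bool) (ct : ℕ → Ct M) (sA0 sT0 : Bool)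
    (i : ℕ) : cont (layC st pm ct sA0 sT0 i) = ct i := rfl

/-- `layC` at `i` only depends on the tags below `i` and the content at `i`. -/
theorem layC_congr {st st' : ℕ → St} {pm pm' : ℕ → Bool} {ct ct' : ℕ → Ct M} {sA0 sT0 : Bool}
    {i : ℕ} (hst : st' i = st i) (hpm : ∀ j ≤ i, pm' j = pm j)
    (hτ : ∀ j ≤ i, (ct' j).τ = (ct j).τ) (hi : ct' i = ct i) :
    layC st' pm' ct' sA0 sT0 i = layC st pm ct sA0 sT0 i := by
  have e1 : (∃ j, j ≤ i ∧ j / 10 = i / 10 ∧ pm' j = true) ↔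
      ∃ j, j ≤ i ∧ j / 10 = i / 10 ∧ pm j = true :=
    exists_congr fun j => and_congr_right fun hj => by rw [hpm j hj]
  have e2 : ∀ τ : Tag, (∃ j, j ≤ i ∧ (ct' j).τ = τ) ↔ ∃ j, j ≤ i ∧ (ct j).τ = τ := fun τ =>
    exists_congr fun j => and_congr_right fun hj => by rw [hτ j hj]
  simp only [layC, hst, hpm i le_rfl, hi, e1, e2]

theorem lay_congr {n : ℕ} {st st' : ℕ → St} {pm pm' : ℕ → Bool} {ct ct' : ℕ → Ct M}
    {sA0 sT0 : Bool} (hst : ∀ i < n, st' i = st i) (hpm : ∀ i < n, pm' i = pm i)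
    (hct : ∀ i < n, ct' i = ct i) : lay n st' pm' ct' sA0 sT0 = lay n st pm ct sA0 sT0 := by
  exact CB1.map_range_congr fun i hi => layC_congr (hst i hi) (fun j hj => hpm j (by omega))
    (fun j hj => by rw [hct j (by omega)]) (hct i hi)

/-- `LayOK` only reads the tags of the contents. -/
theorem LayOK.congr {n : ℕ} {st st' : ℕ → St} {pm pm' : ℕ → Bool} {ct ct' : ℕ → Ct M}
    {sA0 sT0 : Bool} (h : LayOK n st pm ct sA0 sT0) (hst : ∀ i < n, st' i = st i)
    (hpm : ∀ i < n, pm' i = pm i) (hτ : ∀ i < n, (ct' i).τ = (ct i).τ) :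
    LayOK n st' pm' ct' sA0 sT0 := by
  refine ⟨h.dvd, fun i hi => ?_, fun i hi => ?_, fun i hi => ?_, fun i hi j hj => ?_,
    fun g hg => ?_, fun i hi => ?_, fun i hi => ?_⟩
  · rw [hst i hi]; exact h.al i hi
  · rw [hst i (by omega)]; exact h.noE i hi
  · obtain ⟨j, hj, h1, h2⟩ := h.pmE i hi
    exact ⟨j, hj, h1, by rw [hpm j hj]; exact h2⟩
  · rw [hpm i hi, hpm j hj]; exact h.pmU i hi j hj
  · rw [hτ _ (by omega), hτ _ hg]; exact h.grp g hg
  · rw [hτ i hi]
    intro h1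
    exact ⟨(h.uA i hi h1).1, fun j hj h2 => (h.uA i hi h1).2 j hj (by rw [← hτ j hj]; exact h2)⟩
  · rw [hτ i hi]
    intro h1
    exact ⟨(h.uT i hi h1).1, fun j hj h2 => (h.uT i hi h1).2 j hj (by rw [← hτ j hj]; exact h2)⟩

/-- The permits: one at position `p`, the others at the start of their windows. -/
def pmAt (p i : ℕ) : Bool := if i / 10 = p / 10 then decide (i = p) else decide (i % 10 = 0)

theorem LayOK.pmAt {n : ℕ} {st : ℕ → St} {pm : ℕ → Bool} {ct : ℕ → Ct M} {sA0 sT0 : Bool}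
    (h : LayOK n st pm ct sA0 sT0) (p : ℕ) : LayOK n st (pmAt p) ct sA0 sT0 := by
  refine ⟨h.dvd, h.al, h.noE, fun i hi => ?_, fun i hi j hj h1 h2 h3 => ?_, h.grp, h.uA, h.uT⟩
  · have hd := h.dvd
    by_cases hp : i / 10 = p / 10
    · exact ⟨p, by omega, hp.symm, by simp [R176.pmAt]⟩
    · refine ⟨10 * (i / 10), by omega, by omega, ?_⟩
      have : ¬ (10 * (i / 10) / 10 = p / 10) := by omega
      simp [R176.pmAt, hp]
  · unfold R176.pmAt at h2 h3
    split_ifs at h2 h3 <;> simp only [decide_eq_true_eq] at h2 h3 <;> omega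

theorem CB1.surj {n : ℕ} {f : ℕ → ℕ} (hf : ∀ i < n, f i < n)
    (hinj : ∀ i < n, ∀ j < n, f i = f j → i = j) {q : ℕ} (hq : q < n) : ∃ i < n, f i = q := by
  let g : Fin n → Fin n := fun i => ⟨f i, hf i i.isLt⟩
  have hg : Function.Injective g := fun i j hij =>
    Fin.ext (hinj i i.isLt j j.isLt (congrArg Fin.val hij))
  obtain ⟨i, hi⟩ := Finite.injective_iff_surjective.1 hg ⟨q, hq⟩
  exact ⟨i, i.isLt, congrArg Fin.val hi⟩

/-- Permuting the contents by an injective self-map that keeps each `P` in its group. -/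
theorem LayOK.perm {n : ℕ} {st : ℕ → St} {pm : ℕ → Bool} {ct : ℕ → Ct M} {sA0 sT0 : Bool}
    (h : LayOK n st pm ct sA0 sT0) {f : ℕ → ℕ} (hf : ∀ i < n, f i < n)
    (hinj : ∀ i < n, ∀ j < n, f i = f j → i = j)
    (hP : ∀ i < n, (ct (f i)).τ = Tag.P → f i / 2 = i / 2) :
    LayOK n st pm (fun i => ct (f i)) sA0 sT0 := by
  refine ⟨h.dvd, h.al, h.noE, h.pmE, h.pmU, fun g hg => ?_, fun i hi h1 => ?_, fun i hi h1 => ?_⟩
  · have hG := h.grp g hg
    constructor
    · intro h1 h2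
      have e1 := hP _ (by omega) h1
      have e2 := hP _ hg h2
      have e3 : f (2 * g) ≠ f (2 * g + 1) := fun e => by
        have := hinj _ (by omega) _ hg e
        omega
      have e4 : (f (2 * g) = 2 * g ∧ f (2 * g + 1) = 2 * g + 1) ∨
          (f (2 * g) = 2 * g + 1 ∧ f (2 * g + 1) = 2 * g) := by omega
      rcases e4 with ⟨a, b⟩ | ⟨a, b⟩
      · rw [a] at h1; rw [b] at h2; exact hG.1 h1 h2
      · rw [a] at h1; rw [b] at h2; exact hG.1 h2 h1
    · intro h2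
      have : ∃ q, q < n ∧ q / 2 = g ∧ (ct q).τ = Tag.P := by
        by_cases hc : (ct (2 * g + 1)).τ = Tag.P
        · exact ⟨2 * g + 1, hg, by omega, hc⟩
        · exact ⟨2 * g, by omega, by omega, hG.2 hc⟩
      obtain ⟨q, hq, hq2, hq3⟩ := this
      obtain ⟨i, hi, rfl⟩ := CB1.surj hf hinj hq
      have e1 := hP i hi hq3
      have e2 : i = 2 * g ∨ i = 2 * g + 1 := by omega
      rcases e2 with rfl | rfl
      · exact hq3
      · exact absurd hq3 h2
  · exact ⟨(h.uA _ (hf i hi) h1).1, fun j hj h2 =>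
      hinj j hj i hi ((h.uA _ (hf i hi) h1).2 _ (hf j hj) h2)⟩
  · exact ⟨(h.uT _ (hf i hi) h1).1, fun j hj h2 =>
      hinj j hj i hi ((h.uT _ (hf i hi) h1).2 _ (hf j hj) h2)⟩

theorem CB1.swap_lt {m a c x : ℕ} (ha : a < m) (hc : c < m) (hx : x < m) :
    Equiv.swap a c x < m := by
  rw [Equiv.swap_apply_def]; split_ifs <;> assumption

/-- Placement of the non-`P` contents along a permutation `ρ` of the groups. -/
theorem CB1.place {n : ℕ} {st : ℕ → St} {pm : ℕ → Bool} {ct : ℕ → Ct M}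
    {sA0 sT0 : Bool} (h : LayOK n st pm ct sA0 sT0) (ρ : Equiv.Perm ℕ)
    (hρ : ∀ g < n / 2, ρ g < n / 2) (s : ℕ → ℕ) :
    ∃ f : ℕ → ℕ, (∀ i < n, f i < n) ∧ (∀ i < n, ∀ j < n, f i = f j → i = j) ∧
      (∀ i < n, (ct (f i)).τ = Tag.P → f i / 2 = i / 2) ∧
      ∀ x < n, ∀ i < n, (ct i).τ ≠ Tag.P → x % 2 = s (x / 2) % 2 → ρ (x / 2) = i / 2 →
        f x = i := by
  have hd := h.dvd
  let np : ℕ → ℕ := fun g => if (ct (2 * g)).τ = Tag.P then 2 * g + 1 else 2 * g
  let pp : ℕ → ℕ := fun g => if (ct (2 * g)).τ = Tag.P then 2 * g else 2 * g + 1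
  have np2 : ∀ g, np g / 2 = g := fun g => by simp only [np]; split_ifs <;> omega
  have pp2 : ∀ g, pp g / 2 = g := fun g => by simp only [pp]; split_ifs <;> omega
  have npP : ∀ g < n / 2, (ct (np g)).τ ≠ Tag.P := fun g hg => by
    simp only [np]
    split_ifs with hc
    · exact (h.grp g (by omega)).1 hc
    · exact hc
  have ppP : ∀ g < n / 2, (ct (pp g)).τ = Tag.P := fun g hg => by
    simp only [pp]
    split_ifs with hc
    · exact hc
    · by_contra hc'; exact hc ((h.grp g (by omega)).2 hc')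
  refine ⟨fun x => if x % 2 = s (x / 2) % 2 then np (ρ (x / 2)) else pp (x / 2),
    fun i hi => ?_, fun i hi j hj hij => ?_, fun i hi hP => ?_, fun x hx i hi hP h1 h2 => ?_⟩
  · have h1 := hρ (i / 2) (by omega)
    have h2 := np2 (ρ (i / 2))
    have h3 := pp2 (i / 2)
    dsimp only
    split_ifs <;> omega
  · dsimp only at hij
    have hi' : i / 2 < n / 2 := by omega
    have hj' : j / 2 < n / 2 := by omega
    split_ifs at hij with h1 h2 h2
    · have h3 : ρ (i / 2) = ρ (j / 2) := by rw [← np2 (ρ (i / 2)), hij, np2]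
      have h4 := ρ.injective h3
      rw [← h4] at h2
      omega
    · exact absurd (hij ▸ ppP _ hj') (npP _ (hρ _ hi'))
    · exact absurd (hij ▸ ppP _ hi') (npP _ (hρ _ hj'))
    · have h4 : i / 2 = j / 2 := by rw [← pp2 (i / 2), hij, pp2]
      rw [← h4] at h2
      omega
  · dsimp only at hP ⊢
    split_ifs at hP ⊢ with h1
    · exact absurd hP (npP _ (hρ _ (by omega)))
    · exact pp2 _
  · dsimp only
    rw [if_pos h1, h2]
    have h3 := ppP (i / 2) (by omega)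
    have h4 : pp (i / 2) ≠ i := fun e => hP (by rw [e] at h3; exact h3)
    simp only [np, pp] at h4 ⊢
    split_ifs at h4 ⊢ <;> omega

/-- Two non-`P` contents at `i ≠ j` can be placed at the adjacent positions `p, p + 1`
(`p` odd). -/
theorem LayOK.exists_place2 {n : ℕ} {st : ℕ → St} {pm : ℕ → Bool} {ct : ℕ → Ct M}
    {sA0 sT0 : Bool} (h : LayOK n st pm ct sA0 sT0) {i j p : ℕ} (hi : i < n) (hj : j < n)
    (hij : i ≠ j) (hiP : (ct i).τ ≠ Tag.P) (hjP : (ct j).τ ≠ Tag.P) (hp : p % 2 = 1)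
    (hpn : p + 1 < n) :
    ∃ f : ℕ → ℕ, (∀ i < n, f i < n) ∧ (∀ i < n, ∀ j < n, f i = f j → i = j) ∧
      (∀ i < n, (ct (f i)).τ = Tag.P → f i / 2 = i / 2) ∧ f p = i ∧ f (p + 1) = j := by
  have hd := h.dvd
  have hg : i / 2 ≠ j / 2 := by
    intro e
    have hG := h.grp (i / 2) (by omega)
    have e4 : (i = 2 * (i / 2) ∧ j = 2 * (i / 2) + 1) ∨
        (j = 2 * (i / 2) ∧ i = 2 * (i / 2) + 1) := by omega
    rcases e4 with ⟨a, b⟩ | ⟨a, b⟩
    · rw [← a, ← (show j = i + 1 by omega)] at hG; exact hiP (hG.2 hjP)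
    · rw [← a, ← (show i = j + 1 by omega)] at hG; exact hjP (hG.2 hiP)
  let σ : Equiv.Perm ℕ := Equiv.swap (p / 2) (i / 2)
  have hσ : ∀ g < n / 2, σ g < n / 2 := fun g hg => CB1.swap_lt (by omega) (by omega) hg
  have hσ1 : σ (p / 2) = i / 2 := Equiv.swap_apply_left _ _
  have hσ2 : σ (p / 2 + 1) ≠ i / 2 := fun e => by
    have := σ.injective (e.trans hσ1.symm)
    omega
  obtain ⟨f, h1, h2, h3, h4⟩ := CB1.place h (σ.trans (Equiv.swap (σ (p / 2 + 1)) (j / 2)))
    (fun g hg => CB1.swap_lt (hσ _ (by omega)) (by omega) (hσ g hg))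
    (fun g => if g = p / 2 then 1 else 0)
  refine ⟨f, h1, h2, h3, h4 p (by omega) i hi hiP (by simp [hp]) ?_,
    h4 (p + 1) hpn j hj hjP ?_ ?_⟩
  · rw [Equiv.trans_apply, hσ1, Equiv.swap_apply_of_ne_of_ne hσ2.symm hg]
  · have : ¬ ((p + 1) / 2 = p / 2) := by omega
    simp only [if_neg this]
    omega
  · rw [Equiv.trans_apply, show (p + 1) / 2 = p / 2 + 1 by omega, Equiv.swap_apply_left]

/-- One non-`P` content at `i` can be placed at any position `p`. -/
theorem LayOK.exists_place1 {n : ℕ} {st : ℕ → St} {pm : ℕ → Bool} {ct : ℕ → Ct M}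
    {sA0 sT0 : Bool} (h : LayOK n st pm ct sA0 sT0) {i p : ℕ} (hi : i < n)
    (hiP : (ct i).τ ≠ Tag.P) (hpn : p < n) :
    ∃ f : ℕ → ℕ, (∀ i < n, f i < n) ∧ (∀ i < n, ∀ j < n, f i = f j → i = j) ∧
      (∀ i < n, (ct (f i)).τ = Tag.P → f i / 2 = i / 2) ∧ f p = i := by
  have hd := h.dvd
  obtain ⟨f, h1, h2, h3, h4⟩ := CB1.place h (Equiv.swap (p / 2) (i / 2))
    (fun g hg => CB1.swap_lt (by omega) (by omega) hg) (fun _ => p)
  exact ⟨f, h1, h2, h3, h4 p hpn i hi hiP rfl (Equiv.swap_apply_left _ _)⟩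

end Crest.Agent.R176
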