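import Crest.Agent.R176.CBas1

/-! Row 176: basic lemmas on controls, local checks, blocks and layouts. -/

set_option autoImplicit false

namespace Crest.Agent.R176

variable {M : ℕ}

variable [NeZero M]

theorem cat_eq {v : List (Cell M)} {i : ℕ} (hi : i < v.length) : cat v i = v[i] := by
  simp [cat, List.getD, hi]

theorem cat_mem {v : List (Cell M)} {i : ℕ} (hi : i < v.length) : cat v i ∈ v := by
  rw [cat_eq hi]; exact List.getElem_mem hi

theorem cat_append_left {v w : List (Cell M)} {i : ℕ} (hi : i < v.length) :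
    cat (v ++ w) i = cat v i := by
  simp [cat, List.getD, List.getElem?_append_left hi]

theorem cat_append_right (v w : List (Cell M)) (i : ℕ) : cat (v ++ w) (v.length + i) = cat w i := by
  simp [cat, List.getD, List.getElem?_append_right]

theorem cat_map_range {n i : ℕ} (hi : i < n) (c : ℕ → Cell M) :
    cat ((List.range n).map c) i = c i := by
  simp [cat, List.getD, hi]

theorem eq_map_cat (v : List (Cell M)) : v = (List.range v.length).map (cat v) := by
  refine List.ext_getElem (by simp) fun i h1 h2 => ?_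
  simp [cat_eq h1]

theorem cat_ofFn {n : ℕ} (X : Fin n → Cell M) (i : Fin n) : cat (List.ofFn X) i = X i := by
  rw [cat_eq (by simp)]; simp

theorem loc_iff_cat {v : List (Cell M)} :
    Loc v ↔ (∀ i < v.length, OK1 (cat v i).a ∧ OKp (cat v i).a (cat v i).t) ∧
      ∀ i, i + 1 < v.length → OK2 (cat v i).a (cat v (i + 1)).a := by
  unfold Loc
  rw [List.isChain_iff_getElem, List.forall_mem_iff_getElem]
  refine and_congr ⟨fun h i hi => ?_, fun h i hi => ?_⟩ ⟨fun h i hi => ?_, fun h i hi => ?_⟩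
  · rw [cat_eq hi]; exact h i hi
  · rw [← cat_eq hi]; exact h i hi
  · rw [cat_eq hi, cat_eq (show i < v.length by omega)]; exact h i hi
  · rw [← cat_eq hi, ← cat_eq (show i < v.length by omega)]; exact h i hi

theorem lab_mkC {τ : Tag} {x : Arm} {t : V} {g : ℕ} (hg : g < M * BB) :
    (mkC M τ x t g).dg.val + BB * (mkC M τ x t g).d.val = g := by
  have : g / BB < M := (Nat.div_lt_iff_lt_mul BB_pos).2 hg
  simp only [mkC, Nat.mod_eq_of_lt this]
  exact Nat.mod_add_div g BB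

theorem cont_eq_mkC (x : Cell M) : cont x = mkC M x.a.mb.τ x.a.mb.arm x.t (lab x) := by
  refine Ct.ext rfl (Fin.ext ?_) rfl rfl (Fin.ext ?_)
  · simp [cont, mkC, lab, Nat.mod_eq_of_lt x.a.mb.dg.2]
  · simp [cont, mkC, lab, Nat.add_mul_div_left _ _ BB_pos, Nat.div_eq_of_lt x.a.mb.dg.2,
      Nat.mod_eq_of_lt x.d.2]

/-! ### Blocks -/

theorem Blk.unique {X X' : Cell (M * BB)} {b : List (Cell M)} (h : Blk X b) (h' : Blk X' b) :
    X = X' := by
  obtain ⟨-, iA, iT, h⟩ := h
  obtain ⟨-, jA, jT, h'⟩ := h'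
  obtain rfl : iA = jA := (h'.tA iA h.hA).1 ((h.tA iA h.hA).2 rfl)
  obtain rfl : iT = jT := (h'.tT iT h.hT).1 ((h.tT iT h.hT).2 rfl)
  exact Cell.ext (h.ea.trans h'.ea.symm) (h.et.trans h'.et.symm) (Fin.ext (h.ed.trans h'.ed.symm))

theorem Blk.ne_nil {X : Cell (M * BB)} {b : List (Cell M)} (h : Blk X b) : b ≠ [] := by
  rintro rfl
  have h1 := h.1
  have h2 := nb_ge (M := M)
  simp at h1
  omega

theorem CBasic.st_at {X : Cell (M * BB)} {l r : List (Cell M)} {x : Cell M}
    (h : Blk X (l ++ x :: r)) : x.a.st = stOf M X.a.st.κ l.length := by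
  obtain ⟨h1, iA, iT, h2⟩ := h
  have := h2.st l.length (by rw [← h1]; simp)
  rwa [cat_eq (by simp), List.getElem_append_right le_rfl, List.getElem_cons, dif_pos (by simp)]
    at this

theorem Blk.head {X : Cell (M * BB)} {b : List (Cell M)} (h : Blk X b) :
    ∀ x ∈ b.head?, x.a.st = stOf M X.a.st.κ 0 := by
  intro x hx
  obtain ⟨r, rfl⟩ := List.head?_eq_some_iff.1 hx
  exact CBasic.st_at (l := []) h

theorem Blk.last {X : Cell (M * BB)} {b : List (Cell M)} (h : Blk X b) :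
    ∀ x ∈ b.getLast?, x.a.st = stOf M X.a.st.κ (nb M - 1) := by
  intro x hx
  obtain ⟨l, rfl⟩ := List.getLast?_eq_some_iff.1 hx
  have h1 := h.1
  simp only [List.length_append, List.length_singleton] at h1
  rw [CBasic.st_at h, ← h1, Nat.add_sub_cancel]

/-- `BlkF` only reads static parts and contents below `nb M`. -/
theorem BlkF.congr {X : Cell (M * BB)} {f g : ℕ → Cell M} {iA iT : ℕ} (h : BlkF X f iA iT)
    (hst : ∀ i < nb M, (g i).a.st = (f i).a.st) (hc : ∀ i < nb M, cont (g i) = cont (f i)) :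
    BlkF X g iA iT := by
  have hτ : ∀ i < nb M, (g i).a.mb.τ = (f i).a.mb.τ := fun i hi => congrArg Ct.τ (hc i hi)
  have harm : ∀ i < nb M, (g i).a.mb.arm = (f i).a.mb.arm := fun i hi => congrArg Ct.arm (hc i hi)
  have ht : ∀ i < nb M, (g i).t = (f i).t := fun i hi => congrArg Ct.t (hc i hi)
  have hl : ∀ i < nb M, lab (g i) = lab (f i) := fun i hi => by
    have h1 : (g i).a.mb.dg = (f i).a.mb.dg := congrArg Ct.dg (hc i hi)
    have h2 : (g i).d = (f i).d := congrArg Ct.d (hc i hi)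
    rw [lab, lab, h1, h2]
  refine ⟨h.hA, h.hT, fun i hi => ?_, fun i hi => ?_, fun i hi => ?_, fun i hi => ?_, ?_,
    fun i hi => ?_, fun i hi j hj => ?_, ?_, ?_, ?_, ?_⟩
  · rw [hst i hi, h.st i hi]
  · rw [hτ i hi, h.tA i hi]
  · rw [hτ i hi, h.tT i hi]
  · rw [hτ i hi, hl i hi]; exact h.labP i hi
  · rw [hl _ h.hA, h.labA]
  · rw [hτ i hi, hl i hi]; exact h.labI i hi
  · rw [hτ i hi, hτ j hj, hl i hi, hl j hj]; exact h.injI i hi j hj
  · rw [harm _ h.hA, harm _ h.hT]; exact h.arms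
  · rw [harm _ h.hA, harm _ h.hT, ht _ h.hA]; exact h.ea
  · rw [ht _ h.hT]; exact h.et
  · rw [hl _ h.hT]; exact h.ed

theorem Rep.length_eq {v : List (Cell M)} {u : List (Cell (M * BB))} (h : Rep v u) :
    v.length = u.length * nb M := by
  induction h with
  | nil => simp
  | cons hb _ ih => rw [List.length_append, hb.1, ih, List.length_cons]; ring

theorem CBasic.of_cons {v : List (Cell M)} {X : Cell (M * BB)} {u : List (Cell (M * BB))}
    (h : Rep v (X :: u)) : ∃ b w, v = b ++ w ∧ Blk X b ∧ Rep w u := by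
  cases h with
  | cons hb hv => exact ⟨_, _, rfl, hb, hv⟩

theorem CBasic.of_nil' {v : List (Cell M)} (h : Rep v []) : v = [] := by
  cases h; rfl

theorem CBasic.of_nil {u : List (Cell (M * BB))} (h : Rep ([] : List (Cell M)) u) : u = [] := by
  rcases u with _ | ⟨X, u⟩
  · rfl
  · obtain ⟨b, w, e, hb, -⟩ := CBasic.of_cons h
    exact (hb.ne_nil (List.append_eq_nil_iff.1 e.symm).1).elim

theorem CBasic.pre {w r : List (Cell M)} {u u' : List (Cell (M * BB))} (h : Rep w u)
    (h' : Rep (w ++ r) u') : ∃ y, u' = u ++ y ∧ Rep r y := by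
  induction h generalizing u' with
  | nil => exact ⟨u', rfl, h'⟩
  | @cons X b v u hb _ ih =>
    rcases u' with _ | ⟨Y, u'⟩
    · have := CBasic.of_nil' h'
      simp only [List.append_eq_nil_iff] at this
      exact (hb.ne_nil this.1.1).elim
    obtain ⟨b', w', e, hb', hw'⟩ := CBasic.of_cons h'
    rw [List.append_assoc] at e
    obtain ⟨rfl, rfl⟩ := List.append_inj e (hb.1.trans hb'.1.symm)
    obtain ⟨y, rfl, hy⟩ := ih hw'
    exact ⟨y, by rw [hb.unique hb']; rfl, hy⟩

theorem Rep.unique {v : List (Cell M)} {u u' : List (Cell (M * BB))} (h : Rep v u)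
    (h' : Rep v u') : u = u' := by
  obtain ⟨y, rfl, hy⟩ := CBasic.pre (r := []) h (by simpa using h')
  rw [CBasic.of_nil hy, List.append_nil]

theorem Rep.single {X : Cell (M * BB)} {b : List (Cell M)} : Rep b [X] ↔ Blk X b := by
  constructor
  · intro h
    obtain ⟨b', v, rfl, hb, hv⟩ := CBasic.of_cons h
    rwa [CBasic.of_nil' hv, List.append_nil]
  · intro h
    simpa using Rep.cons h Rep.nil

theorem Rep.append {v v' : List (Cell M)} {u u' : List (Cell (M * BB))} (h : Rep v u)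
    (h' : Rep v' u') : Rep (v ++ v') (u ++ u') := by
  induction h with
  | nil => exact h'
  | cons hb _ ih => rw [List.append_assoc]; exact Rep.cons hb ih

theorem Rep.split {v : List (Cell M)} {u u' : List (Cell (M * BB))} (h : Rep v (u ++ u')) :
    ∃ v1 v2, v = v1 ++ v2 ∧ Rep v1 u ∧ Rep v2 u' := by
  induction u generalizing v with
  | nil => exact ⟨[], v, rfl, Rep.nil, h⟩
  | cons X u ih =>
    obtain ⟨b, w, rfl, hb, hw⟩ := CBasic.of_cons h
    obtain ⟨v1, v2, rfl, h1, h2⟩ := ih hw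
    exact ⟨b ++ v1, v2, (List.append_assoc _ _ _).symm, Rep.cons hb h1, h2⟩

/-- The block containing a given cell. -/
theorem Rep.one {l r : List (Cell M)} {x : Cell M} {u : List (Cell (M * BB))}
    (h : Rep (l ++ x :: r) u) :
    ∃ u1 X u2 v1 l' r' v2, u = u1 ++ X :: u2 ∧ l = v1 ++ l' ∧ r = r' ++ v2 ∧ Rep v1 u1 ∧
      Blk X (l' ++ x :: r') ∧ Rep v2 u2 := by
  induction u generalizing l with
  | nil => simpa using CBasic.of_nil' h
  | cons X u ih =>
    obtain ⟨b, w, e, hb, hw⟩ := CBasic.of_cons h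
    rcases List.append_eq_append_iff.1 e with ⟨c, rfl, e'⟩ | ⟨c, rfl, rfl⟩
    · rcases c with _ | ⟨z, c⟩
      · rw [List.nil_append] at e'
        subst e'
        obtain ⟨u1, Y, u2, v1, l', r', v2, rfl, e1, rfl, h1, h2, h3⟩ := ih (l := []) hw
        obtain ⟨rfl, rfl⟩ := List.append_eq_nil_iff.1 e1.symm
        exact ⟨X :: u1, Y, u2, l, [], r', v2, rfl, by simp, rfl,
          by simpa using Rep.cons hb h1, h2, h3⟩
      · obtain ⟨rfl, rfl⟩ := List.cons.inj e'
        exact ⟨[], X, u, [], l, c, w, rfl, rfl, rfl, Rep.nil, hb, hw⟩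
    · obtain ⟨u1, Y, u2, v1, l', r', v2, rfl, rfl, rfl, h1, h2, h3⟩ := ih hw
      exact ⟨X :: u1, Y, u2, b ++ v1, l', r', v2, rfl, (List.append_assoc _ _ _).symm, rfl,
        Rep.cons hb h1, h2, h3⟩

/-- Two adjacent cells lie in one block or at a block boundary. -/
theorem Rep.two {l r : List (Cell M)} {x y : Cell M} {u : List (Cell (M * BB))}
    (h : Rep (l ++ x :: y :: r) u) :
    (∃ u1 X u2 v1 l' r' v2, u = u1 ++ X :: u2 ∧ l = v1 ++ l' ∧ r = r' ++ v2 ∧ Rep v1 u1 ∧
      Blk X (l' ++ x :: y :: r') ∧ Rep v2 u2 ∧ x.a.st.E = false) ∨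
    (∃ u1 X Y u2 v1 l' r' v2, u = u1 ++ X :: Y :: u2 ∧ l = v1 ++ l' ∧ r = r' ++ v2 ∧
      Rep v1 u1 ∧ Blk X (l' ++ [x]) ∧ Blk Y (y :: r') ∧ Rep v2 u2 ∧ x.a.st.E = true) := by
  obtain ⟨u1, X, u2, v1, l', r', v2, rfl, rfl, e, h1, h2, h3⟩ := h.one
  have hs := CBasic.st_at h2
  have hl := h2.1
  rcases r' with _ | ⟨z, r'⟩
  · rw [List.nil_append] at e
    subst e
    rcases u2 with _ | ⟨Y, u2⟩
    · simpa using CBasic.of_nil' h3
    obtain ⟨b, w, e, hb, hw⟩ := CBasic.of_cons h3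
    obtain ⟨z, b, rfl⟩ := List.exists_cons_of_ne_nil hb.ne_nil
    obtain ⟨rfl, rfl⟩ := List.cons.inj e
    refine Or.inr ⟨u1, X, Y, u2, v1, l', b, w, rfl, rfl, rfl, h1, h2, hb, hw, ?_⟩
    simpa [hs, stOf] using hl
  · obtain ⟨rfl, rfl⟩ := List.cons.inj e
    refine Or.inl ⟨u1, X, u2, v1, l', r', v2, rfl, rfl, rfl, h1, h2, h3, ?_⟩
    simp only [List.length_append, List.length_cons] at hl
    simp only [hs, stOf, decide_eq_false_iff_not]
    omega

/-- A represented factor of a represented word is aligned. -/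
theorem Rep.align {l w r : List (Cell M)} {u u' : List (Cell (M * BB))}
    (h : Rep (l ++ w ++ r) u) (h' : Rep w u') (hne : u' ≠ []) :
    ∃ x y, u = x ++ u' ++ y ∧ Rep l x ∧ Rep r y := by
  obtain ⟨X, u0, rfl⟩ := List.exists_cons_of_ne_nil hne
  obtain ⟨b, w', rfl, hb, -⟩ := CBasic.of_cons h'
  obtain ⟨z, b, rfl⟩ := List.exists_cons_of_ne_nil hb.ne_nil
  have h0 : Rep (l ++ z :: (b ++ w' ++ r)) u := by simpa using h
  obtain ⟨u1, Y, u2, v1, l', r', v2, rfl, rfl, e, h1, h2, h3⟩ := h0.one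
  have hF := congrArg St.F ((CBasic.st_at h2).symm.trans (CBasic.st_at (l := []) hb))
  simp only [stOf, List.length_nil, decide_true, decide_eq_true_eq, List.length_eq_zero_iff] at hF
  subst hF
  have h4 : Rep (z :: b ++ w' ++ r) (Y :: u2) := by
    have := Rep.cons h2 h3
    rwa [List.nil_append, List.cons_append, ← e] at this
  obtain ⟨y, e', hy⟩ := CBasic.pre h' h4
  exact ⟨u1, y, by rw [e', List.append_assoc], by simpa using h1, hy⟩

/-- The last block of a represented word. -/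
theorem Rep.last {v : List (Cell M)} {u : List (Cell (M * BB))} {x : Cell M} (h : Rep v u)
    (hx : x ∈ v.getLast?) :
    ∃ X l, X ∈ u.getLast? ∧ Blk X (l ++ [x]) ∧ l ++ [x] <:+: v := by
  obtain ⟨l, rfl⟩ := List.getLast?_eq_some_iff.1 hx
  obtain ⟨u1, X, u2, v1, l', r', v2, rfl, rfl, e, -, h2, h3⟩ := h.one
  obtain ⟨rfl, rfl⟩ := List.append_eq_nil_iff.1 e.symm
  obtain rfl := CBasic.of_nil h3
  exact ⟨X, l', by simp, h2, v1, [], by simp⟩

/-- The first block of a represented word. -/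
theorem Rep.head {v : List (Cell M)} {u : List (Cell (M * BB))} {x : Cell M} (h : Rep v u)
    (hx : x ∈ v.head?) :
    ∃ X r, X ∈ u.head? ∧ Blk X (x :: r) ∧ x :: r <:+: v := by
  obtain ⟨r, rfl⟩ := List.head?_eq_some_iff.1 hx
  obtain ⟨u1, X, u2, v1, l', r', v2, rfl, e, rfl, h1, h2, -⟩ := Rep.one (l := []) h
  obtain ⟨rfl, rfl⟩ := List.append_eq_nil_iff.1 e.symm
  obtain rfl := CBasic.of_nil h1
  exact ⟨X, r', by simp, h2, [], v2, by simp⟩

theorem Good.split {v : List (Cell M)} {u u' : List (Cell (M * BB))} (h : Good v (u ++ u')) :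
    ∃ v1 v2, v = v1 ++ v2 ∧ Good v1 u ∧ Good v2 u' := by
  obtain ⟨v1, v2, rfl, h1, h2⟩ := h.1.split
  exact ⟨v1, v2, rfl, ⟨h1, (loc_append.1 h.2).1⟩, h2, (loc_append.1 h.2).2.1⟩

/-- Good words have colour-adjacent parents. -/
theorem Good.colAdj {v : List (Cell M)} {u : List (Cell (M * BB))} (h : Good v u) :
    u.IsChain fun X Y => ColAdj X.a Y.a := by
  obtain ⟨h, hl⟩ := h
  induction h with
  | nil => exact List.isChain_nil
  | @cons X b v u hb hv ih =>
    obtain ⟨-, h2, h3⟩ := loc_append.1 hl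
    refine List.IsChain.cons (ih h2) fun Y hY => ?_
    obtain ⟨u', rfl⟩ := List.head?_eq_some_iff.1 hY
    obtain ⟨b', w, rfl, hb', -⟩ := CBasic.of_cons hv
    obtain ⟨y, b', rfl⟩ := List.exists_cons_of_ne_nil hb'.ne_nil
    obtain ⟨l, x, rfl⟩ := (List.eq_nil_or_concat' b).resolve_left hb.ne_nil
    have h4 := (h3 x (by simp) y (by simp)).colu
    have h5 := nb_ge (M := M)
    rw [hb.last x (by simp), hb'.head y (by simp)] at h4
    simpa [stOf, ColAdj, Nat.sub_add_cancel (show 1 ≤ nb M by omega)] using h4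

/-- Concatenation of good words. -/
theorem Good.append {v v' : List (Cell M)} {u u' : List (Cell (M * BB))} (h : Good v u)
    (h' : Good v' u') (hc : ∀ X ∈ u.getLast?, ∀ Y ∈ u'.head?, ColAdj X.a Y.a)
    (hk : ∀ x ∈ v.getLast?, ∀ y ∈ v'.head?, LK x.a y.a) : Good (v ++ v') (u ++ u') := by
  refine ⟨h.1.append h'.1, loc_append.2 ⟨h.2, h'.2, fun x hx y hy => ?_⟩⟩
  obtain ⟨X, l, hX, hb, -⟩ := h.1.last hx
  obtain ⟨Y, r, hY, hb', -⟩ := h'.1.head hy
  have h1 := hb.last x (by simp)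
  have h2 := hb'.head y (by simp)
  have h5 := nb_ge (M := M)
  have hE : x.a.st.E = true := by
    simp [h1, stOf, Nat.sub_add_cancel (show 1 ≤ nb M by omega)]
  have h6 := (h.2.1 x (List.mem_of_getLast? hx)).1.hE hE
  have h7 := ten_dvd_qq
  have h8 := hc X hX Y hY
  refine ⟨?_, ?_, ?_, fun h => ?_, fun h => ?_, fun h => ?_, fun h => ?_, fun h => ?_,
    fun h => ?_, fun h => ?_, hk x hx y hy⟩
  · rw [h6, h2]; simp [stOf]
  · rw [if_pos hE, h1, h2]; exact h8
  · rw [hE, h2]; simp [stOf]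
  · omega
  · omega
  · rw [hE] at h; cases h
  · rw [hE] at h; cases h
  · rw [hE] at h; cases h
  · rw [hE] at h; cases h
  · omega

/-- The armed token `T` sees the lock of its macro cell. -/
theorem BlkF.sk_of_armed {X : Cell (M * BB)} {f : ℕ → Cell M} {iA iT : ℕ} (h : BlkF X f iA iT)
    (hp : OKp (f iA).a (f iA).t) {s : Side} {k : Kind} {φ : Bool}
    (ha : (f iT).a.mb.arm = Arm.armed s k φ) : X.a.sk = some (s, k) := by
  rw [h.ea, eff_sk]
  rcases h.arms with ⟨-, h1⟩ | ⟨_, _, _, -, h1⟩ | ⟨s', k', φ', h1, h2⟩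
  · rw [h1] at ha; cases ha
  · rw [h1] at ha; cases ha
  · rw [h2] at ha
    cases ha
    exact hp.linked ((h.tA iA h.hA).2 rfl) _ _ h1

@[simp] theorem length_enc1 (X : Cell (M * BB)) : (enc1 X).length = nb M := by simp [enc1]

@[simp] theorem enc_nil : enc ([] : List (Cell (M * BB))) = [] := rfl

@[simp] theorem enc_cons (X : Cell (M * BB)) (u : List (Cell (M * BB))) :
    enc (X :: u) = enc1 X ++ enc u := by simp [enc]

theorem enc_append (u u' : List (Cell (M * BB))) : enc (u ++ u') = enc u ++ enc u' := by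
  simp [enc]

end Crest.Agent.R176
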