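import Crest.Agent.R176.Alg

/-! Row 176: class sums of long nonzero words vanish. -/

set_option autoImplicit false

namespace Crest.Agent.R176

namespace CS

theorem prod_expand {K A P : Type} [CommSemiring K] [Semiring A] [Algebra K A] [Fintype P]
    (b : P → A) (m : ℕ) (c : Fin m → P → K) :
    (List.ofFn fun k => ∑ p, c k p • b p).prod =
      ∑ e : Fin m → P, (∏ k, c k (e k)) • (List.ofFn fun k => b (e k)).prod := by
  induction m with
  | zero => simp
  | succ m ih =>
    rw [List.ofFn_succ, List.prod_cons, ih, Finset.sum_mul_sum, ← Fintype.sum_prod_type',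
      ← (Fin.consEquiv fun _ : Fin (m + 1) => P).sum_comp]
    refine Finset.sum_congr rfl fun x _ => ?_
    simp only [Fin.consEquiv, Equiv.coe_fn_mk, Fin.prod_univ_succ, List.ofFn_succ, Fin.cons_zero,
      Fin.cons_succ, List.prod_cons, smul_mul_smul_comm]

theorem mat_expand {K ι : Type} [CommRing K] [Fintype ι] [DecidableEq ι] (M : Matrix ι ι K) :
    M = ∑ p : ι × ι, M p.1 p.2 • Matrix.single p.1 p.2 (1 : K) := by
  conv_lhs => rw [Matrix.matrix_eq_sum_single M]
  rw [Fintype.sum_prod_type]
  simp

end CS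

theorem csStmt {α : Type} [Fintype α] (S : Sys α) (h : PermP S) : CSStmt S := by
  classical
  intro ι _ _
  obtain ⟨N, m, pre, post, ch, sel, H⟩ := h (Fintype.card (ι × ι) + 1)
  refine ⟨N, fun K _ h2 ρ n hn w hw hz => ?_⟩
  let F : List α → Matrix ι ι K := fun u => (u.map ρ).prod
  let T : Finset (List α) :=
    ((Finset.univ : Finset (Fin n → α)).filter (fun f => S.Eqv w (List.ofFn f))).image List.ofFn
  have hT : ∀ u, u ∈ T ↔ S.Eqv w u := by
    intro u
    simp only [T, Finset.mem_image, Finset.mem_filter, Finset.mem_univ, true_and]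
    constructor
    · rintro ⟨f, hf, rfl⟩; exact hf
    · intro hu
      have hl : u.length = n := hu.length_eq.symm.trans hw
      subst hl
      exact ⟨u.get, by rwa [List.ofFn_get], List.ofFn_get u⟩
  have e1 : ∑ u ∈ T, F u = ∑ f ∈ (Finset.univ : Finset (Fin n → α)).filter
      (fun f => S.Eqv w (List.ofFn f)), ((List.ofFn f).map ρ).prod :=
    Finset.sum_image fun f _ g _ hfg => List.ofFn_injective hfg
  rw [← e1]
  have HT : ∀ u ∈ T, _ := fun u hu => H u (fun h0 => hz (Sys.Zero.of_eqv ((hT u).1 hu) h0))
    (by rw [← ((hT u).1 hu).length_eq, hw]; exact hn)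
  let term : (Fin m → ι × ι) → List α → Matrix ι ι K := fun e u =>
    (∏ k, F (ch u k) (e k).1 (e k).2) •
      (F (pre u) * (List.ofFn fun k => Matrix.single (e k).1 (e k).2 (1 : K)).prod * F (post u))
  have e2 : ∀ u ∈ T, F u = ∑ e, term e u := by
    intro u hu
    have h1 : F u = F (pre u) * (List.ofFn fun k => F (ch u k)).prod * F (post u) := by
      conv_lhs => rw [(HT u hu).1]
      simp only [F, List.map_append, List.prod_append, List.map_flatten, List.prod_flatten,
        List.map_ofFn]
      rfl
    have h3 : (fun k => F (ch u k)) =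
        fun k => ∑ p : ι × ι, F (ch u k) p.1 p.2 • Matrix.single p.1 p.2 (1 : K) :=
      funext fun k => CS.mat_expand _
    rw [h1, h3, CS.prod_expand, Finset.mul_sum, Finset.sum_mul]
    refine Finset.sum_congr rfl fun e _ => ?_
    simp only [term, mul_smul_comm, smul_mul_assoc]
  rw [Finset.sum_congr rfl e2, Finset.sum_comm]
  refine Finset.sum_eq_zero fun e _ => ?_
  have hp : ∀ s : Fin (Fintype.card (ι × ι) + 1) → Fin m, ∃ i j, i ≠ j ∧ e (s i) = e (s j) :=
    fun s => Fintype.exists_ne_map_eq_of_card_lt (fun i => e (s i)) (by simp)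
  choose i j hij he using hp
  let g : List α → List α := fun u => pre u ++
    (List.ofFn (ch u ∘ Equiv.swap (sel u (i (sel u))) (sel u (j (sel u))))).flatten ++ post u
  have hg : ∀ u ∈ T, _ := fun u hu => (HT u hu).2.2 (i (sel u)) (j (sel u)) (g u) rfl
  refine Finset.sum_involution (fun u _ => g u) (fun u hu => ?_) (fun u hu _ hgu => ?_)
    (fun u hu => (hT _).2 (((hT u).1 hu).trans (hg u hu).1)) (fun u hu => ?_)
  · obtain ⟨-, g1, g2, g3, -⟩ := hg u hu
    have : term e (g u) = term e u := by
      simp only [term, g1, g2, g3]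
      congr 1
      rw [← Equiv.prod_comp (Equiv.swap (sel u (i (sel u))) (sel u (j (sel u))))]
      refine Finset.prod_congr rfl fun k _ => ?_
      rw [Function.comp_apply, Equiv.swap_apply_self, Equiv.apply_swap_eq_self (he (sel u))]
    rw [this]
    ext a b
    exact h2 _
  · obtain ⟨-, -, -, g3, -⟩ := hg u hu
    rw [hgu] at g3
    have := congrFun g3 (sel u (i (sel u)))
    rw [Function.comp_apply, Equiv.swap_apply_left] at this
    exact (HT u hu).2.1 _ _ (hij (sel u)) this
  · obtain ⟨-, g1, g2, g3, g4⟩ := hg u hu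
    show pre (g u) ++ (List.ofFn (ch (g u) ∘ Equiv.swap (sel (g u) (i (sel (g u))))
      (sel (g u) (j (sel (g u)))))).flatten ++ post (g u) = u
    rw [g1, g2, g3, g4]
    conv_rhs => rw [(HT u hu).1]
    congr 4
    funext k
    simp only [Function.comp_apply, Equiv.swap_apply_self]

end Crest.Agent.R176
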