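import Crest.Agent.R176.Tower

/-! Row 176: address candidates exist and agree. -/

set_option autoImplicit false

namespace Crest.Agent.R176

namespace CandAux

theorem inner {α : Type} {l0 W0 r0 l W r : List α} (h : l0 ++ W0 ++ r0 = l ++ W ++ r)
    (hl : l0.length ≤ l.length) (hr : r0.length ≤ r.length) :
    ∃ l' r', l = l0 ++ l' ∧ r = r' ++ r0 ∧ W0 = l' ++ W ++ r' := by
  obtain ⟨l', rfl⟩ : l0 <+: l :=
    List.prefix_of_prefix_length_le (l₃ := l ++ W ++ r) ⟨W0 ++ r0, by rw [← h]; simp⟩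
      ⟨W ++ r, by simp⟩ hl
  obtain ⟨r', rfl⟩ : r0 <:+ r :=
    List.suffix_of_suffix_length_le (l₃ := l0 ++ l' ++ W ++ r) ⟨l0 ++ W0, h⟩ ⟨_, rfl⟩ hr
  refine ⟨l', r', rfl, rfl, ?_⟩
  rw [← List.append_assoc, List.append_left_inj] at h
  simpa only [List.append_assoc, List.append_right_inj] using h

theorem locate (hT : TowFacts) {s : ℕ} {l0 W0 r0 : List C0} {v : List (Cell (mS s))}
    (hv : Tower s W0 v) (hl : l0.length ≤ 3 * DL s) (hr : r0.length ≤ 3 * DL s) {p : ℕ}
    {X : Cell (mS s)} (h : Cand s (l0 ++ W0 ++ r0) p X) :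
    ∃ x y, v = x ++ [X] ++ y ∧ p = l0.length + x.length * DL s ∧ 27 ≤ x.length ∧
      27 ≤ y.length := by
  obtain ⟨l, W, r, e, rfl, hW, -, h1, h2⟩ := h
  obtain ⟨l', r', rfl, rfl, rfl⟩ := inner e (by omega) (by omega)
  obtain ⟨x, y, rfl, hx, hy⟩ := hT.align hv hW (by simp)
  have a1 := hT.length hx
  have a2 := hT.length hy
  rw [List.length_append] at h1 h2
  refine ⟨x, y, rfl, by rw [List.length_append, a1], ?_, ?_⟩
  · exact Nat.le_of_mul_le_mul_right (by omega) (DL_pos s)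
  · exact Nat.le_of_mul_le_mul_right (by omega) (DL_pos s)

theorem cand_of_idx (hT : TowFacts) {s : ℕ} {l0 W0 r0 : List C0} {v : List (Cell (mS s))}
    (hv : Tower s W0 v) {j : ℕ} (hj : j < v.length) (hP : (cat v j).a.mb.τ = Tag.P)
    (h1 : 30 * DL s ≤ l0.length + j * DL s)
    (h2 : 30 * DL s ≤ (v.length - (j + 1)) * DL s + r0.length) :
    Cand s (l0 ++ W0 ++ r0) (l0.length + j * DL s) (cat v j) := by
  have e : v = v.take j ++ [cat v j] ++ v.drop (j + 1) := by
    rw [cat_eq hj, List.append_assoc, List.singleton_append, List.getElem_cons_drop,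
      List.take_append_drop]
  rw [e] at hv
  obtain ⟨W1, W2, rfl, t1, t2⟩ := hT.split hv
  obtain ⟨W11, W12, rfl, t11, t12⟩ := hT.split t1
  have a1 := hT.length t11
  have a2 := hT.length t2
  rw [List.length_take, min_eq_left hj.le] at a1
  rw [List.length_drop] at a2
  refine ⟨l0 ++ W11, W12, W2 ++ r0, by simp, by rw [List.length_append, a1], t12, hP, ?_, ?_⟩
  · rw [List.length_append, a1]; exact h1
  · rw [List.length_append, a2]; exact h2

theorem exists_P {M : ℕ} [NeZero M] {v : List (Cell M)} (h : Loc v) {i : ℕ}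
    (hi : i + 2 < v.length) : ∃ j, i ≤ j ∧ j ≤ i + 2 ∧ (cat v j).a.mb.τ = Tag.P := by
  have h2 := (loc_iff_cat.1 h).2
  have key : ∀ k, k + 1 < v.length → (cat v k).a.st.κ.val % 2 = 0 →
      ∃ j, k ≤ j ∧ j ≤ k + 1 ∧ (cat v j).a.mb.τ = Tag.P := fun k hk h0 => by
    by_cases hP : (cat v (k + 1)).a.mb.τ = Tag.P
    · exact ⟨k + 1, by omega, le_rfl, hP⟩
    · exact ⟨k, le_rfl, by omega, ((h2 k hk).grp h0).2 hP⟩
  by_cases h0 : (cat v i).a.st.κ.val % 2 = 0
  · obtain ⟨j, a, b, c⟩ := key i (by omega) h0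
    exact ⟨j, a, by omega, c⟩
  · obtain ⟨j, a, b, c⟩ := key (i + 1) (by omega) (by
      rw [(h2 i (by omega)).col, Nat.mod_mod_of_dvd _ (Dvd.dvd.trans (by norm_num) ten_dvd_qq)]
      omega)
    exact ⟨j, by omega, by omega, c⟩

end CandAux

open CandAux in
theorem candFacts (h : OneLevel) (hT : TowFacts) (hX : XFacts) : CandFacts where
  agree s w hw := by
    obtain ⟨l0, W0, r0, v, rfl, hv, hz, hl, hr⟩ := hX.exact s w hw
    obtain ⟨z0, hz0⟩ := h.adr (mS s) v hz
    have hN : 1 ≤ qq * DL (s + 1) := Nat.mul_pos qq_pos (DL_pos _)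
    refine ⟨z0 * DL s + (qq * DL (s + 1) * l0.length - l0.length), fun p X hc => ?_⟩
    have hP : X.a.mb.τ = Tag.P := by
      obtain ⟨-, -, -, -, -, -, hP, -⟩ := hc
      exact hP
    obtain ⟨x, y, rfl, rfl, h1, h2⟩ := locate hT hv hl hr hc
    have e : cat (x ++ [X] ++ y) x.length = X := by
      rw [List.append_assoc]
      exact cat_append_right x ([X] ++ y) 0
    have h3 := (hz0 x.length (by omega) (by simp; omega)).1 (by rw [e]; exact hP)
    rw [e] at h3
    have h4 := h3.mul_right' (DL s)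
    rw [mul_assoc] at h4
    refine Nat.ModEq.trans ?_ h4.symm
    have h5 : l0.length ≤ qq * DL (s + 1) * l0.length := Nat.le_mul_of_pos_left _ hN
    have e2 : z0 * DL s + (qq * DL (s + 1) * l0.length - l0.length) +
        (l0.length + x.length * DL s) = (z0 + x.length) * DL s + qq * DL (s + 1) * l0.length := by
      rw [add_mul]; omega
    rw [e2]
    exact Nat.add_mul_mod_self_left _ _ _
  two s w hw hlen := by
    obtain ⟨l0, W0, r0, v, rfl, hv, hz, hl, hr⟩ := hX.exact s w hw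
    have a1 := hT.length hv
    have hD := DL_pos s
    simp only [List.length_append] at hlen
    have h94 : 94 ≤ v.length := Nat.le_of_mul_le_mul_right (by omega) hD
    obtain ⟨j, j1, j2, hj⟩ := exists_P (loc_of_not_zero hz) (i := 30) (by omega)
    obtain ⟨k, k1, k2, hk⟩ := exists_P (loc_of_not_zero hz) (i := 40) (by omega)
    have b : ∀ {a b : ℕ}, a ≤ b → a * DL s ≤ b * DL s := fun h => Nat.mul_le_mul_right _ h
    refine ⟨_, _, _, _, cand_of_idx hT hv (by omega) hj ?_ ?_, cand_of_idx hT hv (by omega) hk ?_ ?_,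
      ?_⟩
    · have := b j1; omega
    · have := b (show 30 ≤ v.length - (j + 1) by omega); omega
    · have := b (show 30 ≤ k by omega); omega
    · have := b (show 30 ≤ v.length - (k + 1) by omega); omega
    · have := b (show j + 3 ≤ k by omega)
      rw [add_mul] at this
      omega
  ok s w p X hw hc := by
    obtain ⟨l0, W0, r0, v, rfl, hv, hz, hl, hr⟩ := hX.exact s w hw
    obtain ⟨x, y, rfl, -⟩ := locate hT hv hl hr hc
    exact ((loc_of_not_zero hz).1 X (by simp)).1
  down s w p Y hc := by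
    obtain ⟨l, W, r, rfl, rfl, ⟨v, hv, hR, hL⟩, -, h1, h2⟩ := hc
    obtain ⟨hlen, iA, iT, hB⟩ := Rep.single.1 hR
    have hn := nb_ge (M := mS s)
    have hD := DL_succ_ge s
    have hq := qq_ge
    obtain ⟨γ, hγ, hP⟩ : ∃ γ, γ ≤ 1 ∧ (cat v γ).a.mb.τ = Tag.P := by
      by_cases hP : (cat v 1).a.mb.τ = Tag.P
      · exact ⟨1, le_rfl, hP⟩
      · refine ⟨0, by omega, (((loc_iff_cat.1 hL).2 0 (by omega)).grp ?_).2 hP⟩
        rw [hB.st 0 (by omega)]
        simp [stOf]
    refine ⟨γ, cat v γ, cand_of_idx hT hv (by omega) hP (by omega) (by omega), ?_⟩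
    rw [av, hB.labP γ (by omega) hP, hB.st γ (by omega)]
    simp only [stOf]
    rw [Nat.mod_eq_of_lt (show γ < qq by omega)]
    omega

end Crest.Agent.R176
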