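import Crest.Agent.R176.Sys

/-! Row 176: the self-simulating cell system `RS M` and its one-level statements. -/

set_option autoImplicit false

namespace Crest.Agent.R176

inductive Side | L | R deriving DecidableEq, Fintype

inductive Kind | sw | eq | ne | ns | wr | tI | tIV deriving DecidableEq, Fintype

inductive Tag | P | I | A | T deriving DecidableEq, Fintype

inductive Arm
  | idle
  | ready (s : Side) (k : Kind) (φ : Bool)
  | linked (s : Side) (k : Kind)
  | armed (s : Side) (k : Kind) (φ : Bool)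
  deriving DecidableEq, Fintype

/-- Interface classes of boundary cells. -/
abbrev Cls : Type := Option Kind × Tag × Arm

/-- The base of the digits. -/
irreducible_def BB : ℕ := 10 * Fintype.card Cls ^ 2 + 1000

theorem BB_ge : 1000 ≤ BB := by rw [BB_def]; omega
theorem five_dvd_BB : 5 ∣ BB := by rw [BB_def]; omega
theorem cls_lt_BB : Fintype.card Cls ^ 2 < BB := by rw [BB_def]; omega
theorem BB_pos : 0 < BB := by have := BB_ge; omega

/-- The number of colours. -/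
irreducible_def qq : ℕ := 2 * BB

theorem qq_eq : qq = 2 * BB := qq_def
theorem qq_ge : 2000 ≤ qq := by have := BB_ge; rw [qq_eq]; omega
theorem qq_pos : 0 < qq := by have := qq_ge; omega
theorem ten_dvd_qq : 10 ∣ qq := by have := five_dvd_BB; rw [qq_eq]; omega

instance : NeZero BB := ⟨BB_pos.ne'⟩
instance : NeZero qq := ⟨qq_pos.ne'⟩
instance (M : ℕ) [NeZero M] : NeZero (M * BB) := ⟨Nat.mul_ne_zero (NeZero.ne M) BB_pos.ne'⟩

/-- Static part of the control: colour, colour of the parent, first / last cell of a block. -/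
@[ext] structure St where
  κ : Fin qq
  κu : Fin qq
  F : Bool
  E : Bool
  deriving DecidableEq

/-- Mobile part of the control. -/
@[ext] structure Mb where
  τ : Tag
  dg : Fin BB
  arm : Arm
  sA : Bool
  sT : Bool
  deriving DecidableEq

inductive Lk
  | none
  | sw (s : Side) (sv : Mb)
  | ts (s : Side) (k : Kind)
  deriving DecidableEq

/-- The finite control. -/
@[ext] structure V where
  st : St
  π : Bool
  sπ : Bool
  mb : Mb
  lk : Lk
  deriving DecidableEq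

@[ext] structure Cell (M : ℕ) where
  a : V
  t : V
  d : Fin M
  deriving DecidableEq

instance : Finite St :=
  Finite.of_injective (fun x : St => (x.κ, x.κu, x.F, x.E)) (by
    rintro ⟨_, _, _, _⟩ ⟨_, _, _, _⟩ h; simpa using h)

instance : Finite Mb :=
  Finite.of_injective (fun x : Mb => (x.τ, x.dg, x.arm, x.sA, x.sT)) (by
    rintro ⟨_, _, _, _, _⟩ ⟨_, _, _, _, _⟩ h; simpa using h)

instance : Finite Lk :=
  Finite.of_surjective (fun x : Option ((Side × Mb) ⊕ (Side × Kind)) => match x with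
    | none => Lk.none
    | some (Sum.inl p) => Lk.sw p.1 p.2
    | some (Sum.inr p) => Lk.ts p.1 p.2) (by
    rintro (_ | ⟨s, sv⟩ | ⟨s, k⟩)
    exacts [⟨none, rfl⟩, ⟨some (Sum.inl (s, sv)), rfl⟩, ⟨some (Sum.inr (s, k)), rfl⟩])

instance : Finite V :=
  Finite.of_injective (fun x : V => (x.st, x.π, x.sπ, x.mb, x.lk)) (by
    rintro ⟨_, _, _, _, _⟩ ⟨_, _, _, _, _⟩ h; simpa using h)

instance (M : ℕ) : Finite (Cell M) :=
  Finite.of_injective (fun x : Cell M => (x.a, x.t, x.d)) (by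
    rintro ⟨_, _, _⟩ ⟨_, _, _⟩ h; simpa using h)

/-- The blank payload. -/
def t0 : V := ⟨⟨0, 0, false, false⟩, false, false, ⟨Tag.I, 0, Arm.idle, false, false⟩, Lk.none⟩

instance (M : ℕ) [NeZero M] : Inhabited (Cell M) := ⟨⟨t0, t0, 0⟩⟩

namespace V

/-- Side and kind of the lock. -/
def sk (a : V) : Option (Side × Kind) :=
  match a.lk with
  | Lk.none => none
  | Lk.sw s _ => some (s, Kind.sw)
  | Lk.ts s k => some (s, k)

def isL (a : V) : Prop := ∃ k, a.sk = some (Side.L, k)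
def isR (a : V) : Prop := ∃ k, a.sk = some (Side.R, k)

/-- Exchange the mobile part with the saved one. -/
def flip (a : V) : V :=
  match a.lk with
  | Lk.sw s sv => { a with mb := sv, lk := Lk.sw s a.mb }
  | _ => a

def unl (a : V) : V := { a with lk := Lk.none }

def setArm (a : V) (x : Arm) : V := { a with mb := { a.mb with arm := x } }

end V

def Arm.tog : Arm → Arm
  | Arm.armed s k φ => Arm.armed s k (!φ)
  | x => x

def mkLk (s : Side) (k : Kind) (sv : Mb) : Lk := if k = Kind.sw then Lk.sw s sv else Lk.ts s k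

/-- Mobile part of the left cell after the swap. -/
def svL (a b : V) : Mb :=
  if a.st.E = true then { a.mb with dg := b.mb.dg, arm := a.mb.arm.tog }
  else ⟨b.mb.τ, b.mb.dg, b.mb.arm,
    (a.mb.sA && decide (a.mb.τ ≠ Tag.A)) || decide (b.mb.τ = Tag.A),
    (a.mb.sT && decide (a.mb.τ ≠ Tag.T)) || decide (b.mb.τ = Tag.T)⟩

/-- Mobile part of the right cell after the swap. -/
def svR (a b : V) : Mb :=
  if a.st.E = true then { b.mb with dg := a.mb.dg, arm := b.mb.arm.tog }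
  else ⟨a.mb.τ, a.mb.dg, a.mb.arm, b.mb.sA, b.mb.sT⟩

/-- The test `k` fails on the data `d, d'` of range `M`. -/
def fails (k : Kind) (M d d' : ℕ) : Prop :=
  match k with
  | Kind.eq => d = d'
  | Kind.ne => d ≠ d'
  | Kind.ns => d' ≠ d + 1
  | Kind.wr => ¬ (d + 1 = M ∧ d' = 0)
  | _ => False

/-- The test `k` already fails on the lowest digits. -/
def derZ (k : Kind) (x y : ℕ) : Prop :=
  match k with
  | Kind.ne => x ≠ y
  | Kind.ns => y ≠ x + 1 ∧ ¬ (x + 1 = BB ∧ y = 0)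
  | Kind.wr => ¬ (x + 1 = BB ∧ y = 0)
  | _ => False

/-- The test `k` is continued by the test `k'` on the higher digits. -/
def derGo (k : Kind) (x y : ℕ) (k' : Kind) : Prop :=
  match k with
  | Kind.eq => x = y ∧ k' = Kind.eq
  | Kind.ne => x = y ∧ k' = Kind.ne
  | Kind.ns => (y = x + 1 ∧ k' = Kind.ne) ∨ (x + 1 = BB ∧ y = 0 ∧ k' = Kind.ns)
  | Kind.wr => x + 1 = BB ∧ y = 0 ∧ k' = Kind.wr
  | _ => False

/-- The adjacent controls `a, b` request the test `k` on their full labels. -/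
def Req (a b : V) (k : Kind) : Prop :=
  (a.st.E = false ∧
    ((a.mb.τ = Tag.P ∧ b.mb.τ = Tag.P ∧ k = Kind.ns) ∨
     (a.mb.τ = Tag.I ∧ b.mb.τ = Tag.I ∧ k = Kind.eq) ∨
     (a.st.F = true ∧ a.mb.τ = Tag.P ∧ b.mb.τ = Tag.I ∧ k = Kind.eq) ∨
     (a.st.F = true ∧ a.mb.τ = Tag.P ∧ b.mb.τ = Tag.A ∧ k = Kind.ne) ∨
     (b.st.E = true ∧ a.mb.τ = Tag.I ∧ b.mb.τ = Tag.P ∧ k = Kind.eq))) ∨
  (a.st.E = true ∧
    ((a.mb.τ = Tag.P ∧ b.mb.τ = Tag.P ∧ k = Kind.wr) ∨
     (a.mb.τ = Tag.T ∧ b.mb.τ = Tag.T ∧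
       ∃ φ φ', a.mb.arm = Arm.armed Side.L k φ ∧ b.mb.arm = Arm.armed Side.R k φ')))

/-- A lock of kind `k` may be put on the adjacent controls `a, b` (the locks are not read). -/
def Allowed (k : Kind) (a b : V) : Prop :=
  a.π = true ∧
  ((k = Kind.sw ∧ a.st.E = false ∧
      (a.st.κ.val % 2 = 0 ∨ (a.mb.τ ≠ Tag.P ∧ b.mb.τ ≠ Tag.P))) ∨
   (k = Kind.tIV ∧ a.st.E = false ∧ a.mb.τ = Tag.A ∧ b.mb.τ = Tag.T ∧
      a.mb.arm = Arm.idle ∧ b.mb.arm = Arm.idle) ∨
   (k = Kind.tI ∧ a.st.E = true ∧ a.mb.τ = Tag.A ∧ b.mb.τ = Tag.A ∧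
      a.mb.arm = Arm.idle ∧ b.mb.arm = Arm.idle) ∨
   ((k = Kind.sw ∨ k = Kind.tI ∨ k = Kind.tIV) ∧ a.st.E = true ∧
      a.mb.τ = Tag.T ∧ b.mb.τ = Tag.T ∧
      ∃ φ φ', a.mb.arm = Arm.armed Side.L k φ ∧ b.mb.arm = Arm.armed Side.R k φ') ∨
   ∃ k0, Req a b k0 ∧ derGo k0 a.mb.dg.val b.mb.dg.val k)

def lockL (k : Kind) (a b : V) : V := { a with lk := mkLk Side.L k (svL a b) }
def lockR (k : Kind) (a b : V) : V := { b with lk := mkLk Side.R k (svR a b) }

/-- The locks of adjacent controls match. -/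
def LK (a b : V) : Prop :=
  (a.isL ↔ b.isR) ∧
  (a.isL → ∃ k, Allowed k a b ∧ a.lk = mkLk Side.L k (svL a b) ∧ b.lk = mkLk Side.R k (svR a b))

/-- Rules on two adjacent controls: permit move, lock, link. -/
def TI (a b a' b' : V) : Prop :=
  a.lk = Lk.none ∧ b.lk = Lk.none ∧
  ((a.st.κ.val % 10 ≠ 9 ∧ a.π = true ∧ a.sπ = true ∧ b.π = false ∧ b.sπ = true ∧
      a' = { a with π := false, sπ := false } ∧ b' = { b with π := true }) ∨
   (∃ k, Allowed k a b ∧ a' = lockL k a b ∧ b' = lockR k a b) ∨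
   (a.st.E = false ∧ a.mb.τ = Tag.A ∧ b.mb.τ = Tag.T ∧ b.mb.arm = Arm.idle ∧
      ∃ s k φ, a.mb.arm = Arm.ready s k φ ∧ a' = a.setArm (Arm.linked s k) ∧
        b' = b.setArm (Arm.armed s k φ)))

/-- Rule on control and payload of one cell: the token `A` gets ready. -/
def TIV (a t a' t' : V) : Prop :=
  a.lk = Lk.none ∧ a.mb.τ = Tag.A ∧ a.mb.arm = Arm.idle ∧
    ∃ s k φ, t'.sk = some (s, k) ∧ a' = a.setArm (Arm.ready s k φ) ∧
      t = if φ = true then t'.flip else t'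

structure OK1 (a : V) : Prop where
  hF : a.st.F = true → a.st.κ.val = 0
  hE : a.st.E = true → a.st.κ.val + 1 = qq
  p0 : a.st.κ.val % 10 = 0 → a.sπ = a.π
  p9 : a.st.κ.val % 10 = 9 → a.sπ = true
  pp : a.π = true → a.sπ = true
  fA : a.st.F = true → a.mb.sA = decide (a.mb.τ = Tag.A)
  fT : a.st.F = true → a.mb.sT = decide (a.mb.τ = Tag.T)
  eA : a.st.E = true → a.mb.sA = true
  eT : a.st.E = true → a.mb.sT = true
  tA : a.mb.τ = Tag.A → a.mb.sA = true
  tT : a.mb.τ = Tag.T → a.mb.sT = true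
  hP : a.mb.τ = Tag.P → a.mb.dg.val = a.st.κ.val / 2
  idle : a.mb.τ = Tag.P ∨ a.mb.τ = Tag.I → a.mb.arm = Arm.idle

structure OKp (a t : V) : Prop where
  blank : a.mb.τ = Tag.P ∨ a.mb.τ = Tag.I → t = t0
  col : a.mb.τ = Tag.A → t.st.κ = a.st.κu
  ready : a.mb.τ = Tag.A → ∀ s k φ, a.mb.arm = Arm.ready s k φ → t.sk = some (s, k)
  linked : a.mb.τ = Tag.A → ∀ s k, a.mb.arm = Arm.linked s k → t.sk = some (s, k)

structure OK2 (a b : V) : Prop where
  col : b.st.κ.val = (a.st.κ.val + 1) % qq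
  colu : b.st.κu.val = (a.st.κu.val + if a.st.E = true then 1 else 0) % qq
  EF : a.st.E = b.st.F
  pS : a.st.κ.val % 10 ≠ 9 → b.sπ = (a.sπ || b.π)
  pU : a.st.κ.val % 10 ≠ 9 → b.π = true → a.sπ = false
  aS : a.st.E = false → b.mb.sA = (a.mb.sA || decide (b.mb.τ = Tag.A))
  aU : a.st.E = false → b.mb.τ = Tag.A → a.mb.sA = false
  tS : a.st.E = false → b.mb.sT = (a.mb.sT || decide (b.mb.τ = Tag.T))
  tU : a.st.E = false → b.mb.τ = Tag.T → a.mb.sT = false
  grp : a.st.κ.val % 2 = 0 → (a.mb.τ = Tag.P ↔ b.mb.τ ≠ Tag.P)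
  lk : LK a b

/-- Consistent arms of the tokens `A` and `T` of one block. -/
def ArmOK (x y : Arm) : Prop :=
  (x = Arm.idle ∧ y = Arm.idle) ∨ (∃ s k φ, x = Arm.ready s k φ ∧ y = Arm.idle) ∨
    ∃ s k φ, x = Arm.linked s k ∧ y = Arm.armed s k φ

/-- Zero patterns on two controls that are not invariants. -/
def ZX (a b : V) : Prop :=
  (a.st.E = false ∧ a.mb.τ = Tag.A ∧ b.mb.τ = Tag.T ∧ ¬ ArmOK a.mb.arm b.mb.arm) ∨
    ∃ k, Req a b k ∧ derZ k a.mb.dg.val b.mb.dg.val

def ZI (a b : V) : Prop := ¬ OK2 a b ∨ ZX a b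

def ZIV (a t : V) : Prop := ¬ (OK1 a ∧ OKp a t)

/-- The rule table run on payloads by a lock of kind `k`. -/
def Tb (k : Kind) (t u t' u' : V) : Prop :=
  (k = Kind.tI ∧ TI t u t' u') ∨ (k = Kind.tIV ∧ TIV t u t' u')

/-- The zero table run on payloads by a lock of kind `k`. -/
def Zb (k : Kind) (t u : V) : Prop := (k = Kind.tI ∧ ZI t u) ∨ (k = Kind.tIV ∧ ZIV t u)

/-- The system with data range `M`. -/
def RS (M : ℕ) : Sys (Cell M) where
  r1 x x' := TIV x.a x.t x'.a x'.t ∧ x'.d = x.d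
  r2 x y x' y' :=
    (TI x.a y.a x'.a y'.a ∧ x'.t = x.t ∧ x'.d = x.d ∧ y'.t = y.t ∧ y'.d = y.d) ∨
    (x.a.sk = some (Side.L, Kind.sw) ∧ y.a.sk = some (Side.R, Kind.sw) ∧
      x' = ⟨x.a.flip, y.t, y.d⟩ ∧ y' = ⟨y.a.flip, x.t, x.d⟩) ∨
    (∃ k, x.a.sk = some (Side.L, k) ∧ y.a.sk = some (Side.R, k) ∧ Tb k x.t y.t x'.t y'.t ∧
      x'.a = x.a ∧ x'.d = x.d ∧ y'.a = y.a ∧ y'.d = y.d)
  z1 x := ZIV x.a x.t
  z2 x y := ZI x.a y.a ∨
    ∃ k, x.a.sk = some (Side.L, k) ∧ y.a.sk = some (Side.R, k) ∧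
      (Zb k x.t y.t ∨ fails k M x.d.val y.d.val)

section Level
variable {M : ℕ}

/-- No invariant local check fails. -/
def Loc (v : List (Cell M)) : Prop :=
  (∀ x ∈ v, OK1 x.a ∧ OKp x.a x.t) ∧ v.IsChain fun x y => OK2 x.a y.a

def FreeL (v : List (Cell M)) : Prop := ∀ x ∈ v.head?, ¬ x.a.isR
def FreeR (v : List (Cell M)) : Prop := ∀ x ∈ v.getLast?, ¬ x.a.isL

/-- The full label of a cell. -/
def lab (x : Cell M) : ℕ := x.a.mb.dg.val + BB * x.d.val

/-- The number of cells of a block. -/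
def nb (M : ℕ) : ℕ := 2 * (M * BB)

/-- The address carried by a `P`-cell. -/
def av (x : Cell M) : ℕ := x.a.st.κu.val * nb M + 2 * lab x + x.a.st.κ.val % 2

def unlC (x : Cell M) : Cell M := { x with a := x.a.unl }

open Classical in
noncomputable def unlL (x : Cell M) : Cell M := if x.a.isL then unlC x else x

open Classical in
noncomputable def unlR (x : Cell M) : Cell M := if x.a.isR then unlC x else x

/-- The content of a cell (what moves in a swap). -/
@[ext] structure Ct (M : ℕ) where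
  τ : Tag
  dg : Fin BB
  arm : Arm
  t : V
  d : Fin M

def cont (x : Cell M) : Ct M := ⟨x.a.mb.τ, x.a.mb.dg, x.a.mb.arm, x.t, x.d⟩

open Classical in
/-- Cell `i` of an unlocked layout. -/
noncomputable def layC (st : ℕ → St) (pm : ℕ → Bool) (ct : ℕ → Ct M) (sA0 sT0 : Bool) (i : ℕ) :
    Cell M :=
  ⟨⟨st i, pm i, decide (∃ j, j ≤ i ∧ j / 10 = i / 10 ∧ pm j = true),
    ⟨(ct i).τ, (ct i).dg, (ct i).arm, sA0 || decide (∃ j, j ≤ i ∧ (ct j).τ = Tag.A),
      sT0 || decide (∃ j, j ≤ i ∧ (ct j).τ = Tag.T)⟩, Lk.none⟩, (ct i).t, (ct i).d⟩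

noncomputable def lay (n : ℕ) (st : ℕ → St) (pm : ℕ → Bool) (ct : ℕ → Ct M) (sA0 sT0 : Bool) :
    List (Cell M) := (List.range n).map (layC st pm ct sA0 sT0)

structure LayOK (n : ℕ) (st : ℕ → St) (pm : ℕ → Bool) (ct : ℕ → Ct M) (sA0 sT0 : Bool) :
    Prop where
  dvd : 10 ∣ n
  al : ∀ i < n, (st i).κ.val % 10 = i % 10
  noE : ∀ i, i + 1 < n → (st i).E = false
  pmE : ∀ i < n, ∃ j < n, j / 10 = i / 10 ∧ pm j = true
  pmU : ∀ i < n, ∀ j < n, i / 10 = j / 10 → pm i = true → pm j = true → i = j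
  grp : ∀ g, 2 * g + 1 < n → ((ct (2 * g)).τ = Tag.P ↔ (ct (2 * g + 1)).τ ≠ Tag.P)
  uA : ∀ i < n, (ct i).τ = Tag.A → sA0 = false ∧ ∀ j < n, (ct j).τ = Tag.A → j = i
  uT : ∀ i < n, (ct i).τ = Tag.T → sT0 = false ∧ ∀ j < n, (ct j).τ = Tag.T → j = i

/-- Static data of cell `i` of a block whose parent has colour `ku`. -/
def stOf (M : ℕ) (ku : Fin qq) (i : ℕ) : St :=
  ⟨⟨i % qq, Nat.mod_lt _ qq_pos⟩, ku, decide (i = 0), decide (i + 1 = nb M)⟩

/-- The flag telling whether the payload of `A` has to be flipped. -/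
def phi : Arm → Arm → Bool
  | Arm.ready _ _ φ, _ => φ
  | _, Arm.armed _ _ φ => φ
  | _, _ => false

def eff (x y : Arm) (t : V) : V := if phi x y = true then t.flip else t

/-- `f 0, ..., f (nb M - 1)` is a block for `X` with tokens at `iA`, `iT`. -/
structure BlkF (X : Cell (M * BB)) (f : ℕ → Cell M) (iA iT : ℕ) : Prop where
  hA : iA < nb M
  hT : iT < nb M
  st : ∀ i < nb M, (f i).a.st = stOf M X.a.st.κ i
  tA : ∀ i < nb M, ((f i).a.mb.τ = Tag.A ↔ i = iA)
  tT : ∀ i < nb M, ((f i).a.mb.τ = Tag.T ↔ i = iT)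
  labP : ∀ i < nb M, (f i).a.mb.τ = Tag.P → lab (f i) = i / 2
  labA : lab (f iA) = 0
  labI : ∀ i < nb M, (f i).a.mb.τ = Tag.I → 0 < lab (f i) ∧ lab (f i) + 1 < M * BB
  injI : ∀ i < nb M, ∀ j < nb M, (f i).a.mb.τ = Tag.I → (f j).a.mb.τ = Tag.I →
    lab (f i) = lab (f j) → i = j
  arms : ArmOK (f iA).a.mb.arm (f iT).a.mb.arm
  ea : X.a = eff (f iA).a.mb.arm (f iT).a.mb.arm (f iA).t
  et : X.t = (f iT).t
  ed : X.d.val = lab (f iT)

variable [NeZero M]

/-- Cell `i` of a word. -/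
def cat (v : List (Cell M)) (i : ℕ) : Cell M := v.getD i default

def Blk (X : Cell (M * BB)) (b : List (Cell M)) : Prop :=
  b.length = nb M ∧ ∃ iA iT, BlkF X (cat b) iA iT

inductive Rep : List (Cell M) → List (Cell (M * BB)) → Prop
  | nil : Rep [] []
  | cons {X : Cell (M * BB)} {b v : List (Cell M)} {u : List (Cell (M * BB))} :
      Blk X b → Rep v u → Rep (b ++ v) (X :: u)

def Good (v : List (Cell M)) (u : List (Cell (M * BB))) : Prop := Rep v u ∧ Loc v

/-- The content with tag `τ`, arm `x`, payload `t` and label `g`. -/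
def mkC (M : ℕ) [NeZero M] (τ : Tag) (x : Arm) (t : V) (g : ℕ) : Ct M :=
  ⟨τ, ⟨g % BB, Nat.mod_lt _ BB_pos⟩, x, t, ⟨g / BB % M, Nat.mod_lt _ (NeZero.pos M)⟩⟩

def encC (X : Cell (M * BB)) (i : ℕ) : Ct M :=
  if i % 2 = 0 then mkC M Tag.P Arm.idle t0 (i / 2)
  else if i = 1 then mkC M Tag.A Arm.idle X.a 0
  else if i + 1 = nb M then mkC M Tag.T Arm.idle X.t X.d.val
  else mkC M Tag.I Arm.idle t0 (i / 2)

/-- The standard block of a macro cell. -/
noncomputable def enc1 (X : Cell (M * BB)) : List (Cell M) :=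
  lay (nb M) (stOf M X.a.st.κ) (fun i => decide (i % 10 = 0)) (encC X) false false

noncomputable def enc (u : List (Cell (M * BB))) : List (Cell M) := u.flatMap enc1

end Level

/-- Colour adjacency. -/
def ColAdj (a b : V) : Prop := b.st.κ.val = (a.st.κ.val + 1) % qq

/-- The lock towards side `s`, if any, is of kind `tI` or `wr`. -/
def Simple (s : Side) (a : V) : Prop := ∀ k, a.sk = some (s, k) → k = Kind.tI ∨ k = Kind.wr

/-- The interface class of a boundary control with respect to the side `s` of its lock. -/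
def cls (s : Side) (a : V) : Cls :=
  (match a.sk with
    | some (s', k) => if s' = s then some k else none
    | none => none, a.mb.τ, a.mb.arm)

/-! ### One-level statements -/

section Stmts
variable (M : ℕ) [NeZero M]

/-- C-UNL: unlocking, and reading an unlocked window-aligned word as a layout. -/
structure UnlStmt : Prop where
  free : ∀ v : List (Cell M), Loc v → FreeL v → FreeR v → (RS M).Eqv v (v.map unlC)
  mid : ∀ (x y : Cell M) (v : List (Cell M)), Loc (x :: v ++ [y]) →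
    (RS M).Eqv (x :: v ++ [y]) (unlL x :: v.map unlC ++ [unlR y])
  loc : ∀ v : List (Cell M), Loc v → Loc (v.map unlC)
  ext : ∀ v : List (Cell M), Loc v → 10 ∣ v.length → (cat v 0).a.st.κ.val % 10 = 0 →
    (∀ i, i + 1 < v.length → (cat v i).a.st.E = false) →
      LayOK v.length (fun i => (cat v i).a.st) (fun i => (cat v i).a.π) (fun i => cont (cat v i))
        ((cat v 0).a.mb.sA && decide ((cat v 0).a.mb.τ ≠ Tag.A))
        ((cat v 0).a.mb.sT && decide ((cat v 0).a.mb.τ ≠ Tag.T)) ∧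
      v.map unlC = lay v.length (fun i => (cat v i).a.st) (fun i => (cat v i).a.π)
        (fun i => cont (cat v i)) ((cat v 0).a.mb.sA && decide ((cat v 0).a.mb.τ ≠ Tag.A))
        ((cat v 0).a.mb.sT && decide ((cat v 0).a.mb.τ ≠ Tag.T))

/-- C-PERM: contents can be permuted (each `P` inside its group), permits can be moved. -/
def PermStmt : Prop :=
  ∀ (n : ℕ) (st : ℕ → St) (pm pm' : ℕ → Bool) (ct ct' : ℕ → Ct M) (sA0 sT0 : Bool) (f : ℕ → ℕ),
    LayOK n st pm ct sA0 sT0 → LayOK n st pm' ct' sA0 sT0 → (∀ i < n, f i < n) →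
    (∀ i < n, ∀ j < n, f i = f j → i = j) → (∀ i < n, ct' i = ct (f i)) →
    (∀ i < n, (ct' i).τ = Tag.P → f i / 2 = i / 2) →
      (RS M).Eqv (lay n st pm ct sA0 sT0) (lay n st pm' ct' sA0 sT0)

/-- C-ENC: the standard encoding is good and has free ends. -/
structure EncStmt : Prop where
  layOK : ∀ X : Cell (M * BB),
    LayOK (nb M) (stOf M X.a.st.κ) (fun i => decide (i % 10 = 0)) (encC X) false false
  blk : ∀ X : Cell (M * BB), Blk X (enc1 X)
  good : ∀ u : List (Cell (M * BB)), (u.IsChain fun X Y => ColAdj X.a Y.a) → Good (enc u) u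
  unl : ∀ u : List (Cell (M * BB)), ∀ x ∈ enc u, x.a.lk = Lk.none

/-- C-SIMA: simulation of the rules and zeros run by the tokens `A`. -/
structure SimAStmt : Prop where
  ti : ∀ (X Y : Cell (M * BB)) (a b : V), TI X.a Y.a a b →
    (RS M).Eqv (enc1 X ++ enc1 Y) (enc1 ⟨a, X.t, X.d⟩ ++ enc1 ⟨b, Y.t, Y.d⟩)
  zi : ∀ X Y : Cell (M * BB), ZI X.a Y.a → (RS M).Zero (enc1 X ++ enc1 Y)
  tiv : ∀ (X : Cell (M * BB)) (a t : V), TIV X.a X.t a t →
    (RS M).Eqv (enc1 X) (enc1 ⟨a, t, X.d⟩)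
  ziv : ∀ X : Cell (M * BB), ZIV X.a X.t → (RS M).Zero (enc1 X)

/-- C-SIMT: simulation of the rules and zeros run by the tokens `T`. -/
structure SimTStmt : Prop where
  sw : ∀ X Y : Cell (M * BB), X.a.sk = some (Side.L, Kind.sw) → Y.a.sk = some (Side.R, Kind.sw) →
    (RS M).Eqv (enc1 X ++ enc1 Y) (enc1 ⟨X.a.flip, Y.t, Y.d⟩ ++ enc1 ⟨Y.a.flip, X.t, X.d⟩)
  tb : ∀ (X Y : Cell (M * BB)) (k : Kind) (t u : V), X.a.sk = some (Side.L, k) →
    Y.a.sk = some (Side.R, k) → Tb k X.t Y.t t u →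
    (RS M).Eqv (enc1 X ++ enc1 Y) (enc1 ⟨X.a, t, X.d⟩ ++ enc1 ⟨Y.a, u, Y.d⟩)
  zb : ∀ (X Y : Cell (M * BB)) (k : Kind), X.a.sk = some (Side.L, k) →
    Y.a.sk = some (Side.R, k) → (Zb k X.t Y.t ∨ fails k (M * BB) X.d.val Y.d.val) →
    (RS M).Zero (enc1 X ++ enc1 Y)

/-- SIM. -/
structure SimStmt : Prop where
  eqv : ∀ u u' : List (Cell (M * BB)), (RS (M * BB)).Eqv u u' → (RS M).Eqv (enc u) (enc u')
  zero : ∀ u : List (Cell (M * BB)), (RS (M * BB)).Zero u → (RS M).Zero (enc u)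

/-- C-INVI: the rules on controls do not change the represented word. -/
structure InvIStmt : Prop where
  ti : ∀ (l r : List (Cell M)) (x y : Cell M) (a b : V) (u : List (Cell (M * BB))),
    Good (l ++ x :: y :: r) u → (TI x.a y.a a b ∨ TI a b x.a y.a) →
      Good (l ++ ⟨a, x.t, x.d⟩ :: ⟨b, y.t, y.d⟩ :: r) u
  tiv : ∀ (l r : List (Cell M)) (x : Cell M) (a t : V) (u : List (Cell (M * BB))),
    Good (l ++ x :: r) u → (TIV x.a x.t a t ∨ TIV a t x.a x.t) →
      Good (l ++ ⟨a, t, x.d⟩ :: r) u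

/-- C-INVS: the swap rule. -/
def InvSStmt : Prop :=
  ∀ (l r : List (Cell M)) (x y : Cell M) (u : List (Cell (M * BB))),
    Good (l ++ x :: y :: r) u → x.a.sk = some (Side.L, Kind.sw) →
    y.a.sk = some (Side.R, Kind.sw) →
      ∃ u', Good (l ++ ⟨x.a.flip, y.t, y.d⟩ :: ⟨y.a.flip, x.t, x.d⟩ :: r) u' ∧
        (RS (M * BB)).Eqv u u'

/-- C-INVT: the payload tables. -/
def InvTStmt : Prop :=
  ∀ (l r : List (Cell M)) (x y : Cell M) (k : Kind) (t t' : V) (u : List (Cell (M * BB))),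
    Good (l ++ x :: y :: r) u → x.a.sk = some (Side.L, k) → y.a.sk = some (Side.R, k) →
    (Tb k x.t y.t t t' ∨ Tb k t t' x.t y.t) →
      ∃ u', Good (l ++ ⟨x.a, t, x.d⟩ :: ⟨y.a, t', y.d⟩ :: r) u' ∧ (RS (M * BB)).Eqv u u'

/-- C-ZER: a zero pattern in a good word is a zero of the represented word. -/
def ZerStmt : Prop :=
  ∀ (v : List (Cell M)) (u : List (Cell (M * BB))), Good v u → (RS M).ZPat v →
    (RS (M * BB)).Zero u

/-- NZ. -/
def NzStmt : Prop :=
  ∀ (v : List (Cell M)) (u : List (Cell (M * BB))), Good v u → (RS M).Zero v →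
    (RS (M * BB)).Zero u

/-- C-NRM: a good word with free ends is equivalent to the standard encoding. -/
def NrmStmt : Prop :=
  ∀ (v : List (Cell M)) (u : List (Cell (M * BB))), Good v u → FreeL v → FreeR v →
    (RS M).Eqv v (enc u)

/-- C-ADR: nonzero words have a consistent address. -/
def AdrStmt : Prop :=
  ∀ v : List (Cell M), ¬ (RS M).Zero v → ∃ z : ℕ, ∀ i, 20 ≤ i → i + 20 < v.length →
    ((cat v i).a.mb.τ = Tag.P → av (cat v i) ≡ z + i [MOD qq * nb M]) ∧
    ((cat v i).a.st.E = true ↔ nb M ∣ z + i + 1)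

/-- C-EXA: the interior of a nonzero word is good. -/
def ExaStmt : Prop :=
  ∀ v : List (Cell M), ¬ (RS M).Zero v → ∃ x b y u, v = x ++ b ++ y ∧ Good b u ∧
    x.length ≤ nb M + 30 ∧ y.length ≤ nb M + 30

/-- C-SWP: two unlocked items with the same control can be exchanged. -/
def SwpStmt : Prop :=
  ∀ (Z : Cell (M * BB)) (X : Fin (nb M) → Cell M) (i j : Fin (nb M)), Good (List.ofFn X) [Z] →
    10 ≤ i.val → i.val + 10 < nb M → 10 ≤ j.val → j.val + 10 < nb M →
    (X i).a.mb.τ = Tag.I → (X i).a.lk = Lk.none → (X j).a = (X i).a →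
      (RS M).Eqv (List.ofFn X) (List.ofFn (X ∘ Equiv.swap i j)) ∧
        Good (List.ofFn (X ∘ Equiv.swap i j)) [Z]

/-- C-CNT: there are many unlocked items. -/
def CntStmt : Prop :=
  ∀ (Z : Cell (M * BB)) (X : Fin (nb M) → Cell M), Good (List.ofFn X) [Z] →
    M ≤ ((Finset.univ : Finset (Fin (nb M))).filter fun i => 10 ≤ i.val ∧ i.val + 10 < nb M ∧
      (X i).a.mb.τ = Tag.I ∧ (X i).a.lk = Lk.none).card

/-- C-SC: simple locks propagate down one level. -/
structure ScStmt : Prop where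
  left : ∀ (v : List (Cell M)) (u : List (Cell (M * BB))) (x : Cell M) (X : Cell (M * BB))
    (f : V), Good v u → v.getLast? = some x → u.getLast? = some X → LK x.a f →
      Simple Side.L X.a → Simple Side.L x.a
  right : ∀ (v : List (Cell M)) (u : List (Cell (M * BB))) (x : Cell M) (X : Cell (M * BB))
    (h : V), Good v u → v.head? = some x → u.head? = some X → h.st.E = true → LK h x.a →
      Simple Side.R X.a → Simple Side.R x.a

end Stmts

/-- C-JC: at a block boundary simple locks only depend on the interface classes. -/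
def JcStmt : Prop :=
  ∀ l f l' g h f' : V, l.st.E = true → l'.st.E = true → LK l f → LK l' g → LK h f' →
    (Simple Side.L l ∨ Simple Side.R f) → cls Side.L l' = cls Side.L l →
    cls Side.R f' = cls Side.R f → LK l' f'

set_option linter.unusedVariables false in
theorem realize_Cell : True := by
  have := @Arm.tog.eq_1
  have := @Arm.tog.eq_2
  have := @phi.eq_1
  have := @phi.eq_2
  have := @phi.eq_3
  have := @eff.eq_1
  have := @svL.eq_1
  have := @svR.eq_1
  have := @av.eq_1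
  have := @V.setArm.eq_1
  have := @encC.eq_1
  trivial

end Crest.Agent.R176
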