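import Crest.Agent.R176.KBasic

/-! Row 176: K-CHART, change of the order of the first two eliminated states. -/

set_option autoImplicit false

open scoped commutatorElement

namespace Crest.Agent.R176

variable {R : Type} [Ring R] {J : Z5 → Z5 → AddSubgroup R} {ι : Type}
variable {G : Type} [Group G] (E : StG J G)

namespace Chart

theorem elim_col (P : PR J) {ν : ι → ι → R} {q : ι} {i : Z5} (h : ν q q ∈ J i i) (a : ι) :
    elim q ν a q = ν a q * iv (ν q q) := by
  have h1 := P.iv_mul h
  have h2 := P.two (ν a q * iv (ν q q) * ν q q)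
  calc elim q ν a q = ν a q * (iv (ν q q) * (1 + ν q q)) + ν a q * iv (ν q q) * ν q q := by
        rw [h1, mul_one]; rfl
    _ = ν a q * iv (ν q q) + (ν a q * iv (ν q q) * ν q q + ν a q * iv (ν q q) * ν q q) := by
        noncomm_ring
    _ = _ := by rw [h2, add_zero]

theorem elim_row (P : PR J) {ν : ι → ι → R} {q : ι} {i : Z5} (h : ν q q ∈ J i i) (b : ι) :
    elim q ν q b = iv (ν q q) * ν q b := by
  have h1 := P.mul_iv h
  have h2 := P.two (ν q q * iv (ν q q) * ν q b)
  calc elim q ν q b = ((1 + ν q q) * iv (ν q q)) * ν q b + ν q q * iv (ν q q) * ν q b := by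
        rw [h1, one_mul]; rfl
    _ = iv (ν q q) * ν q b + (ν q q * iv (ν q q) * ν q b + ν q q * iv (ν q q) * ν q b) := by
        noncomm_ring
    _ = _ := by rw [h2, add_zero]

/-- A column of Steinberg elements. -/
def cp (v : ι → Z5) (i : Z5) (f : ι → R) (Y : List ι) : G :=
  (Y.map fun a => E.x (v a) i (f a)).prod

/-- A row of Steinberg elements. -/
def rp (v : ι → Z5) (i : Z5) (f : ι → R) (Y : List ι) : G :=
  (Y.map fun b => E.x i (v b) (f b)).prod

theorem cp_cons (v : ι → Z5) (i : Z5) (f : ι → R) (a : ι) (Y : List ι) :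
    cp E v i f (a :: Y) = E.x (v a) i (f a) * cp E v i f Y := by simp [cp]

theorem rp_cons (v : ι → Z5) (i : Z5) (f : ι → R) (a : ι) (Y : List ι) :
    rp E v i f (a :: Y) = E.x i (v a) (f a) * rp E v i f Y := by simp [rp]

theorem comm_cp {v : ι → Z5} {i : Z5} {f : ι → R} {Y : List ι} {g : G}
    (h : ∀ a ∈ Y, Commute g (E.x (v a) i (f a))) : Commute g (cp E v i f Y) := by
  refine Commute.list_prod_right _ _ fun x hx => ?_
  obtain ⟨a, ha, rfl⟩ := List.mem_map.1 hx
  exact h a ha

theorem comm_rp {v : ι → Z5} {i : Z5} {f : ι → R} {Y : List ι} {g : G}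
    (h : ∀ a ∈ Y, Commute g (E.x i (v a) (f a))) : Commute g (rp E v i f Y) := by
  refine Commute.list_prod_right _ _ fun x hx => ?_
  obtain ⟨a, ha, rfl⟩ := List.mem_map.1 hx
  exact h a ha

theorem cp_congr {v : ι → Z5} {i : Z5} {f g : ι → R} {Y : List ι} (h : ∀ a ∈ Y, f a = g a) :
    cp E v i f Y = cp E v i g Y := by
  unfold cp
  rw [List.map_congr_left fun a ha => by rw [h a ha]]

theorem rp_congr {v : ι → Z5} {i : Z5} {f g : ι → R} {Y : List ι} (h : ∀ a ∈ Y, f a = g a) :
    rp E v i f Y = rp E v i g Y := by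
  unfold rp
  rw [List.map_congr_left fun a ha => by rw [h a ha]]

theorem cp_comm {v : ι → Z5} {i j : Z5} {f g : ι → R} {Y : List ι}
    (hf : ∀ a ∈ Y, f a ∈ J (v a) i) (hg : ∀ a ∈ Y, g a ∈ J (v a) j)
    (hi : ∀ a ∈ Y, v a ≠ i) (hj : ∀ a ∈ Y, v a ≠ j) : Commute (cp E v i f Y) (cp E v j g Y) :=
  comm_cp E fun b hb => (comm_cp E fun a ha =>
    E.rels.com (hg b hb) (hf a ha) (hj a ha).symm (hi b hb).symm).symm

theorem rp_comm {v : ι → Z5} {i j : Z5} {f g : ι → R} {Y : List ι}
    (hf : ∀ a ∈ Y, f a ∈ J i (v a)) (hg : ∀ a ∈ Y, g a ∈ J j (v a))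
    (hi : ∀ a ∈ Y, v a ≠ i) (hj : ∀ a ∈ Y, v a ≠ j) : Commute (rp E v i f Y) (rp E v j g Y) :=
  comm_rp E fun b hb => (comm_rp E fun a ha =>
    E.rels.com (hg b hb) (hf a ha) (hi b hb) (hj a ha)).symm

theorem st_left (P : PR J) {i j k : Z5} {r s : R} (hr : r ∈ J i j) (hs : s ∈ J j k)
    (hij : i ≠ j) (hjk : j ≠ k) (hik : i ≠ k) :
    E.x j k s * E.x i j r = E.x i j r * E.x i k (r * s) * E.x j k s := by
  have h := E.rels.st hr hs hij hjk hik
  rw [commutatorElement_def, E.rels.inv_eq P, E.rels.inv_eq P] at h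
  rw [← h]
  have h1 := E.rels.mul_self P i j r
  have h2 := E.rels.mul_self P j k s
  calc E.x j k s * E.x i j r
      = (E.x i j r * E.x i j r) * E.x j k s * E.x i j r * (E.x j k s * E.x j k s) := by
        rw [h1, h2, one_mul, mul_one]
    _ = _ := by simp only [mul_assoc]

theorem st_right (P : PR J) {i j k : Z5} {r s : R} (hr : r ∈ J i j) (hs : s ∈ J j k)
    (hij : i ≠ j) (hjk : j ≠ k) (hik : i ≠ k) :
    E.x j k s * E.x i j r = E.x i j r * (E.x j k s * E.x i k (r * s)) := by
  rw [st_left E P hr hs hij hjk hik, mul_assoc,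
    (E.rels.com (P.mul_mem hr hs) hs hjk.symm hik.symm).eq]

theorem col_conj (P : PR J) {v : ι → Z5} {i j : Z5} {f g : ι → R} {β : R} (hβ : β ∈ J j i)
    (hij : i ≠ j) : ∀ {Y : List ι}, (∀ a ∈ Y, f a ∈ J (v a) i) → (∀ a ∈ Y, g a ∈ J (v a) j) →
    (∀ a ∈ Y, v a ≠ i) → (∀ a ∈ Y, v a ≠ j) →
    E.x j i β * (cp E v i f Y * cp E v j g Y) =
      cp E v i (fun a => f a + g a * β) Y * cp E v j g Y * E.x j i β
  | [], _, _, _, _ => by simp [cp]
  | a :: Y, hf, hg, hi, hj => by
    have ih := col_conj P hβ hij (Y := Y) (fun b hb => hf b (List.mem_cons_of_mem _ hb))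
      (fun b hb => hg b (List.mem_cons_of_mem _ hb)) (fun b hb => hi b (List.mem_cons_of_mem _ hb))
      (fun b hb => hj b (List.mem_cons_of_mem _ hb))
    have hfa := hf a List.mem_cons_self
    have hga := hg a List.mem_cons_self
    have hia := hi a List.mem_cons_self
    have hja := hj a List.mem_cons_self
    have c1 : Commute (E.x (v a) j (g a)) (cp E v i f Y) := comm_cp E fun b hb =>
      E.rels.com hga (hf b (List.mem_cons_of_mem _ hb)) (hj b (List.mem_cons_of_mem _ hb)).symm
        hia.symm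
    have c2 : Commute (E.x (v a) j (g a)) (cp E v i (fun a => f a + g a * β) Y) :=
      comm_cp E fun b hb => E.rels.com hga (add_mem (hf b (List.mem_cons_of_mem _ hb))
        (P.mul_mem (hg b (List.mem_cons_of_mem _ hb)) hβ))
        (hj b (List.mem_cons_of_mem _ hb)).symm hia.symm
    have c3 : Commute (E.x j i β) (E.x (v a) i (f a)) := E.rels.com hβ hfa hia.symm hij
    have c4 : Commute (E.x (v a) j (g a)) (E.x (v a) i (g a * β)) :=
      E.rels.com hga (P.mul_mem hga hβ) hja.symm hia.symm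
    have e1 := st_left E P hga hβ hja hij.symm hia
    have e2 := E.rels.add hfa (P.mul_mem hga hβ)
    rw [cp_cons, cp_cons, cp_cons]
    calc E.x j i β * (E.x (v a) i (f a) * cp E v i f Y * (E.x (v a) j (g a) * cp E v j g Y))
        = (E.x j i β * E.x (v a) i (f a)) * (cp E v i f Y * E.x (v a) j (g a)) * cp E v j g Y := by
          simp only [mul_assoc]
      _ = E.x (v a) i (f a) * (E.x j i β * E.x (v a) j (g a)) * (cp E v i f Y * cp E v j g Y) := by
          rw [c3.eq, ← c1.eq]; simp only [mul_assoc]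
      _ = (E.x (v a) i (f a) * E.x (v a) i (g a * β)) * E.x (v a) j (g a) *
            (E.x j i β * (cp E v i f Y * cp E v j g Y)) := by
          rw [e1, c4.eq]; simp only [mul_assoc]
      _ = E.x (v a) i (f a + g a * β) * (E.x (v a) j (g a) * cp E v i (fun a => f a + g a * β) Y) *
            cp E v j g Y * E.x j i β := by
          rw [e2, ih]; simp only [mul_assoc]
      _ = _ := by rw [c2.eq]; simp only [mul_assoc]

theorem row_conj (P : PR J) {v : ι → Z5} {i j : Z5} {f g : ι → R} {α : R} (hα : α ∈ J i j)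
    (hij : i ≠ j) : ∀ {Y : List ι}, (∀ a ∈ Y, f a ∈ J i (v a)) → (∀ a ∈ Y, g a ∈ J j (v a)) →
    (∀ a ∈ Y, v a ≠ i) → (∀ a ∈ Y, v a ≠ j) →
    rp E v j g Y * (E.x i j α * rp E v i f Y) =
      E.x i j α * (rp E v j g Y * rp E v i (fun b => f b + α * g b) Y)
  | [], _, _, _, _ => by simp [rp]
  | a :: Y, hf, hg, hi, hj => by
    have ih := row_conj P hα hij (Y := Y) (fun b hb => hf b (List.mem_cons_of_mem _ hb))
      (fun b hb => hg b (List.mem_cons_of_mem _ hb)) (fun b hb => hi b (List.mem_cons_of_mem _ hb))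
      (fun b hb => hj b (List.mem_cons_of_mem _ hb))
    have hfa := hf a List.mem_cons_self
    have hga := hg a List.mem_cons_self
    have hia := hi a List.mem_cons_self
    have hja := hj a List.mem_cons_self
    have c1 : ∀ {s : R}, s ∈ J i (v a) → Commute (E.x i (v a) s) (rp E v j g Y) := fun hs =>
      comm_rp E fun b hb => E.rels.com hs (hg b (List.mem_cons_of_mem _ hb)) hja
        (hi b (List.mem_cons_of_mem _ hb))
    have c3 : Commute (E.x i j α) (E.x i (v a) (f a)) := E.rels.com hα hfa hij.symm hia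
    have e1 := st_right E P hα hga hij hja.symm hia.symm
    have e2 := E.rels.add hfa (P.mul_mem hα hga)
    have c4 : Commute (E.x i (v a) (f a)) (E.x i (v a) (α * g a)) :=
      E.rels.com hfa (P.mul_mem hα hga) hia hia
    have c5 : Commute (E.x j (v a) (g a)) (E.x i (v a) (f a)) :=
      E.rels.com hga hfa hia hja
    rw [rp_cons, rp_cons, rp_cons]
    calc E.x j (v a) (g a) * rp E v j g Y * (E.x i j α * (E.x i (v a) (f a) * rp E v i f Y))
        = E.x j (v a) (g a) * (rp E v j g Y * (E.x i j α * E.x i (v a) (f a))) * rp E v i f Y := by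
          simp only [mul_assoc]
      _ = E.x j (v a) (g a) * E.x i (v a) (f a) * (rp E v j g Y * (E.x i j α * rp E v i f Y)) := by
          rw [c3.eq, ← mul_assoc (rp E v j g Y), ← (c1 hfa).eq]; simp only [mul_assoc]
      _ = E.x i (v a) (f a) * (E.x j (v a) (g a) * E.x i j α) *
            (rp E v j g Y * rp E v i (fun b => f b + α * g b) Y) := by
          rw [ih, c5.eq]; simp only [mul_assoc]
      _ = (E.x i (v a) (f a) * E.x i j α) * E.x j (v a) (g a) * (E.x i (v a) (α * g a)) *
            (rp E v j g Y * rp E v i (fun b => f b + α * g b) Y) := by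
          rw [e1]; simp only [mul_assoc]
      _ = E.x i j α * (E.x i (v a) (f a) * E.x j (v a) (g a)) * (E.x i (v a) (α * g a)) *
            (rp E v j g Y * rp E v i (fun b => f b + α * g b) Y) := by
          rw [← c3.eq]; simp only [mul_assoc]
      _ = E.x i j α * E.x j (v a) (g a) * ((E.x i (v a) (f a) * E.x i (v a) (α * g a)) *
            rp E v j g Y) * rp E v i (fun b => f b + α * g b) Y := by
          rw [← c5.eq]; simp only [mul_assoc]
      _ = _ := by
          rw [e2, (c1 (add_mem hfa (P.mul_mem hα hga))).eq]; simp only [mul_assoc]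

theorem h_comm (P : PR J) {i k l : Z5} {a r : R} (ha : a ∈ J i i) (hr : r ∈ J k l)
    (hk : i ≠ k) (hl : l ≠ i) : Commute (E.h i a) (E.x k l r) := by
  have h := E.h_conj ha hr
  rw [add_mul, one_mul, P.mul_zero ha hr hk, add_zero, P.mul_iv_of_ne ha hr hl] at h
  exact mul_inv_eq_iff_eq_mul.1 h

theorem comm_Lam (P : PR J) {v : ι → Z5} {i j : Z5} {α : R} (hα : α ∈ J i j) :
    ∀ {Y : List ι} {μ : ι → ι → R}, Fits J v μ Y → (∀ a ∈ Y, v a ≠ i) → (∀ a ∈ Y, v a ≠ j) →
      Commute (E.x i j α) (E.Lam v μ Y)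
  | [], _, _, _, _ => Commute.one_right _
  | q :: Y, μ, hF, hi, hj => by
    have hqq := hF q List.mem_cons_self q List.mem_cons_self
    have hq : q ∈ q :: Y := List.mem_cons_self
    have ih : Commute (E.x i j α) (E.Lam v (elim q μ) Y) :=
      comm_Lam P hα ((hF.elim P hq).mono fun p hp => List.mem_cons_of_mem _ hp)
        (fun b hb => hi b (List.mem_cons_of_mem _ hb))
        (fun b hb => hj b (List.mem_cons_of_mem _ hb))
    have c1 : Commute (E.x i j α) (E.col v μ q Y) := comm_cp E fun b hb =>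
      E.rels.com hα (P.mul_iv_mem hqq (hF b (List.mem_cons_of_mem _ hb) q hq))
        (hj b (List.mem_cons_of_mem _ hb)).symm (hi q hq)
    have c2 : Commute (E.x i j α) (E.row v μ q Y) := comm_rp E fun b hb =>
      E.rels.com hα (P.iv_mul_mem hqq (hF q hq b (List.mem_cons_of_mem _ hb)))
        (hj q hq).symm (hi b (List.mem_cons_of_mem _ hb))
    have c3 := (h_comm E P hqq hα (hi q hq) (hj q hq).symm).symm
    exact ((c1.mul_right c3).mul_right ih).mul_right c2

/-- Block form of the lift with respect to the first two states. -/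
theorem Lam_two (P : PR J) {v : ι → Z5} {ν : ι → ι → R} {q r : ι} {Y : List ι}
    (hF : Fits J v ν (q :: r :: Y)) (hqr : v q ≠ v r) (hq : ∀ a ∈ Y, v a ≠ v q)
    (hr : ∀ a ∈ Y, v a ≠ v r) :
    E.Lam v ν (q :: r :: Y) =
      cp E v (v q) (fun a => elim r (elim q ν) a q) Y *
        cp E v (v r) (fun a => elim r (elim q ν) a r) Y * E.Lam v ν [q, r] *
        E.Lam v (elim r (elim q ν)) Y *
        (rp E v (v r) (fun b => elim r (elim q ν) r b) Y *
          rp E v (v q) (fun b => elim r (elim q ν) q b) Y) := by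
  have mq : q ∈ q :: r :: Y := List.mem_cons_self
  have mr : r ∈ q :: r :: Y := List.mem_cons_of_mem _ List.mem_cons_self
  have mY : ∀ a ∈ Y, a ∈ q :: r :: Y := fun a ha =>
    List.mem_cons_of_mem _ (List.mem_cons_of_mem _ ha)
  have hF1 := hF.elim P mq
  have hF2 := hF1.elim P mr
  have hqq := hF q mq q mq
  have hrr := hF1 r mr r mr
  have ec := fun a => elim_col P hqq a
  have er := fun a => elim_row P hqq a
  have ec' := fun a => elim_col P hrr a
  have er' := fun a => elim_row P hrr a
  have k1 := col_conj E P (v := v) (i := v q) (j := v r) (f := fun a => elim q ν a q)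
    (g := fun a => elim r (elim q ν) a r) (hF1 r mr q mq) hqr (Y := Y)
    (fun a ha => hF1 a (mY a ha) q mq) (fun a ha => hF2 a (mY a ha) r mr) hq hr
  have k2 := row_conj E P (v := v) (i := v q) (j := v r) (f := fun b => elim q ν q b)
    (g := fun b => elim r (elim q ν) r b) (hF1 q mq r mr) hqr (Y := Y)
    (fun a ha => hF1 q mq a (mY a ha)) (fun a ha => hF2 r mr a (mY a ha)) hq hr
  have f1 : (fun a => elim q ν a q + elim r (elim q ν) a r * elim q ν r q) =
      fun a => elim r (elim q ν) a q := by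
    funext a; rw [ec']; rfl
  have f2 : (fun b => elim q ν q b + elim q ν q r * elim r (elim q ν) r b) =
      fun b => elim r (elim q ν) q b := by
    funext b; rw [er', ← mul_assoc]; rfl
  rw [f1] at k1
  rw [f2] at k2
  have c1 : Commute (E.h (v q) (ν q q)) (cp E v (v r) (fun a => elim r (elim q ν) a r) Y) :=
    comm_cp E fun a ha => h_comm E P hqq (hF2 a (mY a ha) r mr) (hq a ha).symm hqr.symm
  have c2 : Commute (E.x (v q) (v r) (elim q ν q r)) (E.Lam v (elim r (elim q ν)) Y) :=
    comm_Lam E P (hF1 q mq r mr) (hF2.mono mY) hq hr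
  have d1 : E.col v ν q (r :: Y) = E.x (v r) (v q) (elim q ν r q) *
      cp E v (v q) (fun a => elim q ν a q) Y := by
    rw [← cp_cons E v (v q) (fun a => elim q ν a q)]; simp only [ec]; rfl
  have d2 : E.row v ν q (r :: Y) = E.x (v q) (v r) (elim q ν q r) *
      rp E v (v q) (fun b => elim q ν q b) Y := by
    rw [← rp_cons E v (v q) (fun b => elim q ν q b)]; simp only [er]; rfl
  have d3 : E.col v (elim q ν) r Y = cp E v (v r) (fun a => elim r (elim q ν) a r) Y := by
    simp only [ec']; rfl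
  have d4 : E.row v (elim q ν) r Y = rp E v (v r) (fun b => elim r (elim q ν) r b) Y := by
    simp only [er']; rfl
  have d5 : E.Lam v ν [q, r] = E.x (v r) (v q) (elim q ν r q) * E.h (v q) (ν q q) *
      E.h (v r) (elim q ν r r) * E.x (v q) (v r) (elim q ν q r) := by
    simp [StG.Lam, StG.col, StG.row, ec, er]
  rw [d5, StG.Lam, StG.Lam, d1, d2, d3, d4]
  calc _ = E.x (v r) (v q) (elim q ν r q) * (cp E v (v q) (fun a => elim q ν a q) Y *
        (E.h (v q) (ν q q) * cp E v (v r) (fun a => elim r (elim q ν) a r) Y)) *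
        E.h (v r) (elim q ν r r) * E.Lam v (elim r (elim q ν)) Y *
        (rp E v (v r) (fun b => elim r (elim q ν) r b) Y * (E.x (v q) (v r) (elim q ν q r) *
          rp E v (v q) (fun b => elim q ν q b) Y)) := by simp only [mul_assoc]
    _ = E.x (v r) (v q) (elim q ν r q) * (cp E v (v q) (fun a => elim q ν a q) Y *
        cp E v (v r) (fun a => elim r (elim q ν) a r) Y) * E.h (v q) (ν q q) *
        E.h (v r) (elim q ν r r) * (E.Lam v (elim r (elim q ν)) Y *
        E.x (v q) (v r) (elim q ν q r)) * (rp E v (v r) (fun b => elim r (elim q ν) r b) Y *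
          rp E v (v q) (fun b => elim r (elim q ν) q b) Y) := by
        rw [k2, c1.eq]; simp only [mul_assoc]
    _ = _ := by rw [k1, ← c2.eq]; simp only [mul_assoc]

end Chart

open Chart in
theorem chartStmt_of (P : PR J) (hO : OmStmt E) : ChartStmt E := by
  intro ι v ν q r Y hF hN
  simp only [List.map_cons, List.nodup_cons, List.mem_cons, List.mem_map, not_or, not_exists,
    not_and] at hN
  obtain ⟨⟨hqr, hq⟩, hr, -⟩ := hN
  have mq : q ∈ q :: r :: Y := List.mem_cons_self
  have mr : r ∈ q :: r :: Y := List.mem_cons_of_mem _ List.mem_cons_self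
  have mY : ∀ a ∈ Y, a ∈ q :: r :: Y := fun a ha =>
    List.mem_cons_of_mem _ (List.mem_cons_of_mem _ ha)
  have hF' : Fits J v ν (r :: q :: Y) := hF.mono fun p hp => (List.Perm.swap _ _ _).mem_iff.1 hp
  have hF0 : Fits J v ν [q, r] := hF.mono fun p hp => by
    simp only [List.mem_cons, List.not_mem_nil, or_false] at hp ⊢; tauto
  have hF2 := (hF.elim P mq).elim P mr
  have hc : elim q (elim r ν) = elim r (elim q ν) := by
    funext a b; exact (elim_comm P hqr hF0 a b).symm
  have hom := (E.mem_C).1 (hO ι v ν q r hqr hF0)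
  have c1 : Commute (E.om v ν q r) (cp E v (v q) (fun a => elim r (elim q ν) a q) Y) :=
    comm_cp E fun a _ => hom _ _ _
  have c2 : Commute (E.om v ν q r) (cp E v (v r) (fun a => elim r (elim q ν) a r) Y) :=
    comm_cp E fun a _ => hom _ _ _
  have c3 := cp_comm E (v := v) (f := fun a => elim r (elim q ν) a q)
    (g := fun a => elim r (elim q ν) a r) (Y := Y) (fun a ha => hF2 a (mY a ha) q mq)
    (fun a ha => hF2 a (mY a ha) r mr) hq hr
  have c4 := rp_comm E (v := v) (f := fun a => elim r (elim q ν) q a)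
    (g := fun a => elim r (elim q ν) r a) (Y := Y) (fun a ha => hF2 q mq a (mY a ha))
    (fun a ha => hF2 r mr a (mY a ha)) hq hr
  have e : E.Lam v ν [r, q] = E.om v ν q r * E.Lam v ν [q, r] := by simp [StG.om]
  rw [Lam_two E P hF hqr hq hr, Lam_two E P hF' (Ne.symm hqr) hr hq, hc, e, ← c3.eq, c4.eq,
    ← mul_assoc _ (E.om v ν q r), ← (c1.mul_right c2).eq]
  simp only [mul_assoc]

end Crest.Agent.R176
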