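import Crest.Agent.R176.KBasic

/-! Row 176: a block-cyclic two-vertex matrix reduces to its first-return matrix. -/

set_option autoImplicit false

open scoped commutatorElement

namespace Crest.Agent.R176

variable {R : Type} [Ring R] {J : Z5 → Z5 → AddSubgroup R}

namespace Cyc

variable {ι₁ ι₂ : Type}

/-- copy `k` of the list `A` -/
def Ac (ι₂ : Type) (A : List ι₁) (k : ℕ) : List ((ι₁ × ℕ) ⊕ (ι₂ × ℕ)) :=
  A.map fun p => Sum.inl (p, k)

/-- copy `k` of the list `B` -/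
def Bc (ι₁ : Type) (B : List ι₂) (k : ℕ) : List ((ι₁ × ℕ) ⊕ (ι₂ × ℕ)) :=
  B.map fun q => Sum.inr (q, k)

/-- the interleaved list of the copies `1, ..., m` -/
def W (A : List ι₁) (B : List ι₂) (m : ℕ) : List ((ι₁ × ℕ) ⊕ (ι₂ × ℕ)) :=
  (List.range' 1 m).flatMap fun k => Ac ι₂ A k ++ Bc ι₁ B k

lemma mem_Ac {A : List ι₁} {k : ℕ} {s : (ι₁ × ℕ) ⊕ (ι₂ × ℕ)} :
    s ∈ Ac ι₂ A k ↔ ∃ p ∈ A, s = Sum.inl (p, k) := by
  simp [Ac, eq_comm]

lemma mem_Bc {B : List ι₂} {k : ℕ} {s : (ι₁ × ℕ) ⊕ (ι₂ × ℕ)} :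
    s ∈ Bc ι₁ B k ↔ ∃ q ∈ B, s = Sum.inr (q, k) := by
  simp [Bc, eq_comm]

lemma mem_W {A : List ι₁} {B : List ι₂} {m : ℕ} {s : (ι₁ × ℕ) ⊕ (ι₂ × ℕ)} :
    s ∈ W A B m ↔ ∃ k, 1 ≤ k ∧ k ≤ m ∧ (s ∈ Ac ι₂ A k ∨ s ∈ Bc ι₁ B k) := by
  simp only [W, List.mem_flatMap, List.mem_range'_1, List.mem_append]
  constructor
  · rintro ⟨k, ⟨h1, h2⟩, h⟩
    exact ⟨k, h1, by omega, h⟩
  · rintro ⟨k, h1, h2, h⟩
    exact ⟨k, ⟨h1, by omega⟩, h⟩

lemma W_succ (A : List ι₁) (B : List ι₂) (m : ℕ) :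
    W A B (m + 1) = W A B m ++ (Ac ι₂ A (m + 1) ++ Bc ι₁ B (m + 1)) := by
  simp [W, List.range'_concat, List.flatMap_append, add_comm]

lemma cblk_inl (A : List ι₁) (K : ℕ) : (cblk K A).map (Sum.inl : _ → (ι₁ × ℕ) ⊕ (ι₂ × ℕ)) =
    (List.range' 1 (K - 1)).flatMap (Ac ι₂ A) ++ Ac ι₂ A 0 := by
  simp only [cblk, List.map_append, List.map_flatMap, List.map_map]
  rfl

lemma cblk_inr (B : List ι₂) (K : ℕ) : (cblk K B).map (Sum.inr : _ → (ι₁ × ℕ) ⊕ (ι₂ × ℕ)) =
    (List.range' 1 (K - 1)).flatMap (Bc ι₁ B) ++ Bc ι₁ B 0 := by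
  simp only [cblk, List.map_append, List.map_flatMap, List.map_map]
  rfl

lemma sh_comm {i j : Z5} (hij : i ≠ j) {X Y : List (ι₁ ⊕ ι₂)} (hX : ∀ s ∈ X, s.isRight)
    (hY : ∀ s ∈ Y, s.isLeft) :
    Sh (Sum.elim (fun _ => i) (fun _ => j)) (X ++ Y) (Y ++ X) := by
  refine Sh.append_comm fun a ha b hb => ?_
  have h1 := hX a ha
  have h2 := hY b hb
  rcases a with a | a
  · cases h1
  rcases b with b | b
  · exact hij.symm
  · cases h2

lemma left_Ac {A : List ι₁} {k : ℕ} : ∀ s ∈ Ac ι₂ A k, s.isLeft := fun s hs => by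
  obtain ⟨p, -, rfl⟩ := mem_Ac.1 hs; rfl

lemma right_Bc {B : List ι₂} {k : ℕ} : ∀ s ∈ Bc ι₁ B k, s.isRight := fun s hs => by
  obtain ⟨p, -, rfl⟩ := mem_Bc.1 hs; rfl

lemma left_OA {A : List ι₁} {l : List ℕ} : ∀ s ∈ l.flatMap (Ac ι₂ A), s.isLeft := fun s hs => by
  obtain ⟨k, -, hk⟩ := List.mem_flatMap.1 hs
  exact left_Ac s hk

lemma right_OB {B : List ι₂} {l : List ℕ} : ∀ s ∈ l.flatMap (Bc ι₁ B), s.isRight := fun s hs => by
  obtain ⟨k, -, hk⟩ := List.mem_flatMap.1 hs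
  exact right_Bc s hk

lemma sh_flat {i j : Z5} (hij : i ≠ j) (A : List ι₁) (B : List ι₂) (l : List ℕ) :
    Sh (Sum.elim (fun _ => i) (fun _ => j)) (l.flatMap fun k => Ac ι₂ A k ++ Bc ι₁ B k)
      (l.flatMap (Ac ι₂ A) ++ l.flatMap (Bc ι₁ B)) := by
  induction l with
  | nil => exact Sh.refl _
  | cons k l ih =>
    simp only [List.flatMap_cons]
    refine (ih.append_left _).trans ?_
    have := ((sh_comm hij (right_Bc (ι₁ := ι₁) (B := B) (k := k))
      (left_OA (A := A) (l := l))).append_left (Ac ι₂ A k)).append_right (l.flatMap (Bc ι₁ B))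
    simpa only [List.append_assoc] using this

section
variable (A : List ι₁) (B : List ι₂) (β : ι₁ → ι₂ → R) (γ : ℕ → ι₂ → ι₁ → R) (K : ℕ)

/-- the edges `A_k → B_k` -/
def ea : ι₁ × ℕ → ι₂ × ℕ → R := fun p q => if p.2 = q.2 then β p.1 q.1 else 0

/-- the edges `B_k → A_{k+1}` -/
def eb : ι₂ × ℕ → ι₁ × ℕ → R := fun q p => if p.2 = (q.2 + 1) % K then γ q.2 q.1 p.1 else 0

/-- the matrix after eliminating the copies `1, ..., m` -/
def nu (m : ℕ) : (ι₁ × ℕ) ⊕ (ι₂ × ℕ) → (ι₁ × ℕ) ⊕ (ι₂ × ℕ) → R :=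
  blk2 (ea β) fun q p => if q.2 = 0 then
    (if p.2 = (m + 1) % K then cycProd A B β γ m q.1 p.1 else 0) else eb γ K q p

/-- the copy of a state -/
def cp : (ι₁ × ℕ) ⊕ (ι₂ × ℕ) → ℕ := Sum.elim Prod.snd Prod.snd

lemma nu_zero : nu A B β γ K 0 = blk2 (ea β) (eb γ K) := by
  unfold nu
  congr 1
  funext q p
  split_ifs with h1 h2
  · simp [eb, h1, h2, cycProd]
  · simp only [eb, h1, if_neg h2]
  · rfl

lemma mulL_congr' {ι κ₁ κ₂ κ₃ κ₄ : Type} {L : List ι} {a : κ₁ → ι → R} {b : ι → κ₂ → R}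
    {a' : κ₃ → ι → R} {b' : ι → κ₄ → R} {p : κ₁} {r : κ₂} {p' : κ₃} {r' : κ₄}
    (h : ∀ q ∈ L, a p q * b q r = a' p' q * b' q r') : mulL L a b p r = mulL L a' b' p' r' :=
  congrArg List.sum (List.map_congr_left h)

lemma mod_ne {K m k : ℕ} (hk : m + 1 ≤ k) (hK : k < K) : m + 1 ≠ (k + 1) % K := by
  rcases (Nat.succ_le_of_lt hK).eq_or_lt with h | h
  · rw [show k + 1 = K from h, Nat.mod_self]; omega
  · rw [Nat.mod_eq_of_lt h]; omega

lemma step {m : ℕ} (hm : m + 1 < K) {s t : (ι₁ × ℕ) ⊕ (ι₂ × ℕ)}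
    (hs : cp s = 0 ∨ (m + 1 < cp s ∧ cp s < K)) (ht : cp t ≠ m + 1) :
    elimL (Ac ι₂ A (m + 1) ++ Bc ι₁ B (m + 1)) (nu A B β γ K m) s t =
      nu A B β γ K (m + 1) s t := by
  set ν := nu A B β γ K m with hν
  have h1 : ∀ s t, elimL (Ac ι₂ A (m + 1)) ν s t = ν s t +
      mulL A (fun s p => ν s (Sum.inl (p, m + 1))) (fun p t => ν (Sum.inl (p, m + 1)) t) s t :=
    fun s t => by
    rw [elimL_zero_block, Ac, mulL_map]
    intro p hp q hq
    obtain ⟨p, -, rfl⟩ := mem_Ac.1 hp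
    obtain ⟨q, -, rfl⟩ := mem_Ac.1 hq
    rfl
  have h2 : ∀ s, (∀ p, ν s (Sum.inl (p, m + 1)) = 0) →
      ∀ t, elimL (Ac ι₂ A (m + 1)) ν s t = ν s t := fun s hs t => by
    rw [h1, mulL_eq_zero (R := R) fun p _ => by rw [hs, zero_mul], add_zero]
  have h3 : ∀ q k, m + 1 ≤ k → k < K → ∀ p, ν (Sum.inr (q, k)) (Sum.inl (p, m + 1)) = 0 :=
    fun q k h h' p => by
    have : k ≠ 0 := by omega
    simp only [hν, nu, blk2, eb, if_neg this, if_neg (mod_ne h h')]
  have h4 : ∀ s t, elimL (Bc ι₁ B (m + 1)) (elimL (Ac ι₂ A (m + 1)) ν) s t =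
      elimL (Ac ι₂ A (m + 1)) ν s t +
      mulL B (fun s q => elimL (Ac ι₂ A (m + 1)) ν s (Sum.inr (q, m + 1)))
        (fun q t => ν (Sum.inr (q, m + 1)) t) s t := fun s t => by
    rw [elimL_zero_block, Bc, mulL_map]
    · congr 1
      exact mulL_congr fun q _ => by rw [h2 _ (h3 q _ le_rfl hm)]
    · intro p hp q hq
      obtain ⟨p, -, rfl⟩ := mem_Bc.1 hp
      obtain ⟨q, -, rfl⟩ := mem_Bc.1 hq
      rw [h2 _ (h3 p _ le_rfl hm)]
      rfl
  rw [elimL_append, h4]
  rcases s with ⟨p, k⟩ | ⟨q, k⟩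
  · have hk : k ≠ m + 1 := by simp only [cp, Sum.elim_inl] at hs; omega
    have h5 := h2 (Sum.inl (p, k)) fun _ => rfl
    rw [h5, mulL_eq_zero (R := R) fun q _ => by
      rw [h5]; simp only [hν, nu, blk2, ea, if_neg hk, zero_mul], add_zero]
    rcases t with t | t <;> rfl
  · simp only [cp, Sum.elim_inr] at hs
    rcases hs with rfl | hs
    · have h5 : ∀ p, ν (Sum.inr (q, 0)) (Sum.inl (p, m + 1)) = cycProd A B β γ m q p := fun p => by
        simp only [hν, nu, blk2, Nat.mod_eq_of_lt hm, if_true]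
      rcases t with ⟨p, l⟩ | ⟨q', l⟩
      · have hl : l ≠ m + 1 := ht
        have h6 : elimL (Ac ι₂ A (m + 1)) ν (Sum.inr (q, 0)) (Sum.inl (p, l)) = 0 := by
          rw [h1, mulL_eq_zero (R := R) fun p _ => by exact mul_zero _, add_zero]
          simp only [hν, nu, blk2, Nat.mod_eq_of_lt hm, if_true, if_neg hl]
        rw [h6, zero_add]
        by_cases h : l = (m + 1 + 1) % K
        · simp only [nu, blk2, if_true, if_pos h, cycProd]
          refine mulL_congr' fun q' _ => ?_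
          congr 1
          · rw [h1]
            refine (zero_add _).trans (mulL_congr' fun p' _ => ?_)
            rw [h5]
            simp only [hν, nu, blk2, ea, if_true]
          · simp only [hν, nu, blk2, eb, if_neg (Nat.succ_ne_zero m), if_pos h]
        · simp only [nu, blk2, if_true, if_neg h]
          refine mulL_eq_zero (R := R) fun q' _ => ?_
          simp only [hν, nu, blk2, eb, if_neg (Nat.succ_ne_zero m), if_neg h, mul_zero]
      · have hl : m + 1 ≠ l := fun h => ht h.symm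
        rw [h1, mulL_eq_zero (R := R) fun p _ => by simp only [hν, nu, blk2, ea, if_neg hl, mul_zero],
          mulL_eq_zero (R := R) fun q _ => by exact mul_zero _, add_zero, add_zero]
        rfl
    · have h5 := h2 _ (h3 q k hs.1.le hs.2)
      rw [h5, mulL_eq_zero (R := R) fun q _ => by rw [h5]; exact zero_mul _, add_zero]
      have : k ≠ 0 := by omega
      rcases t with t | t
      · simp only [hν, nu, blk2, if_neg this]
      · rfl

lemma elim_W {m : ℕ} (hm : m < K) {s t : (ι₁ × ℕ) ⊕ (ι₂ × ℕ)}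
    (hs : cp s = 0 ∨ (m < cp s ∧ cp s < K)) (ht : cp t = 0 ∨ (m < cp t ∧ cp t < K)) :
    elimL (W A B m) (blk2 (ea β) (eb γ K)) s t = nu A B β γ K m s t := by
  induction m generalizing s t with
  | zero => rw [nu_zero]; rfl
  | succ m ih =>
    rw [W_succ, elimL_append, ← step A B β γ K hm hs (by omega)]
    have hg : ∀ u ∈ s :: t :: (Ac ι₂ A (m + 1) ++ Bc ι₁ B (m + 1)),
        cp u = 0 ∨ (m < cp u ∧ cp u < K) := fun u hu => by
      simp only [List.mem_cons, List.mem_append] at hu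
      rcases hu with rfl | rfl | hu | hu
      · omega
      · omega
      · obtain ⟨p, -, rfl⟩ := mem_Ac.1 hu
        exact Or.inr ⟨Nat.lt_succ_self m, hm⟩
      · obtain ⟨p, -, rfl⟩ := mem_Bc.1 hu
        exact Or.inr ⟨Nat.lt_succ_self m, hm⟩
    exact elimL_congr (L := s :: t :: (Ac ι₂ A (m + 1) ++ Bc ι₁ B (m + 1)))
      (fun q hq => by simp only [List.mem_cons]; exact Or.inr (Or.inr hq))
      (fun p hp q hq => ih (by omega) (hg p hp) (hg q hq)) s (by simp) t (by simp)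

end

lemma fits_blk2 {i j : Z5} {a : ι₁ → ι₂ → R} {b : ι₂ → ι₁ → R} {L : List (ι₁ ⊕ ι₂)}
    (ha : ∀ p q, Sum.inl p ∈ L → Sum.inr q ∈ L → a p q ∈ J i j)
    (hb : ∀ p q, Sum.inl p ∈ L → Sum.inr q ∈ L → b q p ∈ J j i) :
    Fits J (Sum.elim (fun _ => i) (fun _ => j)) (blk2 a b) L := by
  rintro (p | p) hp (q | q) hq
  · exact zero_mem _
  · exact ha p q hp hq
  · exact hb q p hq hp
  · exact zero_mem _

lemma cyc_mem (P : PR J) {i j : Z5} {A : List ι₁} {B : List ι₂} {β : ι₁ → ι₂ → R}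
    {γ : ℕ → ι₂ → ι₁ → R} (hβ : InJ J i j A B β) (hγ : ∀ k, InJ J j i B A (γ k)) (k : ℕ) :
    InJ J j i B A (cycProd A B β γ k) := by
  induction k with
  | zero => exact hγ 0
  | succ k ih => exact InJ.mulL P (InJ.mulL P ih hβ) (hγ (k + 1))

end Cyc

open Cyc in
theorem cycStmt (P : PR J) {G : Type} [Group G] {E : StG J G} {τ : Tr E} (hM : TrMore τ) :
    CycStmt τ := by
  intro ι₁ ι₂ i j A B β γ K hK hij hβ hγ
  show τ.tr _ (blk2 (ea β) (eb γ K)) _ _ = _
  rw [cblk_inl, cblk_inr]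
  set v : (ι₁ × ℕ) ⊕ (ι₂ × ℕ) → Z5 := Sum.elim (fun _ => i) (fun _ => j) with hv
  set μ := blk2 (ea β) (eb γ K) with hμ
  set OA := (List.range' 1 (K - 1)).flatMap (Ac ι₂ A) with hOA
  set OB := (List.range' 1 (K - 1)).flatMap (Bc ι₁ B) with hOB
  set A0 := Ac ι₂ A 0 with hA0
  set B0 := Bc ι₁ B 0 with hB0
  set W' := W A B (K - 1) with hW'
  have hW : Sh v W' (OA ++ OB) := sh_flat hij A B _
  have hfit : ∀ L : List ((ι₁ × ℕ) ⊕ (ι₂ × ℕ)), (∀ s ∈ L, s ∈ W' ∨ s ∈ A0 ∨ s ∈ B0) →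
      Fits J v μ L := fun L hL => by
    have hA : ∀ p, Sum.inl p ∈ L → p.1 ∈ A := fun p hp => by
      rcases hL _ hp with h | h | h
      · obtain ⟨k, -, -, h | h⟩ := mem_W.1 h
        · obtain ⟨p', hp', h'⟩ := mem_Ac.1 h
          cases h'; exact hp'
        · cases right_Bc _ h
      · obtain ⟨p', hp', h'⟩ := mem_Ac.1 h
        cases h'; exact hp'
      · cases right_Bc _ h
    have hB : ∀ p, Sum.inr p ∈ L → p.1 ∈ B := fun p hp => by
      rcases hL _ hp with h | h | h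
      · obtain ⟨k, -, -, h | h⟩ := mem_W.1 h
        · cases left_Ac _ h
        · obtain ⟨p', hp', h'⟩ := mem_Bc.1 h
          cases h'; exact hp'
      · cases left_Ac _ h
      · obtain ⟨p', hp', h'⟩ := mem_Bc.1 h
        cases h'; exact hp'
    refine fits_blk2 (fun p q hp hq => ?_) fun p q hp hq => ?_
    · unfold ea
      split_ifs
      · exact hβ _ (hA p hp) _ (hB q hq)
      · exact zero_mem _
    · unfold eb
      split_ifs
      · exact hγ _ _ (hB q hq) _ (hA p hp)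
      · exact zero_mem _
  have hac1 : Acyc μ (W' ++ B0) := by
    refine ⟨Sum.elim (fun p => 2 * p.2 - 1) (fun q => 2 * q.2), ?_⟩
    have h1 : ∀ p, Sum.inl p ∈ W' ++ B0 → 1 ≤ p.2 := fun p hp => by
      rcases List.mem_append.1 hp with h | h
      · obtain ⟨k, h1, -, h | h⟩ := mem_W.1 h
        · obtain ⟨p', h, h'⟩ := mem_Ac.1 h
          cases h'; exact h1
        · cases right_Bc _ h
      · cases right_Bc _ h
    rintro (p | p) hp (q | q) hq h
    · exact absurd rfl h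
    · have h2 := h1 p hp
      have h3 : p.2 = q.2 := by
        by_contra h3
        exact h (if_neg h3)
      simp only [Sum.elim_inl, Sum.elim_inr]
      omega
    · have h2 := h1 q hq
      have h3 : q.2 = (p.2 + 1) % K := by
        by_contra h3
        exact h (if_neg h3)
      have h4 : p.2 < K := by
        rcases List.mem_append.1 hp with h | h
        · obtain ⟨k, -, h1, h | h⟩ := mem_W.1 h
          · cases left_Ac _ h
          · obtain ⟨p', h, h'⟩ := mem_Bc.1 h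
            cases h'
            show k < K
            omega
        · obtain ⟨p', h, h'⟩ := mem_Bc.1 h
          cases h'; exact hK
      simp only [Sum.elim_inl, Sum.elim_inr]
      rcases (Nat.succ_le_of_lt h4).eq_or_lt with h5 | h5
      · rw [show p.2 + 1 = K from h5, Nat.mod_self] at h3; omega
      · rw [Nat.mod_eq_of_lt h5] at h3; omega
    · exact absurd rfl h
  have hac2 : Acyc μ (W' ++ A0) := by
    refine ⟨Sum.elim (fun p => if p.2 = 0 then 2 * K else 2 * p.2 - 1) (fun q => 2 * q.2), ?_⟩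
    have h1 : ∀ q, Sum.inr q ∈ W' ++ A0 → 1 ≤ q.2 ∧ q.2 < K := fun p hp => by
      rcases List.mem_append.1 hp with h | h
      · obtain ⟨k, h1, h2, h | h⟩ := mem_W.1 h
        · cases left_Ac _ h
        · obtain ⟨p', h, h'⟩ := mem_Bc.1 h
          cases h'
          exact ⟨h1, show k < K by omega⟩
      · cases left_Ac _ h
    rintro (p | p) hp (q | q) hq h
    · exact absurd rfl h
    · have h2 := h1 q hq
      have h3 : p.2 = q.2 := by
        by_contra h3
        exact h (if_neg h3)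
      simp only [Sum.elim_inl, Sum.elim_inr]
      split_ifs <;> omega
    · have h2 := h1 p hp
      have h3 : q.2 = (p.2 + 1) % K := by
        by_contra h3
        exact h (if_neg h3)
      simp only [Sum.elim_inl, Sum.elim_inr]
      rcases (Nat.succ_le_of_lt h2.2).eq_or_lt with h5 | h5
      · rw [show p.2 + 1 = K from h5, Nat.mod_self] at h3
        split_ifs
        all_goals omega
      · rw [Nat.mod_eq_of_lt h5] at h3
        split_ifs <;> omega
    · exact absurd rfl h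
  have hs1 : Sh v (OB ++ B0 ++ OA) (W' ++ B0) := by
    refine (sh_comm hij (fun s hs => ?_) left_OA).trans ?_
    · rcases List.mem_append.1 hs with h | h
      · exact right_OB s h
      · exact right_Bc s h
    · rw [← List.append_assoc]
      exact hW.symm.append_right _
  have hs2 : Sh v (W' ++ A0) (OA ++ A0 ++ OB) := by
    refine (hW.append_right _).trans ?_
    rw [List.append_assoc, List.append_assoc]
    exact (sh_comm hij right_OB left_Ac).append_left _
  have e1 : τ.tr v μ (OB ++ B0 ++ (OA ++ A0)) (W' ++ (B0 ++ A0)) = 1 := by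
    have hf : ∀ s ∈ OB ++ B0 ++ OA, s ∈ W' ∨ s ∈ A0 ∨ s ∈ B0 := fun s hs => by
      rcases List.mem_append.1 (hs1.mem_iff.1 hs) with h | h
      · exact Or.inl h
      · exact Or.inr (Or.inr h)
    rw [← List.append_assoc, ← List.append_assoc, hM.suffix A0 (hfit _ fun s hs => ?_) hs1]
    · exact hM.acyc (hfit _ hf) (hac1.mono fun s hs => hs1.mem_iff.1 hs) hs1
    · rcases List.mem_append.1 hs with h | h
      · exact hf s h
      · exact Or.inr (Or.inl h)
  have e3 : τ.tr v μ (W' ++ (A0 ++ B0)) (OA ++ A0 ++ (OB ++ B0)) = 1 := by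
    rw [← List.append_assoc, ← List.append_assoc,
      hM.suffix B0 (hfit _ fun s hs => by simpa [or_assoc] using hs) hs2]
    refine hM.acyc (hfit _ fun s hs => ?_) hac2 hs2
    rcases List.mem_append.1 hs with h | h
    · exact Or.inl h
    · exact Or.inr (Or.inl h)
  have e2 : τ.tr v μ (W' ++ (B0 ++ A0)) (W' ++ (A0 ++ B0)) =
      τ.DD i j A B β (cycProd A B β γ (K - 1)) := by
    rw [hM.pref W' (hfit _ fun s hs => by simpa [or_comm] using hs)
      (sh_comm hij right_Bc left_Ac),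
      E.det_acyc (hac1.mono fun s hs => List.mem_append_left _ hs), one_mul, inv_one, mul_one]
    have h1 := hM.map (v := Sum.elim (fun _ => i) (fun _ => j))
      (ν := blk2 β (cycProd A B β γ (K - 1))) (v' := v) (ν' := elimL W' μ)
      (Sum.map (fun p : ι₁ => (p, 0)) (fun q : ι₂ => (q, 0)))
      (L := B.map Sum.inr ++ A.map Sum.inl) (L' := A.map Sum.inl ++ B.map Sum.inr)
      (fits_blk2 (fun p q hp hq => hβ p (by simpa using hp) q (by simpa using hq))
        (fun p q hp hq => cyc_mem P hβ hγ _ q (by simpa using hq) p (by simpa using hp)))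
      (sh_comm hij (by simp) (by simp)) (by rintro (p | p) - <;> rfl) (by
        intro p _ q _
        rw [hW', hμ, elim_W A B β γ K (by omega) (Or.inl (by cases p <;> rfl))
          (Or.inl (by cases q <;> rfl))]
        rcases p with p | p <;> rcases q with q | q
        · rfl
        · simp [nu, blk2, ea]
        · simp [nu, blk2, Nat.sub_add_cancel hK]
        · rfl)
    simp only [List.map_append, List.map_map] at h1
    exact h1
  rw [← τ.trans v μ _ (W' ++ (A0 ++ B0)), ← τ.trans v μ _ (W' ++ (B0 ++ A0)) (W' ++ (A0 ++ B0)),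
    e1, e2, e3, one_mul, mul_one]

end Crest.Agent.R176
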