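import Crest.Agent.R176.KBasic

/-! Row 176: calculus of two-block transports. -/

set_option autoImplicit false

open scoped commutatorElement

namespace Crest.Agent.R176

variable {R : Type} [Ring R] {J : Z5 → Z5 → AddSubgroup R} {G : Type} [Group G] {E : StG J G}

namespace DD

section two
variable {ι₁ ι₂ : Type} {i j : Z5} {A : List ι₁} {B : List ι₂} {a : ι₁ → ι₂ → R}
  {b : ι₂ → ι₁ → R}

theorem inl_mem {p : ι₁} : (Sum.inl p : ι₁ ⊕ ι₂) ∈ B.map Sum.inr ++ A.map Sum.inl ↔ p ∈ A := by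
  simp

theorem inr_mem {q : ι₂} : (Sum.inr q : ι₁ ⊕ ι₂) ∈ B.map Sum.inr ++ A.map Sum.inl ↔ q ∈ B := by
  simp

theorem fits (ha : InJ J i j A B a) (hb : InJ J j i B A b) :
    Fits J (Sum.elim (fun _ => i) (fun _ => j)) (blk2 a b) (B.map Sum.inr ++ A.map Sum.inl) := by
  rintro (p | p) hp (q | q) hq
  · exact zero_mem _
  · exact ha p (inl_mem.1 hp) q (inr_mem.1 hq)
  · exact hb p (inr_mem.1 hp) q (inl_mem.1 hq)
  · exact zero_mem _

theorem sh_map {ι : Type} {v : ι → Z5} (f : ι₁ → ι) (g : ι₂ → ι) (hij : i ≠ j)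
    (hf : ∀ p, v (f p) = i) (hg : ∀ q, v (g q) = j) (A : List ι₁) (B : List ι₂) :
    Sh v (B.map g ++ A.map f) (A.map f ++ B.map g) := by
  refine Sh.append_comm fun x hx y hy => ?_
  obtain ⟨q, -, rfl⟩ := List.mem_map.1 hx
  obtain ⟨p, -, rfl⟩ := List.mem_map.1 hy
  rw [hf, hg]
  exact hij.symm

theorem sh (hij : i ≠ j) (A : List ι₁) (B : List ι₂) :
    Sh (Sum.elim (fun _ => i) (fun _ => j) : ι₁ ⊕ ι₂ → Z5) (B.map Sum.inr ++ A.map Sum.inl)
      (A.map Sum.inl ++ B.map Sum.inr) :=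
  sh_map Sum.inl Sum.inr hij (fun _ => rfl) (fun _ => rfl) A B

/-- a two-block transport after the elimination of a block without internal edges -/
theorem pre {τ : Tr E} (hM : TrMore τ) {ι : Type} {v : ι → Z5} {ν : ι → ι → R} {X : List ι}
    (f : ι₁ → ι) (g : ι₂ → ι) (hij : i ≠ j) (ha : InJ J i j A B a) (hb : InJ J j i B A b)
    (hfit : Fits J v ν (X ++ (B.map g ++ A.map f))) (hX : ∀ p ∈ X, ∀ q ∈ X, ν p q = 0)
    (hf : ∀ p, v (f p) = i) (hg : ∀ q, v (g q) = j)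
    (h : ∀ p q : ι₁ ⊕ ι₂, ν (Sum.elim f g p) (Sum.elim f g q) +
      mulL X ν ν (Sum.elim f g p) (Sum.elim f g q) = blk2 a b p q) :
    τ.tr v ν (X ++ (B.map g ++ A.map f)) (X ++ (A.map f ++ B.map g)) = τ.DD i j A B a b := by
  rw [hM.pref X hfit (sh_map f g hij hf hg A B),
    E.det_acyc ⟨fun _ => 0, fun p hp q hq h => (h (hX p hp q hq)).elim⟩, one_mul, inv_one, mul_one]
  have := hM.map (v' := v) (ν' := elimL X ν) (Sum.elim f g) (fits ha hb) (sh hij A B)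
    (by rintro (p | p) -; exacts [hf p, hg p])
    (fun p _ q _ => by rw [elimL_zero_block hX, h])
  rw [List.map_append, List.map_append, List.map_map, List.map_map] at this
  exact this

/-- exchanging two blocks with edges in one direction only -/
theorem move {τ : Tr E} (hM : TrMore τ) {ι : Type} {v : ι → Z5} {ν : ι → ι → R} {Y : List ι}
    (f : ι₁ → ι) (g : ι₂ → ι) (hij : i ≠ j) (hfit : Fits J v ν (B.map g ++ (A.map f ++ Y)))
    (hf : ∀ p, v (f p) = i) (hg : ∀ q, v (g q) = j) (h : Acyc ν (B.map g ++ A.map f)) :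
    τ.tr v ν (B.map g ++ (A.map f ++ Y)) (A.map f ++ (B.map g ++ Y)) = 1 := by
  rw [← List.append_assoc] at hfit
  rw [← List.append_assoc, ← List.append_assoc, hM.suffix Y hfit (sh_map f g hij hf hg A B)]
  exact hM.acyc (hfit.mono fun p hp => List.mem_append_left _ hp) h (sh_map f g hij hf hg A B)

end two

/-- the cyclic three-block matrix -/
def blk3 {ι₁ ι₂ ι₃ : Type} (a : ι₁ → ι₂ → R) (b : ι₂ → ι₃ → R) (c : ι₃ → ι₁ → R) :
    ι₁ ⊕ ι₂ ⊕ ι₃ → ι₁ ⊕ ι₂ ⊕ ι₃ → R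
  | Sum.inl p, Sum.inr (Sum.inl q) => a p q
  | Sum.inr (Sum.inl p), Sum.inr (Sum.inr q) => b p q
  | Sum.inr (Sum.inr p), Sum.inl q => c p q
  | _, _ => 0

section three
variable {ι₁ ι₂ ι₃ : Type} {i j k : Z5} {A : List ι₁} {B : List ι₂} {C : List ι₃}
  {a : ι₁ → ι₂ → R} {b : ι₂ → ι₃ → R} {c : ι₃ → ι₁ → R}

def v3 (i j k : Z5) : ι₁ ⊕ ι₂ ⊕ ι₃ → Z5 :=
  Sum.elim (fun _ => i) (Sum.elim (fun _ => j) (fun _ => k))

def f₁ (p : ι₁) : ι₁ ⊕ ι₂ ⊕ ι₃ := Sum.inl p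
def f₂ (p : ι₂) : ι₁ ⊕ ι₂ ⊕ ι₃ := Sum.inr (Sum.inl p)
def f₃ (p : ι₃) : ι₁ ⊕ ι₂ ⊕ ι₃ := Sum.inr (Sum.inr p)

theorem fits3 (ha : InJ J i j A B a) (hb : InJ J j k B C b) (hc : InJ J k i C A c)
    {L : List (ι₁ ⊕ ι₂ ⊕ ι₃)} (h : ∀ p ∈ L, p ∈ A.map f₁ ∨ p ∈ B.map f₂ ∨ p ∈ C.map f₃) :
    Fits J (v3 i j k) (blk3 a b c) L := by
  have h1 : ∀ p, Sum.inl p ∈ L → p ∈ A := fun p hp => by simpa [f₁, f₂, f₃] using h _ hp
  have h2 : ∀ p, Sum.inr (Sum.inl p) ∈ L → p ∈ B := fun p hp => by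
    simpa [f₁, f₂, f₃] using h _ hp
  have h3 : ∀ p, Sum.inr (Sum.inr p) ∈ L → p ∈ C := fun p hp => by
    simpa [f₁, f₂, f₃] using h _ hp
  rintro (p | p | p) hp (q | q | q) hq
  · exact zero_mem _
  · exact ha p (h1 p hp) q (h2 q hq)
  · exact zero_mem _
  · exact zero_mem _
  · exact zero_mem _
  · exact hb p (h2 p hp) q (h3 q hq)
  · exact hc p (h3 p hp) q (h1 q hq)
  · exact zero_mem _
  · exact zero_mem _

theorem zero1 : ∀ p ∈ A.map f₁, ∀ q ∈ A.map f₁, blk3 a b c p q = 0 := by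
  simp only [List.forall_mem_map]; exact fun _ _ _ _ => rfl

theorem zero2 : ∀ p ∈ B.map f₂, ∀ q ∈ B.map f₂, blk3 a b c p q = 0 := by
  simp only [List.forall_mem_map]; exact fun _ _ _ _ => rfl

theorem zero3 : ∀ p ∈ C.map f₃, ∀ q ∈ C.map f₃, blk3 a b c p q = 0 := by
  simp only [List.forall_mem_map]; exact fun _ _ _ _ => rfl

theorem elim2 (p q : ι₁ ⊕ ι₃) : blk3 a b c (Sum.elim f₁ f₃ p) (Sum.elim f₁ f₃ q) +
    mulL (B.map f₂) (blk3 a b c) (blk3 a b c) (Sum.elim f₁ f₃ p) (Sum.elim f₁ f₃ q) =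
      blk2 (mulL B a b) c p q := by
  rcases p with p | p <;> rcases q with q | q <;>
    simp [blk2, blk3, mulL, f₁, f₂, f₃, Function.comp_def]

theorem elim3 (p q : ι₁ ⊕ ι₂) : blk3 a b c (Sum.elim f₁ f₂ p) (Sum.elim f₁ f₂ q) +
    mulL (C.map f₃) (blk3 a b c) (blk3 a b c) (Sum.elim f₁ f₂ p) (Sum.elim f₁ f₂ q) =
      blk2 a (mulL C b c) p q := by
  rcases p with p | p <;> rcases q with q | q <;>
    simp [blk2, blk3, mulL, f₁, f₂, f₃, Function.comp_def]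

theorem elim1 (p q : ι₂ ⊕ ι₃) : blk3 a b c (Sum.elim f₂ f₃ p) (Sum.elim f₂ f₃ q) +
    mulL (A.map f₁) (blk3 a b c) (blk3 a b c) (Sum.elim f₂ f₃ p) (Sum.elim f₂ f₃ q) =
      blk2 b (mulL A c a) p q := by
  rcases p with p | p <;> rcases q with q | q <;>
    simp [blk2, blk3, mulL, f₁, f₂, f₃, Function.comp_def]

theorem acyc23 : Acyc (blk3 a b c) (B.map f₂ ++ C.map f₃) :=
  ⟨Sum.elim (fun _ => 0) (Sum.elim (fun _ => 0) (fun _ => 1)), by
    rintro (p | p | p) hp (q | q | q) hq <;> simp [blk3, f₂, f₃] at hp hq ⊢⟩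

theorem acyc31 : Acyc (blk3 a b c) (C.map f₃ ++ A.map f₁) :=
  ⟨Sum.elim (fun _ => 1) (fun _ => 0), by
    rintro (p | p | p) hp (q | q | q) hq <;> simp [blk3, f₁, f₃] at hp hq ⊢⟩

theorem acyc12 : Acyc (blk3 a b c) (A.map f₁ ++ B.map f₂) :=
  ⟨Sum.elim (fun _ => 0) (fun _ => 1), by
    rintro (p | p | p) hp (q | q | q) hq <;> simp [blk3, f₁, f₂] at hp hq ⊢⟩

theorem hex (P : PR J) {τ : Tr E} (hM : TrMore τ) (hij : i ≠ j) (hjk : j ≠ k) (hik : i ≠ k)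
    (ha : InJ J i j A B a) (hb : InJ J j k B C b) (hc : InJ J k i C A c) :
    τ.DD i k A C (mulL B a b) c = τ.DD j k B C b (mulL A c a) * τ.DD i j A B a (mulL C b c) := by
  have T1 := pre hM (X := B.map f₂) f₁ f₃ hik (ha.mulL P hb) hc
    (fits3 ha hb hc fun p hp => by simp only [List.mem_append] at hp; tauto) zero2 (fun _ => rfl)
    (fun _ => rfl) elim2
  have T2 := pre hM (X := C.map f₃) f₁ f₂ hij ha (hb.mulL P hc)
    (fits3 ha hb hc fun p hp => by simp only [List.mem_append] at hp; tauto) zero3 (fun _ => rfl)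
    (fun _ => rfl) elim3
  have T3 := pre hM (X := A.map f₁) f₂ f₃ hjk hb (hc.mulL P ha)
    (fits3 ha hb hc fun p hp => by simp only [List.mem_append] at hp; tauto) zero1 (fun _ => rfl)
    (fun _ => rfl) elim1
  have M1 := move hM (Y := A.map f₁) f₃ f₂ hjk.symm
    (fits3 ha hb hc fun p hp => by simp only [List.mem_append] at hp; tauto) (fun _ => rfl)
    (fun _ => rfl) (acyc23 (B := B) (C := C))
  have M2 := move hM (Y := B.map f₂) f₁ f₃ hik
    (fits3 ha hb hc fun p hp => by simp only [List.mem_append] at hp; tauto) (fun _ => rfl)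
    (fun _ => rfl) (acyc31 (A := A) (C := C))
  have M3 := move hM (Y := C.map f₃) f₂ f₁ hij.symm
    (fits3 ha hb hc fun p hp => by simp only [List.mem_append] at hp; tauto) (fun _ => rfl)
    (fun _ => rfl) (acyc12 (A := A) (B := B))
  rw [← T1, ← T2, ← T3, ← τ.trans _ _ _ (A.map f₁ ++ (B.map f₂ ++ C.map f₃)), M3, one_mul,
    ← τ.trans _ _ _ (A.map f₁ ++ (C.map f₃ ++ B.map f₂)) (A.map f₁ ++ (B.map f₂ ++ C.map f₃)),
    ← τ.trans _ _ (B.map f₂ ++ (C.map f₃ ++ A.map f₁)) (C.map f₃ ++ (A.map f₁ ++ B.map f₂)), M2,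
    one_mul, ← τ.trans _ _ (B.map f₂ ++ (C.map f₃ ++ A.map f₁))
      (C.map f₃ ++ (B.map f₂ ++ A.map f₁)), M1, mul_one]

end three

end DD

theorem ddFacts (P : PR J) {τ : Tr E} (hM : TrMore τ) : DDFacts τ where
  mem hij ha hb := hM.mem (DD.fits ha hb) (DD.sh hij _ _)
  congr {_ _ _ _ _ _ _ a' _ b'} hij ha hb h1 h2 := by
    have := hM.map (ν' := blk2 a' b') id (DD.fits ha hb) (DD.sh hij _ _) (fun _ _ => rfl) (by
      rintro (p | p) hp (q | q) hq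
      · rfl
      · exact h1 p (DD.inl_mem.1 hp) q (DD.inr_mem.1 hq)
      · exact h2 p (DD.inr_mem.1 hp) q (DD.inl_mem.1 hq)
      · rfl)
    rw [List.map_id, List.map_id] at this
    exact this
  acyc rk₁ rk₂ hij ha hb h1 h2 := hM.acyc (DD.fits ha hb) ⟨Sum.elim rk₁ rk₂, by
      rintro (p | p) hp (q | q) hq h
      · exact (h rfl).elim
      · exact h1 p (DD.inl_mem.1 hp) q (DD.inr_mem.1 hq) h
      · exact h2 p (DD.inr_mem.1 hp) q (DD.inl_mem.1 hq) h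
      · exact (h rfl).elim⟩ (DD.sh hij _ _)
  hex hij hjk hik ha hb hc := DD.hex P hM hij hjk hik ha hb hc

end Crest.Agent.R176
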