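import Crest.Agent.R176.KDefs

/-! Row 176: the Dennis-Stein elements act as conjugation (non-adjacent pairs). -/

set_option autoImplicit false

open scoped commutatorElement

namespace Crest.Agent.R176

variable {R : Type} [Ring R] {J : Z5 → Z5 → AddSubgroup R}

section ring
variable (P : PR J) {i j : Z5} {a b : R}
include P

theorem PR.iv_ab (ha : a ∈ J i j) (hb : b ∈ J j i) : iv (a * b) = 1 + a * iv (b * a) * b := by
  have h1 := P.mul_iv (P.mul_mem hb ha)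
  have h2 : (1 + a * b) * (1 + a * iv (b * a) * b) = 1 := by
    calc (1 + a * b) * (1 + a * iv (b * a) * b)
        = 1 + a * b + a * ((1 + b * a) * iv (b * a)) * b := by noncomm_ring
      _ = 1 + (a * b + a * b) := by rw [h1, mul_one, add_assoc]
      _ = 1 := by rw [P.two, add_zero]
  calc iv (a * b) = iv (a * b) * ((1 + a * b) * (1 + a * iv (b * a) * b)) := by rw [h2, mul_one]
    _ = _ := by rw [← mul_assoc, P.iv_mul (P.mul_mem ha hb), one_mul]

theorem PR.mul_iv_comm (ha : a ∈ J i j) (hb : b ∈ J j i) : a * iv (b * a) = iv (a * b) * a := by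
  calc a * iv (b * a) = (iv (a * b) * (1 + a * b)) * a * iv (b * a) := by
        rw [P.iv_mul (P.mul_mem ha hb), one_mul]
    _ = iv (a * b) * a * ((1 + b * a) * iv (b * a)) := by noncomm_ring
    _ = _ := by rw [P.mul_iv (P.mul_mem hb ha), mul_one]

theorem PR.iv_mul_comm (ha : a ∈ J i j) (hb : b ∈ J j i) : iv (b * a) * b = b * iv (a * b) :=
  (P.mul_iv_comm hb ha).symm

theorem PR.diag_mul_mem {k l : Z5} {r : R} (ha : a ∈ J i i) (hr : r ∈ J k l) : a * r ∈ J k l := by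
  by_cases h : i = k
  · subst h; exact P.mul_mem ha hr
  · rw [P.mul_zero ha hr h]; exact zero_mem _

theorem PR.mul_diag_mem {k l : Z5} {r : R} (ha : a ∈ J i i) (hr : r ∈ J k l) : r * a ∈ J k l := by
  by_cases h : l = i
  · subst h; exact P.mul_mem hr ha
  · rw [P.mul_zero hr ha h]; exact zero_mem _

theorem PR.iv_mul_mem' {k l : Z5} {r : R} (ha : a ∈ J i i) (hr : r ∈ J k l) :
    iv a * r ∈ J k l := by
  obtain ⟨a', h1, h2⟩ := P.iv_eq ha
  rw [h2, add_mul, one_mul]; exact add_mem hr (P.diag_mul_mem h1 hr)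

theorem PR.mul_iv_mem' {k l : Z5} {r : R} (ha : a ∈ J i i) (hr : r ∈ J k l) :
    r * iv a ∈ J k l := by
  obtain ⟨a', h1, h2⟩ := P.iv_eq ha
  rw [h2, mul_add, mul_one]; exact add_mem hr (P.mul_diag_mem h1 hr)

/-- uniqueness of Peirce components -/
theorem PR.eq_zero_of_add {k l k' l' : Z5} {t r s : R} (ht : t ∈ J k l) (hr : r ∈ J k l)
    (hs : s ∈ J k' l') (hne : ¬ (k = k' ∧ l = l')) (h : t = r + s) : s = 0 := by
  obtain ⟨f, h1, h2, -⟩ := P.pr k' l'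
  have := congrArg f h
  rwa [map_add, h2 k l hne t ht, h2 k l hne r hr, h1 s hs, zero_add, eq_comm] at this

end ring

variable {G : Type} [Group G] (E : StG J G)

namespace Ds1

/-- the action of the subgroup generated by `x i j` and `x j i` outside the block `{i, j}` -/
structure Good (i j : Z5) (g : G) : Prop where
  col : ∀ l, l ≠ i → l ≠ j → ∀ r ∈ J i l, ∀ s ∈ J j l, ∃ r' ∈ J i l, ∃ s' ∈ J j l,
    g * (E.x i l r * E.x j l s) * g⁻¹ = E.x i l r' * E.x j l s' ∧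
      (E.pi g : Rˣ) * (r + s) = r' + s'
  row : ∀ k, k ≠ i → k ≠ j → ∀ r ∈ J k i, ∀ s ∈ J k j, ∃ r' ∈ J k i, ∃ s' ∈ J k j,
    g * (E.x k i r * E.x k j s) * g⁻¹ = E.x k i r' * E.x k j s' ∧
      (r + s) * ((E.pi g)⁻¹ : Rˣ) = r' + s'
  off : ∀ k l, k ≠ i → k ≠ j → l ≠ i → l ≠ j → ∀ r ∈ J k l, g * E.x k l r * g⁻¹ = E.x k l r
  left : ∀ k l, k ≠ i → k ≠ j → ∀ r ∈ J k l, (E.pi g : Rˣ) * r = r
  right : ∀ k l, l ≠ i → l ≠ j → ∀ r ∈ J k l, r * ((E.pi g)⁻¹ : Rˣ) = r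

variable {E} {i j : Z5}

theorem Good.symm {g : G} (h : Good E i j g) : Good E j i g where
  col l hj hi r hr s hs := by
    obtain ⟨s', hs', r', hr', h1, h2⟩ := h.col l hi hj s hs r hr
    refine ⟨r', hr', s', hs', ?_, by rw [add_comm r, h2, add_comm]⟩
    rw [(E.rels.com hr hs hi hj).eq, h1, (E.rels.com hr' hs' hi hj).eq]
  row k hj hi r hr s hs := by
    obtain ⟨s', hs', r', hr', h1, h2⟩ := h.row k hi hj s hs r hr
    refine ⟨r', hr', s', hs', ?_, by rw [add_comm r, h2, add_comm]⟩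
    rw [(E.rels.com hr hs hj.symm hi.symm).eq, h1, (E.rels.com hr' hs' hj.symm hi.symm).eq]
  off k l h1 h2 h3 h4 := h.off k l h2 h1 h4 h3
  left k l h1 h2 := h.left k l h2 h1
  right k l h1 h2 := h.right k l h2 h1

theorem Good.mul {g g' : G} (h : Good E i j g) (h' : Good E i j g') : Good E i j (g * g') where
  col l hi hj r hr s hs := by
    obtain ⟨r₁, hr₁, s₁, hs₁, h1, h2⟩ := h'.col l hi hj r hr s hs
    obtain ⟨r₂, hr₂, s₂, hs₂, h3, h4⟩ := h.col l hi hj r₁ hr₁ s₁ hs₁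
    refine ⟨r₂, hr₂, s₂, hs₂, ?_, by rw [map_mul, Units.val_mul, mul_assoc, h2, h4]⟩
    rw [← h3, ← h1]; group
  row k hi hj r hr s hs := by
    obtain ⟨r₁, hr₁, s₁, hs₁, h1, h2⟩ := h'.row k hi hj r hr s hs
    obtain ⟨r₂, hr₂, s₂, hs₂, h3, h4⟩ := h.row k hi hj r₁ hr₁ s₁ hs₁
    refine ⟨r₂, hr₂, s₂, hs₂, ?_, by rw [map_mul, mul_inv_rev, Units.val_mul, ← mul_assoc, h2, h4]⟩
    rw [← h3, ← h1]; group
  off k l h1 h2 h3 h4 r hr := by
    conv_rhs => rw [← h.off k l h1 h2 h3 h4 r hr, ← h'.off k l h1 h2 h3 h4 r hr]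
    group
  left k l h1 h2 r hr := by
    rw [map_mul, Units.val_mul, mul_assoc, h'.left k l h1 h2 r hr, h.left k l h1 h2 r hr]
  right k l h1 h2 r hr := by
    rw [map_mul, mul_inv_rev, Units.val_mul, ← mul_assoc, h'.right k l h1 h2 r hr,
      h.right k l h1 h2 r hr]

theorem good_x (P : PR J) (hij : i ≠ j) {a : R} (ha : a ∈ J i j) : Good E i j (E.x i j a) := by
  have hp := E.pi_x hij ha
  have hq : (((E.pi (E.x i j a))⁻¹ : Rˣ) : R) = 1 + a := by
    rw [← map_inv, E.rels.inv_eq P, hp]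
  refine ⟨fun l hi hj r hr s hs => ?_, fun k hi hj r hr s hs => ?_,
    fun k l h1 h2 h3 h4 r hr => ?_, fun k l h1 h2 r hr => ?_, fun k l h1 h2 r hr => ?_⟩
  · refine ⟨r + a * s, add_mem hr (P.mul_mem ha hs), s, hs, ?_, ?_⟩
    · rw [← E.rels.add hr (P.mul_mem ha hs), ← E.rels.st ha hs hij hj.symm hi.symm,
        ← mul_assoc, (E.rels.com ha hr hij.symm hi).eq, commutatorElement_def]
      group
    · rw [hp, add_mul, one_mul, mul_add, P.mul_zero ha hr hij.symm]; abel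
  · refine ⟨r, hr, r * a + s, add_mem (P.mul_mem hr ha) hs, ?_, ?_⟩
    · rw [← E.rels.add (P.mul_mem hr ha) hs, ← E.rels.st hr ha hi hij hj, mul_assoc,
        mul_assoc, (E.rels.com ha hs hj.symm hij.symm).inv_left.symm.eq, commutatorElement_def,
        E.rels.inv_eq P k i r]
      simp only [← mul_assoc, E.rels.mul_self P, one_mul]
    · rw [hq, mul_add, mul_one, add_mul, P.mul_zero hs ha hij.symm]; abel
  · rw [(E.rels.com ha hr h2.symm h3).eq, mul_inv_cancel_right]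
  · rw [hp, add_mul, one_mul, P.mul_zero ha hr h2.symm, add_zero]
  · rw [hq, mul_add, mul_one, P.mul_zero hr ha h1, add_zero]

theorem good_ds (P : PR J) (hij : i ≠ j) {a b : R} (ha : a ∈ J i j) (hb : b ∈ J j i) :
    Good E i j (E.ds i j a b) :=
  (((good_x P hij (P.mul_iv_mem (P.mul_mem hb ha) ha)).mul (good_x P hij.symm hb).symm).mul
    (good_x P hij ha)).mul (good_x P hij.symm (P.iv_mul_mem (P.mul_mem hb ha) hb)).symm

end Ds1

section ds
variable (P : PR J) {i j : Z5} {a b : R}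
include P

theorem pi_ds (hij : i ≠ j) (ha : a ∈ J i j) (hb : b ∈ J j i) :
    ((E.pi (E.ds i j a b) : Rˣ) : R) = iv (a * b) + b * a := by
  have hba := P.mul_mem hb ha
  have h1 := P.mul_iv_mem hba ha
  have h2 := P.iv_mul_mem hba hb
  rw [StG.ds, map_mul, map_mul, map_mul, Units.val_mul, Units.val_mul, Units.val_mul,
    E.pi_x hij h1, E.pi_x hij.symm hb, E.pi_x hij ha, E.pi_x hij.symm h2, P.iv_ab ha hb]
  have e1 : (1 + a * iv (b * a)) * (1 + b) * (1 + a) = 1 + b + b * a + a * iv (b * a) * b := by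
    calc (1 + a * iv (b * a)) * (1 + b) * (1 + a)
        = 1 + b + b * a + a * iv (b * a) * b + a * iv (b * a) * a +
          (a + a * (iv (b * a) * (1 + b * a))) := by noncomm_ring
      _ = _ := by rw [P.iv_mul hba, mul_one, P.two, P.mul_zero h1 ha hij.symm, add_zero, add_zero]
  rw [e1]
  calc (1 + b + b * a + a * iv (b * a) * b) * (1 + iv (b * a) * b)
      = 1 + a * iv (b * a) * b + b * a + (b + (1 + b * a) * iv (b * a) * b) +
        (1 + a * iv (b * a)) * (b * (iv (b * a) * b)) := by noncomm_ring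
    _ = _ := by
      rw [P.mul_iv hba, one_mul, P.two, P.mul_zero hb h2 hij, mul_zero, add_zero, add_zero]

theorem pi_ds_inv (hij : i ≠ j) (ha : a ∈ J i j) (hb : b ∈ J j i) :
    (((E.pi (E.ds i j a b))⁻¹ : Rˣ) : R) = (1 + a * b) + iv (b * a) + 1 := by
  have hba := P.mul_mem hb ha
  have hab := P.mul_mem ha hb
  refine Units.inv_eq_of_mul_eq_one_right ?_
  rw [pi_ds E P hij ha hb]
  obtain ⟨u, hu, eu⟩ := P.iv_eq hba
  have h1 := P.mul_iv hba
  have e : (1 + a * b) + iv (b * a) + 1 = (1 + a * b) + u := by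
    rw [eu]
    calc 1 + a * b + (1 + u) + 1 = 1 + a * b + u + (1 + 1) := by abel
      _ = _ := by rw [P.two, add_zero]
  rw [eu] at h1
  rw [e, add_mul, mul_add, P.iv_mul hab, P.iv_mul_of_ne hab hu hij, mul_add, mul_add, mul_one,
    P.mul_zero hba hab hij.symm, add_zero]
  conv_rhs => rw [← h1]
  noncomm_ring

theorem pi_ds_mul_mem (hij : i ≠ j) (ha : a ∈ J i j) (hb : b ∈ J j i) {k l : Z5} {r : R}
    (hr : r ∈ J k l) : (E.pi (E.ds i j a b) : Rˣ) * r ∈ J k l := by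
  rw [pi_ds E P hij ha hb, add_mul]
  exact add_mem (P.iv_mul_mem' (P.mul_mem ha hb) hr) (P.diag_mul_mem (P.mul_mem hb ha) hr)

theorem mul_pi_ds_inv_mem (hij : i ≠ j) (ha : a ∈ J i j) (hb : b ∈ J j i) {k l : Z5} {r : R}
    (hr : r ∈ J k l) : r * ((E.pi (E.ds i j a b))⁻¹ : Rˣ) ∈ J k l := by
  rw [pi_ds_inv E P hij ha hb, mul_add, mul_add, mul_add, mul_one]
  exact add_mem (add_mem (add_mem hr (P.mul_diag_mem (P.mul_mem ha hb) hr))
    (P.mul_iv_mem' (P.mul_mem hb ha) hr)) hr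

theorem ds_conj_mem (hij : i ≠ j) (ha : a ∈ J i j) (hb : b ∈ J j i) {k l : Z5} {r : R}
    (hr : r ∈ J k l) :
    (E.pi (E.ds i j a b) : Rˣ) * r * ((E.pi (E.ds i j a b))⁻¹ : Rˣ) ∈ J k l :=
  mul_pi_ds_inv_mem E P hij ha hb (pi_ds_mul_mem E P hij ha hb hr)

theorem ds_acts_of_ne (hij : i ≠ j) (ha : a ∈ J i j) (hb : b ∈ J j i) {k l : Z5} {r : R}
    (hr : r ∈ J k l) (hkl : (l ≠ i ∧ l ≠ j) ∨ (k ≠ i ∧ k ≠ j)) :
    E.ds i j a b * E.x k l r * (E.ds i j a b)⁻¹ =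
      E.x k l ((E.pi (E.ds i j a b) : Rˣ) * r * ((E.pi (E.ds i j a b))⁻¹ : Rˣ)) := by
  have hg := Ds1.good_ds (E := E) P hij ha hb
  have hL : ∀ {k l : Z5} {r : R}, r ∈ J k l → (E.pi (E.ds i j a b) : Rˣ) * r ∈ J k l :=
    pi_ds_mul_mem E P hij ha hb
  have hR : ∀ {k l : Z5} {r : R}, r ∈ J k l → r * ((E.pi (E.ds i j a b))⁻¹ : Rˣ) ∈ J k l :=
    mul_pi_ds_inv_mem E P hij ha hb
  generalize E.ds i j a b = g at hg hL hR ⊢
  have col : ∀ {i j : Z5}, i ≠ j → Ds1.Good E i j g → l ≠ i → l ≠ j → r ∈ J i l →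
      g * E.x i l r * g⁻¹ = E.x i l ((E.pi g : Rˣ) * r * ((E.pi g)⁻¹ : Rˣ)) := by
    intro i j hij hg h1 h2 hr
    obtain ⟨r', hr', s', hs', e1, e2⟩ := hg.col l h1 h2 r hr 0 (zero_mem _)
    rw [add_zero] at e2
    have h0 := P.eq_zero_of_add (hL hr) hr' hs' (fun h => hij h.1) e2
    rw [h0, E.rels.zero, mul_one, mul_one] at e1
    rw [h0, add_zero] at e2
    rw [e1, hg.right i l h1 h2 _ (hL hr), e2]
  have row : ∀ {i j : Z5}, i ≠ j → Ds1.Good E i j g → k ≠ i → k ≠ j → r ∈ J k i →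
      g * E.x k i r * g⁻¹ = E.x k i ((E.pi g : Rˣ) * r * ((E.pi g)⁻¹ : Rˣ)) := by
    intro i j hij hg h1 h2 hr
    obtain ⟨r', hr', s', hs', e1, e2⟩ := hg.row k h1 h2 r hr 0 (zero_mem _)
    rw [add_zero] at e2
    have h0 := P.eq_zero_of_add (hR hr) hr' hs' (fun h => hij h.2) e2
    rw [h0, E.rels.zero, mul_one, mul_one] at e1
    rw [h0, add_zero] at e2
    rw [e1, hg.left k i h1 h2 _ hr, e2]
  have off : k ≠ i → k ≠ j → l ≠ i → l ≠ j →
      g * E.x k l r * g⁻¹ = E.x k l ((E.pi g : Rˣ) * r * ((E.pi g)⁻¹ : Rˣ)) := by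
    intro h1 h2 h3 h4
    rw [hg.off k l h1 h2 h3 h4 r hr, hg.left k l h1 h2 r hr, hg.right k l h3 h4 r hr]
  rcases hkl with ⟨h1, h2⟩ | ⟨h1, h2⟩
  · by_cases hi : k = i
    · subst hi; exact col hij hg h1 h2 hr
    by_cases hj : k = j
    · subst hj; exact col hij.symm hg.symm h2 h1 hr
    exact off hi hj h1 h2
  · by_cases hi : l = i
    · subst hi; exact row hij hg h1 h2 hr
    by_cases hj : l = j
    · subst hj; exact row hij.symm hg.symm h2 h1 hr
    exact off h1 h2 hi hj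

/-- the conjugation formula passes to the span of the products through a vertex `h ∉ {i, j}` -/
theorem ds_acts_of_closure (hij : i ≠ j) (ha : a ∈ J i j) (hb : b ∈ J j i) {k l h : Z5}
    (hkl : k ≠ l) (hk : k ≠ h) (hl : h ≠ l) (hi : h ≠ i) (hj : h ≠ j) {r : R}
    (hr : r ∈ AddSubgroup.closure {r | ∃ a ∈ J k h, ∃ b ∈ J h l, r = a * b}) :
    r ∈ J k l ∧ E.ds i j a b * E.x k l r * (E.ds i j a b)⁻¹ =
      E.x k l ((E.pi (E.ds i j a b) : Rˣ) * r * ((E.pi (E.ds i j a b))⁻¹ : Rˣ)) := by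
  induction hr using AddSubgroup.closure_induction with
  | mem r hr =>
    obtain ⟨r₁, h1, r₂, h2, rfl⟩ := hr
    refine ⟨P.mul_mem h1 h2, ?_⟩
    rw [← E.rels.st h1 h2 hk hl hkl, conjugate_commutatorElement,
      ds_acts_of_ne E P hij ha hb h1 (Or.inl ⟨hi, hj⟩),
      ds_acts_of_ne E P hij ha hb h2 (Or.inr ⟨hi, hj⟩),
      E.rels.st (ds_conj_mem E P hij ha hb h1) (ds_conj_mem E P hij ha hb h2) hk hl hkl]
    simp only [mul_assoc, Units.inv_mul_cancel_left]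
  | zero => exact ⟨zero_mem _, by simp [E.rels.zero]⟩
  | add r s _ _ hr hs =>
    refine ⟨add_mem hr.1 hs.1, ?_⟩
    rw [mul_add, add_mul, ← E.rels.add (ds_conj_mem E P hij ha hb hr.1)
      (ds_conj_mem E P hij ha hb hs.1), ← hr.2, ← hs.2, ← E.rels.add hr.1 hs.1]
    group
  | neg r _ hr => rwa [P.neg_eq]

end ds

theorem ds1Stmt (P : PR J) : Ds1Stmt E := by
  intro i j hij h1 h2 a ha b hb k l r hr
  by_cases hkl : k = l
  · rw [E.rels.triv (fun h => h.1 hkl), E.rels.triv (fun h => h.1 hkl), mul_one, mul_inv_cancel]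
  by_cases hc : (l ≠ i ∧ l ≠ j) ∨ (k ≠ i ∧ k ≠ j)
  · exact ds_acts_of_ne E P hij ha hb hr hc
  have key : ∀ i j k l : Z5, i ≠ j → j ≠ i + 1 → i ≠ j + 1 → k ≠ l →
      ¬ ((l ≠ i ∧ l ≠ j) ∨ (k ≠ i ∧ k ≠ j)) → k + 1 ≠ k ∧ (k + 1 - k).val < (l - k).val ∧
        k + 1 ≠ l ∧ k + 1 ≠ i ∧ k + 1 ≠ j := by decide
  obtain ⟨a1, a2, a3, a4, a5⟩ := key i j k l hij h1 h2 hkl hc
  exact (ds_acts_of_closure E P hij ha hb hkl a1.symm a3 a4 a5 (P.fact k l (k + 1) a1 a2 hr)).2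

end Crest.Agent.R176
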