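import Crest.Agent.R176.KBasic

/-! Row 176: Dennis-Stein elements of adjacent pairs, and the transports `om`. -/

set_option autoImplicit false

open scoped commutatorElement

namespace Crest.Agent.R176

variable {R : Type} [Ring R] {J : Z5 → Z5 → AddSubgroup R}

namespace Ds2

lemma iv_eq_of {a y : R} (hu : IsUnit (1 + a)) (h : (1 + a) * y = 1) : iv a = y := by
  calc iv a = iv a * ((1 + a) * y) := by rw [h, mul_one]
    _ = y := by rw [← mul_assoc, iv, Ring.inverse_mul_cancel _ hu, one_mul]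

lemma iv_ab (P : PR J) {i j : Z5} {a b : R} (ha : a ∈ J i j) (hb : b ∈ J j i) :
    iv (a * b) = 1 + a * iv (b * a) * b := by
  refine iv_eq_of (P.unit (P.mul_mem ha hb)) ?_
  have h := P.mul_iv (P.mul_mem hb ha)
  linear_combination (norm := noncomm_ring) a * h * b + P.two (a * b)

lemma iv_comm (P : PR J) {i j : Z5} {a b : R} (ha : a ∈ J i j) (hb : b ∈ J j i) :
    iv (a * b) * a = a * iv (b * a) := by
  rw [iv_ab P ha hb]
  have h := P.iv_mul (P.mul_mem hb ha)
  linear_combination (norm := noncomm_ring) a * h + P.two a - P.two (a * iv (b * a))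

/-- the diagonal part -/
def Dg (J : Z5 → Z5 → AddSubgroup R) : AddSubgroup R := ⨆ k, J k k

lemma mem_Dg {k : Z5} {t : R} (h : t ∈ J k k) : t ∈ Dg J :=
  AddSubgroup.mem_iSup_of_mem (S := fun k => J k k) k h

lemma Dg_left (P : PR J) {t : R} (ht : t ∈ Dg J) {k l : Z5} {r : R} (hr : r ∈ J k l) :
    t * r ∈ J k l := by
  refine AddSubgroup.iSup_induction (C := fun t => t * r ∈ J k l) _ ht ?_ ?_ ?_
  · intro m t ht
    by_cases h : m = k
    · subst h; exact P.mul_mem ht hr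
    · rw [P.mul_zero ht hr h]; exact zero_mem _
  · rw [zero_mul]; exact zero_mem _
  · intro x y hx hy
    rw [add_mul]; exact add_mem hx hy

lemma Dg_right (P : PR J) {t : R} (ht : t ∈ Dg J) {k l : Z5} {r : R} (hr : r ∈ J k l) :
    r * t ∈ J k l := by
  refine AddSubgroup.iSup_induction (C := fun t => r * t ∈ J k l) _ ht ?_ ?_ ?_
  · intro m t ht
    by_cases h : l = m
    · subst h; exact P.mul_mem hr ht
    · rw [P.mul_zero hr ht h]; exact zero_mem _
  · rw [mul_zero]; exact zero_mem _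
  · intro x y hx hy
    rw [mul_add]; exact add_mem hx hy

lemma Dg_mul (P : PR J) {t s : R} (ht : t ∈ Dg J) (hs : s ∈ Dg J) : t * s ∈ Dg J := by
  refine AddSubgroup.iSup_induction (C := fun s => t * s ∈ Dg J) _ hs ?_ ?_ ?_
  · intro m s hs
    exact mem_Dg (Dg_left P ht hs)
  · rw [mul_zero]; exact zero_mem _
  · intro x y hx hy
    rw [mul_add]; exact add_mem hx hy

/-- diagonal perturbations of `1` -/
def IsD (J : Z5 → Z5 → AddSubgroup R) (u : R) : Prop := ∃ t ∈ Dg J, u = 1 + t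

lemma IsD.mul (P : PR J) {u w : R} (hu : IsD J u) (hw : IsD J w) : IsD J (u * w) := by
  obtain ⟨t, ht, rfl⟩ := hu
  obtain ⟨s, hs, rfl⟩ := hw
  exact ⟨t + s + t * s, add_mem (add_mem ht hs) (Dg_mul P ht hs), by noncomm_ring⟩

lemma IsD.left (P : PR J) {u : R} (hu : IsD J u) {k l : Z5} {r : R} (hr : r ∈ J k l) :
    u * r ∈ J k l := by
  obtain ⟨t, ht, rfl⟩ := hu
  rw [add_mul, one_mul]
  exact add_mem hr (Dg_left P ht hr)

lemma IsD.right (P : PR J) {u : R} (hu : IsD J u) {k l : Z5} {r : R} (hr : r ∈ J k l) :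
    r * u ∈ J k l := by
  obtain ⟨t, ht, rfl⟩ := hu
  rw [mul_add, mul_one]
  exact add_mem hr (Dg_right P ht hr)

lemma IsD.pr {u : R} (hu : IsD J u) {i j : Z5} (hij : i ≠ j) {f : R →+ R}
    (h0 : ∀ k l : Z5, ¬ (k = i ∧ l = j) → ∀ r ∈ J k l, f r = 0) (h1 : f 1 = 0) : f u = 0 := by
  obtain ⟨t, ht, rfl⟩ := hu
  rw [map_add, h1, zero_add]
  refine AddSubgroup.iSup_induction (C := fun t => f t = 0) _ ht ?_ (map_zero f) ?_
  · intro m t ht
    exact h0 m m (fun h => hij (h.1.symm.trans h.2)) t ht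
  · intro x y hx hy
    rw [map_add, hx, hy, add_zero]

variable {G : Type} [Group G] (E : StG J G)

/-- elements that act on the Steinberg elements through a diagonal unit -/
def HH (P : PR J) : Subgroup G where
  carrier := {g | E.Acts g (E.pi g) ∧ IsD J (E.pi g : Rˣ) ∧ IsD J ((E.pi g)⁻¹ : Rˣ)}
  one_mem' := ⟨fun k l r _ => by simp, ⟨0, zero_mem _, by simp⟩, ⟨0, zero_mem _, by simp⟩⟩
  mul_mem' := by
    rintro g g' ⟨h1, h2, h3⟩ ⟨h1', h2', h3'⟩
    refine ⟨fun k l r hr => ?_, ?_, ?_⟩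
    · have e : g * g' * E.x k l r * (g * g')⁻¹ = g * (g' * E.x k l r * g'⁻¹) * g⁻¹ := by group
      rw [e, h1' k l r hr, h1 k l _ (h3'.right P (h2'.left P hr)), map_mul, mul_inv_rev,
        Units.val_mul, Units.val_mul]
      simp only [mul_assoc]
    · rw [map_mul, Units.val_mul]; exact h2.mul P h2'
    · rw [map_mul, mul_inv_rev, Units.val_mul]; exact h3'.mul P h3
  inv_mem' := by
    rintro g ⟨h1, h2, h3⟩
    refine ⟨fun k l r hr => ?_, by rwa [map_inv], by rwa [map_inv, inv_inv]⟩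
    have h := h1 k l _ (h2.right P (h3.left P hr))
    have e : ((E.pi g : Rˣ) : R) * (((E.pi g)⁻¹ : Rˣ) * r * (E.pi g : Rˣ)) * ((E.pi g)⁻¹ : Rˣ) =
        r := by
      rw [mul_assoc, mul_assoc, Units.mul_inv, mul_one, Units.mul_inv_cancel_left]
    rw [e] at h
    rw [map_inv, inv_inv, inv_inv, ← h]
    group

variable {E}

lemma HH_left {P : PR J} {g : G} (hg : g ∈ HH E P) {k l : Z5} {r : R} (hr : r ∈ J k l) :
    ∃ r' ∈ J k l, g * E.x k l r = E.x k l r' * g :=
  ⟨_, hg.2.2.right P (hg.2.1.left P hr), by rw [← hg.1 k l r hr]; group⟩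

lemma HH_right {P : PR J} {g : G} (hg : g ∈ HH E P) {k l : Z5} {r : R} (hr : r ∈ J k l) :
    ∃ r' ∈ J k l, E.x k l r * g = g * E.x k l r' := by
  obtain ⟨r', h1, h2⟩ := HH_left (inv_mem hg) (E := E) hr
  obtain ⟨r', h1, h2⟩ : ∃ r' ∈ J k l, g⁻¹ * E.x k l r = E.x k l r' * g⁻¹ := ⟨r', h1, h2⟩
  refine ⟨r', h1, ?_⟩
  calc E.x k l r * g = g * (g⁻¹ * E.x k l r) * g := by group
    _ = g * E.x k l r' := by rw [h2]; group

lemma h_mem (P : PR J) {i : Z5} {a : R} (ha : a ∈ J i i) : E.h i a ∈ HH E P := by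
  have h1 := E.pi_h ha
  have h2 : (((E.pi (E.h i a))⁻¹ : Rˣ) : R) = iv a :=
    (iv_eq_of (P.unit ha) (by rw [← h1, Units.mul_inv])).symm
  obtain ⟨a', ha', h3⟩ := P.iv_eq ha
  refine ⟨fun k l r hr => ?_, ⟨a, mem_Dg ha, h1⟩, ⟨a', mem_Dg ha', h2.trans h3⟩⟩
  rw [E.h_conj ha hr, h1, h2]

lemma pi_ds (P : PR J) {i j : Z5} (hij : i ≠ j) {a b : R} (ha : a ∈ J i j) (hb : b ∈ J j i) :
    ((E.pi (E.ds i j a b) : Rˣ) : R) = iv (a * b) + b * a := by
  have hba := P.mul_mem hb ha
  have hav := P.mul_iv_mem hba ha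
  have hvb := P.iv_mul_mem hba hb
  rw [StG.ds, map_mul, map_mul, map_mul, Units.val_mul, Units.val_mul, Units.val_mul,
    E.pi_x hij hav, E.pi_x hij.symm hb, E.pi_x hij ha, E.pi_x hij.symm hvb, iv_ab P ha hb]
  have h1 := P.mul_iv hba
  have h2 := P.iv_mul hba
  have z1 := P.mul_zero hav ha hij.symm
  have z2 := P.mul_zero hb hvb hij
  generalize iv (b * a) = v at *
  have e1 : (1 + a * v) * (1 + b) * (1 + a) = 1 + b + b * a + a * v * b := by
    linear_combination (norm := noncomm_ring) z1 + a * h2 + P.two a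
  rw [e1]
  linear_combination (norm := noncomm_ring) z2 + a * v * z2 + h1 * b + P.two b

lemma ds_inv (P : PR J) {i j : Z5} {a b : R} (ha : a ∈ J i j) (hb : b ∈ J j i) :
    (E.ds j i b a)⁻¹ = E.ds i j a b := by
  simp only [StG.ds, mul_inv_rev, E.rels.inv_eq P, iv_comm P ha hb, ← iv_comm P hb ha, mul_assoc]

lemma isD_ds (P : PR J) {i j : Z5} (hij : i ≠ j) {a b : R} (ha : a ∈ J i j) (hb : b ∈ J j i) :
    IsD J ((E.pi (E.ds i j a b) : Rˣ) : R) := by
  obtain ⟨t, ht, h⟩ := P.iv_eq (P.mul_mem ha hb)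
  exact ⟨t + b * a, add_mem (mem_Dg ht) (mem_Dg (P.mul_mem hb ha)),
    by rw [pi_ds P hij ha hb, h, add_assoc]⟩

lemma ds_mem (P : PR J) {i j : Z5} (hij : i ≠ j) (h : DsAt E i j) {a b : R} (ha : a ∈ J i j)
    (hb : b ∈ J j i) : E.ds i j a b ∈ HH E P :=
  ⟨h a ha b hb, isD_ds P hij ha hb, by
    rw [← map_inv, ds_inv P hb ha]; exact isD_ds P hij.symm hb ha⟩

lemma ds_sw (P : PR J) (i j : Z5) (a b : R) :
    E.x j i b * E.x i j a = E.x i j (a * iv (b * a)) * E.ds i j a b * E.x j i (iv (b * a) * b) := by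
  rw [StG.ds]
  simp only [← mul_assoc]
  rw [E.rels.mul_self P, one_mul, mul_assoc _ (E.x j i (iv (b * a) * b)), E.rels.mul_self P,
    mul_one]

lemma sw0 {i j k : Z5} {r s : R} (hr : r ∈ J i j) (hs : s ∈ J j k) (hij : i ≠ j)
    (hjk : j ≠ k) (hik : i ≠ k) :
    E.x i j r * E.x j k s = E.x i k (r * s) * E.x j k s * E.x i j r := by
  rw [← E.rels.st hr hs hij hjk hik, commutatorElement_def]
  group

lemma sw1 (P : PR J) {i j k : Z5} {r s : R} (hr : r ∈ J i j) (hs : s ∈ J j k) (hij : i ≠ j)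
    (hjk : j ≠ k) (hik : i ≠ k) :
    E.x i j r * E.x j k s = E.x j k s * E.x i j r * E.x i k (r * s) := by
  have hrs := P.mul_mem hr hs
  rw [sw0 hr hs hij hjk hik, (E.rels.com hrs hs hjk.symm hik.symm).eq, mul_assoc,
    (E.rels.com hrs hr hik.symm hij.symm).eq, mul_assoc]

lemma sw2 (P : PR J) {i j k : Z5} {r s : R} (hr : r ∈ J i j) (hs : s ∈ J j k) (hij : i ≠ j)
    (hjk : j ≠ k) (hik : i ≠ k) :
    E.x j k s * E.x i j r = E.x i j r * E.x j k s * E.x i k (r * s) := by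
  rw [sw1 P hr hs hij hjk hik, mul_assoc, E.rels.mul_self P, mul_one]

variable (E) in
/-- the big cell -/
def Cell (P : PR J) (i h j : Z5) : Set G :=
  {y | ∃ a ∈ J i h, ∃ b ∈ J h j, ∃ c ∈ J i j, ∃ g ∈ HH E P, ∃ d ∈ J h i, ∃ e ∈ J j h,
    ∃ f ∈ J j i, y = E.x i h a * E.x h j b * E.x i j c * g * (E.x h i d * E.x j h e * E.x j i f)}

section cell
variable {P : PR J} {i h j : Z5}

lemma cell_hi (hih : i ≠ h) (hhj : h ≠ j) (hij : i ≠ j) (H : DsAt E i h) {z : R}
    (hz : z ∈ J h i) {y : G} (hy : y ∈ Cell E P i h j) : E.x h i z * y ∈ Cell E P i h j := by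
  obtain ⟨a, ha, b, hb, c, hc, g, hg, d, hd, e, he, f, hf, rfl⟩ := hy
  have hza := P.mul_mem hz ha
  have hδ := ds_mem P hih H ha hz
  have e1 := ds_sw (E := E) P i h a z
  have ha' := P.mul_iv_mem hza ha
  have hz' := P.iv_mul_mem hza hz
  generalize E.ds i h a z = δ at hδ e1
  generalize a * iv (z * a) = a' at ha' e1
  generalize iv (z * a) * z = z' at hz' e1
  have e2 := (E.rels.com hz' hb hih hhj.symm).eq
  have e3 := sw0 (E := E) hz' hc hih.symm hij hhj
  have hb' := add_mem hb (P.mul_mem hz' hc)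
  have e4 := E.rels.add hb (P.mul_mem hz' hc)
  obtain ⟨b'', hb'', e5⟩ := HH_left hδ hb'
  obtain ⟨c'', hc'', e6⟩ := HH_left hδ hc
  obtain ⟨z'', hz'', e7⟩ := HH_right hg hz'
  have e8 := E.rels.add hz'' hd
  refine ⟨a', ha', b'', hb'', c'', hc'', δ * g, mul_mem hδ hg, z'' + d, add_mem hz'' hd, e, he,
    f, hf, ?_⟩
  calc E.x h i z * (E.x i h a * E.x h j b * E.x i j c * g * (E.x h i d * E.x j h e * E.x j i f))
      = (E.x h i z * E.x i h a) * E.x h j b * E.x i j c * g *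
          (E.x h i d * E.x j h e * E.x j i f) := by simp only [mul_assoc]
    _ = E.x i h a' * δ * (E.x h i z' * E.x h j b) * E.x i j c * g *
          (E.x h i d * E.x j h e * E.x j i f) := by rw [e1]; simp only [mul_assoc]
    _ = E.x i h a' * δ * E.x h j b * (E.x h i z' * E.x i j c) * g *
          (E.x h i d * E.x j h e * E.x j i f) := by rw [e2]; simp only [mul_assoc]
    _ = E.x i h a' * (δ * (E.x h j b * E.x h j (z' * c))) * E.x i j c * (E.x h i z' * g) *
          (E.x h i d * E.x j h e * E.x j i f) := by rw [e3]; simp only [mul_assoc]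
    _ = E.x i h a' * E.x h j b'' * (δ * E.x i j c) * g *
          ((E.x h i z'' * E.x h i d) * E.x j h e * E.x j i f) := by
        rw [e4, e5, e7]; simp only [mul_assoc]
    _ = _ := by rw [e6, e8]; simp only [mul_assoc]

lemma cell_jh (hih : i ≠ h) (hhj : h ≠ j) (hij : i ≠ j) (H : DsAt E h j) {z : R}
    (hz : z ∈ J j h) {y : G} (hy : y ∈ Cell E P i h j) : E.x j h z * y ∈ Cell E P i h j := by
  obtain ⟨a, ha, b, hb, c, hc, g, hg, d, hd, e, he, f, hf, rfl⟩ := hy
  have e0 := sw1 (E := E) P ha hb hih hhj hij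
  have hc' := add_mem (P.mul_mem ha hb) hc
  have e0' := E.rels.add (P.mul_mem ha hb) hc
  generalize a * b + c = c' at hc' e0'
  have hzb := P.mul_mem hz hb
  have hδ := ds_mem P hhj H hb hz
  have e1 := ds_sw (E := E) P h j b z
  have hb' := P.mul_iv_mem hzb hb
  have hz' := P.iv_mul_mem hzb hz
  generalize E.ds h j b z = δ at hδ e1
  generalize b * iv (z * b) = b' at hb' e1
  generalize iv (z * b) * z = z' at hz' e1
  have e2 := (E.rels.com hz' ha hih.symm hhj).eq
  have e3 := sw2 (E := E) P hc' hz' hij hhj.symm hih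
  have hcz := P.mul_mem hc' hz'
  have e4 := (E.rels.com hz' hcz hih.symm hhj).eq
  have e5 := (E.rels.com hc' hcz hij.symm hih.symm).eq
  have e6 := E.rels.add ha hcz
  obtain ⟨a'', ha'', e7⟩ := HH_left hδ (add_mem ha hcz)
  obtain ⟨c'', hc'', e8⟩ := HH_left hδ hc'
  obtain ⟨z'', hz'', e9⟩ := HH_right hg hz'
  have e10 := sw2 (E := E) P ha'' hb' hih hhj hij
  have e11 := E.rels.add (P.mul_mem ha'' hb') hc''
  have e12 := sw1 (E := E) P hz'' hd hhj.symm hih.symm hij.symm
  have hzd := P.mul_mem hz'' hd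
  have e13 := (E.rels.com hzd he hij hhj).eq
  have e14 := E.rels.add hz'' he
  have e15 := E.rels.add hzd hf
  refine ⟨a'', ha'', b', hb', _, add_mem (P.mul_mem ha'' hb') hc'', δ * g, mul_mem hδ hg, d, hd,
    _, add_mem hz'' he, _, add_mem hzd hf, ?_⟩
  calc E.x j h z * (E.x i h a * E.x h j b * E.x i j c * g * (E.x h i d * E.x j h e * E.x j i f))
      = (E.x j h z * E.x h j b) * E.x i h a * (E.x i j (a * b) * E.x i j c) * g *
          (E.x h i d * E.x j h e * E.x j i f) := by rw [e0]; simp only [mul_assoc]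
    _ = E.x h j b' * δ * (E.x j h z' * E.x i h a) * E.x i j c' * g *
          (E.x h i d * E.x j h e * E.x j i f) := by rw [e1, e0']; simp only [mul_assoc]
    _ = E.x h j b' * δ * E.x i h a * (E.x j h z' * E.x i j c') * g *
          (E.x h i d * E.x j h e * E.x j i f) := by rw [e2]; simp only [mul_assoc]
    _ = E.x h j b' * δ * E.x i h a * E.x i j c' * (E.x j h z' * E.x i h (c' * z')) * g *
          (E.x h i d * E.x j h e * E.x j i f) := by rw [e3]; simp only [mul_assoc]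
    _ = E.x h j b' * δ * E.x i h a * (E.x i j c' * E.x i h (c' * z')) * (E.x j h z' * g) *
          (E.x h i d * E.x j h e * E.x j i f) := by rw [e4]; simp only [mul_assoc]
    _ = E.x h j b' * (δ * (E.x i h a * E.x i h (c' * z'))) * E.x i j c' * g *
          ((E.x j h z'' * E.x h i d) * E.x j h e * E.x j i f) := by
        rw [e5, e9]; simp only [mul_assoc]
    _ = (E.x h j b' * E.x i h a'') * (δ * E.x i j c') * g *
          (E.x h i d * E.x j h z'' * (E.x j i (z'' * d) * E.x j h e) * E.x j i f) := by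
        rw [e6, e7, e12]; simp only [mul_assoc]
    _ = E.x i h a'' * E.x h j b' * (E.x i j (a'' * b') * E.x i j c'') * (δ * g) *
          (E.x h i d * (E.x j h z'' * E.x j h e) * (E.x j i (z'' * d) * E.x j i f)) := by
        rw [e10, e8, e13]; simp only [mul_assoc]
    _ = _ := by rw [e11, e14, e15]

lemma cell_ji (hih : i ≠ h) (hhj : h ≠ j) (hij : i ≠ j) (H : DsAt E i h) (H' : DsAt E h j)
    (hlt : (h - j).val < (i - j).val) {β : R} (hβ : β ∈ J j i) {y : G}
    (hy : y ∈ Cell E P i h j) : E.x j i β * y ∈ Cell E P i h j := by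
  have key : β ∈ J j i ∧ ∀ y ∈ Cell E P i h j, E.x j i β * y ∈ Cell E P i h j := by
    refine AddSubgroup.closure_induction
      (p := fun β _ => β ∈ J j i ∧ ∀ y ∈ Cell E P i h j, E.x j i β * y ∈ Cell E P i h j)
      ?_ ?_ ?_ ?_ (P.fact j i h hhj hlt hβ)
    · rintro _ ⟨z, hz, c, hc, rfl⟩
      refine ⟨P.mul_mem hz hc, fun y hy => ?_⟩
      rw [← E.rels.st hz hc hhj.symm hih.symm hij.symm, commutatorElement_def, E.rels.inv_eq P,
        E.rels.inv_eq P, mul_assoc, mul_assoc, mul_assoc]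
      exact cell_jh hih hhj hij H' hz (cell_hi hih hhj hij H hc
        (cell_jh hih hhj hij H' hz (cell_hi hih hhj hij H hc hy)))
    · exact ⟨zero_mem _, fun y hy => by rwa [E.rels.zero, one_mul]⟩
    · rintro β β' _ _ ⟨h1, h2⟩ ⟨h1', h2'⟩
      refine ⟨add_mem h1 h1', fun y hy => ?_⟩
      rw [← E.rels.add h1 h1', mul_assoc]
      exact h2 _ (h2' y hy)
    · rintro β _ h1
      rwa [P.neg_eq]
  exact key.2 y hy

lemma ds_mem_of (hih : i ≠ h) (hhj : h ≠ j) (hij : i ≠ j) (H : DsAt E i h) (H' : DsAt E h j)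
    (hlt : (h - j).val < (i - j).val) {α β : R} (hα : α ∈ J i j) (hβ : β ∈ J j i) :
    E.ds i j α β ∈ HH E P := by
  have h0 : E.x i j α ∈ Cell E P i h j :=
    ⟨0, zero_mem _, 0, zero_mem _, α, hα, 1, one_mem _, 0, zero_mem _, 0, zero_mem _, 0,
      zero_mem _, by simp only [E.rels.zero, one_mul, mul_one]⟩
  obtain ⟨a, ha, b, hb, c, hc, g, hg, d, hd, e, he, f, hf, hy⟩ :=
    cell_ji hih hhj hij H H' hlt hβ h0
  have hy' : E.x i j c * E.x h j b * E.x i h a * (E.x j i β * E.x i j α) =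
      g * (E.x h i d * E.x j h e * E.x j i f) := by
    rw [hy, ← E.rels.inv_eq P i j c, ← E.rels.inv_eq P h j b, ← E.rels.inv_eq P i h a]
    simp only [E.rels.inv_eq P]
    have q1 := E.rels.mul_self P i h a
    have q2 := E.rels.mul_self P h j b
    have q3 := E.rels.mul_self P i j c
    calc _ = E.x i j c * (E.x h j b * (E.x i h a * E.x i h a) * E.x h j b) * E.x i j c * g *
          (E.x h i d * E.x j h e * E.x j i f) := by simp only [mul_assoc]
      _ = _ := by rw [q1, mul_one, q2, mul_one, q3, one_mul]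
  have hp := congrArg (fun y => ((E.pi y : Rˣ) : R)) hy'
  simp only [map_mul, Units.val_mul, E.pi_x hij hc, E.pi_x hhj hb, E.pi_x hih ha,
    E.pi_x hij.symm hβ, E.pi_x hij hα, E.pi_x hih.symm hd, E.pi_x hhj.symm he,
    E.pi_x hij.symm hf] at hp
  have hD := hg.2.1
  have hU : IsUnit ((E.pi g : Rˣ) : R) := Units.isUnit _
  generalize ((E.pi g : Rˣ) : R) = γ at hp hD hU
  have hβα := P.mul_mem hβ hα
  have main : 1 + (α + c * (1 + β * α)) + β + β * α + a + b * (1 + β * α) + b * β + c * β =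
      γ + γ * d + γ * e + γ * f := by
    have z1 := P.mul_zero hb ha hij.symm
    have z2 := P.mul_zero hc ha hij.symm
    have z3 := P.mul_zero hc hb hhj.symm
    have z4 := P.mul_zero ha hα hih.symm
    have z5 := P.mul_zero ha hβ hhj
    have z6 := P.mul_zero hb hα hij.symm
    have z7 := P.mul_zero hc hα hij.symm
    have z8 := P.mul_zero hd he hij
    have z9 := P.mul_zero hd hf hij
    have z10 := P.mul_zero he hf hhj
    have e1 : (1 + c) * (1 + b) * (1 + a) = 1 + a + b + c := by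
      linear_combination (norm := noncomm_ring) z1 + z2 + z3 + z3 * a
    have e2 : (1 + d) * (1 + e) * (1 + f) = 1 + d + e + f := by
      linear_combination (norm := noncomm_ring) z8 + z9 + z10 + z8 * f
    rw [e1, e2] at hp
    linear_combination (norm := noncomm_ring) hp - z4 - z5 - z5 * α - z6 - z7
  have m1 : α + c * (1 + β * α) ∈ J i j :=
    add_mem hα (by rw [mul_add, mul_one]; exact add_mem hc (P.mul_mem hc hβα))
  have m2 : b * (1 + β * α) ∈ J h j := by
    rw [mul_add, mul_one]; exact add_mem hb (P.mul_mem hb hβα)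
  have m3 := P.mul_mem hb hβ
  have m4 := P.mul_mem hc hβ
  have m5 := hD.left P hd
  have m6 := hD.left P he
  have m7 := hD.left P hf
  have proj : ∀ k l : Z5, k ≠ l → ∃ φ : R →+ R, (∀ r ∈ J k l, φ r = r) ∧
      (∀ k' l' : Z5, (k' ≠ k ∨ l' ≠ l) → ∀ r ∈ J k' l', φ r = 0) ∧
      φ (α + c * (1 + β * α)) + φ β + φ a + φ (b * (1 + β * α)) + φ (b * β) =
        φ (γ * d) + φ (γ * e) + φ (γ * f) := by
    intro k l hkl
    obtain ⟨φ, h1, h2, h3⟩ := P.pr k l
    refine ⟨φ, h1, fun k' l' hh => h2 k' l' (fun h' => hh.elim (· h'.1) (· h'.2)), ?_⟩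
    have := congrArg φ main
    simp only [map_add φ] at this
    rw [h3, hD.pr hkl h2 h3, h2 j j (fun h' => hkl (h'.1.symm.trans h'.2)) _ hβα,
      h2 i i (fun h' => hkl (h'.1.symm.trans h'.2)) _ m4] at this
    rw [map_add]
    simpa only [zero_add, add_zero] using this
  have ha0 : a = 0 := by
    obtain ⟨φ, h1, h2, h3⟩ := proj i h hih
    rw [h2 _ _ (Or.inr hhj.symm) _ m1, h2 _ _ (Or.inl hij.symm) _ hβ, h1 _ ha,
      h2 _ _ (Or.inl hih.symm) _ m2, h2 _ _ (Or.inl hih.symm) _ m3, h2 _ _ (Or.inl hih.symm) _ m5,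
      h2 _ _ (Or.inl hij.symm) _ m6, h2 _ _ (Or.inl hij.symm) _ m7] at h3
    simpa using h3
  have hb0 : b = 0 := by
    obtain ⟨φ, h1, h2, h3⟩ := proj h j hhj
    rw [h2 _ _ (Or.inl hih) _ m1, h2 _ _ (Or.inr hij) _ hβ, h2 _ _ (Or.inl hih) _ ha,
      h1 _ m2, h2 _ _ (Or.inr hij) _ m3, h2 _ _ (Or.inr hij) _ m5,
      h2 _ _ (Or.inr hhj) _ m6, h2 _ _ (Or.inr hij) _ m7] at h3
    simp only [zero_add, add_zero] at h3
    exact (P.unit hβα).mul_left_eq_zero.1 h3
  have hc0 : c = α * iv (β * α) := by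
    obtain ⟨φ, h1, h2, h3⟩ := proj i j hij
    rw [h1 _ m1, h2 _ _ (Or.inr hij) _ hβ, h2 _ _ (Or.inr hhj) _ ha,
      h2 _ _ (Or.inl hih.symm) _ m2, h2 _ _ (Or.inr hij) _ m3, h2 _ _ (Or.inr hij) _ m5,
      h2 _ _ (Or.inr hhj) _ m6, h2 _ _ (Or.inr hij) _ m7] at h3
    simp only [add_zero] at h3
    have h4 := P.mul_iv hβα
    linear_combination (norm := noncomm_ring) h3 * iv (β * α) - c * h4 - P.two (α * iv (β * α))
  have he0 : e = 0 := by
    obtain ⟨φ, h1, h2, h3⟩ := proj j h hhj.symm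
    rw [h2 _ _ (Or.inl hij) _ m1, h2 _ _ (Or.inr hih) _ hβ, h2 _ _ (Or.inl hij) _ ha,
      h2 _ _ (Or.inl hhj) _ m2, h2 _ _ (Or.inl hhj) _ m3, h2 _ _ (Or.inl hhj) _ m5,
      h1 _ m6, h2 _ _ (Or.inr hih) _ m7] at h3
    simp only [zero_add, add_zero] at h3
    exact hU.mul_right_eq_zero.1 h3.symm
  have hd0 : d = 0 := by
    obtain ⟨φ, h1, h2, h3⟩ := proj h i hih.symm
    rw [h2 _ _ (Or.inl hih) _ m1, h2 _ _ (Or.inl hhj.symm) _ hβ, h2 _ _ (Or.inl hih) _ ha,
      h2 _ _ (Or.inr hij.symm) _ m2, h1 _ m3, h1 _ m5,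
      h2 _ _ (Or.inl hhj.symm) _ m6, h2 _ _ (Or.inl hhj.symm) _ m7, hb0] at h3
    simp only [add_zero, zero_mul] at h3
    exact hU.mul_right_eq_zero.1 h3.symm
  have hf0 : f = iv (β * α) * β := by
    obtain ⟨φ, h1, h2, h3⟩ := proj j i hij.symm
    rw [h2 _ _ (Or.inl hij) _ m1, h1 _ hβ, h2 _ _ (Or.inl hij) _ ha,
      h2 _ _ (Or.inl hhj) _ m2, h2 _ _ (Or.inl hhj) _ m3, h2 _ _ (Or.inl hhj) _ m5,
      h2 _ _ (Or.inr hih.symm) _ m6, h1 _ m7] at h3
    simp only [zero_add, add_zero] at h3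
    have h4 := P.iv_mul hβα
    have h5 : α + c * (1 + β * α) = 0 := by
      rw [hc0, mul_assoc, h4, mul_one, P.two]
    rw [h5, ha0, hb0, hd0, he0, ← h3] at main
    have h6 : γ = 1 + β * α + c * β := by
      linear_combination (norm := noncomm_ring) -main
    have z := P.mul_zero m4 hf hij
    have h7 : (1 + β * α) * f = β := by
      linear_combination (norm := noncomm_ring) -h3 - h6 * f - z
    rw [← h7, ← mul_assoc]
    nth_rewrite 1 [h7]
    rw [h4, one_mul]
  rw [ha0, hb0, hd0, he0] at hy'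
  simp only [E.rels.zero, one_mul, mul_one] at hy'
  have : E.ds i j α β = g := by
    rw [StG.ds, ← hc0, ← hf0, mul_assoc (E.x i j c), hy', mul_assoc, E.rels.mul_self P, mul_one]
  rwa [this]

end cell

lemma mem_C_of (P : PR J) {w : G} (hw : w ∈ HH E P) (h1 : E.pi w = 1) : w ∈ E.C := by
  rw [E.mem_C]
  intro k l r
  by_cases hr : r ∈ J k l
  · have h := hw.1 k l r hr
    rw [h1, inv_one, Units.val_one, one_mul, mul_one, mul_inv_eq_iff_eq_mul] at h
    exact h
  · rw [E.rels.triv fun h => hr h.2]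
    exact Commute.one_right w

end Ds2

variable {G : Type} [Group G] (E : StG J G)

theorem dsStmt_of (P : PR J) (h : Ds1Stmt E) : DsStmt E := by
  have adj : ∀ i : Z5, ∀ a ∈ J i (i + 1), ∀ b ∈ J (i + 1) i,
      E.ds i (i + 1) a b ∈ Ds2.HH E P := by
    intro i a ha b hb
    refine Ds2.ds_mem_of (h := i + 3) ?_ ?_ ?_ (h _ _ ?_ ?_ ?_) (h _ _ ?_ ?_ ?_) ?_ ha hb <;>
      (clear ha hb; revert i; decide)
  intro i j hij
  by_cases h1 : j = i + 1
  · subst h1
    exact fun a ha b hb => (adj i a ha b hb).1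
  by_cases h2 : i = j + 1
  · subst h2
    intro a ha b hb
    rw [← Ds2.ds_inv P ha hb]
    exact (inv_mem (adj j b hb a ha)).1
  · exact h i j hij h1 h2

theorem omStmt_of (P : PR J) (h : DsStmt E) : OmStmt E := by
  intro ι v ν q r hij hF
  have hP := hF q (by simp) q (by simp)
  have hS := hF r (by simp) r (by simp)
  have ha := hF q (by simp) r (by simp)
  have hb := hF r (by simp) q (by simp)
  have e0 : E.om v ν q r =
      E.x (v q) (v r) (ν q r * iv (ν r r)) * E.h (v r) (ν r r) *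
        E.h (v q) (ν q q + ν q r * iv (ν r r) * ν r q) * E.x (v r) (v q) (iv (ν r r) * ν r q) *
      (E.x (v r) (v q) (ν r q * iv (ν q q)) * E.h (v q) (ν q q) *
        E.h (v r) (ν r r + ν r q * iv (ν q q) * ν q r) *
          E.x (v q) (v r) (iv (ν q q) * ν q r))⁻¹ := by
    simp [StG.om, StG.Lam, StG.col, StG.row, elim]
  rw [e0]
  clear e0 hF
  generalize v q = i at *
  generalize v r = j at *
  generalize ν q q = p at *
  generalize ν r r = s at *
  generalize ν q r = a at *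
  generalize ν r q = b at *
  have hα := P.mul_iv_mem hS ha
  have hβ := P.mul_iv_mem hP hb
  have hU := add_mem hP (P.mul_mem hα hb)
  have hV := add_mem hS (P.mul_mem hβ ha)
  have hp1 := P.mul_iv hP
  have hp2 := P.iv_mul hP
  have hs1 := P.mul_iv hS
  have hs2 := P.iv_mul hS
  have hU1 := P.mul_iv hU
  have hU2 := P.iv_mul hU
  have hV1 := P.mul_iv hV
  have hV2 := P.iv_mul hV
  have hsb := P.iv_mul_mem hS hb
  have hpa := P.iv_mul_mem hP ha
  have k1 : 1 + a * iv s * (b * iv p) = (1 + (p + a * iv s * b)) * iv p := by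
    linear_combination (norm := noncomm_ring) -hp1
  have k2 : 1 + b * iv p * (a * iv s) = (1 + (s + b * iv p * a)) * iv s := by
    linear_combination (norm := noncomm_ring) -hs1
  obtain ⟨U, hUe⟩ : ∃ U, U = p + a * iv s * b := ⟨_, rfl⟩
  obtain ⟨V, hVe⟩ : ∃ V, V = s + b * iv p * a := ⟨_, rfl⟩
  rw [← hUe] at hU hU1 hU2 k1 ⊢
  rw [← hVe] at hV hV1 hV2 k2 ⊢
  have i1 : iv (a * iv s * (b * iv p)) = (1 + p) * iv U := by
    refine Ds2.iv_eq_of (P.unit (P.mul_mem hα hβ)) ?_
    rw [k1, mul_assoc, ← mul_assoc (iv p), hp2, one_mul, hU1]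
  have i2 : iv (b * iv p * (a * iv s)) = (1 + s) * iv V := by
    refine Ds2.iv_eq_of (P.unit (P.mul_mem hβ hα)) ?_
    rw [k2, mul_assoc, ← mul_assoc (iv s), hs2, one_mul, hV1]
  have c1 : E.h j s * E.h i U * E.x j i (iv s * b) =
      E.x j i (iv (b * iv p * (a * iv s)) * (b * iv p)) * (E.h j s * E.h i U) := by
    have t1 := E.h_conj hU hsb
    have t2 := E.h_conj hS (P.conj_mem hU hsb)
    have t3 : (1 + s) * ((1 + U) * (iv s * b) * iv U) * iv s =
        iv (b * iv p * (a * iv s)) * (b * iv p) := by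
      rw [Ds2.iv_comm P hβ hα, i1, add_mul 1 U, one_mul, P.mul_zero hU hsb hij, add_zero,
        ← mul_assoc, ← mul_assoc, hs1, one_mul, P.mul_iv_of_ne hS (P.mul_iv_mem hU hb) hij,
        mul_assoc b, ← mul_assoc (iv p), hp2, one_mul]
    rw [← t3, ← t2, ← t1]
    group
  have c2 : E.h i p * E.h j V * E.x i j (iv p * a) =
      E.x i j (a * iv s * iv (b * iv p * (a * iv s))) * (E.h i p * E.h j V) := by
    have t1 := E.h_conj hV hpa
    have t2 := E.h_conj hP (P.conj_mem hV hpa)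
    have t3 : (1 + p) * ((1 + V) * (iv p * a) * iv V) * iv p =
        a * iv s * iv (b * iv p * (a * iv s)) := by
      rw [i2, add_mul 1 V, one_mul, P.mul_zero hV hpa hij.symm, add_zero,
        ← mul_assoc, ← mul_assoc, hp1, one_mul, P.mul_iv_of_ne hP (P.mul_iv_mem hV ha) hij.symm,
        mul_assoc a, ← mul_assoc (iv s), hs2, one_mul]
    rw [← t3, ← t2, ← t1]
    group
  have hw : E.ds i j (a * iv s) (b * iv p) * (E.h j s * E.h i U) * (E.h i p * E.h j V)⁻¹ ∈ E.C := by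
    refine Ds2.mem_C_of P (mul_mem (mul_mem (Ds2.ds_mem P hij (h i j hij) hα hβ)
      (mul_mem (Ds2.h_mem P hS) (Ds2.h_mem P hU)))
      (inv_mem (mul_mem (Ds2.h_mem P hP) (Ds2.h_mem P hV)))) ?_
    rw [map_mul, map_inv, mul_inv_eq_one]
    refine Units.ext ?_
    simp only [map_mul, Units.val_mul]
    rw [Ds2.pi_ds P hij hα hβ, E.pi_h hS, E.pi_h hU, E.pi_h hP, E.pi_h hV, i1]
    have z1 := P.mul_zero hS hU hij.symm
    have z2 := P.mul_zero hU hS hij
    have z3 := P.mul_zero hP hS hij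
    have z4 := P.mul_zero hV hU hij.symm
    have z5 := P.mul_zero hP hV hij
    have k3 : b * iv p * (a * iv s) = (1 + V) * iv s + 1 := by
      linear_combination (norm := noncomm_ring) k2 - P.two 1
    rw [k3]
    have t1 : (1 + p) * iv U * ((1 + s) * (1 + U)) = 1 + p + s := by
      linear_combination (norm := noncomm_ring) (1 + p) * iv U * (z1 - z2) +
        (1 + p) * hU2 * (1 + s) + z3
    have t2 : (1 + V) * iv s * ((1 + s) * (1 + U)) = 1 + V + U := by
      linear_combination (norm := noncomm_ring) (1 + V) * hs2 * (1 + U) + z4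
    linear_combination (norm := noncomm_ring) t1 + t2 + z1 - z5 + P.two (1 + s + U)
  have hc := (E.mem_C.1 hw)
  have e1 : E.x i j (a * iv s) * E.h j s * E.h i U * E.x j i (iv s * b) *
      (E.x j i (b * iv p) * E.h i p * E.h j V * E.x i j (iv p * a))⁻¹ =
      (E.x j i (b * iv p) * E.x i j (a * iv s * iv (b * iv p * (a * iv s)))) *
        (E.ds i j (a * iv s) (b * iv p) * (E.h j s * E.h i U) * (E.h i p * E.h j V)⁻¹) *
        (E.x j i (b * iv p) * E.x i j (a * iv s * iv (b * iv p * (a * iv s))))⁻¹ := by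
    have q1 := E.rels.mul_self P j i (b * iv p)
    have q2 := E.rels.mul_self P i j (a * iv s * iv (b * iv p * (a * iv s)))
    calc _ = E.x i j (a * iv s) * (E.h j s * E.h i U * E.x j i (iv s * b)) *
          (E.x j i (b * iv p) * (E.h i p * E.h j V * E.x i j (iv p * a)))⁻¹ := by
          simp only [mul_assoc]
      _ = (E.x j i (b * iv p) * (E.x i j (a * iv s * iv (b * iv p * (a * iv s))) *
            E.x i j (a * iv s * iv (b * iv p * (a * iv s)))) * E.x j i (b * iv p)) *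
          (E.x i j (a * iv s) * (E.h j s * E.h i U * E.x j i (iv s * b)) *
          (E.x j i (b * iv p) * (E.h i p * E.h j V * E.x i j (iv p * a)))⁻¹) := by
          rw [q2, mul_one, q1, one_mul]
      _ = _ := by
          rw [c1, c2, StG.ds]
          group
  rw [e1, ← ((hc _ _ _).mul_right (hc _ _ _)).eq, mul_inv_cancel_right]
  exact hw

end Crest.Agent.R176
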