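import Crest.Agent.R176.CBasic

/-! Row 176: the standard encoding, counting free items, exchanging two items. -/

set_option autoImplicit false
set_option linter.unusedSectionVars false

namespace Crest.Agent.R176

namespace Enc

variable {M : ℕ} [NeZero M]

theorem nb_even (M : ℕ) : nb M % 2 = 0 := by rw [nb]; omega

theorem mod_qq_ten (i : ℕ) : i % qq % 10 = i % 10 := Nat.mod_mod_of_dvd i ten_dvd_qq

theorem mod_qq_two (i : ℕ) : i % qq % 2 = i % 2 :=
  Nat.mod_mod_of_dvd i (Dvd.dvd.trans (by norm_num) ten_dvd_qq)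

theorem tag_P (X : Cell (M * BB)) (i : ℕ) : (encC (M := M) X i).τ = Tag.P ↔ i % 2 = 0 := by
  unfold encC; split_ifs <;> simp_all [mkC]

theorem tag_A (X : Cell (M * BB)) (i : ℕ) : (encC (M := M) X i).τ = Tag.A ↔ i = 1 := by
  unfold encC; split_ifs <;> simp_all [mkC]
  omega

theorem tag_T (X : Cell (M * BB)) (i : ℕ) : (encC (M := M) X i).τ = Tag.T ↔ i + 1 = nb M := by
  have h1 := nb_even M
  have h2 := nb_ge (M := M)
  unfold encC; split_ifs <;> simp_all [mkC] <;> omega

theorem arm_idle (X : Cell (M * BB)) (i : ℕ) : (encC (M := M) X i).arm = Arm.idle := by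
  unfold encC; split_ifs <;> rfl

theorem enc_P (X : Cell (M * BB)) {i : ℕ} (h : (encC (M := M) X i).τ = Tag.P) :
    encC (M := M) X i = mkC M Tag.P Arm.idle t0 (i / 2) := by
  rw [tag_P] at h
  rw [encC, if_pos h]

theorem enc_I (X : Cell (M * BB)) {i : ℕ} (h : (encC (M := M) X i).τ = Tag.I) :
    encC (M := M) X i = mkC M Tag.I Arm.idle t0 (i / 2) ∧ i % 2 = 1 ∧ i ≠ 1 ∧ i + 1 ≠ nb M := by
  unfold encC at h ⊢
  split_ifs at h ⊢ with h1 h2 h3
  · cases h
  · cases h
  · cases h
  · exact ⟨rfl, by omega, h2, h3⟩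

theorem enc_A (X : Cell (M * BB)) : encC (M := M) X 1 = mkC M Tag.A Arm.idle X.a 0 := by
  simp [encC]

theorem enc_T (X : Cell (M * BB)) :
    encC (M := M) X (nb M - 1) = mkC M Tag.T Arm.idle X.t X.d.val := by
  have h1 := nb_even M
  have h2 := nb_ge (M := M)
  rw [encC, if_neg (by omega), if_neg (by omega), if_pos (by omega)]

theorem layOK (X : Cell (M * BB)) :
    LayOK (nb M) (stOf M X.a.st.κ) (fun i => decide (i % 10 = 0)) (encC X) false false where
  dvd := ten_dvd_nb M
  al i _ := mod_qq_ten i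
  noE i hi := by simp only [stOf, decide_eq_false_iff_not]; omega
  pmE i hi := ⟨10 * (i / 10), by omega, by omega, by simp⟩
  pmU i _ j _ h hi hj := by simp only [decide_eq_true_eq] at hi hj; omega
  grp g _ := by rw [Ne, tag_P, tag_P]; omega
  uA i _ h := ⟨rfl, fun j _ hj => by rw [tag_A] at h hj; omega⟩
  uT i _ h := ⟨rfl, fun j _ hj => by rw [tag_T] at h hj; omega⟩

/-- cell `i` of the standard block -/
noncomputable abbrev ec (X : Cell (M * BB)) (i : ℕ) : Cell M :=
  layC (stOf M X.a.st.κ) (fun i => decide (i % 10 = 0)) (encC X) false false i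

theorem cat_enc1 (X : Cell (M * BB)) {i : ℕ} (hi : i < nb M) : cat (enc1 X) i = ec X i :=
  cat_map_range hi _

theorem lab_ec (X : Cell (M * BB)) (i : ℕ) :
    lab (ec X i) = (encC (M := M) X i).dg.val + BB * (encC (M := M) X i).d.val := rfl

theorem ec_sπ (X : Cell (M * BB)) (i : ℕ) : (ec X i).a.sπ = true := by
  simp only [ec, layC, decide_eq_true_eq]
  exact ⟨10 * (i / 10), by omega, by omega, by omega⟩

theorem ec_sA (X : Cell (M * BB)) (i : ℕ) : (ec X i).a.mb.sA = decide (1 ≤ i) := by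
  simp only [ec, layC, Bool.false_or, tag_A, decide_eq_decide]
  exact ⟨fun ⟨j, h1, h2⟩ => by omega, fun h => ⟨1, h, rfl⟩⟩

theorem ec_sT (X : Cell (M * BB)) (i : ℕ) : (ec X i).a.mb.sT = decide (nb M ≤ i + 1) := by
  have h2 := nb_ge (M := M)
  simp only [ec, layC, Bool.false_or, tag_T, decide_eq_decide]
  exact ⟨fun ⟨j, h1, h2⟩ => by omega, fun h => ⟨nb M - 1, by omega, by omega⟩⟩

theorem ec_τ (X : Cell (M * BB)) (i : ℕ) : (ec X i).a.mb.τ = (encC (M := M) X i).τ := rfl
theorem ec_κ (X : Cell (M * BB)) (i : ℕ) : (ec X i).a.st.κ.val = i % qq := rfl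
theorem ec_F (X : Cell (M * BB)) (i : ℕ) : (ec X i).a.st.F = decide (i = 0) := rfl
theorem ec_E (X : Cell (M * BB)) (i : ℕ) : (ec X i).a.st.E = decide (i + 1 = nb M) := rfl
theorem ec_π (X : Cell (M * BB)) (i : ℕ) : (ec X i).a.π = decide (i % 10 = 0) := rfl
theorem ec_arm (X : Cell (M * BB)) (i : ℕ) : (ec X i).a.mb.arm = Arm.idle := arm_idle X i

theorem blkF (X : Cell (M * BB)) : BlkF X (ec X) 1 (nb M - 1) := by
  have h1 := nb_even M
  have h2 := nb_ge (M := M)
  have h3 : nb M = 2 * (M * BB) := rfl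
  refine ⟨by omega, by omega, fun _ _ => rfl, fun i _ => tag_A X i, fun i _ => ?_,
    fun i hi h => ?_, ?_, fun i hi h => ?_, fun i hi j hj h h' e => ?_,
    Or.inl ⟨ec_arm X _, ec_arm X _⟩, ?_, ?_, ?_⟩
  · rw [ec_τ, tag_T]; omega
  · rw [lab_ec, enc_P X h, lab_mkC (by omega)]
  · rw [lab_ec, enc_A, lab_mkC (by omega)]
  · obtain ⟨e, h4, h5, h6⟩ := enc_I X h
    rw [lab_ec, e, lab_mkC (by omega)]
    omega
  · obtain ⟨e1, h4, -⟩ := enc_I X h
    obtain ⟨e2, h5, -⟩ := enc_I X h'
    rw [lab_ec, lab_ec, e1, e2, lab_mkC (by omega), lab_mkC (by omega)] at e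
    omega
  · rw [ec_arm, ec_arm]
    show X.a = (encC (M := M) X 1).t
    rw [enc_A]; rfl
  · show X.t = (encC (M := M) X (nb M - 1)).t
    rw [enc_T]; rfl
  · rw [lab_ec, enc_T, lab_mkC X.d.2]

theorem blk (X : Cell (M * BB)) : Blk X (enc1 X) :=
  ⟨length_enc1 X, 1, nb M - 1, (blkF X).congr (fun i hi => by rw [cat_enc1 X hi])
    (fun i hi => by rw [cat_enc1 X hi])⟩

theorem last_mod {i : ℕ} (h : i + 1 = nb M) : i % qq + 1 = qq := by
  have h0 := qq_pos
  obtain ⟨m, hm⟩ : ∃ m, M = m + 1 := ⟨M - 1, by have := NeZero.pos M; omega⟩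
  have : i = (qq - 1) + qq * m := by
    rw [nb_eq, hm, add_mul, one_mul, mul_comm] at h
    omega
  rw [this, Nat.add_mul_mod_self_left, Nat.mod_eq_of_lt (by omega)]
  omega

theorem ok1 (X : Cell (M * BB)) (i : ℕ) : OK1 (ec X i).a where
  hF h := by rw [ec_F, decide_eq_true_eq] at h; rw [ec_κ, h, Nat.zero_mod]
  hE h := by rw [ec_E, decide_eq_true_eq] at h; exact last_mod h
  p0 h := by rw [ec_κ, mod_qq_ten] at h; rw [ec_sπ, ec_π, decide_eq_true h]
  p9 _ := ec_sπ X i
  pp _ := ec_sπ X i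
  fA h := by
    rw [ec_F, decide_eq_true_eq] at h
    rw [ec_sA, ec_τ, decide_eq_decide, tag_A]; omega
  fT h := by
    have h2 := nb_ge (M := M)
    rw [ec_F, decide_eq_true_eq] at h
    rw [ec_sT, ec_τ, decide_eq_decide, tag_T]; omega
  eA h := by
    have h2 := nb_ge (M := M)
    rw [ec_E, decide_eq_true_eq] at h
    rw [ec_sA, decide_eq_true_eq]; omega
  eT h := by
    rw [ec_E, decide_eq_true_eq] at h
    rw [ec_sT, decide_eq_true_eq]; omega
  tA h := by
    rw [ec_τ, tag_A] at h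
    rw [ec_sA, decide_eq_true_eq]; omega
  tT h := by
    rw [ec_τ, tag_T] at h
    rw [ec_sT, decide_eq_true_eq]; omega
  hP h := by
    show (encC (M := M) X i).dg.val = i % qq / 2
    rw [enc_P X h, qq_eq, Nat.mod_mul_right_div_self]
    rfl
  idle _ := ec_arm X i

theorem okp (X : Cell (M * BB)) (i : ℕ) : OKp (ec X i).a (ec X i).t where
  blank h := by
    show (encC (M := M) X i).t = t0
    rcases h with h | h
    · rw [enc_P X h]; rfl
    · rw [(enc_I X h).1]; rfl
  col h := by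
    rw [ec_τ, tag_A] at h
    subst h
    show (encC (M := M) X 1).t.st.κ = X.a.st.κ
    rw [enc_A]; rfl
  ready _ s k φ h := by rw [ec_arm] at h; cases h
  linked _ s k h := by rw [ec_arm] at h; cases h

theorem ok2 (X : Cell (M * BB)) {i : ℕ} (hi : i + 1 < nb M) : OK2 (ec X i).a (ec X (i + 1)).a where
  col := by rw [ec_κ, ec_κ, Nat.mod_add_mod]
  colu := by
    rw [ec_E, if_neg (by rw [decide_eq_true_eq]; omega), add_zero]
    exact (Nat.mod_eq_of_lt X.a.st.κ.2).symm
  EF := by rw [ec_E, ec_F, decide_eq_decide]; omega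
  pS _ := by rw [ec_sπ, ec_sπ, Bool.true_or]
  pU h h' := by
    rw [ec_κ, mod_qq_ten] at h
    rw [ec_π, decide_eq_true_eq] at h'
    omega
  aS _ := by
    rw [ec_sA, ec_sA, ec_τ, ← Bool.decide_or, decide_eq_decide, tag_A]; omega
  aU _ h := by
    rw [ec_τ, tag_A] at h
    rw [ec_sA, decide_eq_false_iff_not]; omega
  tS _ := by
    rw [ec_sT, ec_sT, ec_τ, ← Bool.decide_or, decide_eq_decide, tag_T]; omega
  tU _ _ := by rw [ec_sT, decide_eq_false_iff_not]; omega
  grp h := by
    rw [ec_κ, mod_qq_two] at h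
    rw [Ne, ec_τ, ec_τ, tag_P, tag_P]; omega
  lk := LK.of_free (V.not_isL_of_none rfl) (V.not_isR_of_none rfl)

theorem loc (X : Cell (M * BB)) : Loc (enc1 (M := M) X) := by
  rw [loc_iff_cat, length_enc1]
  refine ⟨fun i hi => ?_, fun i hi => ?_⟩
  · rw [cat_enc1 X hi]; exact ⟨ok1 X i, okp X i⟩
  · rw [cat_enc1 X hi, cat_enc1 X (by omega)]; exact ok2 X hi

theorem unl (u : List (Cell (M * BB))) : ∀ x ∈ enc (M := M) u, x.a.lk = Lk.none := by
  intro x hx
  obtain ⟨X, -, hX⟩ := List.mem_flatMap.1 hx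
  obtain ⟨i, -, rfl⟩ := List.mem_map.1 hX
  rfl

theorem good (u : List (Cell (M * BB))) (h : u.IsChain fun X Y => ColAdj X.a Y.a) :
    Good (enc (M := M) u) u := by
  induction u with
  | nil => exact ⟨Rep.nil, by simp [Loc]⟩
  | cons X u ih =>
    rw [List.isChain_cons] at h
    rw [enc_cons]
    refine Good.append (u := [X]) ⟨Rep.single.2 (blk X), loc X⟩ (ih h.2)
      (fun X' hX' Y hY => ?_) (fun x hx y hy => LK.of_free (V.not_isL_of_none ?_)
        (V.not_isR_of_none (unl u y (List.mem_of_mem_head? hy))))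
    · obtain rfl : X = X' := by simpa using hX'
      exact h.1 Y hY
    · exact unl [X] x (by simpa using List.mem_of_mem_getLast? hx)

end Enc

theorem encStmt (M : ℕ) [NeZero M] : EncStmt M :=
  ⟨Enc.layOK, Enc.blk, Enc.good, Enc.unl⟩

namespace Enc

variable {M : ℕ} [NeZero M]

section cnt
variable {Z : Cell (M * BB)} {f : ℕ → Cell M} {iA iT : ℕ}

theorem kap (h : BlkF Z f iA iT) {i : ℕ} (hi : i < nb M) : (f i).a.st.κ.val = i % qq := by
  rw [h.st i hi]; rfl

/-- the permit is unique in its window -/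
theorem permit_unique (h : BlkF Z f iA iT) (h1 : ∀ i < nb M, OK1 (f i).a)
    (h2 : ∀ i, i + 1 < nb M → OK2 (f i).a (f (i + 1)).a) {p q : ℕ} (hpq : p < q) (hq : q < nb M)
    (hw : p / 10 = q / 10) (hp : (f p).a.π = true) : (f q).a.π = false := by
  have key : ∀ k, p + k < q → (f (p + k)).a.sπ = true := by
    intro k
    induction k with
    | zero => exact fun _ => (h1 p (by omega)).pp hp
    | succ k ih =>
      intro hk
      have := (h2 (p + k) (by omega)).pS (by rw [kap h (by omega), mod_qq_ten]; omega)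
      rw [ih (by omega), Bool.true_or] at this
      exact this
  obtain ⟨k, rfl⟩ : ∃ k, q = p + k + 1 := ⟨q - p - 1, by omega⟩
  by_contra hc
  have := (h2 (p + k) hq).pU (by rw [kap h (by omega), mod_qq_ten]; omega) (by simpa using hc)
  rw [key k (by omega)] at this
  cases this

/-- a locked cell or its left neighbour holds the permit -/
theorem permit_of_locked (h2 : ∀ i, i + 1 < nb M → OK2 (f i).a (f (i + 1)).a) {i : ℕ}
    (hi : i + 2 < nb M) (hl : (f (i + 1)).a.lk ≠ Lk.none) :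
    (f i).a.π = true ∨ (f (i + 1)).a.π = true := by
  rw [Ne, V.lk_none_iff, not_and_or, not_not, not_not] at hl
  rcases hl with hl | hl
  · obtain ⟨k, hk, -⟩ := (h2 (i + 1) hi).lk.2 hl
    exact Or.inr hk.1
  · obtain ⟨k, hk, -⟩ := (h2 i (by omega)).lk.2 ((h2 i (by omega)).lk.1.2 hl)
    exact Or.inl hk.1

theorem exists_item (h : BlkF Z f iA iT) (h2 : ∀ i, i + 1 < nb M → OK2 (f i).a (f (i + 1)).a)
    {g : ℕ} (hg : 2 * g + 1 < nb M) (hA : iA / 2 ≠ g) (hT : iT / 2 ≠ g) :
    ∃ c, c / 2 = g ∧ (f c).a.mb.τ = Tag.I := by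
  have key : ∀ c, c / 2 = g → (f c).a.mb.τ ≠ Tag.P → (f c).a.mb.τ = Tag.I := fun c hc hP => by
    have a1 := h.tA c (by omega)
    have a2 := h.tT c (by omega)
    have a3 : c ≠ iA := by rintro rfl; exact hA hc
    have a4 : c ≠ iT := by rintro rfl; exact hT hc
    generalize (f c).a.mb.τ = τ at *
    cases τ <;> simp_all
  have := (h2 (2 * g) hg).grp (by rw [kap h (by omega), mod_qq_two]; omega)
  by_cases hP : (f (2 * g)).a.mb.τ = Tag.P
  · exact ⟨2 * g + 1, by omega, key _ (by omega) (this.1 hP)⟩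
  · exact ⟨2 * g, by omega, key _ (by omega) hP⟩

theorem exists_free (h : BlkF Z f iA iT) (h1 : ∀ i < nb M, OK1 (f i).a)
    (h2 : ∀ i, i + 1 < nb M → OK2 (f i).a (f (i + 1)).a) {w : ℕ} (hw : 10 * w + 10 ≤ nb M)
    (hA : iA / 10 ≠ w) (hT : iT / 10 ≠ w) :
    ∃ c, c / 10 = w ∧ (f c).a.mb.τ = Tag.I ∧ (f c).a.lk = Lk.none := by
  obtain ⟨c, hc, hcI⟩ := exists_item h h2 (g := 5 * w + 1) (by omega) (by omega) (by omega)
  obtain ⟨d, hd, hdI⟩ := exists_item h h2 (g := 5 * w + 3) (by omega) (by omega) (by omega)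
  by_cases hl : (f c).a.lk = Lk.none
  · exact ⟨c, by omega, hcI, hl⟩
  by_cases hl' : (f d).a.lk = Lk.none
  · exact ⟨d, by omega, hdI, hl'⟩
  obtain ⟨c, rfl⟩ : ∃ c', c = c' + 1 := ⟨c - 1, by omega⟩
  obtain ⟨d, rfl⟩ : ∃ d', d = d' + 1 := ⟨d - 1, by omega⟩
  exfalso
  rcases permit_of_locked h2 (by omega) hl with a | a <;>
    rcases permit_of_locked h2 (by omega) hl' with b | b <;>
    · rw [permit_unique h h1 h2 (by omega) (by omega) (by omega) a] at b
      cases b

end cnt

theorem cat_ofFn' {n : ℕ} (X : Fin n → Cell M) {i : ℕ} (hi : i < n) :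
    cat (List.ofFn X) i = X ⟨i, hi⟩ := cat_ofFn X ⟨i, hi⟩

theorem decomp {α : Type} (f : ℕ → α) (m : ℕ) : (List.range (m + 20)).map f =
    (List.range 9).map f ++ (f 9 :: (List.range m).map (fun k => f (10 + k)) ++ [f (10 + m)]) ++
      (List.range 9).map fun k => f (11 + m + k) := by
  have e : m + 20 = 9 + (1 + (m + (1 + 9))) := by omega
  rw [e, List.range_add, List.range_add (n := 1), List.range_add (n := m), List.range_add (n := 1)]
  simp only [List.map_append, List.map_map, List.range_one, List.map_cons,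
    List.append_assoc, List.cons_append, List.nil_append, Function.comp_def]
  congr 3
  · exact List.map_congr_left fun k _ => by congr 1; omega
  · congr 1
    · congr 1; omega
    · exact List.map_congr_left fun k _ => by congr 1; omega

/-- exchanging two items inside the middle part -/
theorem eqv_mid (hU : UnlStmt M) (hP : PermStmt M) {m : ℕ} {g g' : ℕ → Cell M} {x y : Cell M}
    {i j : ℕ} (hi : i < m) (hj : j < m) (hm : 10 ∣ m) (h0 : (g 0).a.st.κ.val % 10 = 0)
    (hE : ∀ k < m, (g k).a.st.E = false) (ha : ∀ k < m, (g' k).a = (g k).a)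
    (hg : ∀ k < m, g' k = g (Equiv.swap i j k)) (hI : (g i).a.mb.τ = Tag.I)
    (hJ : (g j).a.mb.τ = Tag.I) (hL : Loc (x :: (List.range m).map g ++ [y]))
    (hL' : Loc (x :: (List.range m).map g' ++ [y])) :
    (RS M).Eqv (x :: (List.range m).map g ++ [y]) (x :: (List.range m).map g' ++ [y]) := by
  have hm0 : 0 < m := by omega
  have l1 : Loc ((List.range m).map g) := hL.infix ⟨[x], [y], by simp⟩
  have l2 : Loc ((List.range m).map g') := hL'.infix ⟨[x], [y], by simp⟩
  have c1 : ∀ k < m, cat ((List.range m).map g) k = g k := fun k hk => cat_map_range hk g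
  have c2 : ∀ k < m, cat ((List.range m).map g') k = g' k := fun k hk => cat_map_range hk g'
  obtain ⟨a1, a2⟩ := hU.ext _ l1 (by simpa using hm) (by rw [c1 0 hm0]; exact h0) (fun k hk => by
    have : k < m := by simp at hk; omega
    rw [c1 k this]; exact hE k this)
  obtain ⟨b1, b2⟩ := hU.ext _ l2 (by simpa using hm) (by rw [c2 0 hm0, ha 0 hm0]; exact h0)
    (fun k hk => by
      have : k < m := by simp at hk; omega
      rw [c2 k this, ha k this]; exact hE k this)
  rw [List.length_map, List.length_range] at a1 a2 b1 b2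
  have e0 : (cat ((List.range m).map g') 0).a = (cat ((List.range m).map g) 0).a := by
    rw [c1 0 hm0, c2 0 hm0, ha 0 hm0]
  rw [e0] at b1 b2
  have hst : ∀ k < m, (cat ((List.range m).map g) k).a.st =
      (cat ((List.range m).map g') k).a.st := fun k hk => by rw [c1 k hk, c2 k hk, ha k hk]
  have hσ : ∀ k < m, Equiv.swap i j k < m := fun k hk => by
    rw [Equiv.swap_apply_def]; split_ifs <;> assumption
  have key := hP m _ _ _ _ _ _ _ (Equiv.swap i j) a1 (b1.congr hst (fun _ _ => rfl) fun _ _ => rfl)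
    hσ (fun k _ l _ h => (Equiv.swap i j).injective h)
    (fun k hk => by simp only [c2 k hk, c1 _ (hσ k hk), hg k hk]) (fun k hk h => by
      simp only [c2 k hk, cont, ha k hk] at h
      rw [Equiv.swap_apply_of_ne_of_ne (by rintro rfl; rw [hI] at h; cases h)
        (by rintro rfl; rw [hJ] at h; cases h)])
  rw [← a2, lay_congr hst (fun _ _ => rfl) (fun _ _ => rfl), ← b2] at key
  refine (hU.mid x y _ hL).trans (Sys.Eqv.trans ?_ (hU.mid x y _ hL').symm)
  exact (key.cons _).append_right _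

end Enc

theorem cntStmt (M : ℕ) [NeZero M] : CntStmt M := by
  rintro Z X ⟨hR, hL⟩
  obtain ⟨-, iA, iT, hB⟩ := Rep.single.1 hR
  rw [loc_iff_cat, List.length_ofFn] at hL
  have h1 := nb_ge (M := M)
  have h2 := ten_dvd_nb M
  have h3 : 2000 * M ≤ nb M := by
    rw [nb_eq, mul_comm]; exact Nat.mul_le_mul_left M qq_ge
  have h4 := NeZero.pos M
  refine le_trans ?_ (Finset.card_image_le (f := fun i : Fin (nb M) => i.val / 10))
  refine le_trans ?_ (Finset.card_le_card
    (s := ((Finset.Icc 1 (nb M / 10 - 2)).erase (iA / 10)).erase (iT / 10)) fun w hw => ?_)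
  · have a1 := Finset.pred_card_le_card_erase (s := Finset.Icc 1 (nb M / 10 - 2)) (a := iA / 10)
    have a2 := Finset.pred_card_le_card_erase
      (s := (Finset.Icc 1 (nb M / 10 - 2)).erase (iA / 10)) (a := iT / 10)
    rw [Nat.card_Icc] at a1
    omega
  · simp only [Finset.mem_erase, Finset.mem_Icc] at hw
    obtain ⟨c, hc, hcI, hcl⟩ := Enc.exists_free hB (fun i hi => (hL.1 i hi).1) hL.2 (w := w)
      (by omega) hw.2.1.symm hw.1.symm
    have hcn : c < nb M := by omega
    rw [Enc.cat_ofFn' X hcn] at hcI hcl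
    exact Finset.mem_image.2 ⟨⟨c, hcn⟩, Finset.mem_filter.2
      ⟨Finset.mem_univ _, by simp only; omega, by simp only; omega, hcI, hcl⟩, hc⟩

theorem swpStmt (M : ℕ) [NeZero M] (hU : UnlStmt M) (hP : PermStmt M) : SwpStmt M := by
  rintro Z X i j ⟨hR, hL⟩ hi1 hi2 hj1 hj2 hI - hij
  obtain ⟨-, iA, iT, hB⟩ := Rep.single.1 hR
  have hL0 := hL
  rw [loc_iff_cat, List.length_ofFn] at hL
  set f := cat (List.ofFn X) with hf
  set f' := cat (List.ofFn (X ∘ Equiv.swap i j)) with hf'
  have hσ : ∀ k < nb M, Equiv.swap i.val j.val k < nb M := fun k hk => by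
    rw [Equiv.swap_apply_def]; split_ifs <;> simp [hk]
  have hff : ∀ k < nb M, f' k = f (Equiv.swap i.val j.val k) := fun k hk => by
    rw [hf, hf', Enc.cat_ofFn' _ hk, Enc.cat_ofFn' _ (hσ k hk), Function.comp_apply]
    congr 1
    exact Fin.ext (Fin.val_injective.swap_apply i j ⟨k, hk⟩).symm
  have fi : f i = X i := cat_ofFn X i
  have fj : f j = X j := cat_ofFn X j
  have hI' : (f i).a.mb.τ = Tag.I := by rw [fi, hI]
  have hija : (f j).a = (f i).a := by rw [fi, fj, hij]
  have hJ' : (f j).a.mb.τ = Tag.I := by rw [hija, hI']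
  have hijt : (f j).t = (f i).t := by
    rw [(hL.1 i i.2).2.blank (Or.inr hI'), (hL.1 j j.2).2.blank (Or.inr hJ')]
  have ha : ∀ k < nb M, (f' k).a = (f k).a := fun k hk => by
    rw [hff k hk, Equiv.swap_apply_def]
    split_ifs with h1 h2
    · rw [h1, hija]
    · rw [h2, hija]
    · rfl
  have ht : ∀ k < nb M, (f' k).t = (f k).t := fun k hk => by
    rw [hff k hk, Equiv.swap_apply_def]
    split_ifs with h1 h2
    · rw [h1, hijt]
    · rw [h2, hijt]
    · rfl
  have hfix : ∀ k < nb M, (f k).a.mb.τ ≠ Tag.I → f' k = f k := fun k hk h => by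
    rw [hff k hk, Equiv.swap_apply_of_ne_of_ne (by rintro rfl; exact h hI')
      (by rintro rfl; exact h hJ')]
  have hL' : Loc (List.ofFn (X ∘ Equiv.swap i j)) := by
    rw [loc_iff_cat, List.length_ofFn, ← hf']
    refine ⟨fun k hk => ?_, fun k hk => ?_⟩
    · rw [ha k hk, ht k hk]; exact hL.1 k hk
    · rw [ha k (by omega), ha _ hk]; exact hL.2 k hk
  have eA : f' iA = f iA := hfix iA hB.hA (by rw [(hB.tA iA hB.hA).2 rfl]; decide)
  have eT : f' iT = f iT := hfix iT hB.hT (by rw [(hB.tT iT hB.hT).2 rfl]; decide)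
  have hB' : BlkF Z f' iA iT := by
    refine ⟨hB.hA, hB.hT, fun k hk => ?_, fun k hk => ?_, fun k hk => ?_, fun k hk h => ?_, ?_,
      fun k hk h => ?_, fun k hk l hl h h' e => ?_, ?_, ?_, ?_, ?_⟩
    · rw [ha k hk]; exact hB.st k hk
    · rw [ha k hk]; exact hB.tA k hk
    · rw [ha k hk]; exact hB.tT k hk
    · rw [ha k hk] at h
      rw [hfix k hk (by rw [h]; decide)]; exact hB.labP k hk h
    · rw [eA]; exact hB.labA
    · rw [hff k hk] at h ⊢; exact hB.labI _ (hσ k hk) h
    · rw [hff k hk] at h e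
      rw [hff l hl] at h' e
      exact (Equiv.swap i.val j.val).injective (hB.injI _ (hσ k hk) _ (hσ l hl) h h' e)
    · rw [eA, eT]; exact hB.arms
    · rw [eA, eT]; exact hB.ea
    · rw [eT]; exact hB.et
    · rw [eT]; exact hB.ed
  refine ⟨?_, Rep.single.2 ⟨List.length_ofFn, iA, iT, hB'⟩, hL'⟩
  obtain ⟨m, hm⟩ : ∃ m, nb M = m + 20 := ⟨nb M - 20, by omega⟩
  have h10 := ten_dvd_nb M
  have hout : ∀ k < nb M, k < 10 ∨ nb M ≤ k + 10 → f' k = f k := fun k hk h => by
    rw [hff k hk, Equiv.swap_apply_of_ne_of_ne (by omega) (by omega)]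
  have e1 := eq_map_cat (List.ofFn X)
  have e2 := eq_map_cat (List.ofFn (X ∘ Equiv.swap i j))
  rw [List.length_ofFn, ← hf, show List.range (nb M) = List.range (m + 20) by rw [hm],
    Enc.decomp] at e1
  rw [List.length_ofFn, ← hf', show List.range (nb M) = List.range (m + 20) by rw [hm],
    Enc.decomp, hout 9 (by omega) (by omega), hout (10 + m) (by omega) (by omega),
    List.map_congr_left (g := f) (fun k hk => hout k (by simp at hk; omega) (by simp at hk; omega)),
    List.map_congr_left (f := fun k => f' (11 + m + k)) (g := fun k => f (11 + m + k))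
      (fun k hk => hout _ (by simp at hk; omega) (by omega))] at e2
  rw [e1] at hL0
  rw [e2] at hL'
  rw [e1, e2]
  refine Sys.Eqv.ctx ?_ _ _
  refine Enc.eqv_mid hU hP (i := i.val - 10) (j := j.val - 10) (by omega) (by omega) (by omega)
    ?_ (fun k hk => ?_) (fun k hk => ha _ (by omega)) (fun k hk => ?_) ?_ ?_
    (hL0.infix ⟨_, _, rfl⟩) (hL'.infix ⟨_, _, rfl⟩)
  · rw [Enc.kap hB (by omega), Enc.mod_qq_ten]
  · rw [hB.st _ (by omega)]
    simp only [stOf, decide_eq_false_iff_not]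
    omega
  · rw [hff _ (by omega)]
    congr 1
    simp only [Equiv.swap_apply_def]
    split_ifs <;> omega
  · rw [show 10 + (i.val - 10) = i.val by omega]; exact hI'
  · rw [show 10 + (j.val - 10) = j.val by omega]; exact hJ'

end Crest.Agent.R176
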