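import Crest.Agent.R176.CBasic

/-! Row 176: the interior of a nonzero word is good. -/

set_option autoImplicit false

namespace Crest.Agent.R176

namespace Exa

variable {M : ℕ} [NeZero M]

theorem cat_take_drop {v : List (Cell M)} {j n i : ℕ} (hi : i < n) :
    cat ((v.drop j).take n) i = cat v (j + i) := by
  simp [cat, List.getD, hi]

theorem infix_take_drop (v : List (Cell M)) (j n : ℕ) : (v.drop j).take n <:+: v :=
  (List.take_prefix _ _).isInfix.trans (List.drop_suffix _ _).isInfix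

theorem ctx_eq {v : List (Cell M)} {j n : ℕ} (h : j + 1 + n < v.length) :
    (v.drop j).take (n + 2) = cat v j :: (v.drop (j + 1)).take n ++ [cat v (j + 1 + n)] := by
  rw [List.drop_eq_getElem_cons (by omega : j < v.length), List.take_succ_cons,
    List.take_add_one, cat_eq (by omega : j < v.length), cat_eq h]
  simp [h]

/-- The tests on a nonzero layout of one block. -/
theorem tests (hP : PermStmt M) {ku : Fin qq} {pm : ℕ → Bool} {g : ℕ → Cell M}
    (hL : LayOK (nb M) (stOf M ku) pm (fun i => cont (g i)) false false)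
    (hz : ¬ (RS M).Zero (lay (nb M) (stOf M ku) pm (fun i => cont (g i)) false false))
    {f : ℕ → ℕ} (hf : ∀ i < nb M, f i < nb M)
    (hinj : ∀ i < nb M, ∀ j < nb M, f i = f j → i = j)
    (hfP : ∀ i < nb M, (cont (g (f i))).τ = Tag.P → f i / 2 = i / 2) {p : ℕ} (hp : p + 1 < nb M) :
    ¬ (RS M).Zero [layC (stOf M ku) (pmAt p) (fun i => cont (g (f i))) false false p,
      layC (stOf M ku) (pmAt p) (fun i => cont (g (f i))) false false (p + 1)] := by
  intro h
  exact hz (Sys.Zero.of_eqv (hP _ _ _ _ _ _ _ _ f hL ((hL.perm hf hinj hfP).pmAt p) hf hinj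
    (fun _ _ => rfl) hfP) (zero_range2 hp h))

theorem pmAt_self (p : ℕ) : pmAt p p = true := by simp [pmAt]

/-- A nonzero layout with correct `P`-labels and both tokens is a block. -/
theorem blkF (hP : PermStmt M) {ku : Fin qq} {pm : ℕ → Bool} {g : ℕ → Cell M}
    (hL : LayOK (nb M) (stOf M ku) pm (fun i => cont (g i)) false false)
    (hz : ¬ (RS M).Zero (lay (nb M) (stOf M ku) pm (fun i => cont (g i)) false false))
    (hst : ∀ i < nb M, (g i).a.st = stOf M ku i)
    (hlab : ∀ i < nb M, (g i).a.mb.τ = Tag.P → lab (g i) = i / 2)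
    {iA iT : ℕ} (hA : iA < nb M) (hT : iT < nb M) (tA : (g iA).a.mb.τ = Tag.A)
    (tT : (g iT).a.mb.τ = Tag.T) (hcol : (g iA).t.st.κ = ku) :
    BlkF ⟨eff (g iA).a.mb.arm (g iT).a.mb.arm (g iA).t, (g iT).t, ⟨lab (g iT), lab_lt _⟩⟩
      g iA iT := by
  have hnb := nb_ge (M := M)
  have hnb2 : nb M = 2 * (M * BB) := rfl
  -- a non-`P` content placed at position `1`
  have one : ∀ i < nb M, ∀ k, (g i).a.mb.τ ≠ Tag.P →
      ((g i).a.mb.τ = Tag.I ∧ k = Kind.eq ∨ (g i).a.mb.τ = Tag.A ∧ k = Kind.ne) →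
      ¬ fails k (M * BB) 0 (lab (g i)) := by
    intro i hi k hiP hk hfail
    obtain ⟨f, hf, hinj, hfP, hf1⟩ := hL.exists_place1 (p := 1) hi hiP (by omega)
    have h0 : (g (f 0)).a.mb.τ = Tag.P :=
      ((hL.perm hf hinj hfP).grp 0 (by omega)).2 (by
        show (g (f 1)).a.mb.τ ≠ Tag.P
        rwa [hf1])
    have h1 : lab (g (f 0)) = 0 := by
      rw [hlab _ (hf 0 (by omega)) h0, hfP 0 (by omega) h0]
    refine tests hP hL hz hf hinj hfP (p := 0) (by omega)
      (zero_of_req (k := k) rfl rfl (pmAt_self 0) (Or.inl ⟨?_, ?_⟩) ?_)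
    · show decide (0 + 1 = nb M) = false
      simp; omega
    · rcases hk with ⟨h2, rfl⟩ | ⟨h2, rfl⟩
      · refine Or.inr (Or.inr (Or.inl ⟨rfl, h0, ?_, rfl⟩))
        show (g (f 1)).a.mb.τ = Tag.I
        rwa [hf1]
      · refine Or.inr (Or.inr (Or.inr (Or.inl ⟨rfl, h0, ?_, rfl⟩)))
        show (g (f 1)).a.mb.τ = Tag.A
        rwa [hf1]
    · show fails k (M * BB) (lab (g (f 0))) (lab (g (f 1)))
      rwa [h1, hf1]
  refine ⟨hA, hT, ?_, ?_, ?_, hlab, ?_, ?_, ?_, ?_, rfl, rfl, rfl⟩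
  · intro i hi
    rw [hst i hi, eff_st, hcol]
  · intro i hi
    exact ⟨fun h => (hL.uA iA hA tA).2 i hi h, fun h => h ▸ tA⟩
  · intro i hi
    exact ⟨fun h => (hL.uT iT hT tT).2 i hi h, fun h => h ▸ tT⟩
  · by_contra hne
    exact one iA hA Kind.ne (by rw [tA]; decide) (Or.inr ⟨tA, rfl⟩) fun h => hne h.symm
  · intro i hi hI
    have hiP : (g i).a.mb.τ ≠ Tag.P := by rw [hI]; decide
    constructor
    · by_contra hne
      exact one i hi Kind.eq hiP (Or.inl ⟨hI, rfl⟩) (show 0 = lab (g i) by omega)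
    · by_contra hne
      have hlt := lab_lt (g i)
      obtain ⟨f, hf, hinj, hfP, hf1⟩ := hL.exists_place1 (p := nb M - 2) hi hiP (by omega)
      have e1 : 2 * (M * BB - 1) = nb M - 2 := by omega
      have h0 : (g (f (nb M - 2 + 1))).a.mb.τ = Tag.P := by
        have := (hL.perm hf hinj hfP).grp (M * BB - 1) (by omega)
        rw [e1] at this
        by_contra hc
        refine hiP ?_
        rw [← hf1]
        exact this.2 hc
      have h1 : lab (g (f (nb M - 2 + 1))) = M * BB - 1 := by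
        rw [hlab _ (hf _ (by omega)) h0, hfP _ (by omega) h0]
        omega
      refine tests hP hL hz hf hinj hfP (p := nb M - 2) (by omega)
        (zero_of_req (k := Kind.eq) rfl rfl (pmAt_self _)
          (Or.inl ⟨?_, Or.inr (Or.inr (Or.inr (Or.inr ⟨?_, ?_, h0, rfl⟩)))⟩) ?_)
      · show decide (nb M - 2 + 1 = nb M) = false
        simp; omega
      · show decide (nb M - 2 + 1 + 1 = nb M) = true
        simp; omega
      · show (g (f (nb M - 2))).a.mb.τ = Tag.I
        rwa [hf1]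
      · show lab (g (f (nb M - 2))) = lab (g (f (nb M - 2 + 1)))
        rw [h1, hf1]
        omega
  · intro i hi j hj hI hJ hij
    by_contra hne
    obtain ⟨f, hf, hinj, hfP, hf1, hf2⟩ := hL.exists_place2 (p := 1) hi hj hne
      (show (g i).a.mb.τ ≠ Tag.P by rw [hI]; decide)
      (show (g j).a.mb.τ ≠ Tag.P by rw [hJ]; decide) rfl (by omega)
    refine tests hP hL hz hf hinj hfP (p := 1) (by omega)
      (zero_of_req (k := Kind.eq) rfl rfl (pmAt_self 1)
        (Or.inl ⟨?_, Or.inr (Or.inl ⟨?_, ?_, rfl⟩)⟩) ?_)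
    · show decide (1 + 1 = nb M) = false
      simp; omega
    · show (g (f 1)).a.mb.τ = Tag.I
      rwa [hf1]
    · show (g (f (1 + 1))).a.mb.τ = Tag.I
      rwa [hf2]
    · show lab (g (f 1)) = lab (g (f (1 + 1)))
      rwa [hf1, hf2]
  · by_contra hne
    obtain ⟨f, hf, hinj, hfP, hf1, hf2⟩ := hL.exists_place2 (p := 1) hA hT
      (fun h => by rw [h, tT] at tA; cases tA)
      (show (g iA).a.mb.τ ≠ Tag.P by rw [tA]; decide)
      (show (g iT).a.mb.τ ≠ Tag.P by rw [tT]; decide) rfl (by omega)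
    refine tests hP hL hz hf hinj hfP (p := 1) (by omega)
      (Sys.Zero.of_z2 (Or.inl (Or.inr (Or.inl ⟨?_, ?_, ?_, ?_⟩))))
    · show decide (1 + 1 = nb M) = false
      simp; omega
    · show (g (f 1)).a.mb.τ = Tag.A
      rwa [hf1]
    · show (g (f (1 + 1))).a.mb.τ = Tag.T
      rwa [hf2]
    · show ¬ ArmOK (g (f 1)).a.mb.arm (g (f (1 + 1))).a.mb.arm
      rwa [hf1, hf2]

/-- An aligned interior factor of length `nb M` of a nonzero word is a block. -/
theorem block (hU : UnlStmt M) (hP : PermStmt M) {v : List (Cell M)} (hv : ¬ (RS M).Zero v)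
    {z : ℕ} (hz : ∀ i, 20 ≤ i → i + 20 < v.length →
      ((cat v i).a.mb.τ = Tag.P → av (cat v i) ≡ z + i [MOD qq * nb M]) ∧
      ((cat v i).a.st.E = true ↔ nb M ∣ z + i + 1))
    {j : ℕ} (hd : nb M ∣ z + (j + 1)) (hj : 20 ≤ j) (hlen : j + 1 + nb M + 20 ≤ v.length) :
    ∃ X, Blk X ((v.drop (j + 1)).take (nb M)) := by
  have hnb := nb_ge (M := M)
  have hnb2 : nb M = 2 * (M * BB) := rfl
  have hloc := loc_of_not_zero hv
  obtain ⟨ok1, ok2⟩ := loc_iff_cat.1 hloc
  set w := (v.drop (j + 1)).take (nb M) with hw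
  have hwl : w.length = nb M := by rw [hw, List.length_take, List.length_drop]; omega
  have hcat : ∀ i < nb M, cat w i = cat v (j + 1 + i) := fun i hi => cat_take_drop hi
  have hE : ∀ i < nb M, (cat w i).a.st.E = decide (i + 1 = nb M) := by
    intro i hi
    have h1 := (hz (j + 1 + i) (by omega) (by omega)).2
    rw [show z + (j + 1 + i) + 1 = z + (j + 1) + (i + 1) by ring, Nat.dvd_add_right hd] at h1
    rw [hcat i hi, Bool.eq_iff_iff, h1, decide_eq_true_iff]
    exact ⟨fun h => le_antisymm hi (Nat.le_of_dvd (by omega) h), fun h => h ▸ dvd_rfl⟩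
  have hwloc : Loc w := hloc.infix (infix_take_drop v _ _)
  obtain ⟨w1, w2⟩ := loc_iff_cat.1 hwloc
  rw [hwl] at w1 w2
  have hF0 : (cat w 0).a.st.F = true := by
    rw [hcat 0 (by omega), ← (ok2 j (by omega)).EF]
    exact (hz j hj (by omega)).2.2 hd
  have hst : ∀ i < nb M, (cat w i).a.st = stOf M (cat w 0).a.st.κu i := by
    intro i
    induction i with
    | zero =>
      intro hi
      refine St.ext (Fin.ext ?_) rfl hF0 (hE 0 hi)
      rw [(w1 0 hi).1.hF hF0]
      simp [stOf]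
    | succ i ih =>
      intro hi
      have h1 := ih (by omega)
      have h2 := w2 i hi
      have h3 : (cat w i).a.st.E = false := by rw [hE i (by omega)]; simp; omega
      refine St.ext (Fin.ext ?_) (Fin.ext ?_) ?_ (hE _ hi)
      · rw [h2.col, h1]
        simp [stOf]
      · rw [h2.colu, h3, h1]
        simp [stOf, Nat.mod_eq_of_lt]
      · rw [← h2.EF, h3]
        simp [stOf]
  have hext := hU.ext w hwloc (hwl ▸ ten_dvd_nb M) (by rw [hst 0 (by omega)]; simp [stOf])
    (fun i hi => by rw [hE i (by omega)]; simp; omega)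
  have eA : ((cat w 0).a.mb.sA && decide ((cat w 0).a.mb.τ ≠ Tag.A)) = false := by
    rw [(w1 0 (by omega)).1.fA hF0]; simp
  have eT : ((cat w 0).a.mb.sT && decide ((cat w 0).a.mb.τ ≠ Tag.T)) = false := by
    rw [(w1 0 (by omega)).1.fT hF0]; simp
  rw [eA, eT, hwl] at hext
  obtain ⟨hL, hlay⟩ := hext
  have hcell : ∀ i < nb M, unlC (cat w i) = layC (fun i => (cat w i).a.st) (fun i => (cat w i).a.π)
      (fun i => cont (cat w i)) false false i := by
    intro i hi
    have h1 := congrArg (fun l => cat l i) hlay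
    simp only [lay] at h1
    rw [cat_map_range hi, cat_eq (by rw [List.length_map, hwl]; exact hi), List.getElem_map,
      ← cat_eq (hwl ▸ hi)] at h1
    exact h1
  have hlast : (cat w (nb M - 1)).a.st.E = true := by rw [hE _ (by omega)]; simp; omega
  obtain ⟨iA, hA, tA⟩ : ∃ i, i ≤ nb M - 1 ∧ (cont (cat w i)).τ = Tag.A := by
    have h1 := congrArg (fun x => x.a.mb.sA) (hcell (nb M - 1) (by omega))
    have h2 := (w1 (nb M - 1) (by omega)).1.eA hlast
    simp only [layC, Bool.false_or] at h1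
    exact of_decide_eq_true (h1.symm.trans h2)
  obtain ⟨iT, hT, tT⟩ : ∃ i, i ≤ nb M - 1 ∧ (cont (cat w i)).τ = Tag.T := by
    have h1 := congrArg (fun x => x.a.mb.sT) (hcell (nb M - 1) (by omega))
    have h2 := (w1 (nb M - 1) (by omega)).1.eT hlast
    simp only [layC, Bool.false_or] at h1
    exact of_decide_eq_true (h1.symm.trans h2)
  have hnz : ¬ (RS M).Zero (w.map unlC) := by
    intro h0
    have hinf := infix_take_drop v j (nb M + 2)
    rw [ctx_eq (by omega)] at hinf
    refine hv (Sys.Zero.of_infix (Sys.Zero.of_eqv (hU.mid _ _ w (hloc.infix hinf)) ?_) hinf)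
    exact h0.ctx [_] [_]
  rw [hlay, ← lay_congr (fun i hi => (hst i hi).symm) (fun _ _ => rfl) (fun _ _ => rfl)] at hnz
  refine ⟨_, hwl, iA, iT, blkF hP (hL.congr (fun i hi => (hst i hi).symm) (fun _ _ => rfl)
    (fun _ _ => rfl)) hnz hst (fun i hi hP => ?_) (by omega) (by omega) tA tT ?_⟩
  · have h1 := (hz (j + 1 + i) (by omega) (by omega)).1 (hcat i hi ▸ hP)
    rw [← hcat i hi, av] at h1
    have h2 := h1.of_mul_left qq
    obtain ⟨c, hc⟩ := hd
    rw [← add_assoc, hc, Nat.ModEq, add_assoc, mul_comm _ (nb M), Nat.mul_add_mod,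
      Nat.mul_add_mod, Nat.mod_eq_of_lt hi] at h2
    have h3 := lab_lt (cat w i)
    rw [Nat.mod_eq_of_lt (by omega)] at h2
    omega
  · rw [(w1 iA (by omega)).2.col tA, hst iA (by omega)]
    rfl

theorem rep (hU : UnlStmt M) (hP : PermStmt M) {v : List (Cell M)} (hv : ¬ (RS M).Zero v)
    {z : ℕ} (hz : ∀ i, 20 ≤ i → i + 20 < v.length →
      ((cat v i).a.mb.τ = Tag.P → av (cat v i) ≡ z + i [MOD qq * nb M]) ∧
      ((cat v i).a.st.E = true ↔ nb M ∣ z + i + 1)) (K : ℕ) :
    ∀ j, nb M ∣ z + (j + 1) → 20 ≤ j → j + 1 + K * nb M + 20 ≤ v.length →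
      ∃ u, Rep ((v.drop (j + 1)).take (K * nb M)) u := by
  induction K with
  | zero => intro j _ _ _; exact ⟨[], by simpa using Rep.nil⟩
  | succ K ih =>
    intro j hd hj hl
    rw [Nat.succ_mul] at hl
    obtain ⟨X, hX⟩ := block hU hP hv hz hd hj (by omega)
    obtain ⟨u, hu⟩ := ih (j + nb M)
      (by rw [show z + (j + nb M + 1) = z + (j + 1) + nb M by ring]; exact dvd_add hd dvd_rfl)
      (by omega) (by omega)
    refine ⟨X :: u, ?_⟩
    rw [Nat.succ_mul, add_comm (K * nb M), List.take_add, List.drop_drop,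
      show j + 1 + nb M = j + nb M + 1 by ring]
    exact Rep.cons hX hu

end Exa

open Exa in
theorem exaStmt (M : ℕ) [NeZero M] (hU : UnlStmt M) (hP : PermStmt M) (hA : AdrStmt M) :
    ExaStmt M := by
  intro v hv
  obtain ⟨z, hz⟩ := hA v hv
  have hnb := nb_ge (M := M)
  obtain ⟨j, hj, hj', hd⟩ : ∃ j, 20 ≤ j ∧ j ≤ nb M + 20 ∧ nb M ∣ z + (j + 1) := by
    have h1 := Nat.mod_lt (z + 21) (show 0 < nb M by omega)
    refine ⟨20 + (nb M - (z + 21) % nb M), by omega, by omega, (z + 21) / nb M + 1, ?_⟩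
    have h2 := Nat.div_add_mod (z + 21) (nb M)
    rw [mul_add, mul_one]
    omega
  by_cases hl : v.length < j + 1 + 20
  · refine ⟨v.take (nb M + 30), [], v.drop (nb M + 30), [], by simp, ⟨Rep.nil, by simp [Loc]⟩,
      by simp, ?_⟩
    rw [List.length_drop]
    omega
  · set K := (v.length - (j + 1 + 20)) / nb M with hK
    have h1 := Nat.div_add_mod (v.length - (j + 1 + 20)) (nb M)
    have h2 := Nat.mod_lt (v.length - (j + 1 + 20)) (show 0 < nb M by omega)
    rw [← hK, mul_comm] at h1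
    obtain ⟨u, hu⟩ := rep hU hP hv hz K j hd hj (by omega)
    refine ⟨v.take (j + 1), (v.drop (j + 1)).take (K * nb M), (v.drop (j + 1)).drop (K * nb M), u,
      by rw [List.append_assoc, List.take_append_drop, List.take_append_drop],
      ⟨hu, (loc_of_not_zero hv).infix (infix_take_drop v _ _)⟩, ?_, ?_⟩
    · rw [List.length_take]; omega
    · rw [List.length_drop, List.length_drop]; omega

end Crest.Agent.R176
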