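import Crest.Agent.R176.KDefs2

/-! Row 176: the Steinberg relations for short words imply all of them. -/

set_option autoImplicit false

open scoped commutatorElement

namespace Crest.Agent.R176

namespace Fp1

variable {α : Type} {S : Sys α} {X : Vtx S} {G : Type} [Group G] {g : α → G}

theorem assoc_grp {a b c : G} (hac : Commute a c) (hec : Commute ⁅b, c⁆ c)
    (hed : Commute ⁅b, c⁆ ⁅a, b⁆) : ⁅a, ⁅b, c⁆⁆ = ⁅⁅a, b⁆, c⁆ := by
  have h0 : a * c * a⁻¹ = c := by rw [hac.eq, mul_inv_cancel_right]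
  have h1 : a * ⁅b, c⁆ * a⁻¹ = ⁅a, b⁆ * ⁅b, c⁆ * c * ⁅a, b⁆⁻¹ * c⁻¹ := by
    calc a * ⁅b, c⁆ * a⁻¹ = a * b * a⁻¹ * (a * c * a⁻¹) * (a * b⁻¹ * a⁻¹) * (a * c * a⁻¹)⁻¹ := by
          simp only [commutatorElement_def]; group
      _ = a * b * a⁻¹ * c * (a * b⁻¹ * a⁻¹) * c⁻¹ := by rw [h0]
      _ = _ := by simp only [commutatorElement_def]; group
  have h2 : Commute ⁅b, c⁆ ⁅⁅a, b⁆, c⁆ := by
    rw [commutatorElement_def ⁅a, b⁆ c]
    exact ((hed.mul_right hec).mul_right hed.inv_right).mul_right hec.inv_right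
  calc ⁅a, ⁅b, c⁆⁆ = a * ⁅b, c⁆ * a⁻¹ * ⁅b, c⁆⁻¹ := commutatorElement_def _ _
    _ = ⁅a, b⁆ * ⁅b, c⁆ * c * ⁅a, b⁆⁻¹ * c⁻¹ * ⁅b, c⁆⁻¹ := by rw [h1]
    _ = ⁅b, c⁆ * ⁅⁅a, b⁆, c⁆ * ⁅b, c⁆⁻¹ := by
        rw [← hed.eq, commutatorElement_def ⁅a, b⁆ c]; simp only [mul_assoc]
    _ = _ := by rw [h2.eq, mul_inv_cancel_right]

theorem sq_grp {a b : G} (ha : a * a = 1) (h : Commute ⁅a, b⁆ a) : ⁅a, b⁆ * ⁅a, b⁆ = 1 := by
  have h1 : a * ⁅a, b⁆ * a⁻¹ = ⁅a, b⁆ := by rw [← h.eq, mul_inv_cancel_right]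
  calc ⁅a, b⁆ * ⁅a, b⁆ = a * ⁅a, b⁆ * a⁻¹ * ⁅a, b⁆ := by rw [h1]
    _ = (a * a) * b * (a * a)⁻¹ * b⁻¹ := by simp only [commutatorElement_def]; group
    _ = 1 := by rw [ha]; group

theorem commute_comm {a b c : G} (ha : Commute a c) (hb : Commute b c) : Commute ⁅a, b⁆ c := by
  rw [commutatorElement_def]
  exact ((ha.mul_left hb).mul_left ha.inv_left).mul_left hb.inv_left

theorem exists_pos (i a b c : Z5) : ∃ p : ℕ, 0 < p ∧ p < 5 ∧ i + p ≠ i ∧ i + p ≠ a ∧ i + p ≠ b ∧
    i + p ≠ c := by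
  have h : ∀ i a b c : Z5, ∃ z : Z5, 0 < z.val ∧ z.val < 5 ∧ i + z ≠ i ∧ i + z ≠ a ∧ i + z ≠ b ∧
      i + z ≠ c := by decide
  obtain ⟨z, h⟩ := h i a b c
  exact ⟨z.val, by simpa using h⟩

theorem valid_split {i j : Z5} {w : List α} (h : Valid X i j w) {p : ℕ} (hp : p ≤ w.length) :
    Valid X i (i + p) (w.take p) ∧ Valid X (i + p) j (w.drop p) := by
  have h1 : Valid X i j (w.take p ++ w.drop p) := by rwa [List.take_append_drop]
  rw [valid_append_iff, List.length_take, min_eq_left hp] at h1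
  exact h1

theorem mono {n m : ℕ} (h : XF X g n) (hm : m ≤ n) : XF X g m where
  cut h1 h2 h3 h4 h5 h6 := h.cut h1 h2 h3 h4 h5 (h6.trans hm)
  com h1 h2 h3 h4 h5 h6 h7 h8 := h.com h1 h2 h3 h4 h5 h6 (h7.trans hm) (h8.trans hm)
  sq h1 h2 h3 := h.sq h1 h2 (h3.trans hm)
  step h1 h2 h3 := h.step h1 h2 (h3.trans hm)
  zero h1 h2 h3 := h.zero h1 h2 (h3.trans hm)

theorem length_pos {i j : Z5} {w : List α} (h : Valid X i j w) (hij : i ≠ j) : 0 < w.length := by
  cases w with
  | nil => exact absurd h hij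
  | cons a w => simp

/-- Two cuts at different vertices agree. -/
theorem cut3 {n : ℕ} (h : XF X g n) {i m m' k : Z5} {u1 u2 u3 : List α} (h1 : Valid X i m u1)
    (h2 : Valid X m m' u2) (h3 : Valid X m' k u3) (him : i ≠ m) (hmm : m ≠ m') (hmk : m' ≠ k)
    (hik : i ≠ k) (hmk' : m ≠ k) (him' : i ≠ m')
    (hl : u1.length + u2.length + u3.length ≤ n + 1) :
    ⁅XW g u1, XW g (u2 ++ u3)⁆ = ⁅XW g (u1 ++ u2), XW g u3⁆ := by
  have l1 := length_pos h1 him
  have l2 := length_pos h2 hmm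
  have l3 := length_pos h3 hmk
  have hd := h.cut h1 h2 him hmm him' (by omega)
  have he := h.cut h2 h3 hmm hmk hmk' (by omega)
  have h12 := valid_append h1 h2
  have h23 := valid_append h2 h3
  have hac := h.com h1 h3 him hmk hmm hik.symm (by omega) (by omega)
  have hec := h.com h23 h3 hmk' hmk hmk.symm hmk'.symm (by simp; omega) (by omega)
  have hed := h.com h23 h12 hmk' him' hik.symm hmm.symm (by simp; omega) (by simp; omega)
  rw [hd, he] at *
  exact assoc_grp hac hec hed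

theorem cut_lt {n : ℕ} (h : XF X g n) {i k : Z5} {w : List α} (hw : Valid X i k w) (hik : i ≠ k)
    (hl : w.length ≤ n + 1) {p q : ℕ} (hpq : p ≤ q) (hq : q ≤ w.length) (hp1 : i + p ≠ i)
    (hp2 : i + p ≠ k) (hq1 : i + q ≠ i) (hq2 : i + q ≠ k) (hne : i + p ≠ i + q) :
    ⁅XW g (w.take p), XW g (w.drop p)⁆ = ⁅XW g (w.take q), XW g (w.drop q)⁆ := by
  obtain ⟨hq3, hq4⟩ := valid_split hw hq
  obtain ⟨hp3, hp4⟩ := valid_split hq3 (p := p) (by simp; omega)
  have e1 : (w.take q).take p = w.take p := by rw [List.take_take, min_eq_left hpq]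
  have e2 : (w.take q).drop p ++ w.drop q = w.drop p := by
    conv_rhs => rw [← List.take_append_drop q w]
    rw [List.drop_append_of_le_length (by simp; omega)]
  have e3 : (w.take q).take p ++ (w.take q).drop p = w.take q := List.take_append_drop _ _
  have := cut3 h hp3 hp4 hq4 hp1.symm hne hq2 hik hp2 hq1.symm (by simp; omega)
  rwa [e2, e3, e1] at this

theorem cut_any {n : ℕ} (h : XF X g n) {i k : Z5} {w : List α} (hw : Valid X i k w) (hik : i ≠ k)
    (hl : w.length ≤ n + 1) (h5 : 5 ≤ w.length) {p q : ℕ} (hp : p ≤ w.length) (hq : q ≤ w.length)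
    (hp1 : i + p ≠ i) (hp2 : i + p ≠ k) (hq1 : i + q ≠ i) (hq2 : i + q ≠ k) :
    ⁅XW g (w.take p), XW g (w.drop p)⁆ = ⁅XW g (w.take q), XW g (w.drop q)⁆ := by
  have key : ∀ p q : ℕ, p ≤ w.length → q ≤ w.length → i + p ≠ i → i + p ≠ k → i + q ≠ i →
      i + q ≠ k → i + p ≠ i + q →
      ⁅XW g (w.take p), XW g (w.drop p)⁆ = ⁅XW g (w.take q), XW g (w.drop q)⁆ := by
    intro p q hp hq hp1 hp2 hq1 hq2 hne
    rcases le_total p q with hpq | hpq
    · exact cut_lt h hw hik hl hpq hq hp1 hp2 hq1 hq2 hne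
    · exact (cut_lt h hw hik hl hpq hp hq1 hq2 hp1 hp2 hne.symm).symm
  obtain ⟨r, -, hr5, hr1, hr2, hr3, hr4⟩ := exists_pos i k (i + p) (i + q)
  exact (key p r hp (by omega) hp1 hp2 hr1 hr2 hr3.symm).trans
    (key r q (by omega) hq hr1 hr2 hq1 hq2 hr4)

theorem xw_cut {i k : Z5} {w : List α} (hw : Valid X i k w) (h5 : 5 ≤ w.length) :
    ∃ p : ℕ, p ≤ w.length ∧ i + p ≠ i ∧ i + p ≠ k ∧ XW g w = ⁅XW g (w.take p), XW g (w.drop p)⁆ := by
  have he := hw.end_eq
  match w, h5, he with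
  | a :: b :: w, h5, he =>
    have hc : ((a :: b :: w).length : Z5) = (((w.length + 2) % 5 : ℕ) : Z5) := by
      rw [ZMod.natCast_mod]; rfl
    rw [hc] at he
    by_cases hm : (w.length + 2) % 5 = 1
    · refine ⟨2, by simp, ?_, ?_, ?_⟩
      · exact (by decide : ∀ i : Z5, i + ((2 : ℕ) : Z5) ≠ i) i
      · rw [he, hm]; exact (by decide : ∀ i : Z5, i + ((2 : ℕ) : Z5) ≠ i + ((1 : ℕ) : Z5)) i
      · simp [XW, hm]
    · refine ⟨1, by simp, ?_, ?_, ?_⟩
      · exact (by decide : ∀ i : Z5, i + ((1 : ℕ) : Z5) ≠ i) i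
      · rw [he]
        have hlt : (w.length + 2) % 5 < 5 := Nat.mod_lt _ (by norm_num)
        generalize (w.length + 2) % 5 = t at hm hlt
        intro e
        have e' := add_left_cancel e
        interval_cases t <;> revert e' hm <;> decide
      · simp [XW, hm]

theorem step_split {w w' : List α} (h : S.Step w w') : ∃ t : ℕ, ∀ p : ℕ, p ≠ t →
    (w'.take p = w.take p ∧ S.Step (w.drop p) (w'.drop p)) ∨
      (S.Step (w.take p) (w'.take p) ∧ w'.drop p = w.drop p) := by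
  cases h with
  | one l r a b h =>
    refine ⟨0, fun p _ => ?_⟩
    rcases le_or_gt p l.length with hp | hp
    · left
      rw [List.take_append_of_le_length hp, List.take_append_of_le_length hp,
        List.drop_append_of_le_length hp, List.drop_append_of_le_length hp]
      exact ⟨rfl, Sys.Step.one _ _ _ _ h⟩
    · right
      obtain ⟨q, rfl⟩ : ∃ q, p = l.length + (q + 1) := ⟨p - l.length - 1, by omega⟩
      simp only [List.take_length_add_append, List.drop_length_add_append, List.take_succ_cons,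
        List.drop_succ_cons]
      exact ⟨Sys.Step.one _ _ _ _ h, trivial⟩
  | two l r a b c d h =>
    refine ⟨l.length + 1, fun p hp1 => ?_⟩
    rcases le_or_gt p l.length with hp | hp
    · left
      rw [List.take_append_of_le_length hp, List.take_append_of_le_length hp,
        List.drop_append_of_le_length hp, List.drop_append_of_le_length hp]
      exact ⟨rfl, Sys.Step.two _ _ _ _ _ _ h⟩
    · right
      obtain ⟨q, rfl⟩ : ∃ q, p = l.length + (q + 1 + 1) := ⟨p - l.length - 2, by omega⟩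
      simp only [List.take_length_add_append, List.drop_length_add_append, List.take_succ_cons,
        List.drop_succ_cons]
      exact ⟨Sys.Step.two _ _ _ _ _ _ h, trivial⟩

theorem zpat_split {w : List α} (h : S.ZPat w) : ∃ t : ℕ, ∀ p : ℕ, p ≠ t →
    S.ZPat (w.drop p) ∨ S.ZPat (w.take p) := by
  cases h with
  | one l r a h =>
    refine ⟨0, fun p _ => ?_⟩
    rcases le_or_gt p l.length with hp | hp
    · left
      rw [List.drop_append_of_le_length hp]
      exact Sys.ZPat.one _ _ _ h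
    · right
      obtain ⟨q, rfl⟩ : ∃ q, p = l.length + (q + 1) := ⟨p - l.length - 1, by omega⟩
      simp only [List.take_length_add_append, List.take_succ_cons]
      exact Sys.ZPat.one _ _ _ h
  | two l r a b h =>
    refine ⟨l.length + 1, fun p hp1 => ?_⟩
    rcases le_or_gt p l.length with hp | hp
    · left
      rw [List.drop_append_of_le_length hp]
      exact Sys.ZPat.two _ _ _ _ h
    · right
      obtain ⟨q, rfl⟩ : ∃ q, p = l.length + (q + 1 + 1) := ⟨p - l.length - 2, by omega⟩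
      simp only [List.take_length_add_append, List.take_succ_cons]
      exact Sys.ZPat.two _ _ _ _ h

theorem succ {n : ℕ} (hn : 7 ≤ n) (h : XF X g n) : XF X g (n + 1) := by
  have hcut : ∀ {i j k : Z5} {u w : List α}, Valid X i j u → Valid X j k w → i ≠ j → j ≠ k →
      i ≠ k → u.length + w.length ≤ n + 1 → XW g (u ++ w) = ⁅XW g u, XW g w⁆ := by
    intro i j k u w hu hw hij hjk hik hl
    rcases le_or_gt (u.length + w.length) n with hl' | hl'
    · exact h.cut hu hw hij hjk hik hl'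
    have huw := valid_append hu hw
    have h5 : 5 ≤ (u ++ w).length := by simp; omega
    obtain ⟨p, hp, hp1, hp2, he⟩ := xw_cut (g := g) huw h5
    have hj := hu.end_eq
    have := cut_any h huw hik (by simp; omega) h5 hp (q := u.length) (by simp) hp1 hp2
      (by rw [← hj]; exact hij.symm) (by rw [← hj]; exact hjk)
    rw [he, this, List.take_left', List.drop_left'] <;> rfl
  have hsplit : ∀ {i j : Z5} {w : List α}, Valid X i j w → i ≠ j → w.length = n + 1 →
      ∀ p : ℕ, 0 < p → p < 5 → i + p ≠ i → i + p ≠ j →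
        Valid X i (i + p) (w.take p) ∧ Valid X (i + p) j (w.drop p) ∧ (w.take p).length ≤ n ∧
          (w.drop p).length ≤ n ∧ XW g w = ⁅XW g (w.take p), XW g (w.drop p)⁆ := by
    intro i j w hw hij hl p hp0 hp5 hp1 hp2
    obtain ⟨h1, h2⟩ := valid_split hw (p := p) (by omega)
    refine ⟨h1, h2, by simp; omega, by simp; omega, ?_⟩
    rw [← hcut h1 h2 hp1.symm hp2 hij (by simp; omega), List.take_append_drop]
  have hcom1 : ∀ {i j k l : Z5} {u w : List α}, Valid X i j u → Valid X k l w → i ≠ j → k ≠ l →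
      j ≠ k → l ≠ i → u.length ≤ n + 1 → w.length ≤ n → Commute (XW g u) (XW g w) := by
    intro i j k l u w hu hw hij hkl hjk hli hul hwl
    rcases le_or_gt u.length n with hl' | hl'
    · exact h.com hu hw hij hkl hjk hli hl' hwl
    obtain ⟨p, hp0, hp5, hp1, hp2, hp3, hp4⟩ := exists_pos i j k l
    obtain ⟨h1, h2, l1, l2, he⟩ := hsplit hu hij (by omega) p hp0 hp5 hp1 hp2
    rw [he]
    exact commute_comm (h.com h1 hw hp1.symm hkl hp3 hli l1 hwl)
      (h.com h2 hw hp2 hkl hjk hp4.symm l2 hwl)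
  have hcom : ∀ {i j k l : Z5} {u w : List α}, Valid X i j u → Valid X k l w → i ≠ j → k ≠ l →
      j ≠ k → l ≠ i → u.length ≤ n + 1 → w.length ≤ n + 1 → Commute (XW g u) (XW g w) := by
    intro i j k l u w hu hw hij hkl hjk hli hul hwl
    rcases le_or_gt w.length n with hl' | hl'
    · exact hcom1 hu hw hij hkl hjk hli hul hl'
    obtain ⟨p, hp0, hp5, hp1, hp2, hp3, hp4⟩ := exists_pos k l i j
    obtain ⟨h1, h2, l1, l2, he⟩ := hsplit hw hkl (by omega) p hp0 hp5 hp1 hp2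
    rw [he]
    exact (commute_comm (hcom1 hu h1 hij hp1.symm hjk hp3 hul l1).symm
      (hcom1 hu h2 hij hp2 hp4.symm hli hul l2).symm).symm
  refine ⟨hcut, hcom, ?_, ?_, ?_⟩
  · intro i j w hw hij hl
    rcases le_or_gt w.length n with hl' | hl'
    · exact h.sq hw hij hl'
    obtain ⟨p, hp0, hp5, hp1, hp2, -, -⟩ := exists_pos i j j j
    obtain ⟨h1, h2, l1, l2, he⟩ := hsplit hw hij (by omega) p hp0 hp5 hp1 hp2
    have hc := hcom1 hw h1 hij hp1.symm hij.symm hp1 hl l1
    rw [he] at hc ⊢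
    exact sq_grp (h.sq h1 hp1.symm l1) hc
  · intro i j w w' hw hij hl hs
    rcases le_or_gt w.length n with hl' | hl'
    · exact h.step hw hij hl' hs
    obtain ⟨t, ht⟩ := step_split hs
    obtain ⟨p, hp0, hp5, hp1, hp2, hp3, -⟩ := exists_pos i j (i + t) j
    obtain ⟨h1, h2, l1, l2, he⟩ := hsplit hw hij (by omega) p hp0 hp5 hp1 hp2
    obtain ⟨-, -, -, -, he'⟩ := hsplit ((Valid.step_iff hs).1 hw) hij
      (by rw [← hs.length_eq]; omega) p hp0 hp5 hp1 hp2
    rw [he, he']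
    rcases ht p (fun e => hp3 (by rw [e])) with ⟨e1, e2⟩ | ⟨e1, e2⟩
    · rw [e1, h.step h2 hp2 l2 e2]
    · rw [e2, h.step h1 hp1.symm l1 e1]
  · intro i j w hw hij hl hz
    rcases le_or_gt w.length n with hl' | hl'
    · exact h.zero hw hij hl' hz
    obtain ⟨t, ht⟩ := zpat_split hz
    obtain ⟨p, hp0, hp5, hp1, hp2, hp3, -⟩ := exists_pos i j (i + t) j
    obtain ⟨h1, h2, l1, l2, he⟩ := hsplit hw hij (by omega) p hp0 hp5 hp1 hp2
    rw [he]
    rcases ht p (fun e => hp3 (by rw [e])) with e | e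
    · rw [h.zero h2 hp2 l2 e, commutatorElement_one_right]
    · rw [h.zero h1 hp1.symm l1 e, commutatorElement_one_left]

end Fp1

theorem fp1Stmt {α : Type} {S : Sys α} (X : Vtx S) : Fp1Stmt X := by
  intro G _ g h7 n
  rcases le_total n 7 with hn | hn
  · exact Fp1.mono h7 hn
  · induction n, hn using Nat.le_induction with
    | base => exact h7
    | succ n hn ih => exact Fp1.succ hn ih

end Crest.Agent.R176
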