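import Crest.Agent.R176.KDefs2

/-! Row 176: the Steinberg group is finitely presented. -/

set_option autoImplicit false

open scoped commutatorElement

namespace Crest.Agent.R176

variable {α : Type} {S : Sys α}

namespace Fp2

theorem XW_cons2 {G : Type} [Group G] (g : α → G) (a b : α) (w : List α) :
    XW g (a :: b :: w) =
      if (w.length + 2) % 5 = 1 then ⁅⁅g a, g b⁆, XW g w⁆ else ⁅g a, XW g (b :: w)⁆ := by
  rw [XW]

theorem list_ind {p : List α → Prop} (h0 : p []) (h1 : ∀ a, p [a])
    (h2 : ∀ a b w, p w → p (b :: w) → p (a :: b :: w)) (w : List α) : p w := by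
  have : ∀ w : List α, p w ∧ ∀ a, p (a :: w) := by
    intro w
    induction w with
    | nil => exact ⟨h0, h1⟩
    | cons b w ih => exact ⟨ih.2 b, fun a => h2 a b w ih.1 (ih.2 b)⟩
  exact (this w).1

theorem map_XW {G H : Type} [Group G] [Group H] (f : G →* H) (g : α → G) (w : List α) :
    f (XW g w) = XW (fun a => f (g a)) w := by
  induction w using list_ind with
  | h0 => exact map_one f
  | h1 a => rfl
  | h2 a b w ih ih' =>
    rw [XW_cons2, XW_cons2]
    split_ifs
    · rw [map_commutatorElement, map_commutatorElement, ih]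
    · rw [map_commutatorElement, ih']

theorem XW_mem {G : Type} [Group G] {g : α → G} {H : Subgroup G} (h : ∀ a, g a ∈ H)
    (w : List α) : XW g w ∈ H := by
  have hc : ∀ {x y : G}, x ∈ H → y ∈ H → ⁅x, y⁆ ∈ H := fun hx hy =>
    mul_mem (mul_mem (mul_mem hx hy) (inv_mem hx)) (inv_mem hy)
  induction w using list_ind with
  | h0 => exact one_mem _
  | h1 a => exact h a
  | h2 a b w ih ih' =>
    rw [XW_cons2]
    split_ifs
    · exact hc (hc (h a) (h b)) ih
    · exact hc (h a) ih'

theorem ne_nil {X : Vtx S} {i j : Z5} {w : List α} (h : Valid X i j w) (hij : i ≠ j) : w ≠ [] := by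
  rintro rfl
  exact hij h

theorem mem_J {X : Vtx S} {i j : Z5} {w : List α} (h : Valid X i j w) (hij : i ≠ j) :
    mon S w ∈ Jsp X i j := mon_mem_Jsp (ne_nil h hij) h

theorem ne1 (i : Z5) : i ≠ i + 1 := by revert i; decide
theorem ne2 (i : Z5) : i ≠ i + 1 + 1 := by revert i; decide
theorem ne3 (i : Z5) : i + 1 + 1 ≠ i + 1 := by revert i; decide

theorem valid_single (X : Vtx S) (a : α) : Valid X (X.vtx a) (X.vtx a + 1) [a] := ⟨rfl, rfl⟩

theorem gen_mem (X : Vtx S) (a : α) : gen S a ∈ Jsp X (X.vtx a) (X.vtx a + 1) := by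
  rw [← mon_single]
  exact mem_J (valid_single X a) (ne1 _)

end Fp2

/-- K-XW -/
theorem xwStmt (X : Vtx S) (P : PR (Jsp X)) : XwStmt X := by
  intro i j w
  induction w using Fp2.list_ind generalizing i j with
  | h0 => exact fun h hij => absurd h hij
  | h1 a =>
    rintro ⟨rfl, rfl⟩ _
    rw [mon_single]
    rfl
  | h2 a b w ih ih' =>
    rintro ⟨rfl, hb, hw⟩ hij
    have hj : j = X.vtx a + ((w.length + 2 : ℕ) : Z5) := by
      rw [hw.end_eq]
      push_cast
      ring
    have hga := Fp2.gen_mem X a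
    have hgb := Fp2.gen_mem X b
    rw [Fp2.XW_cons2]
    split_ifs with hc
    · have hj' : j = X.vtx a + 1 := by
        rw [hj, (ZMod.natCast_eq_natCast_iff' _ 1 5).2 hc, Nat.cast_one]
      subst hj'
      rw [ih _ _ hw (Fp2.ne3 _), xL, xL, hb]
      rw [hb] at hgb
      rw [(xS_rels _).st hga hgb (Fp2.ne1 _) (Fp2.ne1 _) (Fp2.ne2 _),
        (xS_rels _).st (P.mul_mem hga hgb) (Fp2.mem_J hw (Fp2.ne3 _)) (Fp2.ne2 _) (Fp2.ne3 _)
          (Fp2.ne1 _), mon_cons, mon_cons, mul_assoc]
    · have hj' : X.vtx a + 1 ≠ j := by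
        intro h
        rw [hj, add_right_inj, ← Nat.cast_one (R := Z5), ZMod.natCast_eq_natCast_iff'] at h
        exact hc h.symm
      have hv : Valid X (X.vtx a + 1) j (b :: w) := ⟨hb, hw⟩
      rw [ih' _ _ hv hj', xL, (xS_rels _).st hga (Fp2.mem_J hv hj') (Fp2.ne1 _) hj' hij,
        mon_cons a]

/-- K-GEN -/
theorem genStmt (X : Vtx S) (P : PR (Jsp X)) : GenStmt X := by
  let H : Subgroup (Stb (Jsp X)) :=
    { carrier := {γ | ∃ l : List α, γ = (l.map (xL X)).prod}
      mul_mem' := by
        rintro _ _ ⟨l, rfl⟩ ⟨l', rfl⟩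
        exact ⟨l ++ l', by simp⟩
      one_mem' := ⟨[], by simp⟩
      inv_mem' := by
        rintro _ ⟨l, rfl⟩
        refine ⟨l.reverse, ?_⟩
        induction l with
        | nil => simp
        | cons a l ih =>
          simp only [List.map_cons, List.prod_cons, mul_inv_rev, ih, List.reverse_cons,
            List.map_append, List.prod_append, List.map_nil, List.prod_nil, mul_one]
          rw [xL, (xS_rels _).inv_eq P] }
  have hL : ∀ a, xL X a ∈ H := fun a => ⟨[a], by simp⟩
  intro γ
  refine PresentedGroup.generated_by _ H ?_ γ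
  rintro ⟨i, j, r⟩
  show xS (Jsp X) i j r ∈ H
  by_cases h : i ≠ j ∧ r ∈ Jsp X i j
  · obtain ⟨hij, hr⟩ := h
    induction hr using AddSubgroup.closure_induction with
    | mem r hr =>
      obtain ⟨w, -, hw, rfl⟩ := hr
      rw [← xwStmt X P i j w hw hij]
      exact Fp2.XW_mem hL w
    | zero =>
      rw [(xS_rels _).zero]
      exact one_mem _
    | add r s hr hs ihr ihs =>
      rw [← (xS_rels _).add hr hs]
      exact mul_mem ihr ihs
    | neg r hr ih => rwa [P.neg_eq]
  · rw [(xS_rels _).triv h]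
    exact one_mem _

namespace Fp2

theorem xf_stb (X : Vtx S) (P : PR (Jsp X)) (n : ℕ) : XF X (xL X) n where
  cut hu hw hij hjk hik _ := by
    rw [xwStmt X P _ _ _ (valid_append hu hw) hik, xwStmt X P _ _ _ hu hij,
      xwStmt X P _ _ _ hw hjk, (xS_rels _).st (mem_J hu hij) (mem_J hw hjk) hij hjk hik,
      mon_append]
  com hu hw hij hkl hjk hli _ _ := by
    rw [xwStmt X P _ _ _ hu hij, xwStmt X P _ _ _ hw hkl]
    exact (xS_rels _).com (mem_J hu hij) (mem_J hw hkl) hjk hli
  sq hw hij _ := by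
    rw [xwStmt X P _ _ _ hw hij, (xS_rels _).mul_self P]
  step hw hij _ hs := by
    rw [xwStmt X P _ _ _ hw hij, xwStmt X P _ _ _ ((Valid.step_iff hs).1 hw) hij, mon_step hs]
  zero hw hij _ hz := by
    rw [xwStmt X P _ _ _ hw hij, mon_zpat hz, (xS_rels _).zero]

section lift
variable (X : Vtx S) {Γ : Type} [Group Γ] (g : α → Γ)

/-- the root subgroups -/
def A (i j : Z5) : Subgroup Γ := Subgroup.closure {x | ∃ w, Valid X i j w ∧ x = XW g w}

variable {X g}

theorem comm_A (hF : ∀ n, XF X g n) {i j k l : Z5} (hij : i ≠ j) (hkl : k ≠ l) (hjk : j ≠ k)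
    (hli : l ≠ i) {x y : Γ} (hx : x ∈ A X g i j) (hy : y ∈ A X g k l) : Commute x y := by
  induction hx using Subgroup.closure_induction with
  | mem x hx =>
    induction hy using Subgroup.closure_induction with
    | mem y hy =>
      obtain ⟨u, hu, rfl⟩ := hx
      obtain ⟨w, hw, rfl⟩ := hy
      exact (hF (u.length + w.length)).com hu hw hij hkl hjk hli (by omega) (by omega)
    | one => exact Commute.one_right _
    | mul y z _ _ h1 h2 => exact h1.mul_right h2
    | inv y _ h1 => exact h1.inv_right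
  | one => exact Commute.one_left _
  | mul x z _ _ h1 h2 => exact h1.mul_left h2
  | inv x _ h1 => exact h1.inv_left

theorem sq_A (hF : ∀ n, XF X g n) {i j : Z5} (hij : i ≠ j) {x : Γ} (hx : x ∈ A X g i j) :
    x * x = 1 := by
  induction hx using Subgroup.closure_induction with
  | mem x hx =>
    obtain ⟨w, hw, rfl⟩ := hx
    exact (hF _).sq hw hij le_rfl
  | one => exact one_mul _
  | mul x y hx hy h1 h2 =>
    have := (comm_A hF hij hij hij.symm hij.symm hx hy).eq
    calc x * y * (x * y) = x * (y * x) * y := by group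
      _ = (x * x) * (y * y) := by rw [← this]; group
      _ = 1 := by rw [h1, h2, one_mul]
  | inv x _ h1 => rw [← mul_inv_rev, h1, inv_one]

theorem exists_phi (hL : LiftStmt S) (hF : ∀ n, XF X g n) {i j : Z5} (hij : i ≠ j) :
    ∃ φ : Alg S → Γ, (∀ r s, φ (r + s) = φ r * φ s) ∧ (∀ r, φ r ∈ A X g i j) ∧
      ∀ w, Valid X i j w → φ (mon S w) = XW g w := by
  classical
  letI : CommGroup (A X g i j) :=
    { (inferInstance : Group (A X g i j)) with
      mul_comm := fun x y => Subtype.ext (comm_A hF hij hij hij.symm hij.symm x.2 y.2).eq }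
  letI : Module (ZMod 2) (Additive (A X g i j)) := AddCommGroup.zmodModule fun x => by
    rw [two_nsmul]
    exact Subtype.ext (sq_A hF hij (Additive.toMul x).2)
  obtain ⟨φ, hφ⟩ := hL (Additive (A X g i j)) (fun w => if h : Valid X i j w then
    Additive.ofMul ⟨XW g w, Subgroup.subset_closure ⟨w, h, rfl⟩⟩ else 0)
    (fun w w' hs => by
      by_cases h : Valid X i j w
      · rw [dif_pos h, dif_pos ((Valid.step_iff hs).1 h)]
        exact congrArg _ (Subtype.ext ((hF _).step h hij le_rfl hs))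
      · rw [dif_neg h, dif_neg (fun h' => h ((Valid.step_iff hs).2 h'))])
    (fun w hz => by
      by_cases h : Valid X i j w
      · rw [dif_pos h]
        exact Subtype.ext ((hF _).zero h hij le_rfl hz)
      · rw [dif_neg h])
  refine ⟨fun r => (Additive.toMul (φ r)).1, fun r s => ?_, fun r => (Additive.toMul (φ r)).2,
    fun w hw => ?_⟩
  · simp only [map_add]
    rfl
  · simp only [hφ, dif_pos hw]
    rfl

theorem exists_lift (P : PR (Jsp X)) (hL : LiftStmt S) (hF : ∀ n, XF X g n) :
    ∃ ψ : Stb (Jsp X) →* Γ, ∀ a, ψ (xL X a) = g a := by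
  classical
  have hex : ∀ i j : Z5, ∃ φ : Alg S → Γ, i ≠ j → (∀ r s, φ (r + s) = φ r * φ s) ∧
      (∀ r, φ r ∈ A X g i j) ∧ ∀ w, Valid X i j w → φ (mon S w) = XW g w := by
    intro i j
    by_cases hij : i ≠ j
    · obtain ⟨φ, h⟩ := exists_phi hL hF hij
      exact ⟨φ, fun _ => h⟩
    · exact ⟨fun _ => 1, fun h => absurd h hij⟩
  choose φ hφ using hex
  have h0 : ∀ {i j : Z5}, i ≠ j → φ i j 0 = 1 := by
    intro i j hij
    have := (hφ i j hij).1 0 0
    rw [add_zero] at this
    exact mul_eq_left.1 this.symm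
  have hst : ∀ {i j k : Z5} {r s : Alg S}, r ∈ Jsp X i j → s ∈ Jsp X j k → i ≠ j → j ≠ k →
      i ≠ k → ⁅φ i j r, φ j k s⁆ = φ i k (r * s) := by
    intro i j k r s hr hs hij hjk hik
    induction hr using AddSubgroup.closure_induction with
    | mem r hr =>
      induction hs using AddSubgroup.closure_induction with
      | mem s hs =>
        obtain ⟨u, -, hu, rfl⟩ := hr
        obtain ⟨w, -, hw, rfl⟩ := hs
        rw [← mon_append, (hφ i j hij).2.2 u hu, (hφ j k hjk).2.2 w hw,
          (hφ i k hik).2.2 _ (valid_append hu hw), (hF _).cut hu hw hij hjk hik le_rfl]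
      | zero => rw [h0 hjk, mul_zero, h0 hik, commutatorElement_one_right]
      | add s t _ _ h1 h2 =>
        rw [(hφ j k hjk).1, commutatorElement_mul_right_eq_mul_conj, h1, h2, mul_add,
          (hφ i k hik).1, mul_assoc, mul_assoc, ← mul_assoc (φ j k s),
          (comm_A hF hjk hik hik.symm hjk.symm ((hφ j k hjk).2.1 s)
            ((hφ i k hik).2.1 (r * t))).eq, mul_inv_cancel_right]
      | neg s _ h1 => rwa [P.neg_eq]
    | zero => rw [h0 hij, zero_mul, h0 hik, commutatorElement_one_left]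
    | add r t _ _ h1 h2 =>
      rw [(hφ i j hij).1, commutatorElement_mul_left_eq_conj_mul, h1, h2, add_mul, add_comm,
        (hφ i k hik).1,
        (comm_A hF hij hik hij.symm hik.symm ((hφ i j hij).2.1 r)
          ((hφ i k hik).2.1 (t * s))).eq, mul_inv_cancel_right]
    | neg r _ h1 => rwa [P.neg_eq]
  have hrel : StRels (Jsp X) fun i j r => if i ≠ j ∧ r ∈ Jsp X i j then φ i j r else 1 :=
    { triv := fun h => if_neg h
      add := fun {i j r s} hr hs => by
        by_cases hij : i ≠ j
        · rw [if_pos ⟨hij, hr⟩, if_pos ⟨hij, hs⟩, if_pos ⟨hij, add_mem hr hs⟩, (hφ i j hij).1]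
        · rw [if_neg (fun h => hij h.1), if_neg (fun h => hij h.1), if_neg (fun h => hij h.1),
            one_mul]
      com := fun {i j k l r s} hr hs hjk hli => by
        by_cases hij : i ≠ j
        · by_cases hkl : k ≠ l
          · rw [if_pos ⟨hij, hr⟩, if_pos ⟨hkl, hs⟩]
            exact comm_A hF hij hkl hjk hli ((hφ i j hij).2.1 r) ((hφ k l hkl).2.1 s)
          · rw [if_neg (fun h : k ≠ l ∧ _ => hkl h.1)]
            exact Commute.one_right _
        · rw [if_neg (fun h => hij h.1)]
          exact Commute.one_left _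
      st := fun {i j k r s} hr hs hij hjk hik => by
        rw [if_pos ⟨hij, hr⟩, if_pos ⟨hjk, hs⟩, if_pos ⟨hik, P.mul_mem hr hs⟩]
        exact hst hr hs hij hjk hik }
  refine ⟨hrel.lift, fun a => ?_⟩
  rw [xL, hrel.lift_xS, if_pos ⟨ne1 _, gen_mem X a⟩, ← mon_single,
    (hφ _ _ (ne1 _)).2.2 _ (valid_single X a)]
  rfl

end lift

/-- candidate relators -/
def cand (u w : List α) : List (FreeGroup α) :=
  [XW FreeGroup.of (u ++ w) * ⁅XW FreeGroup.of u, XW FreeGroup.of w⁆⁻¹,
    ⁅XW FreeGroup.of u, XW FreeGroup.of w⁆, XW FreeGroup.of w * XW FreeGroup.of w,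
    XW FreeGroup.of u * (XW FreeGroup.of w)⁻¹, XW FreeGroup.of w]

/-- the relators -/
def rels (X : Vtx S) : Set (FreeGroup α) :=
  {r | (∃ u w : List α, u.length ≤ 7 ∧ w.length ≤ 7 ∧ r ∈ cand u w) ∧ FreeGroup.lift (xL X) r = 1}

theorem finite_rels [Finite α] (X : Vtx S) : (rels X).Finite := by
  refine ((List.finite_length_le α 7).biUnion fun u _ => (List.finite_length_le α 7).biUnion
    fun w _ => List.finite_toSet (cand u w)).subset ?_
  rintro r ⟨⟨u, w, hu, hw, hr⟩, -⟩
  simp only [Set.mem_iUnion]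
  exact ⟨u, hu, w, hw, hr⟩

theorem lift_XW (X : Vtx S) (w : List α) :
    FreeGroup.lift (xL X) (XW FreeGroup.of w) = XW (xL X) w := by
  rw [map_XW]
  simp only [FreeGroup.lift_apply_of]

theorem mk_XW (X : Vtx S) (w : List α) :
    PresentedGroup.mk (rels X) (XW FreeGroup.of w) =
      XW (PresentedGroup.of (rels := rels X)) w := map_XW _ _ w

theorem xf_pres (X : Vtx S) (P : PR (Jsp X)) :
    XF X (PresentedGroup.of (rels := rels X)) 7 where
  cut {i j k u w} hu hw hij hjk hik hn := by
    have := PresentedGroup.one_of_mem (rels := rels X)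
      (x := XW FreeGroup.of (u ++ w) * ⁅XW FreeGroup.of u, XW FreeGroup.of w⁆⁻¹)
      ⟨⟨u, w, by omega, by omega, by simp [cand]⟩, by
        rw [map_mul, map_inv, map_commutatorElement, lift_XW, lift_XW, lift_XW,
          (xf_stb X P 7).cut hu hw hij hjk hik hn, mul_inv_cancel]⟩
    rw [map_mul, map_inv, map_commutatorElement, mk_XW, mk_XW, mk_XW] at this
    exact mul_inv_eq_one.1 this
  com {i j k l u w} hu hw hij hkl hjk hli h1 h2 := by
    have := PresentedGroup.one_of_mem (rels := rels X)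
      (x := ⁅XW FreeGroup.of u, XW FreeGroup.of w⁆)
      ⟨⟨u, w, h1, h2, by simp [cand]⟩, by
        rw [map_commutatorElement, lift_XW, lift_XW]
        exact commutatorElement_eq_one_iff_commute.2
          ((xf_stb X P 7).com hu hw hij hkl hjk hli h1 h2)⟩
    rw [map_commutatorElement, mk_XW, mk_XW] at this
    exact commutatorElement_eq_one_iff_commute.1 this
  sq {i j w} hw hij hn := by
    have := PresentedGroup.one_of_mem (rels := rels X)
      (x := XW FreeGroup.of w * XW FreeGroup.of w)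
      ⟨⟨w, w, hn, hn, by simp [cand]⟩, by
        rw [map_mul, lift_XW, (xf_stb X P 7).sq hw hij hn]⟩
    rwa [map_mul, mk_XW] at this
  step {i j w w'} hw hij hn hs := by
    have := PresentedGroup.one_of_mem (rels := rels X)
      (x := XW FreeGroup.of w * (XW FreeGroup.of w')⁻¹)
      ⟨⟨w, w', hn, hs.length_eq ▸ hn, by simp [cand]⟩, by
        rw [map_mul, map_inv, lift_XW, lift_XW, (xf_stb X P 7).step hw hij hn hs,
          mul_inv_cancel]⟩
    rw [map_mul, map_inv, mk_XW, mk_XW] at this
    exact mul_inv_eq_one.1 this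
  zero {i j w} hw hij hn hz := by
    have := PresentedGroup.one_of_mem (rels := rels X) (x := XW FreeGroup.of w)
      ⟨⟨w, w, hn, hn, by simp [cand]⟩, by rw [lift_XW, (xf_stb X P 7).zero hw hij hn hz]⟩
    rwa [mk_XW] at this

end Fp2

/-- K-FP -/
theorem fpStmt [Finite α] (X : Vtx S) (P : PR (Jsp X)) (hL : LiftStmt S) (h1 : Fp1Stmt X) :
    Group.IsFinitelyPresented (Stb (Jsp X)) := by
  haveI : Finite (Fp2.rels X) := (Fp2.finite_rels X).to_subtype
  obtain ⟨ψ, hψ⟩ := Fp2.exists_lift P hL (h1 _ _ (Fp2.xf_pres X P))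
  let χ : PresentedGroup (Fp2.rels X) →* Stb (Jsp X) :=
    PresentedGroup.toGroup (f := xL X) fun r hr => hr.2
  have hχ : ∀ a, χ (PresentedGroup.of a) = xL X a := fun a => PresentedGroup.toGroup.of _
  have hid : ψ.comp χ = MonoidHom.id _ := PresentedGroup.ext fun a => by
    rw [MonoidHom.comp_apply, hχ, hψ, MonoidHom.id_apply]
  have hinj : Function.Injective χ :=
    Function.LeftInverse.injective (g := ψ) fun x => DFunLike.congr_fun hid x
  have hsurj : Function.Surjective χ := by
    intro γ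
    obtain ⟨l, rfl⟩ := genStmt X P γ
    refine ⟨(l.map PresentedGroup.of).prod, ?_⟩
    rw [map_list_prod, List.map_map]
    exact congrArg (fun f => (l.map f).prod) (funext hχ)
  exact Group.IsFinitelyPresented.equiv (MulEquiv.ofBijective χ ⟨hinj, hsurj⟩)

end Crest.Agent.R176
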