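import Crest.Agent.R176.Tower

/-! Row 176: freeing a junction of towers, exactness at all levels. -/

set_option autoImplicit false

namespace Crest.Agent.R176

namespace Free

section one
variable {M : ℕ} [NeZero M]

theorem rep_replace {l r : List (Cell M)} {x x' : Cell M} {u : List (Cell (M * BB))}
    (h : Rep (l ++ x :: r) u) (hst : x'.a.st = x.a.st) (hc : cont x' = cont x) :
    Rep (l ++ x' :: r) u := by
  obtain ⟨u1, X, u2, v1, l', r', v2, rfl, rfl, rfl, h1, ⟨hlen, iA, iT, hb⟩, h2⟩ := h.one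
  have key : ∀ i, (cat (l' ++ x' :: r') i).a.st = (cat (l' ++ x :: r') i).a.st ∧
      cont (cat (l' ++ x' :: r') i) = cont (cat (l' ++ x :: r') i) := fun i => by
    rcases lt_or_ge i l'.length with hi | hi
    · rw [cat_append_left hi, cat_append_left hi]; exact ⟨rfl, rfl⟩
    · obtain ⟨j, rfl⟩ := Nat.exists_eq_add_of_le hi
      rw [cat_append_right, cat_append_right]
      cases j with
      | zero => exact ⟨hst, hc⟩
      | succ j => exact ⟨rfl, rfl⟩
  have h3 : Blk X (l' ++ x' :: r') :=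
    ⟨by simpa using hlen, iA, iT, hb.congr (fun i _ => (key i).1) fun i _ => (key i).2⟩
  simpa using h1.append (Rep.cons h3 h2)

omit [NeZero M] in
theorem loc_unl {x : Cell M} (h : Loc [x]) : Loc [unlC x] := by
  rw [CB1.loc_single] at h ⊢
  exact ⟨{ h.1 with }, { h.2 with }⟩

theorem good_unl_last {a : List (Cell M)} {y : Cell M} {u : List (Cell (M * BB))}
    (h : Good (a ++ [y]) u) (hy : y.a.isL) : Good (a ++ [unlC y]) u := by
  refine ⟨rep_replace h.1 rfl rfl, ?_⟩
  obtain ⟨h1, h2, h3⟩ := loc_append.1 h.2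
  refine loc_append.2 ⟨h1, loc_unl h2, fun p hp z hz => ?_⟩
  obtain rfl : unlC y = z := by simpa using hz
  have h4 := h3 p hp y (by simp)
  exact { h4 with
    lk := LK.of_free (fun hl => hy.not_isR (h4.lk.1.1 hl)) (V.not_isR_of_none rfl) }

theorem good_unl_head {b : List (Cell M)} {x : Cell M} {u : List (Cell (M * BB))}
    (h : Good (x :: b) u) (hx : x.a.isR) : Good (unlC x :: b) u := by
  refine ⟨rep_replace (l := []) h.1 rfl rfl, ?_⟩
  obtain ⟨h1, h2, h3⟩ := (loc_append (v := [x])).1 h.2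
  refine (loc_append (v := [unlC x])).2 ⟨loc_unl h1, h2, fun z hz p hp => ?_⟩
  obtain rfl : unlC x = z := by simpa using hz
  have h4 := h3 x (by simp) p hp
  exact { h4 with
    lk := LK.of_free (V.not_isL_of_none rfl) fun hr => (h4.lk.1.2 hr).not_isR hx }

theorem two_le {v : List (Cell M)} {u : List (Cell (M * BB))} (h : Good v u) (hu : u ≠ []) :
    2 ≤ v.length := by
  rw [h.1.length_eq]
  have h1 := nb_ge (M := M)
  have h2 := List.length_pos_iff.2 hu
  nlinarith

/-- the two cells at a junction can be unlocked -/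
theorem unlock {a b : List (Cell M)} {x y : Cell M} {u u' : List (Cell (M * BB))}
    (h : Good (a ++ [y]) u) (h' : Good (x :: b) u') (hk : LK y.a x.a) :
    ∃ y' x' : Cell M, (RS M).Eqv [y, x] [y', x'] ∧ Good (a ++ [y']) u ∧ Good (x' :: b) u' ∧
      ¬ y'.a.isL ∧ ¬ x'.a.isR := by
  by_cases hy : y.a.isL
  · refine ⟨unlC y, unlC x, (Sys.Eqv.of_r2 (S := RS M) ?_).symm, good_unl_last h hy,
      good_unl_head h' (hk.1.1 hy), V.not_isL_of_none rfl, V.not_isR_of_none rfl⟩
    exact Or.inl ⟨hk.unlock hy, rfl, rfl, rfl, rfl⟩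
  · exact ⟨y, x, Sys.Eqv.refl _, h, h', hy, fun hx => hy (hk.1.2 hx)⟩

omit [NeZero M] in
theorem colAdj_of_loc {v w : List (Cell M)} (h : Loc (v ++ w)) :
    ∀ X ∈ v.getLast?, ∀ Y ∈ w.head?, ColAdj X.a Y.a := fun X hX Y hY =>
  ((loc_append.1 h).2.2 X hX Y hY).col

end one

theorem forall₂_free {ll fl : List V} (h : ll.length = fl.length) (h1 : ∀ l ∈ ll, ¬ l.isL)
    (h2 : ∀ f ∈ fl, ¬ f.isR) : List.Forall₂ LK ll fl := by
  induction ll generalizing fl with
  | nil => cases fl with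
    | nil => exact .nil
    | cons _ _ => simp at h
  | cons l ll ih => cases fl with
    | nil => simp at h
    | cons f fl =>
      exact .cons (LK.of_free (h1 l (by simp)) (h2 f (by simp)))
        (ih (by simpa using h) (fun l hl => h1 l (by simp [hl])) fun f hf => h2 f (by simp [hf]))

theorem tower_nil (s : ℕ) : Tower s [] [] := by
  induction s with
  | zero => rfl
  | succ s ih => exact ⟨[], ih, Rep.nil, by simp [Loc]⟩

end Free

theorem freeStmt (hT : TowFacts) : FreeStmt := by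
  intro s
  induction s with
  | zero =>
    rintro W1 W2 u u' fl ll1 fl2 ll ⟨rfl, rfl, rfl⟩ ⟨rfl, rfl, rfl⟩ - - - -
    exact ⟨_, _, [], [], Sys.Eqv.refl _, ⟨rfl, rfl, rfl⟩, ⟨rfl, rfl, rfl⟩, by simp, by simp⟩
  | succ s ih =>
    rintro W1 W2 u u' fl ll1 fl2 ll ⟨v1, x1, y, fl', ll1', t1, g1, hx1, hy, rfl, rfl⟩
      ⟨v2, x, y2, fl2', ll', t2, g2, hx, hy2, rfl, rfl⟩ hu hu' hk hc
    obtain ⟨hk0, hk'⟩ := List.forall₂_cons.1 hk
    obtain ⟨a, rfl⟩ := List.getLast?_eq_some_iff.1 hy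
    obtain ⟨b, rfl⟩ := List.head?_eq_some_iff.1 hx
    have ha : a ≠ [] := by rintro rfl; simpa using Free.two_le g1 hu
    have hb : b ≠ [] := by rintro rfl; simpa using Free.two_le g2 hu'
    have g12 := g1.append g2 hc (by simpa using hk0)
    obtain ⟨Wa, Wy, lla, fly, rfl, ta, ty, k1⟩ := hT.tb_split t1 ha (by simp)
    obtain ⟨Wx, Wb, llx, flb, rfl, tx, tb, k2⟩ := hT.tb_split (u := [x]) t2 (by simp) hb
    obtain ⟨Wa', Wy', lla', fly', e1, ta', ty', f1, f2⟩ :=
      ih _ _ _ _ _ _ _ _ ta ty ha (by simp) k1 (Free.colAdj_of_loc g1.2)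
    obtain ⟨Wy'', Wx', lly, flx, e2, ty'', tx', f3, f4⟩ :=
      ih _ _ _ _ _ _ _ _ ty' tx (by simp) (by simp) hk'
        (by simpa using Free.colAdj_of_loc g12.2)
    obtain ⟨Wx'', Wb', llx', flb', e3, tx'', tb', f5, f6⟩ :=
      ih _ _ _ _ _ _ _ _ tx' tb (by simp) hb k2 (Free.colAdj_of_loc (v := [x]) g2.2)
    obtain ⟨y', x', e4, g1', g2', f7, f8⟩ := Free.unlock g1 g2 hk0
    obtain ⟨p1, q1, t3, f9, f10⟩ := hT.tb_enc [y'] (by simp) (by simp)
    obtain ⟨p2, q2, t4, f11, f12⟩ := hT.tb_enc [x'] (by simp) (by simp)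
    have t5 := hT.tb_append ta' t3
      (Free.forall₂_free (by rw [(hT.tb_length ta').2, (hT.tb_length t3).1]) f1 f9)
      (Free.colAdj_of_loc g1'.2)
    have t6 := hT.tb_append t4 tb'
      (Free.forall₂_free (by rw [(hT.tb_length t4).2, (hT.tb_length tb').1]) f12 f6)
      (Free.colAdj_of_loc (v := [x']) g2'.2)
    refine ⟨_, _, y'.a :: q1, x'.a :: p2, ?_, ⟨_, x1, y', _, _, t5, g1', ?_, by simp, rfl, rfl⟩,
      ⟨_, x', y2, _, _, t6, g2', rfl, ?_, rfl, rfl⟩, by simpa using ⟨f7, f10⟩,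
      by simpa using ⟨f8, f11⟩⟩
    · have e5 : S0.Eqv (Wy'' ++ Wx'') (encS s [y'] ++ encS s [x']) := by
        refine ((hT.norm ty'' f2 f3).append (hT.norm tx'' f4 f5)).trans ?_
        rw [← hT.encS_append, ← hT.encS_append]
        exact hT.sim_eqv e4
      calc S0.Eqv (Wa ++ Wy ++ (Wx ++ Wb)) (Wa' ++ Wy' ++ (Wx ++ Wb)) := e1.append_right _
        S0.Eqv _ (Wa' ++ (Wy'' ++ Wx') ++ Wb) := by
          simpa only [List.append_assoc] using e2.ctx Wa' Wb
        S0.Eqv _ (Wa' ++ (Wy'' ++ Wx'') ++ Wb') := by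
          simpa only [List.append_assoc] using e3.append_left (Wa' ++ Wy'')
        S0.Eqv _ _ := by simpa only [List.append_assoc] using e5.ctx Wa' Wb'
    · obtain ⟨c, a', rfl⟩ := List.exists_cons_of_ne_nil ha
      simpa using hx1
    · obtain ⟨c, b', rfl⟩ := List.exists_cons_of_ne_nil hb
      simpa using hy2

namespace Free

theorem nzint (hT : TowFacts) (hF : FreeStmt) {s : ℕ} {W : List C0} {x y : Cell (mS s)}
    {v : List (Cell (mS s))} (h : Tower s W (x :: v ++ [y])) (hz : (RS (mS s)).Zero v) :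
    S0.Zero W := by
  cases s with
  | zero =>
    obtain rfl : W = x :: v ++ [y] := h
    exact hz.ctx [x] [y]
  | succ s =>
    have hv : v ≠ [] := by rintro rfl; exact Sys.not_zero_nil hz
    have hc : (x :: v ++ [y]).IsChain fun X Y => ColAdj X.a Y.a := by
      obtain ⟨_, -, g⟩ := h
      exact g.colAdj
    have hc1 := (List.isChain_append (l₁ := [x]) (l₂ := v ++ [y])).1 hc
    have hc2 := List.isChain_append.1 hc1.2.1
    obtain ⟨fl, ll, t⟩ := hT.tb_of_tower h (by simp)
    obtain ⟨W1, W2, ll1, fl2, rfl, t1, t2, k1⟩ :=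
      hT.tb_split (u := [x]) (u' := v ++ [y]) t (by simp) (by simp)
    obtain ⟨W1', W2', ll1', fl2', e1, -, t2', -, f1⟩ :=
      hF _ _ _ _ _ _ _ _ _ t1 t2 (by simp) (by simp) k1 hc1.2.2
    obtain ⟨Wv, Wy, llv, fly, rfl, tv, ty, k2⟩ := hT.tb_split t2' hv (by simp)
    obtain ⟨Wv', Wy', llv', fly', e2, tv', -, f2, -⟩ :=
      hF _ _ _ _ _ _ _ _ _ tv ty hv (by simp) k2 hc2.2.2
    refine Sys.Zero.of_eqv e1 (Sys.Zero.append_left (Sys.Zero.of_eqv e2 ?_) _)
    exact (Sys.Zero.of_eqv (hT.norm tv' f1 f2) (hT.sim_zero hz)).append_right _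

end Free

theorem xFacts (h : OneLevel) (hT : TowFacts) (hF : FreeStmt) : XFacts where
  nzint := Free.nzint hT hF
  exact s w hw := by
    induction s with
    | zero => exact ⟨[], w, [], w, by simp, rfl, hw, by simp, by simp⟩
    | succ s ih =>
      obtain ⟨l, W, r, v, rfl, t, hv, hl, hr⟩ := ih
      obtain ⟨x, b, y, u, rfl, g, hx, hy⟩ := h.exa _ v hv
      obtain ⟨W', Wy, rfl, t', ty⟩ := hT.split t
      obtain ⟨Wx, Wb, rfl, tx, tb⟩ := hT.split t'
      have tu : Tower (s + 1) Wb u := ⟨b, tb, g⟩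
      have hD := DL_succ_ge s
      have hx' : Wx.length ≤ DL (s + 1) + 30 * DL s := by
        rw [hT.length tx, DL, ← add_mul]; exact Nat.mul_le_mul_right _ hx
      have hy' : Wy.length ≤ DL (s + 1) + 30 * DL s := by
        rw [hT.length ty, DL, ← add_mul]; exact Nat.mul_le_mul_right _ hy
      by_cases hu : u.length ≤ 1
      · have h1 : Wb.length ≤ DL (s + 1) := by
          rw [hT.length tu]; exact (Nat.mul_le_mul_right _ hu).trans_eq (one_mul _)
        refine ⟨l ++ Wx ++ Wb, [], Wy ++ r, [], by simp, Free.tower_nil _, Sys.not_zero_nil, ?_, ?_⟩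
        · simp only [List.length_append]; omega
        · simp only [List.length_append]; omega
      · obtain ⟨X, u1, rfl⟩ := List.exists_cons_of_ne_nil (l := u) (by rintro rfl; simp at hu)
        obtain ⟨u', Y, rfl⟩ := (List.eq_nil_or_concat' u1).resolve_left (by rintro rfl; simp at hu)
        obtain ⟨WX, W2, rfl, tX, t2⟩ := hT.split (s := s + 1) (u := [X]) (u' := u' ++ [Y]) tu
        obtain ⟨W3, WY, rfl, t3, tY⟩ := hT.split t2
        have h1 : WX.length = DL (s + 1) := (hT.length tX).trans (one_mul _)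
        have h2 : WY.length = DL (s + 1) := (hT.length tY).trans (one_mul _)
        refine ⟨l ++ Wx ++ WX, W3, WY ++ Wy ++ r, u', by simp, t3, fun hz => hw ?_, ?_, ?_⟩
        · simpa only [List.append_assoc] using (Free.nzint hT hF tu hz).ctx (l ++ Wx) (Wy ++ r)
        · simp only [List.length_append]; omega
        · simp only [List.length_append]; omega

end Crest.Agent.R176
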