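import Crest.Agent.R176.KDefs2

/-! Row 176: the Steinberg group is an infinite residually finite 2-group. -/

set_option autoImplicit false

namespace Crest.Agent.R176

variable {α : Type} {S : Sys α}

namespace G265

/-- The span of the monomials of length at least `n`. -/
noncomputable def Isp (S : Sys α) (n : ℕ) : Submodule (ZMod 2) (Alg S) :=
  Submodule.span (ZMod 2) {r | ∃ w : List α, n ≤ w.length ∧ r = mon S w}

theorem mul_mem_Isp (hS : SpanStmt S) {n : ℕ} (r : Alg S) {x : Alg S} (hx : x ∈ Isp S n) :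
    r * x ∈ Isp S n := by
  have hr : r ∈ Submodule.span (ZMod 2) (Set.range (mon S)) := by rw [hS]; trivial
  induction hr using Submodule.span_induction with
  | zero => simp
  | add a b _ _ ha hb => rw [add_mul]; exact add_mem ha hb
  | smul c a _ ha => rw [smul_mul_assoc]; exact Submodule.smul_mem _ _ ha
  | mem a ha =>
    obtain ⟨u, rfl⟩ := ha
    induction hx using Submodule.span_induction with
    | zero => simp
    | add a b _ _ ha hb => rw [mul_add]; exact add_mem ha hb
    | smul c a _ ha => rw [mul_smul_comm]; exact Submodule.smul_mem _ _ ha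
    | mem a ha =>
      obtain ⟨w, hw, rfl⟩ := ha
      rw [← mon_append]
      exact Submodule.subset_span ⟨u ++ w, by rw [List.length_append]; omega, rfl⟩

theorem rpl_eq : Rpl S = Isp S 1 := by
  unfold Rpl Isp
  congr 1
  ext r
  exact exists_congr fun w => and_congr_left fun _ => by
    rw [Nat.succ_le_iff, List.length_pos_iff]

theorem jsp_le {X : Vtx S} {i j : Z5} {r : Alg S} (h : r ∈ Jsp X i j) : r ∈ Rpl S := by
  have : Jsp X i j ≤ (Rpl S).toAddSubgroup := (AddSubgroup.closure_le _).2 fun r hr => by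
    obtain ⟨w, h0, -, rfl⟩ := hr
    exact Submodule.subset_span ⟨w, h0, rfl⟩
  exact this h

theorem one_add_pow (r : Alg S) (k : ℕ) : (1 + r) ^ 2 ^ k = 1 + r ^ 2 ^ k := by
  induction k with
  | zero => simp
  | succ k ih =>
    rw [pow_succ, pow_mul, pow_mul, ih]
    generalize r ^ 2 ^ k = s
    have : (1 + s) ^ 2 = 1 + (s + s) + s ^ 2 := by noncomm_ring
    rw [this, alg_two, add_zero]

theorem eq_zero_of_Isp (hL : LiftStmt S) (hS : SpanStmt S) {r : Alg S} (h : ∀ n, r ∈ Isp S n) :
    r = 0 := by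
  have hT : ∀ n : ℕ, ∃ φ : Alg S →ₗ[ZMod 2] Alg S,
      ∀ w, φ (mon S w) = if w.length < n then mon S w else 0 := fun n =>
    hL (Alg S) _ (fun w w' hw => by rw [hw.length_eq, mon_step hw])
      (fun w hw => by rw [mon_zpat hw, ite_self])
  choose T hT using hT
  have h1 : ∀ n, ∀ x ∈ Isp S n, T n x = 0 := by
    intro n x hx
    induction hx using Submodule.span_induction with
    | zero => simp
    | add a b _ _ ha hb => rw [map_add, ha, hb, add_zero]
    | smul c a _ ha => rw [map_smul, ha, smul_zero]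
    | mem a ha =>
      obtain ⟨w, hw, rfl⟩ := ha
      rw [hT, if_neg (by omega)]
  have h2 : ∀ x ∈ Submodule.span (ZMod 2) (Set.range (mon S)), ∃ n0, ∀ n, n0 ≤ n → T n x = x := by
    intro x hx
    induction hx using Submodule.span_induction with
    | zero => exact ⟨0, fun n _ => map_zero _⟩
    | add a b _ _ ha hb =>
      obtain ⟨n, hn⟩ := ha
      obtain ⟨m, hm⟩ := hb
      exact ⟨n + m, fun k hk => by rw [map_add, hn k (by omega), hm k (by omega)]⟩
    | smul c a _ ha =>
      obtain ⟨n, hn⟩ := ha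
      exact ⟨n, fun k hk => by rw [map_smul, hn k hk]⟩
    | mem a ha =>
      obtain ⟨w, rfl⟩ := ha
      exact ⟨w.length + 1, fun k hk => by rw [hT, if_pos (by omega)]⟩
  obtain ⟨n, hn⟩ := h2 r (by rw [hS]; trivial)
  rw [← hn n le_rfl, h1 n r (h n)]

/-- Left multiplication on the quotient by the long monomials. -/
noncomputable def lm (hS : SpanStmt S) (n : ℕ) :
    Alg S →* Module.End (ZMod 2) (Alg S ⧸ Isp S n) where
  toFun r := (Isp S n).mapQ (Isp S n) (LinearMap.mulLeft (ZMod 2) r)
    fun _ hx => mul_mem_Isp hS r hx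
  map_one' := Submodule.linearMap_qext _ (by ext x; simp)
  map_mul' a b := Submodule.linearMap_qext _ (by ext x; exact congrArg Submodule.Quotient.mk (mul_assoc a b x))

theorem lm_mk (hS : SpanStmt S) (n : ℕ) (r x : Alg S) :
    lm hS n r (Submodule.Quotient.mk x) = Submodule.Quotient.mk (r * x) := rfl

theorem finite_quot [Finite α] (hS : SpanStmt S) (n : ℕ) : Finite (Alg S ⧸ Isp S n) := by
  have h1 : Submodule.span (ZMod 2) ((fun w => (Isp S n).mkQ (mon S w)) '' {w | w.length ≤ n}) =
      ⊤ := by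
    refine eq_top_iff.2 fun q _ => ?_
    obtain ⟨r, rfl⟩ := (Isp S n).mkQ_surjective q
    have hr : r ∈ Submodule.span (ZMod 2) (Set.range (mon S)) := by rw [hS]; trivial
    induction hr using Submodule.span_induction with
    | zero => simp
    | add a b _ _ ha hb => rw [map_add]; exact add_mem (ha trivial) (hb trivial)
    | smul c a _ ha => rw [map_smul]; exact Submodule.smul_mem _ _ (ha trivial)
    | mem a ha =>
      obtain ⟨w, rfl⟩ := ha
      by_cases hw : w.length ≤ n
      · exact Submodule.subset_span ⟨w, hw, rfl⟩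
      · have : (Isp S n).mkQ (mon S w) = 0 :=
          (Submodule.Quotient.mk_eq_zero _).2 (Submodule.subset_span ⟨w, by omega, rfl⟩)
        rw [this]; exact zero_mem _
  have h2 : Module.Finite (ZMod 2) (Alg S ⧸ Isp S n) :=
    ⟨Submodule.fg_def.2 ⟨_, (List.finite_length_le α n).image _, h1⟩⟩
  exact Module.finite_of_finite (ZMod 2)

end G265

open G265 in
theorem goal265 [Finite α] (X : Vtx S) (P : PR (Jsp X)) (hL : LiftStmt S) (hS : SpanStmt S)
    (hN : NilStmt S) (hl : LongP S) (hI : InjStmt X)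
    (hF : Group.IsFinitelyPresented (Stb (Jsp X))) : Goal265 := by
  classical
  obtain ⟨f, hf, hfx⟩ := hI
  have hR : ∀ γ : Stb (Jsp X), ((f γ : (Alg S)ˣ) : Alg S) - 1 ∈ Rpl S := by
    intro γ
    have hγ : γ ∈ Subgroup.closure (Set.range (PresentedGroup.of (rels := stRel (Jsp X)))) := by
      rw [PresentedGroup.closure_range_of]; trivial
    have hx : ∀ i j r, ((f (xS (Jsp X) i j r) : (Alg S)ˣ) : Alg S) - 1 ∈ Rpl S := by
      intro i j r
      by_cases h : i ≠ j ∧ r ∈ Jsp X i j
      · rw [hfx i j r h.1 h.2, add_sub_cancel_left]; exact jsp_le h.2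
      · rw [(xS_rels (Jsp X)).triv h]; simp
    induction hγ using Subgroup.closure_induction'' with
    | one => simp
    | mem x hx' => obtain ⟨⟨i, j, r⟩, rfl⟩ := hx'; exact hx i j r
    | inv_mem x hx' =>
      obtain ⟨⟨i, j, r⟩, rfl⟩ := hx'
      have := (xS_rels (Jsp X)).inv_eq P i j r
      change ((f (xS (Jsp X) i j r)⁻¹ : (Alg S)ˣ) : Alg S) - 1 ∈ _
      rw [this]; exact hx i j r
    | mul a b _ _ ha hb =>
      have e : ((f (a * b) : (Alg S)ˣ) : Alg S) - 1 =
          (f a : (Alg S)ˣ) * (((f b : (Alg S)ˣ) : Alg S) - 1) + (((f a : (Alg S)ˣ) : Alg S) - 1) := by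
        rw [map_mul, Units.val_mul, mul_sub, mul_one, sub_add_sub_cancel]
      rw [e]
      refine add_mem ?_ ha
      rw [rpl_eq] at hb ⊢
      exact mul_mem_Isp hS _ hb
  refine ⟨Stb (Jsp X), inferInstance, ?_, hF, ?_, ?_⟩
  · have hw : ∀ k : ℕ, ∃ a w, ¬ S.Zero (a :: w) ∧ w.length = 5 * k := by
      intro k
      obtain ⟨w, hw, hk⟩ := hl (5 * k + 1)
      have h1 : ¬ S.Zero (w.take (5 * k + 1)) := fun h =>
        hw (by simpa using h.append_right (w.drop (5 * k + 1)))
      have h2 : (w.take (5 * k + 1)).length = 5 * k + 1 := by simp [hk]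
      obtain ⟨a, u, hu⟩ := List.exists_cons_of_length_eq_add_one h2
      rw [hu] at h1 h2
      exact ⟨a, u, h1, by simpa using h2⟩
    choose a w hw hlen using hw
    have hmem : ∀ k, mon S (a k :: w k) ∈ Jsp X (X.vtx (a k)) (X.vtx (a k) + 1) := by
      intro k
      have h1 := valid_of_not_zero (X := X) (hw k)
      have e : (((a k :: w k).length : ℕ) : ZMod 5) = 1 := by
        rw [List.length_cons, hlen]; push_cast
        rw [show (5 : ZMod 5) = 0 from rfl]; simp
      rw [e] at h1
      exact mon_mem_Jsp (List.cons_ne_nil _ _) h1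
    have hne : ∀ i : Z5, i ≠ i + 1 := by decide
    refine Infinite.of_injective
      (fun k => xS (Jsp X) (X.vtx (a k)) (X.vtx (a k) + 1) (mon S (a k :: w k))) fun k l hkl => ?_
    have h1 := congrArg (fun γ => ((f γ : (Alg S)ˣ) : Alg S)) hkl
    simp only [hfx _ _ _ (hne _) (hmem _), add_right_inj] at h1
    obtain ⟨φ, hφ⟩ := hL (ZMod 2) (fun u => if S.Eqv (a k :: w k) u then 1 else 0)
      (fun u u' hu => by
        have : S.Eqv (a k :: w k) u ↔ S.Eqv (a k :: w k) u' :=
          ⟨fun h => h.trans hu.eqv, fun h => h.trans hu.eqv.symm⟩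
        simp only [this])
      (fun u hu => if_neg fun h => hw k ⟨u, h, hu⟩)
    have h2 := congrArg φ h1
    rw [hφ, hφ, if_pos (Sys.Eqv.refl _)] at h2
    have h3 : S.Eqv (a k :: w k) (a l :: w l) := by
      by_contra h
      rw [if_neg h] at h2
      exact one_ne_zero h2
    have h4 := h3.length_eq
    simp only [List.length_cons, hlen] at h4
    omega
  · refine Group.residuallyFinite_of_forall_exists_finite_monoidHom.{0} fun γ hγ => ?_
    obtain ⟨n, hn⟩ : ∃ n, ((f γ : (Alg S)ˣ) : Alg S) - 1 ∉ Isp S n := by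
      by_contra h
      push Not at h
      have h1 := sub_eq_zero.1 (eq_zero_of_Isp hL hS h)
      exact hγ (hf (by rw [map_one]; exact Units.ext h1))
    have := finite_quot hS n
    have h2 : Finite (Module.End (ZMod 2) (Alg S ⧸ Isp S n)) :=
      Finite.of_injective _ DFunLike.coe_injective
    refine ⟨(Module.End (ZMod 2) (Alg S ⧸ Isp S n))ˣ, inferInstance, inferInstance,
      (Units.map (lm hS n)).comp f, fun h => hn ?_⟩
    have h3 : lm hS n ((f γ : (Alg S)ˣ) : Alg S) = 1 := congrArg Units.val h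
    have h4 := lm_mk hS n ((f γ : (Alg S)ˣ) : Alg S) 1
    rw [h3, mul_one] at h4
    exact (Submodule.Quotient.eq _).1 h4.symm
  · intro γ
    obtain ⟨k, hk⟩ := hN 1 (Matrix.of fun _ _ => ((f γ : (Alg S)ˣ) : Alg S) - 1) fun _ _ => hR γ
    have h1 : ∀ m : ℕ, ((Matrix.of fun _ _ => ((f γ : (Alg S)ˣ) : Alg S) - 1 :
        Matrix (Fin 1) (Fin 1) (Alg S)) ^ m) 0 0 = (((f γ : (Alg S)ˣ) : Alg S) - 1) ^ m := by
      intro m
      induction m with
      | zero => simp
      | succ m ih => rw [pow_succ, pow_succ, Matrix.mul_apply, Fin.sum_univ_one, ih]; rfl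
    have h2 := h1 k
    rw [hk] at h2
    refine ⟨k, hf (Units.ext ?_)⟩
    have h3 := one_add_pow (((f γ : (Alg S)ˣ) : Alg S) - 1) k
    rw [add_sub_cancel, pow_eq_zero_of_le (Nat.lt_two_pow_self).le h2.symm, add_zero] at h3
    rw [map_pow, map_one, Units.val_pow_eq_pow_val, h3, Units.val_one]

end Crest.Agent.R176
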