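import Crest.Agent.R176.Alg

/-! Row 176: the graded nil algebra of a system (conclusion of S0266). -/

set_option autoImplicit false

namespace Crest.Agent.R176

open scoped DirectSum Function

variable {α : Type} {S : Sys α}

theorem mon_ne_zero (hL : LiftStmt S) {w : List α} (hw : ¬ S.Zero w) : mon S w ≠ 0 := by
  classical
  obtain ⟨φ, hφ⟩ := hL (ZMod 2) (fun w' => if S.Eqv w w' then 1 else 0)
    (fun u v h => by
      have : S.Eqv w u ↔ S.Eqv w v := ⟨fun h' => h'.trans h.eqv, fun h' => h'.trans h.eqv.symm⟩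
      simp only [this])
    (fun u h => if_neg fun h' => hw ⟨u, h', h⟩)
  intro h0
  have := hφ w
  rw [h0, map_zero, if_pos (Sys.Eqv.refl w)] at this
  exact zero_ne_one this

namespace G266

theorem mon_mem (S : Sys α) (w : List α) : mon S w ∈ Hsp S w.length :=
  Submodule.subset_span ⟨w, rfl, rfl⟩

theorem lift' (hL : LiftStmt S) (M : Type) [AddCommMonoid M] [Module (ZMod 2) M]
    (f : List α → M) (h1 : ∀ w w', S.Step w w' → f w = f w') (h2 : ∀ w, S.ZPat w → f w = 0) :
    ∃ φ : Alg S →ₗ[ZMod 2] M, ∀ w, φ (mon S w) = f w :=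
  letI := Module.addCommMonoidToAddCommGroup (ZMod 2) (M := M)
  hL M f h1 h2

theorem ext_mon (hS : SpanStmt S) {M : Type} [AddCommMonoid M] [Module (ZMod 2) M]
    {f g : Alg S →ₗ[ZMod 2] M} (h : ∀ w, f (mon S w) = g (mon S w)) : f = g :=
  LinearMap.ext_on_range hS h

theorem gradedMonoid (S : Sys α) : SetLike.GradedMonoid (Hsp S) where
  one_mem := by simpa using mon_mem S []
  mul_mem := by
    intro i j a b ha hb
    have h := Submodule.mul_mem_mul ha hb
    rw [Hsp, Hsp, Submodule.span_mul_span] at h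
    refine Submodule.span_mono ?_ h
    rintro _ ⟨_, ⟨u, hu, rfl⟩, _, ⟨w, hw, rfl⟩, rfl⟩
    exact ⟨u ++ w, by simp [hu, hw], (mon_append u w).symm⟩

theorem of_congr {d e : ℕ} (h : d = e) {x : Hsp S d} {y : Hsp S e} (hxy : (x : Alg S) = y) :
    DirectSum.lof (ZMod 2) ℕ (fun d => Hsp S d) d x =
      DirectSum.lof (ZMod 2) ℕ (fun d => Hsp S d) e y := by
  subst h
  rw [Subtype.ext hxy]

theorem exists_dec (hL : LiftStmt S) (hS : SpanStmt S) :
    Nonempty (DirectSum.Decomposition (Hsp S)) := by
  obtain ⟨φ, hφ⟩ := lift' hL (⨁ d, Hsp S d)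
    (fun w => DirectSum.lof (ZMod 2) ℕ (fun d => Hsp S d) w.length ⟨mon S w, mon_mem S w⟩)
    (fun u v h => of_congr h.length_eq (mon_step h))
    (fun u h => by
      have : (⟨mon S u, mon_mem S u⟩ : Hsp S u.length) = 0 := Subtype.ext (mon_zpat h)
      simp only [this, map_zero])
  refine ⟨DirectSum.Decomposition.ofLinearMap _ φ (ext_mon hS fun w => ?_) ?_⟩
  · simp [hφ]
  · refine DirectSum.linearMap_ext _ fun d => LinearMap.ext fun x => ?_
    obtain ⟨x, hx⟩ := x
    simp only [LinearMap.comp_apply, DirectSum.coeLinearMap_lof, LinearMap.id_apply]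
    induction hx using Submodule.span_induction with
    | mem r hr =>
      obtain ⟨w, hw, rfl⟩ := hr
      rw [hφ]
      exact of_congr hw rfl
    | zero => exact (map_zero φ).trans (map_zero _).symm
    | add a b ha hb iha ihb =>
      rw [map_add, iha, ihb, ← map_add]; rfl
    | smul c a ha iha =>
      rw [map_smul, iha, ← map_smul]; rfl

theorem finite_rel [Finite α] (S : Sys α) :
    {p : FreeAlgebra (ZMod 2) α × FreeAlgebra (ZMod 2) α | S.rel p.1 p.2}.Finite := by
  let i := FreeAlgebra.ι (ZMod 2) (X := α)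
  refine ((Set.finite_range fun t : α × α => (i t.1, i t.2)).union
    ((Set.finite_range fun t : α × α × α × α => (i t.1 * i t.2.1, i t.2.2.1 * i t.2.2.2)).union
      ((Set.finite_range fun t : α => (i t, 0)).union
        (Set.finite_range fun t : α × α => (i t.1 * i t.2, 0))))).subset ?_
  rintro ⟨x, y⟩ (⟨a, b, -, h1, h2⟩ | ⟨a, b, c, d, -, h1, h2⟩ | ⟨a, -, h1, h2⟩ | ⟨a, b, -, h1, h2⟩)
  · exact Or.inl ⟨(a, b), Prod.ext h1.symm h2.symm⟩
  · exact Or.inr (Or.inl ⟨(a, b, c, d), Prod.ext h1.symm h2.symm⟩)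
  · exact Or.inr (Or.inr (Or.inl ⟨a, Prod.ext h1.symm h2.symm⟩))
  · exact Or.inr (Or.inr (Or.inr ⟨(a, b), Prod.ext h1.symm h2.symm⟩))

theorem pres [Fintype α] (S : Sys α) :
    ∃ (m : ℕ) (rel : Finset (FreeAlgebra (ZMod 2) (Fin m) × FreeAlgebra (ZMod 2) (Fin m))),
      Nonempty (Alg S ≃ₐ[ZMod 2]
        RingQuot fun x y : FreeAlgebra (ZMod 2) (Fin m) => (x, y) ∈ rel) := by
  let e := Fintype.equivFin α
  let f : FreeAlgebra (ZMod 2) α ≃ₐ[ZMod 2] FreeAlgebra (ZMod 2) (Fin (Fintype.card α)) :=
    AlgEquiv.ofAlgHom (FreeAlgebra.lift _ fun a => FreeAlgebra.ι _ (e a))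
      (FreeAlgebra.lift _ fun k => FreeAlgebra.ι _ (e.symm k))
      (by ext k; simp) (by ext a; simp)
  refine ⟨_, ((finite_rel S).image (Prod.map f f)).toFinset, ?_⟩
  have : (fun x y => (x, y) ∈ ((finite_rel S).image (Prod.map f f)).toFinset) =
      (S.rel on f.symm) := by
    ext x y
    rw [Set.Finite.mem_toFinset]
    constructor
    · rintro ⟨⟨a, b⟩, h, h'⟩
      obtain ⟨rfl, rfl⟩ := Prod.ext_iff.1 h'
      simpa [Function.onFun] using h
    · intro h
      exact ⟨(f.symm x, f.symm y), h, by simp⟩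
  rw [this]
  exact ⟨RingQuot.algEquivQuotAlgEquiv f S.rel⟩

end G266

open G266 in
theorem goal266 [Fintype α] (S : Sys α) (hL : LiftStmt S) (hS : SpanStmt S) (hN : NilStmt S)
    (hl : LongP S) : Goal266 := by
  obtain ⟨dec⟩ := exists_dec hL hS
  letI gr : GradedAlgebra (Hsp S) := { gradedMonoid S, dec with }
  refine ⟨Alg S, inferInstance, inferInstance, Hsp S, gr, ?_, ?_, pres S, fun l A hA => ?_⟩
  · have : ∀ n, ∃ w : List α, ¬ S.Zero w ∧ w.length = n := fun n => by
      obtain ⟨w, hw, hn⟩ := hl n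
      refine ⟨w.take n, fun h => hw ?_, by simpa using hn⟩
      simpa using h.append_right (w.drop n)
    choose w hw hn using this
    refine Infinite.of_injective (fun n => mon S (w n)) fun m n h => ?_
    by_contra hmn
    have h1 := DirectSum.decompose_of_mem_same (Hsp S) (mon_mem S (w m))
    have h2 := DirectSum.decompose_of_mem_ne (Hsp S) (mon_mem S (w n)) (j := (w m).length)
      (by rw [hn, hn]; exact Ne.symm hmn)
    dsimp only at h
    rw [← h, h1] at h2
    exact mon_ne_zero hL (hw m) h2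
  · rw [Submodule.one_eq_span, Hsp]
    congr 1
    ext r
    constructor
    · rintro ⟨w, hw, rfl⟩
      rw [List.length_eq_zero_iff.1 hw]; simp
    · rintro rfl
      exact ⟨[], rfl, by simp⟩
  · refine hN l A fun i j => ?_
    have key : ∀ r : Alg S, r - GradedAlgebra.proj (Hsp S) 0 r ∈ Rpl S := fun r => by
      have hr : r ∈ Submodule.span (ZMod 2) (Set.range (mon S)) := by rw [hS]; trivial
      induction hr using Submodule.span_induction with
      | mem r hr =>
        obtain ⟨w, rfl⟩ := hr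
        rw [GradedAlgebra.proj_apply]
        by_cases hw : w = []
        · subst hw
          have := DirectSum.decompose_of_mem_same (Hsp S) (mon_mem S [])
          rw [List.length_nil] at this
          rw [this, sub_self]; exact zero_mem _
        · rw [DirectSum.decompose_of_mem_ne (Hsp S) (mon_mem S w)
            (by simpa using hw), sub_zero]
          exact Submodule.subset_span ⟨w, hw, rfl⟩
      | zero => simp
      | add a b _ _ iha ihb => rw [map_add, add_sub_add_comm]; exact add_mem iha ihb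
      | smul c a _ iha => rw [map_smul, ← smul_sub]; exact Submodule.smul_mem _ c iha
    have h := key (A i j)
    rwa [show GradedAlgebra.proj (Hsp S) 0 (A i j) = 0 from hA i j, sub_zero] at h

end Crest.Agent.R176
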