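import Crest.Agent.R176.Tower

/-! Row 176: glue lemmas of the system side. -/

set_option autoImplicit false

namespace Crest.Agent.R176

theorem simStmt_of (M : ℕ) [NeZero M] (hA : SimAStmt M) (hT : SimTStmt M) : SimStmt M := by
  have hstep : ∀ u u' : List (Cell (M * BB)), (RS (M * BB)).Step u u' →
      (RS M).Eqv (enc u) (enc u') := by
    intro u u' h
    cases h with
    | one l r a b h =>
      obtain ⟨h1, h2⟩ := h
      have hb : b = ⟨b.a, b.t, a.d⟩ := by rw [← h2]
      have := (hA.tiv a b.a b.t h1).ctx (enc l) (enc r)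
      rw [← hb] at this
      simpa [enc_append, List.append_assoc] using this
    | two l r a b c d h =>
      have key : (RS M).Eqv (enc1 a ++ enc1 b) (enc1 c ++ enc1 d) := by
        rcases h with ⟨h, h1, h2, h3, h4⟩ | ⟨h1, h2, rfl, rfl⟩ | ⟨k, h1, h2, h3, h4, h5, h6, h7⟩
        · have hc : c = ⟨c.a, a.t, a.d⟩ := by rw [← h1, ← h2]
          have hd : d = ⟨d.a, b.t, b.d⟩ := by rw [← h3, ← h4]
          have := hA.ti a b c.a d.a h
          rwa [← hc, ← hd] at this
        · exact hT.sw a b h1 h2
        · have hc : c = ⟨a.a, c.t, a.d⟩ := by rw [← h4, ← h5]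
          have hd : d = ⟨b.a, d.t, b.d⟩ := by rw [← h6, ← h7]
          have := hT.tb a b k c.t d.t h1 h2 h3
          rwa [← hc, ← hd] at this
      have := key.ctx (enc l) (enc r)
      simpa [enc_append, List.append_assoc] using this
  have heqv : ∀ u u' : List (Cell (M * BB)), (RS (M * BB)).Eqv u u' →
      (RS M).Eqv (enc u) (enc u') := by
    intro u u' h
    induction h with
    | rel a b h => exact hstep a b h
    | refl a => exact Sys.Eqv.refl _
    | symm a b _ ih => exact ih.symm
    | trans a b c _ _ ih1 ih2 => exact ih1.trans ih2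
  refine ⟨heqv, ?_⟩
  rintro u ⟨u', h1, h2⟩
  refine Sys.Zero.of_eqv (heqv _ _ h1) ?_
  cases h2 with
  | one l r a h =>
    have := (hA.ziv a h).ctx (enc l) (enc r)
    simpa [enc_append, List.append_assoc] using this
  | two l r a b h =>
    have key : (RS M).Zero (enc1 a ++ enc1 b) := by
      rcases h with h | ⟨k, h1, h2, h3⟩
      · exact hA.zi a b h
      · exact hT.zb a b k h1 h2 h3
    have := key.ctx (enc l) (enc r)
    simpa [enc_append, List.append_assoc] using this

theorem nzStmt_of (M : ℕ) [NeZero M] (hI : InvIStmt M) (hS : InvSStmt M) (hT : InvTStmt M)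
    (hZ : ZerStmt M) : NzStmt M := by
  have fwd : ∀ v v' : List (Cell M), (RS M).Step v v' → ∀ u, Good v u →
      ∃ u', Good v' u' ∧ (RS (M * BB)).Eqv u u' := by
    intro v v' h u hu
    cases h with
    | one l r a b h =>
      obtain ⟨h1, h2⟩ := h
      have hb : b = ⟨b.a, b.t, a.d⟩ := by rw [← h2]
      have := hI.tiv l r a b.a b.t u hu (Or.inl h1)
      rw [← hb] at this
      exact ⟨u, this, Sys.Eqv.refl _⟩
    | two l r a b c d h =>
      rcases h with ⟨h, h1, h2, h3, h4⟩ | ⟨h1, h2, rfl, rfl⟩ | ⟨k, h1, h2, h3, h4, h5, h6, h7⟩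
      · have hc : c = ⟨c.a, a.t, a.d⟩ := by rw [← h1, ← h2]
        have hd : d = ⟨d.a, b.t, b.d⟩ := by rw [← h3, ← h4]
        have := hI.ti l r a b c.a d.a u hu (Or.inl h)
        rw [← hc, ← hd] at this
        exact ⟨u, this, Sys.Eqv.refl _⟩
      · exact hS l r a b u hu h1 h2
      · have hc : c = ⟨a.a, c.t, a.d⟩ := by rw [← h4, ← h5]
        have hd : d = ⟨b.a, d.t, b.d⟩ := by rw [← h6, ← h7]
        have := hT l r a b k c.t d.t u hu h1 h2 (Or.inl h3)
        rwa [← hc, ← hd] at this
  have bwd : ∀ v v' : List (Cell M), (RS M).Step v v' → ∀ u, Good v' u →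
      ∃ u', Good v u' ∧ (RS (M * BB)).Eqv u u' := by
    intro v v' h u hu
    cases h with
    | one l r a b h =>
      obtain ⟨h1, h2⟩ := h
      have hb : a = ⟨a.a, a.t, b.d⟩ := by rw [h2]
      have := hI.tiv l r b a.a a.t u hu (Or.inr h1)
      rw [← hb] at this
      exact ⟨u, this, Sys.Eqv.refl _⟩
    | two l r a b c d h =>
      rcases h with ⟨h, h1, h2, h3, h4⟩ | ⟨h1, h2, rfl, rfl⟩ | ⟨k, h1, h2, h3, h4, h5, h6, h7⟩
      · have hc : a = ⟨a.a, c.t, c.d⟩ := by rw [h1, h2]
        have hd : b = ⟨b.a, d.t, d.d⟩ := by rw [h3, h4]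
        have := hI.ti l r c d a.a b.a u hu (Or.inr h)
        rw [← hc, ← hd] at this
        exact ⟨u, this, Sys.Eqv.refl _⟩
      · have := hS l r _ _ u hu (by simpa using h1) (by simpa using h2)
        simpa using this
      · have hc : a = ⟨c.a, a.t, c.d⟩ := by rw [h4, h5]
        have hd : b = ⟨d.a, b.t, d.d⟩ := by rw [h6, h7]
        have := hT l r c d k a.t b.t u hu (h4 ▸ h1) (h6 ▸ h2) (Or.inr h3)
        rwa [← hc, ← hd] at this
  have main : ∀ v v' : List (Cell M), (RS M).Eqv v v' →
      (∀ u, Good v u → ∃ u', Good v' u' ∧ (RS (M * BB)).Eqv u u') ∧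
      (∀ u, Good v' u → ∃ u', Good v u' ∧ (RS (M * BB)).Eqv u u') := by
    intro v v' h
    induction h with
    | rel a b h => exact ⟨fwd a b h, bwd a b h⟩
    | refl a => exact ⟨fun u hu => ⟨u, hu, Sys.Eqv.refl _⟩, fun u hu => ⟨u, hu, Sys.Eqv.refl _⟩⟩
    | symm a b _ ih => exact ⟨ih.2, ih.1⟩
    | trans a b c _ _ ih1 ih2 =>
      constructor
      · intro u hu
        obtain ⟨u1, h1, h2⟩ := ih1.1 u hu
        obtain ⟨u2, h3, h4⟩ := ih2.1 u1 h1
        exact ⟨u2, h3, h2.trans h4⟩
      · intro u hu
        obtain ⟨u1, h1, h2⟩ := ih2.2 u hu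
        obtain ⟨u2, h3, h4⟩ := ih1.2 u1 h1
        exact ⟨u2, h3, h2.trans h4⟩
  rintro v u hu ⟨v', h1, h2⟩
  obtain ⟨u', h3, h4⟩ := (main v v' h1).1 u hu
  exact Sys.Zero.of_eqv h4 (hZ v' u' h3 h2)

/-- A quiet letter. -/
def quiet (M : ℕ) [NeZero M] : Cell M :=
  ⟨⟨⟨⟨1, by have := qq_ge; omega⟩, 0, false, false⟩, false, false,
    ⟨Tag.I, 0, Arm.idle, false, false⟩, Lk.none⟩, t0, 0⟩

theorem quiet_not_zero (M : ℕ) [NeZero M] : ¬ (RS M).Zero [quiet M] := by
  rintro ⟨w, h1, h2⟩
  have hw : w = [quiet M] := by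
    have := Sys.Eqv.induct (S := RS M) (P := fun w => w = [quiet M]) ?_ ?_ h1
    · exact this.1 rfl
    · intro w w' hs hw
      exfalso
      cases hs with
      | one l r a b h =>
        have hl : l = [] := by
          cases l with
          | nil => rfl
          | cons x l => simp at hw
        subst hl
        simp only [List.nil_append, List.cons.injEq] at hw
        have := h.1.2.1
        rw [hw.1] at this
        cases this
      | two l r a b c d h =>
        have := congrArg List.length hw
        simp at this; omega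
    · intro w w' hs hw
      exfalso
      cases hs with
      | one l r a b h =>
        have hl : l = [] := by
          cases l with
          | nil => rfl
          | cons x l => simp at hw
        subst hl
        simp only [List.nil_append, List.cons.injEq] at hw
        obtain ⟨⟨-, h2, -, s, k, φ, -, h3, -⟩, -⟩ := h
        have := congrArg (fun a : V => a.mb.arm) h3
        rw [hw.1] at this
        cases this
      | two l r a b c d h =>
        have := congrArg List.length hw
        simp at this; omega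
  generalize hv : [quiet M] = v at hw
  subst hw
  cases h2 with
  | one l r a h =>
    have hl : l = [] := by
      cases l with
      | nil => rfl
      | cons x l => simp at hv
    subst hl
    simp only [List.nil_append, List.cons.injEq] at hv
    apply h
    rw [← hv.1]
    constructor <;> constructor <;> simp [quiet]
  | two l r a b h =>
    have := congrArg List.length hv
    simp at this; omega

theorem le_DL (s : ℕ) : s ≤ DL s := by
  induction s with
  | zero => exact Nat.zero_le _
  | succ s ih => have := DL_succ_ge s; have := DL_pos s; omega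

theorem longP (hT : TowFacts) : LongP S0 := by
  intro n
  obtain ⟨fl, ll, h, -⟩ := hT.tb_enc (s := n) [quiet (mS n)] (by simp) (by simp)
  have ht := hT.tower_of_tb h
  refine ⟨_, fun hz => quiet_not_zero _ (hT.nz ht hz), ?_⟩
  rw [hT.length ht]
  simpa using le_DL n

end Crest.Agent.R176
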