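import Crest.Agent.R176.KDefs

/-! Row 176: the Steinberg group embeds in a group with torus elements (`HatStmt`). -/

set_option autoImplicit false

open scoped commutatorElement

namespace Crest.Agent.R176

variable {R : Type} [Ring R] {J : Z5 → Z5 → AddSubgroup R}

namespace Hat

/-- conjugation by a unit -/
def cj (t : Rˣ) (r : R) : R := t * r * (t⁻¹ : Rˣ)

lemma cj_one (r : R) : cj 1 r = r := by simp [cj]

lemma cj_mul (s t : Rˣ) (r : R) : cj (s * t) r = cj s (cj t r) := by simp [cj, mul_assoc]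

lemma cj_add (t : Rˣ) (r s : R) : cj t (r + s) = cj t r + cj t s := by
  simp [cj, mul_add, add_mul]

lemma cj_mul' (t : Rˣ) (r s : R) : cj t (r * s) = cj t r * cj t s := by simp [cj, mul_assoc]

variable (J) in
/-- the units that preserve all Peirce pieces -/
def T : Subgroup Rˣ where
  carrier := {t | ∀ k l r, r ∈ J k l ↔ cj t r ∈ J k l}
  mul_mem' := fun {s t} hs ht k l r => by rw [cj_mul, ← hs, ← ht]
  one_mem' := fun k l r => by rw [cj_one]
  inv_mem' := fun {t} ht k l r => by rw [ht k l (cj t⁻¹ r), ← cj_mul, mul_inv_cancel, cj_one]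

lemma rels (t : T J) : StRels J (fun i j r => xS J i j (cj t.1 r)) where
  triv h := (xS_rels J).triv fun h' => h ⟨h'.1, (t.2 _ _ _).2 h'.2⟩
  add hr hs := by
    rw [cj_add]; exact (xS_rels J).add ((t.2 _ _ _).1 hr) ((t.2 _ _ _).1 hs)
  com hr hs h1 h2 := (xS_rels J).com ((t.2 _ _ _).1 hr) ((t.2 _ _ _).1 hs) h1 h2
  st hr hs h1 h2 h3 := by
    rw [cj_mul']; exact (xS_rels J).st ((t.2 _ _ _).1 hr) ((t.2 _ _ _).1 hs) h1 h2 h3

lemma hom_ext {G : Type} [Group G] {f g : Stb J →* G}
    (h : ∀ i j r, f (xS J i j r) = g (xS J i j r)) : f = g :=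
  PresentedGroup.ext fun p => h p.1 p.2.1 p.2.2

lemma lift_one : (rels (1 : T J)).lift = MonoidHom.id _ :=
  hom_ext fun i j r => by simp [cj_one]

lemma lift_mul (s t : T J) : (rels (s * t)).lift = (rels s).lift.comp (rels t).lift :=
  hom_ext fun i j r => by simp [cj_mul]

variable (J) in
/-- the action of `T` on the Steinberg group -/
def act : T J →* MulAut (Stb J) where
  toFun t := MonoidHom.toMulEquiv (rels t).lift (rels t⁻¹).lift
    (by rw [← lift_mul, inv_mul_cancel, lift_one]) (by rw [← lift_mul, mul_inv_cancel, lift_one])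
  map_one' := MulEquiv.ext fun g => DFunLike.congr_fun lift_one g
  map_mul' s t := MulEquiv.ext fun g => DFunLike.congr_fun (lift_mul s t) g

lemma act_x (t : T J) (i j : Z5) (r : R) : act J t (xS J i j r) = xS J i j (cj t.1 r) :=
  (rels t).lift_xS i j r

lemma cj_unit (P : PR J) {i : Z5} {a : R} (h : a ∈ J i i) (r : R) :
    cj (P.unit h).unit r = (1 + a) * r * iv a := by
  rw [cj, iv, Ring.inverse_of_isUnit (P.unit h), IsUnit.unit_spec]

lemma unit_mem (P : PR J) {i : Z5} {a : R} (h : a ∈ J i i) : (P.unit h).unit ∈ T J := by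
  intro k l r
  rw [cj_unit P h]
  refine ⟨P.conj_mem h, fun hr => ?_⟩
  obtain ⟨a', h1, h2⟩ := P.iv_eq h
  have h3 : iv a' = 1 + a := by
    calc iv a' = (1 + a) * iv a * iv a' := by rw [P.mul_iv h, one_mul]
      _ = 1 + a := by rw [h2, mul_assoc, P.mul_iv h1, mul_one]
  have := P.conj_mem h1 hr
  rwa [← h2, h3, ← mul_assoc, ← mul_assoc, P.iv_mul h, one_mul, mul_assoc, P.iv_mul h,
    mul_one] at this

lemma sq_one (P : PR J) {i j : Z5} {r : R} (h : i ≠ j ∧ r ∈ J i j) : (1 + r) * (1 + r) = 1 := by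
  rw [add_mul, one_mul, mul_add, mul_one, P.mul_zero h.2 h.2 h.1.symm, add_zero, add_assoc, P.two,
    add_zero]

open Classical in
/-- the elementary units -/
noncomputable def eu (P : PR J) (i j : Z5) (r : R) : Rˣ :=
  if h : i ≠ j ∧ r ∈ J i j then ⟨1 + r, 1 + r, sq_one P h, sq_one P h⟩ else 1

lemma eu_val (P : PR J) {i j : Z5} {r : R} (hij : i ≠ j) (hr : r ∈ J i j) :
    (eu P i j r : R) = 1 + r := by
  rw [eu, dif_pos ⟨hij, hr⟩]

lemma eu_inv (P : PR J) {i j : Z5} {r : R} (hij : i ≠ j) (hr : r ∈ J i j) :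
    ((eu P i j r)⁻¹ : Rˣ) = (1 + r : R) := by
  rw [eu, dif_pos ⟨hij, hr⟩]; rfl

lemma eu_triv (P : PR J) {i j : Z5} {r : R} (h : ¬ (i ≠ j ∧ r ∈ J i j)) : eu P i j r = 1 := by
  rw [eu, dif_neg h]

lemma eu_rels (P : PR J) : StRels J (eu P) where
  triv := eu_triv P
  add {i j r s} hr hs := by
    by_cases hij : i = j
    · simp [eu_triv P, hij]
    · ext
      rw [Units.val_mul, eu_val P hij hr, eu_val P hij hs, eu_val P hij (add_mem hr hs), add_mul,
        one_mul, mul_add, mul_one, P.mul_zero hr hs (Ne.symm hij)]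
      abel
  com {i j k l r s} hr hs h1 h2 := by
    by_cases hij : i = j
    · simp [eu_triv P, hij]
    by_cases hkl : k = l
    · simp [eu_triv P, hkl]
    refine Units.ext ?_
    rw [Units.val_mul, Units.val_mul, eu_val P hij hr, eu_val P hkl hs]
    simp only [add_mul, mul_add, one_mul, mul_one, P.mul_zero hr hs h1, P.mul_zero hs hr h2]
    abel
  st {i j k r s} hr hs h1 h2 h3 := by
    ext
    have hrs := P.mul_mem hr hs
    rw [commutatorElement_def, Units.val_mul, Units.val_mul, Units.val_mul, eu_inv P h1 hr,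
      eu_inv P h2 hs, eu_val P h1 hr, eu_val P h2 hs, eu_val P h3 hrs]
    have e1 : r * r = 0 := P.mul_zero hr hr h1.symm
    have e2 : s * s = 0 := P.mul_zero hs hs h2.symm
    have e3 : s * r = 0 := P.mul_zero hs hr h3.symm
    have e4 : r * s * r = 0 := by rw [mul_assoc, e3, mul_zero]
    have e5 : r * s * s = 0 := by rw [mul_assoc, e2, mul_zero]
    simp only [add_mul, mul_add, one_mul, mul_one, e1, e2, e3, e4, e5, add_zero, zero_mul]
    calc _ = 1 + r * s + (r + r) + (s + s) + (r * s + r * s) := by abel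
      _ = _ := by simp only [P.two, add_zero]

lemma pi_compat (P : PR J) (t : T J) :
    (eu_rels P).lift.comp (act J t).toMonoidHom =
      (MulAut.conj ((T J).subtype t)).toMonoidHom.comp (eu_rels P).lift :=
  hom_ext fun i j r => by
    change (eu_rels P).lift (act J t (xS J i j r)) = t.1 * (eu_rels P).lift (xS J i j r) * t.1⁻¹
    rw [act_x, StRels.lift_xS, StRels.lift_xS]
    by_cases h : i ≠ j ∧ r ∈ J i j
    · ext
      rw [eu_val P h.1 ((t.2 _ _ _).1 h.2), Units.val_mul, Units.val_mul, eu_val P h.1 h.2, cj,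
        mul_add, add_mul, mul_one, Units.mul_inv]
    · rw [eu_triv P h, eu_triv P fun h' => h ⟨h'.1, (t.2 _ _ _).2 h'.2⟩, mul_one, mul_inv_cancel]

open Classical in
/-- the group with torus elements -/
noncomputable def stg (P : PR J) : StG J (Stb J ⋊[act J] T J) where
  x i j r := SemidirectProduct.inl (xS J i j r)
  h i a := if h : a ∈ J i i then SemidirectProduct.inr ⟨_, unit_mem P h⟩ else 1
  pi := SemidirectProduct.lift (eu_rels P).lift (T J).subtype (pi_compat P)
  rels :=
    { triv := fun h => by rw [(xS_rels J).triv h, map_one]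
      add := fun hr hs => by rw [← map_mul, (xS_rels J).add hr hs]
      com := fun hr hs h1 h2 => ((xS_rels J).com hr hs h1 h2).map _
      st := fun hr hs h1 h2 h3 => by
        rw [← map_commutatorElement, (xS_rels J).st hr hs h1 h2 h3] }
  h_zero i := by
    rw [dif_pos (zero_mem _), ← map_one SemidirectProduct.inr]
    congr 1
    ext
    simp
  h_conj ha hr := by
    rw [dif_pos ha, ← map_inv, ← SemidirectProduct.inl_aut, act_x, cj_unit P ha]
  pi_x hij hr := by rw [SemidirectProduct.lift_inl, StRels.lift_xS, eu_val P hij hr]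
  pi_h ha := by rw [dif_pos ha, SemidirectProduct.lift_inr]; rfl

end Hat

theorem hatStmt (P : PR J) : HatStmt J :=
  ⟨_, _, Hat.stg P, SemidirectProduct.inl, SemidirectProduct.inl_injective, fun _ _ _ => rfl⟩

end Crest.Agent.R176
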