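import Crest.Agent.R176.KBasic

/-! Row 176: basic lemmas on automata. -/

set_option autoImplicit false

open scoped commutatorElement

namespace Crest.Agent.R176

variable {R : Type} [Ring R] {J : Z5 → Z5 → AddSubgroup R} {ι : Type}


variable {Λ : Lev R} {A : Aut ι R}

namespace AUT

theorem z5_cases (z : Z5) : z = 0 ∨ z = 1 ∨ z = 2 ∨ z = 3 ∨ z = 4 := by
  revert z; decide

theorem exists_z5 {p : Z5 → Prop} : (∃ z, p z) ↔ p 0 ∨ p 1 ∨ p 2 ∨ p 3 ∨ p 4 := by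
  constructor
  · rintro ⟨z, hz⟩
    rcases z5_cases z with rfl | rfl | rfl | rfl | rfl <;> tauto
  · rintro (h | h | h | h | h) <;> exact ⟨_, h⟩

/-- A row vanishing on the eliminated states does not change. -/
theorem elimL_row {ν : ι → ι → R} {X : List ι} {p : ι} (h : ∀ r ∈ X, ν p r = 0) (q : ι) :
    elimL X ν p q = ν p q := by
  induction X generalizing ν with
  | nil => rfl
  | cons r X ih =>
    have h0 : ∀ b, elim r ν p b = ν p b := fun b => by
      simp [elim, h r List.mem_cons_self]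
    rw [elimL, ih fun r' hr' => by rw [h0]; exact h r' (List.mem_cons_of_mem _ hr'), h0]

/-- A column vanishing on the eliminated states does not change. -/
theorem elimL_col {ν : ι → ι → R} {X : List ι} {q : ι} (h : ∀ r ∈ X, ν r q = 0) (p : ι) :
    elimL X ν p q = ν p q := by
  induction X generalizing ν with
  | nil => rfl
  | cons r X ih =>
    have h0 : ∀ a, elim r ν a q = ν a q := fun a => by
      simp [elim, h r List.mem_cons_self]
    rw [elimL, ih fun r' hr' => by rw [h0]; exact h r' (List.mem_cons_of_mem _ hr'), h0]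

theorem filter_const {v : ι → Z5} {L : List ι} {z' : Z5} (h : ∀ p ∈ L, v p = z') (z : Z5) :
    L.filter (fun p => v p = z) = if z' = z then L else [] := by
  split_ifs with hz
  · subst hz
    exact List.filter_eq_self.2 fun p hp => by simpa using h p hp
  · exact List.filter_eq_nil_iff.2 fun p hp => by simpa [h p hp] using hz

end AUT

theorem Aut.mem_Int {p : ι} : p ∈ A.Int ↔ ∃ z, p ∈ A.I z := by
  simp only [Aut.Int, List.mem_append, AUT.exists_z5, or_assoc]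

theorem Aut.mem_Vl {p : ι} : p ∈ A.Vl ↔ ∃ z, p = A.b z := by
  simp only [Aut.Vl, List.mem_cons, List.not_mem_nil, or_false, AUT.exists_z5]

theorem Aut.mem_All {p : ι} : p ∈ A.All ↔ ∃ z, p ∈ A.Q z := by
  simp only [Aut.All, List.mem_append, Aut.mem_Int, Aut.mem_Vl, Aut.Q, List.mem_singleton,
    exists_or]

theorem Aut.mem_All' {p : ι} : p ∈ A.All ↔ (∃ z, p ∈ A.I z) ∨ ∃ z, p = A.b z := by
  simp only [Aut.All, List.mem_append, Aut.mem_Int, Aut.mem_Vl]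

theorem Aut.Rest.mem_All {i : Z5} {p : ι} (h : A.Rest i p) : p ∈ A.All := by
  rcases h with ⟨z, -, hz⟩ | h
  · exact Aut.mem_All'.2 (Or.inl ⟨z, hz⟩)
  · exact Aut.mem_All'.2 (Or.inr h)

theorem Aut.OK.vQ (h : A.OK J Λ) {z : Z5} {p : ι} (hp : p ∈ A.Q z) : A.v p = z := by
  rcases List.mem_append.1 hp with hp | hp
  · exact h.vI z p hp
  · rw [List.mem_singleton.1 hp, h.vb]

theorem Aut.OK.core (h : A.OK J Λ) : CoreOK J Λ A.ν A.Q := by
  refine ⟨fun z p hp q hq => ?_, fun z p hp q hq => ?_⟩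
  · have := h.fit p (Aut.mem_All.2 ⟨_, hp⟩) q (Aut.mem_All.2 ⟨_, hq⟩)
    rwa [h.vQ hp, h.vQ hq] at this
  · exact h.deg p (Aut.mem_All.2 ⟨_, hp⟩) q (Aut.mem_All.2 ⟨_, hq⟩)

theorem Aut.OK.filter_All (h : A.OK J Λ) (z : Z5) :
    A.All.filter (fun p => A.v p = z) = A.Q z := by
  have hI := fun z' => AUT.filter_const (h.vI z') z
  have hb := h.vb
  simp only [Aut.All, Aut.Int, Aut.Vl, Aut.Q, List.filter_append, hI, List.filter_cons, hb,
    List.filter_nil]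
  rcases AUT.z5_cases z with rfl | rfl | rfl | rfl | rfl <;> simp +decide

theorem Aut.OK.filter_Int (h : A.OK J Λ) (z : Z5) :
    A.Int.filter (fun p => A.v p = z) = A.I z := by
  have hI := fun z' => AUT.filter_const (h.vI z') z
  simp only [Aut.Int, List.filter_append, hI]
  rcases AUT.z5_cases z with rfl | rfl | rfl | rfl | rfl <;> simp +decide

theorem Aut.OK.filter_Q (h : A.OK J Λ) (z z' : Z5) :
    (A.Q z').filter (fun p => A.v p = z) = if z' = z then A.Q z else [] := by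
  rw [AUT.filter_const fun p hp => h.vQ hp]
  split_ifs with hz
  · rw [hz]
  · rfl

theorem Aut.OK.filter_I (h : A.OK J Λ) (z z' : Z5) :
    (A.I z').filter (fun p => A.v p = z) = if z' = z then A.I z else [] := by
  rw [AUT.filter_const (h.vI z')]
  split_ifs with hz
  · rw [hz]
  · rfl

theorem Aut.OK.sh_Lz (h : A.OK J Λ) (z : Z5) : Sh A.v A.All (A.Lz z) := by
  refine Sh.of_filter fun z' => ?_
  simp only [Aut.Lz, List.filter_append, h.filter_All, h.filter_Q]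
  rcases AUT.z5_cases z with rfl | rfl | rfl | rfl | rfl <;>
    rcases AUT.z5_cases z' with rfl | rfl | rfl | rfl | rfl <;> simp +decide

theorem Aut.OK.nodup_Vl (h : A.OK J Λ) : (A.Vl.map A.v).Nodup := by
  simp only [Aut.Vl, List.map_cons, List.map_nil, h.vb]
  decide

/-- A list of states avoiding one vertex is acyclic. -/
theorem Aut.OK.acyc_of_ne (h : A.OK J Λ) (z : Z5) {L : List ι}
    (hL : ∀ p ∈ L, p ∈ A.All ∧ A.v p ≠ z) : Acyc A.ν L := by
  refine ⟨fun p => (A.v p - z - 1).val, fun p hp q hq hne => ?_⟩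
  have h1 : A.v q = A.v p + 1 := by
    by_contra hc
    exact hne (h.nxt p (hL p hp).1 q (hL q hq).1 hc)
  have h2 := (hL p hp).2
  have h3 := (hL q hq).2
  have key : ∀ a z : Z5, a ≠ z → a + 1 ≠ z → (a - z - 1).val < (a + 1 - z - 1).val := by decide
  show (A.v p - z - 1).val < (A.v q - z - 1).val
  rw [h1] at h3 ⊢
  exact key _ _ h2 h3

/-- No edges between states at the same vertex. -/
theorem Aut.OK.zero_of_eq (h : A.OK J Λ) {p q : ι} (hp : p ∈ A.All) (hq : q ∈ A.All)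
    (hv : A.v p = A.v q) : A.ν p q = 0 := by
  refine h.nxt p hp q hq ?_
  have key : ∀ a : Z5, a ≠ a + 1 := by decide
  rw [← hv]
  exact key _

namespace AUT

theorem zero_Q (h : A.OK J Λ) {i j : Z5} {p q : ι} (hp : p ∈ A.Q i) (hq : q ∈ A.Q j)
    (hij : j ≠ i + 1) : A.ν p q = 0 :=
  h.nxt p (Aut.mem_All.2 ⟨_, hp⟩) q (Aut.mem_All.2 ⟨_, hq⟩) (by rwa [h.vQ hp, h.vQ hq])

/-- The first-return entries from vertex `1` to vertex `0`. -/
theorem elimL_234 (h : A.OK J Λ) {p q : ι} (hp : p ∈ A.Q 1) (hq : q ∈ A.Q 0) :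
    elimL (A.Q 2 ++ A.Q 3 ++ A.Q 4) A.ν p q = pw A.ν A.Q 4 1 p q := by
  have e4 : pw A.ν A.Q 4 1 = mulL (A.Q 4) (mulL (A.Q 3) (mulL (A.Q 2) A.ν A.ν) A.ν) A.ν := by
    rw [mulL_assoc, mulL_assoc]; rfl
  have z2 : ∀ a ∈ A.Q 2, ∀ b ∈ A.Q 2, A.ν a b = 0 := fun a ha b hb => zero_Q h ha hb (by decide)
  have z3 : ∀ a ∈ A.Q 3, ∀ b ∈ A.Q 3, elimL (A.Q 2) A.ν a b = 0 := fun a ha b hb => by
    rw [elimL_row fun r hr => zero_Q h ha hr (by decide)]
    exact zero_Q h ha hb (by decide)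
  have z4 : ∀ a ∈ A.Q 4, ∀ b ∈ A.Q 4, elimL (A.Q 2 ++ A.Q 3) A.ν a b = 0 := fun a ha b hb => by
    rw [elimL_row fun r hr => (List.mem_append.1 hr).elim (fun hr => zero_Q h ha hr (by decide))
      fun hr => zero_Q h ha hr (by decide)]
    exact zero_Q h ha hb (by decide)
  have c0 : ∀ a, elimL (A.Q 2 ++ A.Q 3) A.ν a q = A.ν a q := fun a =>
    elimL_col (fun r hr => (List.mem_append.1 hr).elim (fun hr => zero_Q h hr hq (by decide))
      fun hr => zero_Q h hr hq (by decide)) a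
  rw [elimL_append, elimL_zero_block z4, c0, zero_Q h hp hq (by decide), zero_add, e4]
  refine mulL_congr fun r hr => ?_
  rw [c0]
  congr 1
  have c4 : ∀ a, elimL (A.Q 2) A.ν a r = A.ν a r := fun a =>
    elimL_col (fun r' hr' => zero_Q h hr' hr (by decide)) a
  rw [elimL_append, elimL_zero_block z3, c4, zero_Q h hp hr (by decide), zero_add]
  refine mulL_congr fun r' hr' => ?_
  rw [c4, elimL_zero_block z2, zero_Q h hp hr' (by decide), zero_add]

theorem tr_Lz (hΛ : LevOK J Λ) (hW : PwFacts J Λ) {G : Type} [Group G]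
    {E : StG J G} {τ : Tr E} (hM : TrMore τ) (h : A.OK J Λ) :
    τ.tr A.v A.ν (A.Lz 0) (A.Lz 1) = Rg τ Λ A.ν A.Q 0 0 := by
  set X := A.Q 2 ++ A.Q 3 ++ A.Q 4 with hX
  have hXm : ∀ p ∈ X, p ∈ A.All ∧ A.v p ≠ 0 ∧ A.v p ≠ 1 := by
    intro p hp
    simp only [hX, List.mem_append] at hp
    rcases hp with (hp | hp) | hp <;>
      exact ⟨Aut.mem_All.2 ⟨_, hp⟩, by rw [h.vQ hp]; decide, by rw [h.vQ hp]; decide⟩
  have hQm : ∀ z, ∀ p ∈ A.Q z, p ∈ A.All := fun z p hp => Aut.mem_All.2 ⟨_, hp⟩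
  have e0 : A.Lz 0 = (A.Q 1 ++ X) ++ A.Q 0 := by
    simp only [hX, Aut.Lz, List.append_assoc]; rfl
  have e1 : A.Lz 1 = X ++ (A.Q 0 ++ A.Q 1) := by
    simp only [hX, Aut.Lz, List.append_assoc]; rfl
  have t1 : τ.tr A.v A.ν ((A.Q 1 ++ X) ++ A.Q 0) ((X ++ A.Q 1) ++ A.Q 0) = 1 := by
    have hs : Sh A.v (A.Q 1 ++ X) (X ++ A.Q 1) :=
      Sh.append_comm fun a ha b hb => by rw [h.vQ ha]; exact (hXm b hb).2.2.symm
    have hm : ∀ p ∈ A.Q 1 ++ X, p ∈ A.All ∧ A.v p ≠ 0 := fun p hp =>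
      (List.mem_append.1 hp).elim (fun hp => ⟨hQm _ p hp, by rw [h.vQ hp]; decide⟩)
        fun hp => ⟨(hXm p hp).1, (hXm p hp).2.1⟩
    rw [hM.suffix _ (h.fit.mono fun p hp =>
      (List.mem_append.1 hp).elim (fun hp => (hm p hp).1) (hQm _ p)) hs]
    exact hM.acyc (h.fit.mono fun p hp => (hm p hp).1) (h.acyc_of_ne 0 hm) hs
  have hs : Sh A.v (A.Q 1 ++ A.Q 0) (A.Q 0 ++ A.Q 1) :=
    Sh.append_comm fun a ha b hb => by rw [h.vQ ha, h.vQ hb]; decide
  have t2 : τ.tr A.v A.ν (X ++ (A.Q 1 ++ A.Q 0)) (X ++ (A.Q 0 ++ A.Q 1)) =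
      τ.tr A.v (elimL X A.ν) (A.Q 1 ++ A.Q 0) (A.Q 0 ++ A.Q 1) := by
    rw [hM.pref X (h.fit.mono fun p hp => (List.mem_append.1 hp).elim (fun hp => (hXm p hp).1)
      fun hp => (List.mem_append.1 hp).elim (hQm _ p) (hQm _ p)) hs,
      E.det_acyc (h.acyc_of_ne 0 fun p hp => ⟨(hXm p hp).1, (hXm p hp).2.1⟩), one_mul, inv_one,
      mul_one]
  rw [e0, e1, ← τ.trans A.v A.ν _ ((X ++ A.Q 1) ++ A.Q 0), t1, mul_one, List.append_assoc X, t2]
  have hpw : ∀ p ∈ A.Q 1, ∀ q ∈ A.Q 0, pw A.ν A.Q 4 1 p q ∈ J 1 0 := fun p hp q hq =>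
    hW.memJ h.core 4 1 p hp q hq
  have hb : ∀ p ∈ A.Q 1, ∀ q ∈ A.Q 0,
      Λ.prj 0 1 (pw A.ν A.Q 4 1 p q) = pw A.ν A.Q 4 1 p q := fun p hp q hq =>
    hΛ.prj_zero 1 (hpw p hp q hq) rfl
  have eR : Rg τ Λ A.ν A.Q 0 0 = τ.tr (Sum.elim (fun _ => (0 : Z5)) (fun _ => (1 : Z5)))
      (blk2 A.ν fun p q => Λ.prj 0 1 (pw A.ν A.Q 4 1 p q))
      ((A.Q 1).map Sum.inr ++ (A.Q 0).map Sum.inl)
      ((A.Q 0).map Sum.inl ++ (A.Q 1).map Sum.inr) := by
    simp only [Rg, Tr.DD, hΛ.N_zero, Nat.cast_zero, zero_add]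
  have hmem : ∀ p : ι ⊕ ι, p ∈ (A.Q 1).map Sum.inr ++ (A.Q 0).map Sum.inl →
      (∃ a ∈ A.Q 1, p = Sum.inr a) ∨ ∃ a ∈ A.Q 0, p = Sum.inl a := by
    intro p hp
    simpa only [List.mem_append, List.mem_map, eq_comm] using hp
  rw [eR, ← hM.map (v' := A.v) (ν' := elimL X A.ν) (Sum.elim id id)]
  · simp only [List.map_append, List.map_map, Sum.elim_comp_inl, Sum.elim_comp_inr, List.map_id]
  · intro p hp q hq
    rcases hmem p hp with ⟨a, ha, rfl⟩ | ⟨a, ha, rfl⟩ <;>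
      rcases hmem q hq with ⟨b, hb', rfl⟩ | ⟨b, hb', rfl⟩
    · exact zero_mem _
    · exact hΛ.prj_J _ _ (hpw a ha b hb')
    · exact h.core.fit 0 a ha b hb'
    · exact zero_mem _
  · refine Sh.append_comm fun a ha b hb => ?_
    obtain ⟨a, -, rfl⟩ := List.mem_map.1 ha
    obtain ⟨b, -, rfl⟩ := List.mem_map.1 hb
    show (1 : Z5) ≠ 0
    decide
  · intro p hp
    rcases hmem p hp with ⟨a, ha, rfl⟩ | ⟨a, ha, rfl⟩ <;> exact h.vQ ha
  · have hrow : ∀ a ∈ A.Q 0, ∀ b, elimL X A.ν a b = A.ν a b := fun a ha b =>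
      elimL_row (fun r hr => h.nxt a (hQm _ a ha) r (hXm r hr).1
        (by rw [h.vQ ha, zero_add]; exact (hXm r hr).2.2)) b
    have hcol : ∀ b ∈ A.Q 1, ∀ a, elimL X A.ν a b = A.ν a b := fun b hb a =>
      elimL_col (fun r hr => h.nxt r (hXm r hr).1 b (hQm _ b hb) (by
        rw [h.vQ hb]
        intro hc
        exact (hXm r hr).2.1 (by simpa using hc.symm))) a
    intro p hp q hq
    rcases hmem p hp with ⟨a, ha, rfl⟩ | ⟨a, ha, rfl⟩ <;>
      rcases hmem q hq with ⟨b, hb', rfl⟩ | ⟨b, hb', rfl⟩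
    · exact (hcol b hb' a).trans (zero_Q h ha hb' (by decide))
    · exact (elimL_234 h ha hb').trans (hb a ha b hb').symm
    · exact hrow a ha b
    · exact (hrow a ha b).trans (zero_Q h ha hb' (by decide))

end AUT

/-- K-SW: the two types of level chains give the same lift. -/
theorem Aut.OK.switch (P : PR J) (hΛ : LevOK J Λ) (hW : PwFacts J Λ) {G : Type} [Group G]
    {E : StG J G} {τ : Tr E} (hM : TrMore τ) (hT : ThFacts τ Λ) (h : A.OK J Λ) (t : ℕ)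
    (ht : t = 0 ∨ t = 1) :
    ∀ᶠ L in Filter.atTop, A.s τ Λ L = theta τ Λ A.ν A.Q t L * τ.tr A.v A.ν A.All (A.Lz t) *
      E.Lam A.v (elimL A.Int A.ν) A.Vl := by
  rcases ht with rfl | rfl
  · exact Filter.Eventually.of_forall fun L => by rw [Nat.cast_zero]; rfl
  · filter_upwards [hT.cmp h.core] with L hL
    rw [Aut.s, ← hL, ← AUT.tr_Lz hΛ hW hM h, mul_assoc (theta τ Λ A.ν A.Q 1 L), τ.trans,
      Nat.cast_one]

end Crest.Agent.R176
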