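import Crest.Agent.R176.KDefs2
import Crest.Agent.R176.KAut

/-! Row 176: right multiplication on exit bridges, and injectivity of the projection to units. -/

set_option autoImplicit false
set_option linter.unusedSectionVars false

open scoped commutatorElement

namespace Crest.Agent.R176

namespace Inj

section general
variable {R : Type} [Ring R] {J : Z5 → Z5 → AddSubgroup R} {ι : Type} {Λ : Lev R}

open Classical in
/-- the automaton with one more state `q`, which simulates `b i` followed by `y` -/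
noncomputable def extA (A : Aut ι R) (i : Z5) (q : ι) (y : R) : Aut ι R :=
  ⟨A.v, fun p r => if p = q then (if r = A.b (i + 1) then y else 0) else
      if r = q then A.ν p (A.b i) else A.ν p r + if p = A.b i ∧ r = A.b (i + 1) then y else 0,
    Function.update A.I i (q :: A.I i), A.b⟩

variable {A : Aut ι R} {i : Z5} {q : ι} {y : R}

open Classical in
theorem extA_q (r : ι) : (extA A i q y).ν q r = if r = A.b (i + 1) then y else 0 := by
  simp [extA]

theorem extA_to {p : ι} (hp : p ≠ q) : (extA A i q y).ν p q = A.ν p (A.b i) := by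
  simp [extA, hp]

open Classical in
theorem extA_ne {p r : ι} (hp : p ≠ q) (hr : r ≠ q) :
    (extA A i q y).ν p r = A.ν p r + if p = A.b i ∧ r = A.b (i + 1) then y else 0 := by
  simp only [extA, if_neg hp, if_neg hr]

theorem extA_I_self : (extA A i q y).I i = q :: A.I i := by simp [extA]

theorem extA_I_ne {z : Z5} (hz : z ≠ i) : (extA A i q y).I z = A.I z := by simp [extA, hz]

theorem mem_extA_I {p : ι} {z : Z5} :
    p ∈ (extA A i q y).I z ↔ (z = i ∧ p = q) ∨ p ∈ A.I z := by
  by_cases hz : z = i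
  · subst hz; simp [extA_I_self]
  · simp [extA_I_ne hz, hz]

theorem mem_extA_Int {p : ι} : p ∈ (extA A i q y).Int ↔ p = q ∨ p ∈ A.Int := by
  simp only [Aut.mem_Int, mem_extA_I]
  constructor
  · rintro ⟨z, h | h⟩
    · exact Or.inl h.2
    · exact Or.inr ⟨z, h⟩
  · rintro (h | ⟨z, h⟩)
    · exact ⟨i, Or.inl ⟨rfl, h⟩⟩
    · exact ⟨z, Or.inr h⟩

theorem mem_extA_All {p : ι} : p ∈ (extA A i q y).All ↔ p = q ∨ p ∈ A.All := by
  have h : (extA A i q y).Vl = A.Vl := rfl
  simp only [Aut.All, List.mem_append, mem_extA_Int, h, or_assoc]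

theorem b_mem (A : Aut ι R) (z : Z5) : A.b z ∈ A.All := Aut.mem_All'.2 (Or.inr ⟨z, rfl⟩)

theorem extA_OK (h : A.OK J Λ) (hv : A.v q = i) (hq : q ∉ A.All) (hb : ∀ z, A.b z ∉ A.Int)
    (hy : y ∈ J i (i + 1)) (hy1 : y ∈ Λ.Hm 1) : (extA A i q y).OK J Λ := by
  classical
  have hne : ∀ {p}, p ∈ A.All → p ≠ q := fun hp e => hq (e ▸ hp)
  have hvv : (extA A i q y).v = A.v := rfl
  refine ⟨?_, h.vb, ?_, ?_, ?_, ?_⟩
  · intro z p hp
    rcases mem_extA_I.1 hp with ⟨rfl, rfl⟩ | hp
    · exact hv
    · exact h.vI z p hp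
  · intro p hp r hr
    rw [hvv]
    replace hp := mem_extA_All.1 hp
    replace hr := mem_extA_All.1 hr
    rcases hp with rfl | hp
    · rw [extA_q]
      split_ifs with e
      · rw [e, h.vb, hv]; exact hy
      · exact zero_mem _
    rcases hr with rfl | hr
    · rw [extA_to (hne hp), hv]
      have := h.fit p hp _ (b_mem A i)
      rwa [h.vb] at this
    · rw [extA_ne (hne hp) (hne hr)]
      refine add_mem (h.fit p hp r hr) ?_
      split_ifs with e
      · rw [e.1, e.2, h.vb, h.vb]; exact hy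
      · exact zero_mem _
  · intro p hp r hr
    replace hp := mem_extA_All.1 hp
    replace hr := mem_extA_All.1 hr
    rcases hp with rfl | hp
    · rw [extA_q]
      split_ifs
      · exact hy1
      · exact zero_mem _
    rcases hr with rfl | hr
    · rw [extA_to (hne hp)]
      exact h.deg p hp _ (b_mem A i)
    · rw [extA_ne (hne hp) (hne hr)]
      refine add_mem (h.deg p hp r hr) ?_
      split_ifs
      · exact hy1
      · exact zero_mem _
  · intro p hp r hr hvr
    rw [hvv] at hvr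
    replace hp := mem_extA_All.1 hp
    replace hr := mem_extA_All.1 hr
    rcases hp with rfl | hp
    · rw [extA_q, if_neg]
      intro e
      rw [e, h.vb, hv] at hvr
      exact hvr rfl
    rcases hr with rfl | hr
    · rw [extA_to (hne hp)]
      refine h.nxt p hp _ (b_mem A i) ?_
      rwa [h.vb, ← hv]
    · rw [extA_ne (hne hp) (hne hr), h.nxt p hp r hr hvr, zero_add, if_neg]
      intro e
      rw [e.1, e.2, h.vb, h.vb] at hvr
      exact hvr rfl
  · obtain ⟨rk, hrk⟩ := h.acy
    have hI : ∀ {p}, p ∈ A.Int → p ≠ q := fun hp => hne (List.mem_append_left _ hp)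
    refine ⟨fun p => if p = q then (A.Int.map rk).sum + 1 else rk p, ?_⟩
    intro p hp r hr hν
    replace hp := mem_extA_Int.1 hp
    replace hr := mem_extA_Int.1 hr
    rcases hp with rfl | hp
    · exfalso
      rw [extA_q] at hν
      split_ifs at hν with e
      · rcases hr with e' | hr
        · exact hne (b_mem A (i + 1)) (e.symm.trans e')
        · exact hb _ (e ▸ hr)
      · exact hν rfl
    rcases hr with rfl | hr
    · simp only [if_neg (hI hp), if_true]
      exact Nat.lt_succ_of_le (List.le_sum_of_mem (List.mem_map_of_mem hp))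
    · simp only [if_neg (hI hp), if_neg (hI hr)]
      refine hrk p hp r hr ?_
      rwa [extA_ne (hI hp) (hI hr), if_neg (by rintro ⟨rfl, _⟩; exact hb i hp),
        add_zero] at hν

theorem extA_s {G : Type} [Group G] {E : StG J G} {τ : Tr E} (h3 : T3Stmt τ Λ) (h : A.OK J Λ)
    (hv : A.v q = i) (hq : q ∉ A.All) (hb : ∀ z, A.b z ∉ A.Int)
    (hy : y ∈ J i (i + 1)) (hy1 : y ∈ Λ.Hm 1) :
    ∀ᶠ L in Filter.atTop, (extA A i q y).s τ Λ L = A.s τ Λ L * E.x i (i + 1) y := by
  have hne : ∀ {p}, p ∈ A.All → p ≠ q := fun hp e => hq (e ▸ hp)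
  refine h3 ι A _ i q y h (extA_OK h hv hq hb hy hy1) hy rfl (fun z hz => extA_I_ne hz)
    extA_I_self hb ?_ ?_ (fun p hp => extA_to (hne hp)) ?_ ?_
  · intro p hp r hr e
    rw [extA_ne (hne hp) (hne hr), if_neg e, add_zero]
  · rw [extA_ne (hne (b_mem A _)) (hne (b_mem A _)), if_pos ⟨rfl, rfl⟩]
  · intro r _ e
    rw [extA_q, if_neg e]
  · rw [extA_q, if_pos rfl]

open Classical in
theorem sum_single {L : List ι} (hL : L.Nodup) {a : ι} (ha : a ∈ L) (f : ι → R) (Q : Prop)
    (g : R) : (L.map fun c => f c * (if c = a ∧ Q then g else 0)).sum =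
      f a * (if Q then g else 0) := by
  induction L with
  | nil => simp at ha
  | cons b L ih =>
    rw [List.nodup_cons] at hL
    rw [List.map_cons, List.sum_cons]
    rcases List.mem_cons.1 ha with rfl | ha'
    · rw [List.sum_eq_zero, add_zero]
      · simp
      · intro x hx
        obtain ⟨c, hc, rfl⟩ := List.mem_map.1 hx
        rw [if_neg (by rintro ⟨rfl, _⟩; exact hL.1 hc), mul_zero]
    · rw [ih hL.2 ha', if_neg (by rintro ⟨rfl, _⟩; exact hL.1 ha'), mul_zero, zero_add]

open Classical in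
theorem sum_sum {κ : Type} {L : List ι} (hL : L.Nodup) (M : List κ) (a : κ → ι)
    (ha : ∀ t ∈ M, a t ∈ L) (f : ι → R) (Q : Prop) (g : R) :
    (L.map fun c => f c * (M.map fun t => if c = a t ∧ Q then g else 0).sum).sum =
      (M.map fun t => f (a t)).sum * (if Q then g else 0) := by
  induction M with
  | nil => simp
  | cons t M ih =>
    simp only [List.map_cons, List.sum_cons, mul_add, add_mul, List.sum_map_add]
    rw [ih fun t ht => ha t (List.mem_cons_of_mem _ ht), sum_single hL (ha t List.mem_cons_self)]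

end general

variable {α : Type} {S : Sys α} {X : Vtx S}

theorem isWd_mono {n m : ℕ} {w : List α} (h : IsWd X n w) (hnm : n ≤ m) : IsWd X m w :=
  ⟨h.1, h.2.1.trans hnm, h.2.2⟩

theorem isWd_single (n : ℕ) (y : α) : IsWd X (n + 1) [y] :=
  ⟨by simp, by simp, by simp [Valid, wst]⟩

theorem end_eq {n : ℕ} {u : List α} {x : α} (h : IsWd X n (u ++ [x])) :
    wst X (u ++ [x]) + ((u ++ [x]).length : Z5) = X.vtx x + 1 :=
  let h2 := (valid_append_iff.1 h.2.2).2
  h2.2.symm.trans (by rw [h2.1])

theorem wst_append {u : List α} (hu : u ≠ []) (w : List α) : wst X (u ++ w) = wst X u := by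
  cases u with
  | nil => exact absurd rfl hu
  | cons a u => rfl

theorem isWd_snoc {n : ℕ} {u : List α} {x y : α} (h : IsWd X n (u ++ [x]))
    (hy : X.vtx x + 1 = X.vtx y) : IsWd X (n + 1) (u ++ [x] ++ [y]) := by
  refine ⟨by simp, by have := h.2.1; simp at this ⊢; omega, ?_⟩
  rw [wst_append h.1]
  refine valid_append h.2.2 ⟨?_, ?_⟩
  · rw [end_eq h, hy]
  · show _ = _
    simp only [List.length_append, List.length_singleton]
    push_cast
    ring

theorem gen_mem_J (y : α) : gen S y ∈ Jsp X (X.vtx y) (X.vtx y + 1) := by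
  rw [← mon_single]
  exact mon_mem_Jsp (by simp) ⟨rfl, rfl⟩

theorem gen_mem_H (y : α) : gen S y ∈ Hsp S 1 :=
  Submodule.subset_span ⟨[y], rfl, (mon_single y).symm⟩

theorem tsrc_of_ne {u : List α} (hu : u ≠ []) (y : α) : tsrc X u y = TS.pre u := by
  cases u with
  | nil => exact absurd rfl hu
  | cons a u => rfl

/-- prefix or boundary states -/
def PB (p : TS α) : Prop := (∃ w, p = TS.pre w) ∨ ∃ z, p = TS.bd z

theorem PB.nuS {p : TS α} (h : PB p) (q : TS α) : nuS X p q = 0 := by
  rcases h with ⟨w, rfl⟩ | ⟨z, rfl⟩ <;> rfl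

theorem PB.ne_ex {p : TS α} (h : PB p) (z : Z5) : p ≠ TS.ex z := by
  rcases h with ⟨w, rfl⟩ | ⟨z, rfl⟩ <;> simp

/-- all bridges are exits -/
def Exits (B : List (List α × α × List α)) : Prop := ∀ t ∈ B, t.2.2 = []

theorem nuB_of_ne {B : List (List α × α × List α)} (hB : Exits B) (p : TS α) {q : TS α}
    (hq : ∀ z, q ≠ TS.bd z) : nuB X B p q = 0 := by
  refine List.sum_eq_zero fun r hr => ?_
  obtain ⟨t, ht, rfl⟩ := List.mem_map.1 hr
  rw [if_neg]
  rw [hB t ht]
  exact fun e => hq _ e.2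

open Classical in
theorem nuT_pre {B : List (List α × α × List α)} (hB : Exits B) {p : TS α} (hp : PB p)
    (u : List α) (x : α) :
    nuT X B p (TS.pre (u ++ [x])) = if p = tsrc X u x then gen S x else 0 := by
  rw [nuT, hp.nuS, nuB_of_ne hB p (by simp), add_zero, add_zero]
  simp [nuP]

open Classical in
theorem nuT_bd {B : List (List α × α × List α)} (hB : Exits B) {p : TS α} (hp : PB p) (i : Z5) :
    nuT X B p (TS.bd i) = ((B.filter fun t => X.vtx t.2.1 + 1 = i).map fun t =>
      if p = tsrc X t.1 t.2.1 then gen S t.2.1 else 0).sum := by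
  rw [nuT, hp.nuS, show nuP X p (TS.bd i) = 0 from rfl, zero_add, zero_add, nuB]
  induction B with
  | nil => simp
  | cons t B ih =>
    have ht : t.2.2 = [] := hB t List.mem_cons_self
    rw [List.map_cons, List.sum_cons, ih fun t ht => hB t (List.mem_cons_of_mem _ ht), ht,
      List.filter_cons]
    by_cases h : X.vtx t.2.1 + 1 = i
    · simp [h, tdst]
    · have h' : ¬ i = X.vtx t.2.1 + 1 := fun e => h e.symm
      simp [h, h', tdst]

/-- the bridges after multiplication by `y` -/
def nextB (X : Vtx S) (B : List (List α × α × List α)) (y : α) : List (List α × α × List α) :=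
  ([], y, []) :: B ++ (B.filter fun t => X.vtx t.2.1 + 1 = X.vtx y).map fun t => (bw t, y, [])

theorem bw_ne (t : List α × α × List α) : bw t ≠ [] := by simp [bw]

theorem bw_exit {t : List α × α × List α} (ht : t.2.2 = []) : bw t = t.1 ++ [t.2.1] := by
  rw [bw, ht]

open Classical in
theorem nuT_next (B : List (List α × α × List α)) (y : α) (p q : TS α) :
    nuT X (nextB X B y) p q = nuT X B p q +
      (if p = TS.bd (X.vtx y) ∧ q = TS.bd (X.vtx y + 1) then gen S y else 0) +
      ((B.filter fun t => X.vtx t.2.1 + 1 = X.vtx y).map fun t =>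
        if p = TS.pre (bw t) ∧ q = TS.bd (X.vtx y + 1) then gen S y else 0).sum := by
  have h : nuB X (nextB X B y) p q =
      (if p = TS.bd (X.vtx y) ∧ q = TS.bd (X.vtx y + 1) then gen S y else 0) + nuB X B p q +
      ((B.filter fun t => X.vtx t.2.1 + 1 = X.vtx y).map fun t =>
        if p = TS.pre (bw t) ∧ q = TS.bd (X.vtx y + 1) then gen S y else 0).sum := by
    simp only [nuB, nextB, List.map_cons, List.sum_cons, List.map_append,
      List.sum_append, List.map_map, Function.comp_def, tsrc_of_ne (bw_ne _)]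
    congr!
  rw [nuT, nuT, h]
  abel

theorem next_ok {n : ℕ} {B : List (List α × α × List α)}
    (hB : ∀ t ∈ B, t.2.2 = [] ∧ IsWd X n (bw t)) (y : α) :
    ∀ t ∈ nextB X B y, t.2.2 = [] ∧ IsWd X (n + 1) (bw t) := by
  intro t ht
  rcases List.mem_append.1 ht with ht | ht
  · rcases List.mem_cons.1 ht with rfl | ht
    · exact ⟨rfl, isWd_single n y⟩
    · exact ⟨(hB t ht).1, isWd_mono (hB t ht).2 (Nat.le_succ n)⟩
  · obtain ⟨t', ht', rfl⟩ := List.mem_map.1 ht
    obtain ⟨h1, h2⟩ := List.mem_filter.1 ht'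
    refine ⟨rfl, ?_⟩
    have h3 := (hB t' h1).2
    show IsWd X (n + 1) (bw t' ++ [y])
    rw [bw_exit (hB t' h1).1] at h3 ⊢
    exact isWd_snoc h3 (by simpa using h2)

theorem mon_next {B : List (List α × α × List α)} (hB : Exits B) (y : α) :
    (1 + (B.map fun t => mon S (bw t)).sum) * (1 + gen S y) =
      1 + ((nextB X B y).map fun t => mon S (bw t)).sum := by
  have h : (B.map fun t => mon S (bw t)).sum * gen S y =
      ((B.filter fun t => X.vtx t.2.1 + 1 = X.vtx y).map fun t => mon S (bw t ++ [y])).sum := by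
    induction B with
    | nil => simp
    | cons t B ih =>
      have ht : t.2.2 = [] := hB t List.mem_cons_self
      rw [List.map_cons, List.sum_cons, add_mul,
        ih fun t ht => hB t (List.mem_cons_of_mem _ ht), List.filter_cons]
      by_cases h : X.vtx t.2.1 + 1 = X.vtx y
      · simp [h, mon_append, mon_single]
      · rw [bw_exit ht, mon_append, mon_single, mul_assoc,
          gen_z2 (X.vtx_z _ _ fun e => h e.symm)]
        simp [h]
  have h2 : ((nextB X B y).map fun t => mon S (bw t)).sum = gen S y +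
      (B.map fun t => mon S (bw t)).sum +
      ((B.filter fun t => X.vtx t.2.1 + 1 = X.vtx y).map fun t => mon S (bw t ++ [y])).sum := by
    simp only [nextB, List.map_append, List.sum_append, List.map_cons, List.sum_cons,
      List.map_map, Function.comp_def]
    rw [show bw (([] : List α), y, ([] : List α)) = [y] from rfl, mon_single]
    rfl
  rw [h2, ← h]
  noncomm_ring

variable [Finite α]

theorem mem_IP {n : ℕ} {z : Z5} {p : TS α} :
    p ∈ IP X n z ↔ (∃ w, IsWd X n w ∧ p = TS.pre w) ∧ tv X p = z := by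
  simp only [IP, List.mem_filter, List.mem_map, mem_wds, decide_eq_true_eq, eq_comm (a := p)]

theorem mem_IS {n : ℕ} {z : Z5} {p : TS α} (h : p ∈ IS X n z) : ∃ w, p = TS.suf w := by
  obtain ⟨w, _, rfl⟩ := List.mem_map.1 (List.mem_filter.1 h).1
  exact ⟨w, rfl⟩

theorem nodup_IP (n : ℕ) (z : Z5) : (IP X n z).Nodup :=
  ((nodup_wds X n).map fun _ _ h => TS.pre.inj h).filter _

theorem pre_of_Int {n : ℕ} {B : List (List α × α × List α)} {p : TS α}
    (h : p ∈ (autP X n B).Int) : ∃ w, p = TS.pre w := by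
  obtain ⟨z, hz⟩ := Aut.mem_Int.1 h
  obtain ⟨⟨w, _, e⟩, _⟩ := mem_IP.1 hz
  exact ⟨w, e⟩

theorem pb_of_All {n : ℕ} {B : List (List α × α × List α)} {p : TS α}
    (h : p ∈ (autP X n B).All) : PB p := by
  rcases List.mem_append.1 h with h | h
  · exact Or.inl (pre_of_Int h)
  · exact Or.inr (Aut.mem_Vl.1 h)

variable {G : Type} [Group G] {E : StG (Jsp X) G} {τ : Tr E} {Λ : Lev (Alg S)}

theorem s_nil (hK : TokStmt X Λ) (h4 : T4Stmt τ Λ) (n L : ℕ) : (autP X n []).s τ Λ L = 1 := by
  refine h4 _ _ (hK n [] (by simp [BOK])).1 ?_ ?_ L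
  · refine ⟨fun p => match p with
      | TS.pre u => u.length
      | _ => 0, ?_⟩
    intro p hp q hq hν
    have hp' := pb_of_All hp
    change nuT X [] p q ≠ 0 at hν
    rcases pb_of_All hq with ⟨w, rfl⟩ | ⟨z, rfl⟩
    · rcases List.eq_nil_or_concat' w with rfl | ⟨u, x, rfl⟩
      · exfalso
        apply hν
        rw [nuT, hp'.nuS]
        simp [nuP, nuB]
      · rw [nuT_pre (by simp [Exits]) hp'] at hν
        have e : p = tsrc X u x := by
          by_contra e
          exact hν (if_neg e)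
        subst e
        cases u <;> simp [tsrc]
    · exfalso
      apply hν
      rw [nuT_bd (by simp [Exits]) hp']
      simp
  · intro p hp z
    change nuT X [] p (TS.bd z) = 0
    rw [nuT_bd (by simp [Exits]) (pb_of_All hp)]
    simp

theorem s_PS (hK : TokStmt X Λ) (hU : UnrStmt τ Λ) {n : ℕ} {B : List (List α × α × List α)}
    (hB : Exits B) (hB' : BOK X n B) :
    ∀ᶠ L in Filter.atTop, (autPS X n B).s τ Λ L = (autP X n B).s τ Λ L := by
  refine hU _ _ _ (IS X n) (hK n B hB').1 (hK n B hB').2 rfl rfl rfl (fun _ => rfl) ?_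
  intro p hp z c hc
  obtain ⟨w, rfl⟩ := mem_IS hc
  change nuT X B p (TS.suf w) = 0
  rw [nuT, (pb_of_All hp).nuS, nuB_of_ne hB p (by simp), add_zero, add_zero]
  rfl

end Inj

variable {α : Type} {S : Sys α} [Finite α] {X : Vtx S} {G : Type} [Group G]

open Inj in
theorem trieBStmt {E : StG (Jsp X) G} {τ : Tr E} {Λ : Lev (Alg S)} (P : PR (Jsp X))
    (hH : ∀ d r, r ∈ Λ.Hm d ↔ r ∈ Hsp S d) (hK : TokStmt X Λ) (hI : InvAStmt τ Λ)
    (h3 : T3Stmt τ Λ) : TrieBStmt X τ Λ := by
  classical
  intro n B y hB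
  have _ := P
  have hE : Exits B := fun t ht => (hB t ht).1
  have hA := (hK (n + 1) B fun t ht => isWd_mono (hB t ht).2 (Nat.le_succ n)).1
  have hA' := (hK (n + 1) (nextB X B y) fun t ht => (next_ok hB y t ht).2).1
  have hq : TS.ex (X.vtx y) ∉ (autP X (n + 1) B).All := fun h => (pb_of_All h).ne_ex _ rfl
  have hb : ∀ z, (autP X (n + 1) B).b z ∉ (autP X (n + 1) B).Int := fun z h => by
    obtain ⟨w, e⟩ := pre_of_Int h
    cases e
  have hy1 : gen S y ∈ Λ.Hm 1 := (hH _ _).2 (gen_mem_H y)
  have h1 := extA_s h3 hA (i := X.vtx y) rfl hq hb (gen_mem_J y) hy1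
  have hA2 := extA_OK hA (i := X.vtx y) rfl hq hb (gen_mem_J y) hy1
  have hF : ∀ t ∈ B.filter fun t => X.vtx t.2.1 + 1 = X.vtx y,
      TS.pre (bw t) ∈ IP X (n + 1) (X.vtx y) := by
    intro t ht
    obtain ⟨h1, h2⟩ := List.mem_filter.1 ht
    refine mem_IP.2 ⟨⟨_, isWd_mono (hB t h1).2 (Nat.le_succ n), rfl⟩, ?_⟩
    have h3 := (hB t h1).2
    rw [bw_exit (hB t h1).1] at h3 ⊢
    exact (end_eq h3).trans (by simpa using h2)
  have hR : ∀ p, (extA (autP X (n + 1) B) (X.vtx y) (TS.ex (X.vtx y)) (gen S y)).Rest (X.vtx y) p →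
      PB p ∧ p ∉ IP X (n + 1) (X.vtx y) := by
    rintro p (⟨z, hz, hp⟩ | ⟨z, rfl⟩)
    · rw [extA_I_ne hz] at hp
      obtain ⟨⟨w, _, e⟩, h2⟩ := mem_IP.1 hp
      exact ⟨Or.inl ⟨w, e⟩, fun h => hz (h2.symm.trans (mem_IP.1 h).2)⟩
    · refine ⟨Or.inr ⟨z, rfl⟩, fun h => ?_⟩
      obtain ⟨⟨w, _, e⟩, _⟩ := mem_IP.1 h
      cases e
  have h2 := hI _ _ (autP X (n + 1) (nextB X B y)) (X.vtx y) hA2 hA' rfl
    (fun z hz => (extA_I_ne (A := autP X (n + 1) B) hz).symm) ?_ ?_
  · filter_upwards [h1, h2] with L e1 e2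
    exact e2.trans e1
  · intro p q hp hq
    rw [extA_ne ((hR p hp).1.ne_ex _) ((hR q hq).1.ne_ex _)]
    change nuT X (nextB X B y) p q = nuT X B p q + _
    rw [nuT_next, List.sum_eq_zero, add_zero]
    · congr
    · intro r hr
      obtain ⟨t, ht, rfl⟩ := List.mem_map.1 hr
      exact if_neg (by rintro ⟨rfl, _⟩; exact (hR _ hp).2 (hF t ht))
  · intro p q hp hq _ _
    have hp' := (hR p hp).1
    have hq' := (hR q hq).1
    rw [extA_I_self]
    unfold mulL
    rw [List.map_cons, List.sum_cons, extA_to (hp'.ne_ex _), extA_q]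
    have e1 : ∀ c ∈ IP X (n + 1) (X.vtx y),
        (extA (autP X (n + 1) B) (X.vtx y) (TS.ex (X.vtx y)) (gen S y)).ν p c *
          (extA (autP X (n + 1) B) (X.vtx y) (TS.ex (X.vtx y)) (gen S y)).ν c q =
        nuT X B p c * nuT X B c q := by
      intro c hc
      obtain ⟨⟨w, _, rfl⟩, _⟩ := mem_IP.1 hc
      rw [extA_ne (hp'.ne_ex _) (by simp), extA_ne (by simp) (hq'.ne_ex _), if_neg, if_neg,
        add_zero, add_zero]
      · rfl
      · rintro ⟨e, _⟩; cases e
      · rintro ⟨_, e⟩; cases e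
    have e2 : ∀ c ∈ IP X (n + 1) (X.vtx y),
        nuT X (nextB X B y) p c * nuT X (nextB X B y) c q = nuT X B p c * nuT X B c q +
          nuT X B p c * ((B.filter fun t => X.vtx t.2.1 + 1 = X.vtx y).map fun t =>
            if c = TS.pre (bw t) ∧ q = TS.bd (X.vtx y + 1) then gen S y else 0).sum := by
      intro c hc
      obtain ⟨⟨w, _, rfl⟩, _⟩ := mem_IP.1 hc
      rw [nuT_next B y p, nuT_next B y _ q]
      simp [mul_add]
    change ((IP X (n + 1) (X.vtx y)).map fun c =>
      nuT X (nextB X B y) p c * nuT X (nextB X B y) c q).sum = nuT X B p (TS.bd (X.vtx y)) * _ +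
        ((IP X (n + 1) (X.vtx y)).map _).sum
    rw [List.map_congr_left e1, List.map_congr_left e2, List.sum_map_add, add_comm]
    congr 1
    have e3 := sum_sum (nodup_IP (n + 1) (X.vtx y)) _ (fun t => TS.pre (bw t)) hF
      (fun c => nuT X B p c) (q = TS.bd (X.vtx y + 1)) (gen S y)
    refine Eq.trans (by congr!) (e3.trans ?_)
    rw [nuT_bd hE hp']
    congr 2
    · refine List.map_congr_left fun t ht => ?_
      rw [bw_exit (hE t (List.mem_filter.1 ht).1), nuT_pre hE hp']

open Inj in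
theorem injStmt (P : PR (Jsp X)) (E : StG (Jsp X) G) (e : Stb (Jsp X) →* G)
    (he : Function.Injective e) (hx : ∀ i j r, e (xS (Jsp X) i j r) = E.x i j r) (τ : Tr E)
    (Λ : Lev (Alg S)) (hG : GenStmt X) (hK : TokStmt X Λ) (hA : TrieAStmt X τ Λ)
    (hB : TrieBStmt X τ Λ) (h4 : T4Stmt τ Λ) (hU : UnrStmt τ Λ) : InjStmt X := by
  have _ := P
  have hf : ∀ i j r, i ≠ j → r ∈ Jsp X i j →
      (((E.pi.comp e) (xS (Jsp X) i j r) : (Alg S)ˣ) : Alg S) = 1 + r := fun i j r hij hr => by
    rw [MonoidHom.comp_apply, hx, E.pi_x hij hr]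
  refine ⟨E.pi.comp e, (injective_iff_map_eq_one _).2 fun γ hγ => ?_, hf⟩
  obtain ⟨l, rfl⟩ := hG γ
  have key : ∀ (n : ℕ) (l : List α), l.length ≤ n → ∃ B : List (List α × α × List α),
      (∀ t ∈ B, t.2.2 = [] ∧ IsWd X l.length (bw t)) ∧
      (∀ᶠ L in Filter.atTop, (autP X (n + 1) B).s τ Λ L = e (l.map (xL X)).prod) ∧
      (((E.pi.comp e) (l.map (xL X)).prod : (Alg S)ˣ) : Alg S) =
        1 + (B.map fun t => mon S (bw t)).sum := by
    intro n l
    induction l using List.reverseRecOn with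
    | nil =>
      intro _
      exact ⟨[], by simp, Filter.Eventually.of_forall fun L => by simp [s_nil hK h4], by simp⟩
    | append_singleton l y ih =>
      intro hl
      rw [List.length_append, List.length_singleton] at hl ⊢
      obtain ⟨B, h1, h2, h3⟩ := ih (by omega)
      refine ⟨nextB X B y, next_ok h1 y, ?_, ?_⟩
      · filter_upwards [h2, hB n B y fun t ht => ⟨(h1 t ht).1, isWd_mono (h1 t ht).2 (by omega)⟩]
          with L e1 e2
        rw [List.map_append, List.prod_append, map_mul, ← e1, List.map_singleton,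
          List.prod_singleton, xL, hx]
        exact e2
      · rw [List.map_append, List.prod_append, map_mul, Units.val_mul, h3, List.map_singleton,
          List.prod_singleton, xL, hf _ _ _ (by simp; decide) (gen_mem_J y),
          mon_next (X := X) (fun t ht => (h1 t ht).1)]
  obtain ⟨B, h1, h2, h3⟩ := key l.length l le_rfl
  rw [hγ, Units.val_one, left_eq_add] at h3
  have hB' : BOK X (l.length + 1) B := fun t ht => isWd_mono (h1 t ht).2 (Nat.le_succ _)
  have h5 := s_PS hK hU (fun t ht => (h1 t ht).1) hB'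
  have h6 := s_PS (n := l.length + 1) (B := []) hK hU (by simp [Exits]) (by simp [BOK])
  obtain ⟨L, ⟨⟨e1, e2⟩, e3⟩, e4⟩ := (((h2.and h5).and h6).and (hA _ B hB' h3)).exists
  apply he
  rw [map_one, ← e1, ← e2, e4, e3, s_nil hK h4]

end Crest.Agent.R176
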