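import Crest.Agent.R176.KAut

/-! Row 176: invariance of the canonical lift under one-vertex moves (K-INV, K-UNR). -/

set_option autoImplicit false
set_option linter.unusedSectionVars false

open scoped commutatorElement

namespace Crest.Agent.R176

variable {R : Type} [Ring R] {J : Z5 → Z5 → AddSubgroup R} {ι : Type}

namespace InvA

/-- concatenation over the five vertices -/
def cat (F : Z5 → List ι) : List ι := F 0 ++ F 1 ++ F 2 ++ F 3 ++ F 4

theorem z5_cases (z : Z5) : z = 0 ∨ z = 1 ∨ z = 2 ∨ z = 3 ∨ z = 4 := by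
  revert z; decide

theorem mem_cat {F : Z5 → List ι} {p : ι} : p ∈ cat F ↔ ∃ z, p ∈ F z := by
  simp only [cat, List.mem_append]
  constructor
  · rintro ((((h | h) | h) | h) | h) <;> exact ⟨_, h⟩
  · rintro ⟨z, h⟩
    rcases z5_cases z with rfl | rfl | rfl | rfl | rfl <;> tauto

theorem filter_of {v : ι → Z5} {L : List ι} {z' : Z5} (h : ∀ p ∈ L, v p = z') (z : Z5) :
    L.filter (fun p => v p = z) = if z' = z then L else [] := by
  split_ifs with hz
  · subst hz
    exact List.filter_eq_self.2 fun p hp => by simpa using h p hp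
  · exact List.filter_eq_nil_iff.2 fun p hp => by simpa [h p hp] using hz

theorem filter_cat {v : ι → Z5} {F : Z5 → List ι} (h : ∀ z, ∀ p ∈ F z, v p = z) (z : Z5) :
    (cat F).filter (fun p => v p = z) = F z := by
  simp only [cat, List.filter_append, filter_of (h _)]
  rcases z5_cases z with rfl | rfl | rfl | rfl | rfl <;> simp +decide

/-- interior states away from `i` -/
def IR (A : Aut ι R) (i : Z5) : List ι := cat fun z => if z = i then [] else A.I z

/-- all states away from `i` and `t` -/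
def QR (A : Aut ι R) (i t : Z5) : List ι := cat fun z => if z = i ∨ z = t then [] else A.Q z

def M1 (A : Aut ι R) (i : Z5) : List ι := IR A i ++ A.Vl

def M2 (A : Aut ι R) (i t : Z5) : List ι := A.b i :: QR A i t ++ A.Q t

variable {Λ : Lev R} {A A' : Aut ι R} {i t : Z5}

theorem mem_IR {p : ι} : p ∈ IR A i ↔ ∃ z, z ≠ i ∧ p ∈ A.I z := by
  rw [IR, mem_cat]
  refine exists_congr fun z => ?_
  split_ifs with h <;> simp [h]

theorem mem_QR {p : ι} : p ∈ QR A i t ↔ ∃ z, z ≠ i ∧ z ≠ t ∧ p ∈ A.Q z := by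
  rw [QR, mem_cat]
  refine exists_congr fun z => ?_
  split_ifs with h
  · simp only [List.not_mem_nil, false_iff]; tauto
  · tauto

theorem mem_M1 {p : ι} : p ∈ M1 A i ↔ A.Rest i p := by
  rw [M1, List.mem_append, mem_IR, Aut.mem_Vl]; rfl

theorem rest_of_Q {z : Z5} {p : ι} (hz : z ≠ i) (hp : p ∈ A.Q z) : A.Rest i p := by
  rcases List.mem_append.1 hp with h | h
  · exact Or.inl ⟨z, hz, h⟩
  · exact Or.inr ⟨z, List.mem_singleton.1 h⟩

theorem I_sub_Int {z : Z5} : ∀ p ∈ A.I z, p ∈ A.Int := fun _ hp => Aut.mem_Int.2 ⟨z, hp⟩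

theorem Int_sub_All : ∀ p ∈ A.Int, p ∈ A.All := fun _ hp => List.mem_append_left _ hp

theorem filter_IR (h : A.OK J Λ) (z : Z5) :
    (IR A i).filter (fun p => A.v p = z) = if z = i then [] else A.I z :=
  filter_cat (F := fun z => if z = i then [] else A.I z) (fun z p hp => by
    split_ifs at hp
    · simp at hp
    · exact h.vI z p hp) z

theorem filter_QR (h : A.OK J Λ) (z : Z5) :
    (QR A i t).filter (fun p => A.v p = z) = if z = i ∨ z = t then [] else A.Q z :=
  filter_cat (F := fun z => if z = i ∨ z = t then [] else A.Q z) (fun z p hp => by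
    split_ifs at hp
    · simp at hp
    · exact h.vQ hp) z

theorem filter_Vl (h : A.OK J Λ) (z : Z5) : A.Vl.filter (fun p => A.v p = z) = [A.b z] := by
  have h1 := h.filter_All z
  rw [Aut.All, List.filter_append, h.filter_Int, Aut.Q] at h1
  exact List.append_cancel_left h1

theorem sh_Int (h : A.OK J Λ) (i : Z5) : Sh A.v A.Int (A.I i ++ IR A i) :=
  Sh.of_filter fun z => by
    rw [h.filter_Int, List.filter_append, h.filter_I, filter_IR h]
    by_cases hz : z = i
    · subst hz; simp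
    · simp [hz, Ne.symm hz]

theorem sh_M (h : A.OK J Λ) (hit : t ≠ i) : Sh A.v (M1 A i) (M2 A i t) :=
  Sh.of_filter fun z => by
    have h1 : [A.b i].filter (fun p => A.v p = z) = if i = z then [A.b i] else [] :=
      filter_of (fun p hp => by rw [List.mem_singleton.1 hp, h.vb]) z
    have e : M2 A i t = [A.b i] ++ QR A i t ++ A.Q t := rfl
    rw [M1, e, List.filter_append, filter_IR h, filter_Vl h,
      List.filter_append, List.filter_append, h1, filter_QR h, h.filter_Q]
    by_cases hz : z = i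
    · subst hz; simp [hit]
    · by_cases hz' : z = t
      · subst hz'; simp [hz, Ne.symm hz, Aut.Q]
      · simp [hz, Ne.symm hz, hz', Ne.symm hz', Aut.Q]

theorem sh_L (h : A.OK J Λ) (hit : t ≠ i) : Sh A.v (A.Q i ++ QR A i t)
    (A.Q (t + 1) ++ A.Q (t + 2) ++ A.Q (t + 3) ++ A.Q (t + 4)) :=
  Sh.of_filter fun z => by
    have h1 := (h.sh_Lz t).filter_eq z
    rw [h.filter_All, Aut.Lz, List.filter_append, h.filter_Q] at h1
    rw [List.filter_append, h.filter_Q, filter_QR h]
    by_cases hz' : t = z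
    · subst hz'
      rw [if_pos rfl] at h1
      rw [List.self_eq_append_left.1 h1]
      simp [Ne.symm hit]
    · rw [if_neg hz', List.append_nil] at h1
      rw [← h1]
      by_cases hz : z = i
      · subst hz; simp
      · simp [hz, Ne.symm hz, Ne.symm hz']

variable {G : Type} [Group G] {E : StG J G} {τ : Tr E}

theorem tr_eq (hM : TrMore τ) (h : A.OK J Λ) (hit : t ≠ i) :
    τ.tr A.v A.ν A.All (A.Lz t) = τ.tr A.v (elimL (A.I i) A.ν) (M1 A i) (M2 A i t) := by
  have h1 : τ.tr A.v A.ν A.All (A.I i ++ M1 A i) = 1 := by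
    rw [M1, ← List.append_assoc, Aut.All, hM.suffix _ h.fit (sh_Int h i)]
    exact hM.acyc (h.fit.mono Int_sub_All) h.acy (sh_Int h i)
  have hsub : ∀ p ∈ A.Q i ++ QR A i t, p ∈ A.All ∧ A.v p ≠ t := by
    intro p hp
    rcases List.mem_append.1 hp with hp | hp
    · exact ⟨Aut.mem_All.2 ⟨i, hp⟩, by rw [h.vQ hp]; exact hit.symm⟩
    · obtain ⟨z, -, hz, hp⟩ := mem_QR.1 hp
      exact ⟨Aut.mem_All.2 ⟨z, hp⟩, by rw [h.vQ hp]; exact hz⟩
  have h2 : τ.tr A.v A.ν (A.I i ++ M2 A i t) (A.Lz t) = 1 := by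
    have e : A.I i ++ M2 A i t = (A.Q i ++ QR A i t) ++ A.Q t := by simp [M2, Aut.Q]
    rw [e, Aut.Lz, hM.suffix _ (h.fit.mono fun p hp => ?_) (sh_L h hit)]
    · exact hM.acyc (h.fit.mono fun p hp => (hsub p hp).1) (h.acyc_of_ne t hsub) (sh_L h hit)
    · rcases List.mem_append.1 hp with hp | hp
      · exact (hsub p hp).1
      · exact Aut.mem_All.2 ⟨t, hp⟩
  have h3 : τ.tr A.v A.ν (A.I i ++ M1 A i) (A.I i ++ M2 A i t) =
      τ.tr A.v (elimL (A.I i) A.ν) (M1 A i) (M2 A i t) := by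
    rw [hM.pref _ (h.fit.mono fun p hp => ?_) (sh_M h hit), E.det_acyc (h.acy.mono I_sub_Int),
      one_mul, inv_one, mul_one]
    rcases List.mem_append.1 hp with hp | hp
    · exact Int_sub_All p (I_sub_Int p hp)
    · exact (mem_M1.1 hp).mem_All
  rw [← τ.trans A.v A.ν A.All (A.I i ++ M2 A i t), ← τ.trans A.v A.ν A.All (A.I i ++ M1 A i),
    h1, h2, h3, one_mul, mul_one]

theorem elim_Int (P : PR J) (h : A.OK J Λ) (i : Z5) :
    elimL A.Int A.ν = elimL (IR A i) (elimL (A.I i) A.ν) := by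
  rw [← elimL_append]
  funext a b
  exact elimL_sh P (h.fit.mono Int_sub_All) (sh_Int h i) a b

theorem elim_I (h : A.OK J Λ) (i : Z5) (a b : ι) :
    elimL (A.I i) A.ν a b = A.ν a b + mulL (A.I i) A.ν A.ν a b :=
  elimL_zero_block (fun p hp q hq => h.zero_of_eq (Int_sub_All p (I_sub_Int p hp))
    (Int_sub_All q (I_sub_Int q hq)) (by rw [h.vI i p hp, h.vI i q hq])) a b

theorem mulL_zero (h : A.OK J Λ) {p q : ι} (hp : p ∈ A.All) (hq : q ∈ A.All)
    (hn : ¬ (A.v p + 1 = i ∧ A.v q = i + 1)) : mulL (A.I i) A.ν A.ν p q = 0 := by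
  refine mulL_eq_zero fun c hc => ?_
  have hc' := Int_sub_All c (I_sub_Int c hc)
  by_cases h1 : A.v p + 1 = i
  · rw [h.nxt c hc' q hq (by rw [h.vI i c hc]; exact fun h2 => hn ⟨h1, h2⟩), mul_zero]
  · rw [h.nxt p hp c hc' (by rw [h.vI i c hc]; exact fun h2 => h1 h2.symm), zero_mul]

end InvA

variable {G : Type} [Group G] {E : StG J G} {τ : Tr E} {Λ : Lev R}

open InvA in
theorem invAStmt (P : PR J) (hΛ : LevOK J Λ) (hW : PwFacts J Λ) (hM : TrMore τ)
    (hT : ThFacts τ Λ) : InvAStmt τ Λ := by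
  intro ι A A' i h h' hb hI hν hm
  obtain ⟨t, ht, ht1, ht2⟩ : ∃ t : ℕ, (t = 0 ∨ t = 1) ∧ (t : Z5) ≠ i ∧ (t : Z5) + 2 ≠ i := by
    have : ∀ i : Z5, ((0 : Z5) ≠ i ∧ (0 : Z5) + 2 ≠ i) ∨ ((1 : Z5) ≠ i ∧ (1 : Z5) + 2 ≠ i) := by
      decide
    rcases this i with h0 | h0
    · exact ⟨0, Or.inl rfl, by simpa using h0⟩
    · exact ⟨1, Or.inr rfl, by simpa using h0⟩
  have hQ : ∀ z, z ≠ i → A'.Q z = A.Q z := fun z hz => by rw [Aut.Q, Aut.Q, hI z hz, hb]
  have hIR : IR A' i = IR A i := by
    unfold IR; congr 1; funext z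
    split_ifs with hz
    · rfl
    · exact hI z hz
  have hVl : A'.Vl = A.Vl := by simp only [Aut.Vl, hb]
  have hM1 : M1 A' i = M1 A i := by rw [M1, M1, hIR, hVl]
  have hM2 : M2 A' i t = M2 A i t := by
    have : QR A' i t = QR A i t := by
      unfold QR; congr 1; funext z
      split_ifs with hz
      · rfl
      · exact hQ z fun h0 => hz (Or.inl h0)
    rw [M2, M2, this, hb, hQ _ ht1]
  have hrest : ∀ p, A.Rest i p → A'.Rest i p := fun p hp => by
    rw [← mem_M1] at hp ⊢; rwa [hM1]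
  have hv : ∀ p, A.Rest i p → A'.v p = A.v p := by
    rintro p (⟨z, hz, hp⟩ | ⟨z, rfl⟩)
    · rw [h.vI z p hp, h'.vI z p (by rwa [hI z hz])]
    · rw [h.vb, ← hb, h'.vb]
  have hel : ∀ p ∈ M1 A i, ∀ q ∈ M1 A i,
      elimL (A'.I i) A'.ν p q = elimL (A.I i) A.ν p q := by
    intro p hp q hq
    rw [mem_M1] at hp hq
    rw [elim_I h, elim_I h', hν p q hp hq]
    by_cases hn : A.v p + 1 = i ∧ A.v q = i + 1
    · rw [hm p q hp hq hn.1 hn.2]
    · rw [mulL_zero h hp.mem_All hq.mem_All hn,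
        mulL_zero h' (hrest p hp).mem_All (hrest q hq).mem_All (by rwa [hv p hp, hv q hq])]
  have hone : OneV i A.ν A'.ν A.Q A'.Q := by
    refine ⟨hQ, fun z hz hz' p hp q hq => hν p q (rest_of_Q hz hp) (rest_of_Q hz' hq),
      fun p hp q hq => ?_⟩
    have e1 : ∀ i : Z5, i - 1 ≠ i ∧ i + 1 ≠ i := by decide
    have hp' := rest_of_Q (e1 i).1 hp
    have hq' := rest_of_Q (e1 i).2 hq
    have hb' : A.Rest i (A.b i) := Or.inr ⟨i, rfl⟩
    rw [Aut.Q, Aut.Q, mulL_append, mulL_append, mulL_cons, mulL_cons, mulL_nil, mulL_nil, hb,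
      hν _ _ hp' hb', hν _ _ hb' hq',
      hm p q hp' hq' (by rw [h.vQ hp, sub_add_cancel]) (h.vQ hq)]
  have htr : τ.tr A'.v A'.ν A'.All (A'.Lz t) = τ.tr A.v A.ν A.All (A.Lz t) := by
    rw [tr_eq hM h ht1, tr_eq hM h' ht1, hM1, hM2]
    have hfit : Fits J A.v (elimL (A.I i) A.ν) (M1 A i) :=
      (h.fit.elimL P fun p hp => Int_sub_All p (I_sub_Int p hp)).mono
        fun p hp => (mem_M1.1 hp).mem_All
    have := hM.map (v' := A'.v) (ν' := elimL (A'.I i) A'.ν) id hfit (sh_M h ht1)
      (fun p hp => hv p (mem_M1.1 hp)) hel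
    simpa only [List.map_id] using this
  have hlam : E.Lam A'.v (elimL A'.Int A'.ν) A'.Vl = E.Lam A.v (elimL A.Int A.ν) A.Vl := by
    rw [elim_Int P h i, elim_Int P h' i, hIR, hVl]
    have hs : ∀ p ∈ A.Vl, p ∈ M1 A i := fun p hp => List.mem_append_right _ hp
    exact E.Lam_congr (fun p hp => hv p (mem_M1.1 (hs p hp))) fun p hp q hq =>
      elimL_congr (fun p hp => List.mem_append_left _ hp) hel p (hs p hp) q (hs q hq)
  filter_upwards [h.switch P hΛ hW hM hT t ht, h'.switch P hΛ hW hM hT t ht] with L h1 h2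
  rw [h1, h2, htr, hlam, hT.onev h.core hone t ht1 ht2]

open InvA in
theorem unrStmt_of (hinv : InvAStmt τ Λ) : UnrStmt τ Λ := by
  intro ι A A' Z h
  induction hn : (cat Z).length generalizing A' Z with
  | zero =>
    intro _ hb hv hν hI _
    have hZ : ∀ z, Z z = [] := fun z => List.eq_nil_iff_forall_not_mem.2 fun p hp => by
      have := mem_cat.2 ⟨z, hp⟩
      rw [List.length_eq_zero_iff.1 hn] at this
      simp at this
    have hI' : A'.I = A.I := funext fun z => by rw [hI, hZ, List.append_nil]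
    have : A' = A := by
      cases A; cases A'
      simp only at hb hv hν hI'
      subst hb hv hν hI'
      rfl
    subst this
    exact Filter.Eventually.of_forall fun _ => rfl
  | succ n ih =>
    intro h' hb hv hν hI hz
    classical
    obtain ⟨rk, hrk⟩ := h'.acy
    have hne : (cat Z).toFinset.Nonempty := by
      rw [List.toFinset_nonempty_iff]
      intro h0
      rw [h0] at hn
      simp at hn
    obtain ⟨c, hc, hmin⟩ := (cat Z).toFinset.exists_min_image rk hne
    obtain ⟨z0, hc0⟩ := mem_cat.1 (List.mem_toFinset.1 hc)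
    obtain ⟨Z1, Z2, hZ⟩ := List.append_of_mem hc0
    let Z' : Z5 → List ι := fun z => if z = z0 then Z1 ++ Z2 else Z z
    let B : Aut ι R := ⟨A'.v, A'.ν, fun z => A.I z ++ Z' z, A'.b⟩
    have hZ' : ∀ z, ∀ p ∈ Z' z, p ∈ Z z := by
      intro z p hp
      simp only [Z'] at hp
      split_ifs at hp with h0
      · subst h0
        rw [hZ]
        simp only [List.mem_append, List.mem_cons] at hp ⊢
        tauto
      · exact hp
    have hBI : ∀ z, ∀ p ∈ B.I z, p ∈ A'.I z := by
      intro z p hp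
      rw [hI]
      rcases List.mem_append.1 hp with hp | hp
      · exact List.mem_append_left _ hp
      · exact List.mem_append_right _ (hZ' z p hp)
    have hBA : ∀ p ∈ B.All, p ∈ A'.All := by
      intro p hp
      rcases Aut.mem_All'.1 hp with ⟨z, hp⟩ | ⟨z, hp⟩
      · exact Aut.mem_All'.2 (Or.inl ⟨z, hBI z p hp⟩)
      · exact Aut.mem_All'.2 (Or.inr ⟨z, hp⟩)
    have hB : B.OK J Λ :=
      { vI := fun z p hp => h'.vI z p (hBI z p hp)
        vb := h'.vb
        fit := h'.fit.mono hBA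
        deg := fun p hp q hq => h'.deg p (hBA p hp) q (hBA q hq)
        nxt := fun p hp q hq => h'.nxt p (hBA p hp) q (hBA q hq)
        acy := h'.acy.mono fun p hp => by
          obtain ⟨z, hp⟩ := Aut.mem_Int.1 hp
          exact Aut.mem_Int.2 ⟨z, hBI z p hp⟩ }
    have hlen : (cat Z').length = n := by
      have h1 : ∀ z, (Z z).length = (Z' z).length + if z = z0 then 1 else 0 := by
        intro z
        simp only [Z']
        split_ifs with h0
        · subst h0; rw [hZ]; simp [add_assoc]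
        · rfl
      have h2' : ∀ z0 : Z5, (if (0 : Z5) = z0 then 1 else 0) + (if (1 : Z5) = z0 then 1 else 0)
          + (if (2 : Z5) = z0 then 1 else 0) + (if (3 : Z5) = z0 then 1 else 0)
          + (if (4 : Z5) = z0 then 1 else 0) = 1 := by
        decide
      have h2 := h2' z0
      simp only [cat, List.length_append] at hn ⊢
      rw [h1 0, h1 1, h1 2, h1 3, h1 4] at hn
      omega
    have h1 := ih B Z' hlen hB hb hv hν (fun _ => rfl) fun p hp z c hc => hz p hp z c (hZ' z c hc)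
    have h2 := hinv ι B A' z0 hB h' rfl (fun z hz0 => by
        rw [hI]; simp only [B, Z', if_neg hz0]) (fun _ _ _ _ => rfl) (by
      intro p q hp _ _ _
      have hpc : A'.ν p c = 0 := by
        have hcI : c ∈ A'.Int := Aut.mem_Int.2 ⟨z0, by rw [hI]; exact List.mem_append_right _ hc0⟩
        rcases hp with ⟨z, -, hp⟩ | ⟨z, rfl⟩
        · rcases List.mem_append.1 hp with hp | hp
          · rw [hν]; exact hz p (Aut.mem_All'.2 (Or.inl ⟨z, hp⟩)) z0 c hc0
          · by_contra h0
            have h3 := hrk p (Aut.mem_Int.2 ⟨z, by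
              rw [hI]; exact List.mem_append_right _ (hZ' z p hp)⟩) c hcI h0
            have h4 := hmin p (List.mem_toFinset.2 (mem_cat.2 ⟨z, hZ' z p hp⟩))
            omega
        · rw [hν]
          exact hz _ (Aut.mem_All'.2 (Or.inr ⟨z, congrFun hb z⟩)) z0 c hc0
      rw [hI, hZ]
      simp only [B, Z', if_pos rfl, mulL_append, mulL_cons, hpc, zero_mul, zero_add])
    filter_upwards [h1, h2] with L h1 h2
    rw [h2, h1]

end Crest.Agent.R176
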