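import Crest.Agent.R176.CBasic

/-! Row 176: the rules on controls do not change the represented word. -/

set_option autoImplicit false

namespace Crest.Agent.R176

namespace InvI

/-- The local data preserved by a two-cell control rule. -/
structure Pres (a b a' b' : V) : Prop where
  o1 : OK1 a'
  o2 : OK1 b'
  p1 : ∀ t, OKp a t → OKp a' t
  p2 : ∀ t, OKp b t → OKp b' t
  o12 : OK2 a' b'
  hl : ∀ p : V, OK1 p → OK2 p a → OK2 p a'
  hr : ∀ p : V, OK1 p → OK2 b p → OK2 b' p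

theorem lk_left {p a a' : V} (h : LK p a) (ha : ¬ a.isR) (ha' : ¬ a'.isR) : LK p a' :=
  LK.of_free (fun hp => ha (h.1.1 hp)) ha'

theorem lk_right {p b b' : V} (h : LK b p) (hb : ¬ b.isL) (hb' : ¬ b'.isL) : LK b' p :=
  LK.of_free hb' (fun hp => hb (h.1.2 hp))

theorem isL_lockL (k : Kind) (a b : V) : (lockL k a b).isL := ⟨k, sk_lockL k a b⟩

theorem isR_lockR (k : Kind) (a b : V) : (lockR k a b).isR := ⟨k, sk_lockR k a b⟩

theorem not_isL_lockR (k : Kind) (a b : V) : ¬ (lockR k a b).isL :=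
  fun h => h.not_isR (isR_lockR k a b)

theorem not_isR_lockL (k : Kind) (a b : V) : ¬ (lockL k a b).isR := (isL_lockL k a b).not_isR

theorem pres_fwd {a b a' b' : V} (h : TI a b a' b') (ha : OK1 a) (hb : OK1 b) (hab : OK2 a b) :
    Pres a b a' b' := by
  obtain ⟨la, lb, h | ⟨k, hk, rfl, rfl⟩ | ⟨hE, hA, hT, hidle, s, k, φ, hr, rfl, rfl⟩⟩ := h
  · obtain ⟨h9, h1, h2, h3, h4, rfl, rfl⟩ := h
    refine ⟨⟨ha.hF, ha.hE, fun _ => rfl, fun h => (h9 h).elim, fun h => by simp at h, ha.fA,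
      ha.fT, ha.eA, ha.eT, ha.tA, ha.tT, ha.hP, ha.idle⟩,
      ⟨hb.hF, hb.hE, fun _ => h4, hb.p9, fun _ => h4, hb.fA,
      hb.fT, hb.eA, hb.eT, hb.tA, hb.tT, hb.hP, hb.idle⟩,
      fun t ht => ⟨ht.1, ht.2, ht.3, ht.4⟩, fun t ht => ⟨ht.1, ht.2, ht.3, ht.4⟩,
      ⟨hab.col, hab.colu, hab.EF, fun _ => by simp [h4], fun _ _ => rfl, hab.aS, hab.aU, hab.tS,
        hab.tU, hab.grp, LK.of_free (V.not_isL_of_none la) (V.not_isR_of_none lb)⟩,
      fun p _ hp => ⟨hp.col, hp.colu, hp.EF, fun h => by simp [hp.pU h h1], fun _ h => by simp at h,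
        hp.aS, hp.aU, hp.tS, hp.tU, hp.grp,
        lk_left hp.lk (V.not_isR_of_none la) (V.not_isR_of_none la)⟩,
      fun p _ hp => ⟨hp.col, hp.colu, hp.EF, hp.pS, hp.pU, hp.aS, hp.aU, hp.tS, hp.tU, hp.grp,
        lk_right hp.lk (V.not_isL_of_none lb) (V.not_isL_of_none lb)⟩⟩
  · exact ⟨⟨ha.hF, ha.hE, ha.p0, ha.p9, ha.pp, ha.fA, ha.fT, ha.eA, ha.eT, ha.tA, ha.tT, ha.hP,
        ha.idle⟩,
      ⟨hb.hF, hb.hE, hb.p0, hb.p9, hb.pp, hb.fA, hb.fT, hb.eA, hb.eT, hb.tA, hb.tT, hb.hP,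
        hb.idle⟩,
      fun t ht => ⟨ht.1, ht.2, ht.3, ht.4⟩, fun t ht => ⟨ht.1, ht.2, ht.3, ht.4⟩,
      ⟨hab.col, hab.colu, hab.EF, hab.pS, hab.pU, hab.aS, hab.aU, hab.tS, hab.tU, hab.grp,
        ⟨⟨fun _ => isR_lockR k a b, fun _ => isL_lockL k a b⟩, fun _ => ⟨k, hk, rfl, rfl⟩⟩⟩,
      fun p _ hp => ⟨hp.col, hp.colu, hp.EF, hp.pS, hp.pU, hp.aS, hp.aU, hp.tS, hp.tU, hp.grp,
        lk_left hp.lk (V.not_isR_of_none la) (not_isR_lockL k a b)⟩,
      fun p _ hp => ⟨hp.col, hp.colu, hp.EF, hp.pS, hp.pU, hp.aS, hp.aU, hp.tS, hp.tU, hp.grp,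
        lk_right hp.lk (V.not_isL_of_none lb) (not_isL_lockR k a b)⟩⟩
  · refine ⟨⟨ha.hF, ha.hE, ha.p0, ha.p9, ha.pp, ha.fA, ha.fT, ha.eA, ha.eT, ha.tA, ha.tT, ha.hP,
        fun h => ?_⟩,
      ⟨hb.hF, hb.hE, hb.p0, hb.p9, hb.pp, hb.fA, hb.fT, hb.eA, hb.eT, hb.tA, hb.tT, hb.hP,
        fun h => ?_⟩,
      fun t ht => ⟨ht.1, ht.2, fun _ s' k' φ' h => ?_, fun _ s' k' h => ?_⟩,
      fun t ht => ⟨ht.1, ht.2, fun h => ?_, fun h => ?_⟩,
      ⟨hab.col, hab.colu, hab.EF, hab.pS, hab.pU, hab.aS, hab.aU, hab.tS, hab.tU, hab.grp,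
        LK.of_free (V.not_isL_of_none la) (V.not_isR_of_none lb)⟩,
      fun p _ hp => ⟨hp.col, hp.colu, hp.EF, hp.pS, hp.pU, hp.aS, hp.aU, hp.tS, hp.tU, hp.grp,
        lk_left hp.lk (V.not_isR_of_none la) (V.not_isR_of_none la)⟩,
      fun p _ hp => ⟨hp.col, hp.colu, hp.EF, hp.pS, hp.pU, hp.aS, hp.aU, hp.tS, hp.tU, hp.grp,
        lk_right hp.lk (V.not_isL_of_none lb) (V.not_isL_of_none lb)⟩⟩
    · simp [V.setArm, hA] at h
    · simp [V.setArm, hT] at h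
    · simp [V.setArm] at h
    · simp only [V.setArm, Arm.linked.injEq] at h
      obtain ⟨rfl, rfl⟩ := h
      exact ht.ready hA _ _ _ hr
    · simp [V.setArm, hT] at h
    · simp [V.setArm, hT] at h

theorem pres_bwd {a b a' b' : V} (h : TI a' b' a b) (ha : OK1 a) (hb : OK1 b) (hab : OK2 a b) :
    Pres a b a' b' := by
  obtain ⟨la, lb, h | ⟨k, hk, rfl, rfl⟩ | ⟨hE, hA, hT, hidle, s, k, φ, hr, rfl, rfl⟩⟩ := h
  · obtain ⟨h9, h1, h2, h3, h4, rfl, rfl⟩ := h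
    have hb0 : b'.st.κ.val % 10 ≠ 0 := by
      have hc : b'.st.κ.val = (a'.st.κ.val + 1) % qq := hab.col
      rw [hc, Nat.mod_mod_of_dvd _ ten_dvd_qq]
      omega
    refine ⟨⟨ha.hF, ha.hE, fun _ => by rw [h1, h2], fun _ => h2, fun _ => h2, ha.fA,
      ha.fT, ha.eA, ha.eT, ha.tA, ha.tT, ha.hP, ha.idle⟩,
      ⟨hb.hF, hb.hE, fun h => (hb0 h).elim, fun _ => h4, fun _ => h4, hb.fA,
      hb.fT, hb.eA, hb.eT, hb.tA, hb.tT, hb.hP, hb.idle⟩,
      fun t ht => ⟨ht.1, ht.2, ht.3, ht.4⟩, fun t ht => ⟨ht.1, ht.2, ht.3, ht.4⟩,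
      ⟨hab.col, hab.colu, hab.EF, fun _ => by simp [h4, h2], fun _ h => by simp [h3] at h,
        hab.aS, hab.aU, hab.tS,
        hab.tU, hab.grp, LK.of_free (V.not_isL_of_none la) (V.not_isR_of_none lb)⟩,
      fun p _ hp => ⟨hp.col, hp.colu, hp.EF, fun h => by simp [h1, h2],
        fun h _ => by simpa using hp.pS h,
        hp.aS, hp.aU, hp.tS, hp.tU, hp.grp,
        lk_left hp.lk (V.not_isR_of_none la) (V.not_isR_of_none la)⟩,
      fun p _ hp => ⟨hp.col, hp.colu, hp.EF, hp.pS, hp.pU, hp.aS, hp.aU, hp.tS, hp.tU, hp.grp,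
        lk_right hp.lk (V.not_isL_of_none lb) (V.not_isL_of_none lb)⟩⟩
  · exact ⟨⟨ha.hF, ha.hE, ha.p0, ha.p9, ha.pp, ha.fA, ha.fT, ha.eA, ha.eT, ha.tA, ha.tT, ha.hP,
        ha.idle⟩,
      ⟨hb.hF, hb.hE, hb.p0, hb.p9, hb.pp, hb.fA, hb.fT, hb.eA, hb.eT, hb.tA, hb.tT, hb.hP,
        hb.idle⟩,
      fun t ht => ⟨ht.1, ht.2, ht.3, ht.4⟩, fun t ht => ⟨ht.1, ht.2, ht.3, ht.4⟩,
      ⟨hab.col, hab.colu, hab.EF, hab.pS, hab.pU, hab.aS, hab.aU, hab.tS, hab.tU, hab.grp,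
        LK.of_free (V.not_isL_of_none la) (V.not_isR_of_none lb)⟩,
      fun p _ hp => ⟨hp.col, hp.colu, hp.EF, hp.pS, hp.pU, hp.aS, hp.aU, hp.tS, hp.tU, hp.grp,
        lk_left hp.lk (not_isR_lockL k a' b') (V.not_isR_of_none la)⟩,
      fun p _ hp => ⟨hp.col, hp.colu, hp.EF, hp.pS, hp.pU, hp.aS, hp.aU, hp.tS, hp.tU, hp.grp,
        lk_right hp.lk (not_isL_lockR k a' b') (V.not_isL_of_none lb)⟩⟩
  · refine ⟨⟨ha.hF, ha.hE, ha.p0, ha.p9, ha.pp, ha.fA, ha.fT, ha.eA, ha.eT, ha.tA, ha.tT, ha.hP,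
        fun h => ?_⟩,
      ⟨hb.hF, hb.hE, hb.p0, hb.p9, hb.pp, hb.fA, hb.fT, hb.eA, hb.eT, hb.tA, hb.tT, hb.hP,
        fun _ => hidle⟩,
      fun t ht => ⟨ht.1, ht.2, fun _ s' k' φ' h => ?_, fun _ s' k' h => ?_⟩,
      fun t ht => ⟨ht.1, ht.2, fun h => ?_, fun h => ?_⟩,
      ⟨hab.col, hab.colu, hab.EF, hab.pS, hab.pU, hab.aS, hab.aU, hab.tS, hab.tU, hab.grp,
        LK.of_free (V.not_isL_of_none la) (V.not_isR_of_none lb)⟩,
      fun p _ hp => ⟨hp.col, hp.colu, hp.EF, hp.pS, hp.pU, hp.aS, hp.aU, hp.tS, hp.tU, hp.grp,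
        lk_left hp.lk (V.not_isR_of_none la) (V.not_isR_of_none la)⟩,
      fun p _ hp => ⟨hp.col, hp.colu, hp.EF, hp.pS, hp.pU, hp.aS, hp.aU, hp.tS, hp.tU, hp.grp,
        lk_right hp.lk (V.not_isL_of_none lb) (V.not_isL_of_none lb)⟩⟩
    · simp [hA] at h
    · rw [hr] at h
      simp only [Arm.ready.injEq] at h
      obtain ⟨rfl, rfl, rfl⟩ := h
      exact ht.linked hA _ _ rfl
    · simp [hr] at h
    · simp [hT] at h
    · simp [hT] at h

variable {M : ℕ} [NeZero M]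

theorem cat_mid (l r : List (Cell M)) (x : Cell M) : cat (l ++ x :: r) l.length = x := by
  simp [cat, List.getD]

theorem cat_ne (l r : List (Cell M)) (x x' : Cell M) {i : ℕ} (hi : i ≠ l.length) :
    cat (l ++ x' :: r) i = cat (l ++ x :: r) i := by
  unfold cat
  rcases lt_or_gt_of_ne hi with h | h
  · simp [List.getD, List.getElem?_append_left h]
  · obtain ⟨j, rfl⟩ : ∃ j, i = l.length + (j + 1) := ⟨i - l.length - 1, by omega⟩
    simp [List.getD, List.getElem?_append_right]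

theorem cat_mid2 (l r : List (Cell M)) (x y : Cell M) :
    cat (l ++ x :: y :: r) (l.length + 1) = y := by
  have := cat_mid (l ++ [x]) r y
  simpa using this

theorem cat_ne2 (l r : List (Cell M)) (x y x' y' : Cell M) {i : ℕ} (hi : i ≠ l.length)
    (hi' : i ≠ l.length + 1) : cat (l ++ x' :: y' :: r) i = cat (l ++ x :: y :: r) i := by
  rw [cat_ne l (y' :: r) x x' hi]
  have := cat_ne (l ++ [x]) r y y' (i := i) (by simpa using hi')
  simpa using this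

omit [NeZero M] in
theorem blkF_congr {X : Cell (M * BB)} {f g : ℕ → Cell M} {iA iT : ℕ} (h : BlkF X f iA iT)
    (hst : ∀ i < nb M, (g i).a.st = (f i).a.st) (hτ : ∀ i < nb M, (g i).a.mb.τ = (f i).a.mb.τ)
    (hlab : ∀ i < nb M, lab (g i) = lab (f i))
    (harm : ArmOK (g iA).a.mb.arm (g iT).a.mb.arm)
    (heff : eff (g iA).a.mb.arm (g iT).a.mb.arm (g iA).t =
      eff (f iA).a.mb.arm (f iT).a.mb.arm (f iA).t)
    (ht : (g iT).t = (f iT).t) : BlkF X g iA iT where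
  hA := h.hA
  hT := h.hT
  st i hi := by rw [hst i hi, h.st i hi]
  tA i hi := by rw [hτ i hi, h.tA i hi]
  tT i hi := by rw [hτ i hi, h.tT i hi]
  labP i hi := by rw [hτ i hi, hlab i hi]; exact h.labP i hi
  labA := by rw [hlab _ h.hA, h.labA]
  labI i hi := by rw [hτ i hi, hlab i hi]; exact h.labI i hi
  injI i hi j hj := by rw [hτ i hi, hlab i hi, hτ j hj, hlab j hj]; exact h.injI i hi j hj
  arms := harm
  ea := by rw [heff, h.ea]
  et := by rw [ht, h.et]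
  ed := by rw [hlab _ h.hT, h.ed]

/-- Rebuilding a representation around a replaced block. -/
theorem rep_glue {u1 u2 : List (Cell (M * BB))} {X : Cell (M * BB)} {v1 b v2 : List (Cell M)}
    (h1 : Rep v1 u1) (hb : Blk X b) (h2 : Rep v2 u2) : Rep (v1 ++ (b ++ v2)) (u1 ++ X :: u2) :=
  h1.append (Rep.cons hb h2)

/-- Replacing a cell by one with the same static part and content. -/
theorem rep_same {l r : List (Cell M)} {x x' : Cell M} {u : List (Cell (M * BB))}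
    (h : Rep (l ++ x :: r) u) (hst : x'.a.st = x.a.st) (hc : cont x' = cont x) :
    Rep (l ++ x' :: r) u := by
  obtain ⟨u1, X, u2, v1, l', r', v2, rfl, rfl, rfl, h1, ⟨hlen, iA, iT, hb⟩, h2⟩ := h.one
  have hb' : Blk X (l' ++ x' :: r') := by
    refine ⟨by simpa using hlen, iA, iT, hb.congr (fun i _ => ?_) (fun i _ => ?_)⟩
    · by_cases hi : i = l'.length
      · subst hi; rw [cat_mid, cat_mid, hst]
      · rw [cat_ne l' r' x x' hi]
    · by_cases hi : i = l'.length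
      · subst hi; rw [cat_mid, cat_mid, hc]
      · rw [cat_ne l' r' x x' hi]
  simpa using rep_glue h1 hb' h2

theorem rep_same2 {l r : List (Cell M)} {x y x' y' : Cell M} {u : List (Cell (M * BB))}
    (h : Rep (l ++ x :: y :: r) u) (hst : x'.a.st = x.a.st) (hc : cont x' = cont x)
    (hst' : y'.a.st = y.a.st) (hc' : cont y' = cont y) : Rep (l ++ x' :: y' :: r) u := by
  have h1 : Rep ((l ++ [x']) ++ y :: r) u := by simpa using rep_same h hst hc
  simpa using rep_same h1 hst' hc'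

/-- Changing the arms of adjacent tokens `A`, `T`. -/
theorem rep_link {l r : List (Cell M)} {x y : Cell M} {u : List (Cell (M * BB))} {a b : V}
    (h : Rep (l ++ x :: y :: r) u) (hE : x.a.st.E = false) (hA : x.a.mb.τ = Tag.A)
    (hT : y.a.mb.τ = Tag.T) (hsa : a.st = x.a.st) (hsb : b.st = y.a.st)
    (hτa : a.mb.τ = x.a.mb.τ) (hτb : b.mb.τ = y.a.mb.τ) (hda : a.mb.dg = x.a.mb.dg)
    (hdb : b.mb.dg = y.a.mb.dg) (harm : ArmOK a.mb.arm b.mb.arm)
    (hphi : phi a.mb.arm b.mb.arm = phi x.a.mb.arm y.a.mb.arm) :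
    Rep (l ++ ⟨a, x.t, x.d⟩ :: ⟨b, y.t, y.d⟩ :: r) u := by
  rcases h.two with ⟨u1, X, u2, v1, l', r', v2, rfl, rfl, rfl, h1, ⟨hlen, iA, iT, hb⟩, h2, -⟩ |
    ⟨u1, X, Y, u2, v1, l', r', v2, -, -, -, -, -, -, -, hE'⟩
  · have hl : l'.length + 1 < nb M := by simp at hlen; omega
    have hiA : l'.length = iA := (hb.tA _ (by omega)).1 (by rw [cat_mid]; exact hA)
    have hiT : l'.length + 1 = iT := (hb.tT _ hl).1 (by rw [cat_mid2]; exact hT)
    subst hiA hiT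
    have hb' : Blk X (l' ++ ⟨a, x.t, x.d⟩ :: ⟨b, y.t, y.d⟩ :: r') := by
      refine ⟨by simpa using hlen, _, _, blkF_congr hb (fun i _ => ?_) (fun i _ => ?_)
        (fun i _ => ?_) ?_ ?_ ?_⟩
      · by_cases hi : i = l'.length
        · subst hi; rw [cat_mid, cat_mid, hsa]
        by_cases hi' : i = l'.length + 1
        · subst hi'; rw [cat_mid2, cat_mid2, hsb]
        rw [cat_ne2 l' r' x y _ _ hi hi']
      · by_cases hi : i = l'.length
        · subst hi; rw [cat_mid, cat_mid, hτa]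
        by_cases hi' : i = l'.length + 1
        · subst hi'; rw [cat_mid2, cat_mid2, hτb]
        rw [cat_ne2 l' r' x y _ _ hi hi']
      · by_cases hi : i = l'.length
        · subst hi; rw [cat_mid, cat_mid]; simp only [lab, hda]
        by_cases hi' : i = l'.length + 1
        · subst hi'; rw [cat_mid2, cat_mid2]; simp only [lab, hdb]
        rw [cat_ne2 l' r' x y _ _ hi hi']
      · rw [cat_mid, cat_mid2]; exact harm
      · rw [cat_mid, cat_mid2, cat_mid, cat_mid2]; simp only [eff, hphi]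
      · rw [cat_mid2, cat_mid2]
    simpa using rep_glue h1 hb' h2
  · rw [hE] at hE'; cases hE'

/-- Changing arm and payload of the token `A` while `T` is idle. -/
theorem rep_ready {l r : List (Cell M)} {x : Cell M} {u : List (Cell (M * BB))} {a t : V}
    (h : Rep (l ++ x :: r) u) (hA : x.a.mb.τ = Tag.A) (hsa : a.st = x.a.st)
    (hτa : a.mb.τ = x.a.mb.τ) (hda : a.mb.dg = x.a.mb.dg)
    (hidle : ∀ z, ArmOK x.a.mb.arm z → z = Arm.idle) (harm : ArmOK a.mb.arm Arm.idle)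
    (heff : eff a.mb.arm Arm.idle t = eff x.a.mb.arm Arm.idle x.t) :
    Rep (l ++ ⟨a, t, x.d⟩ :: r) u := by
  obtain ⟨u1, X, u2, v1, l', r', v2, rfl, rfl, rfl, h1, ⟨hlen, iA, iT, hb⟩, h2⟩ := h.one
  have hl : l'.length < nb M := by simp at hlen; omega
  have hiA : l'.length = iA := (hb.tA _ hl).1 (by rw [cat_mid]; exact hA)
  subst hiA
  have hiT : iT ≠ l'.length := by
    intro e
    have := (hb.tT _ hb.hT).2 rfl
    rw [e, cat_mid, hA] at this
    cases this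
  have hz : (cat (l' ++ x :: r') iT).a.mb.arm = Arm.idle := by
    have := hb.arms
    rw [cat_mid] at this
    exact hidle _ this
  have hb' : Blk X (l' ++ ⟨a, t, x.d⟩ :: r') := by
    refine ⟨by simpa using hlen, _, _, blkF_congr hb (fun i _ => ?_) (fun i _ => ?_)
      (fun i _ => ?_) ?_ ?_ ?_⟩
    · by_cases hi : i = l'.length
      · subst hi; rw [cat_mid, cat_mid, hsa]
      rw [cat_ne l' r' x _ hi]
    · by_cases hi : i = l'.length
      · subst hi; rw [cat_mid, cat_mid, hτa]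
      rw [cat_ne l' r' x _ hi]
    · by_cases hi : i = l'.length
      · subst hi; rw [cat_mid, cat_mid]; simp only [lab, hda]
      rw [cat_ne l' r' x _ hi]
    · rw [cat_mid, cat_ne l' r' x _ hiT, hz]; exact harm
    · rw [cat_mid, cat_mid, cat_ne l' r' x _ hiT, hz]; exact heff
    · rw [cat_ne l' r' x _ hiT]
  simpa using rep_glue h1 hb' h2

theorem ti (l r : List (Cell M)) (x y : Cell M) (a b : V) (u : List (Cell (M * BB)))
    (hg : Good (l ++ x :: y :: r) u) (h : TI x.a y.a a b ∨ TI a b x.a y.a) :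
    Good (l ++ ⟨a, x.t, x.d⟩ :: ⟨b, y.t, y.d⟩ :: r) u := by
  obtain ⟨hrep, hloc⟩ := hg
  have hx := hloc.1 x (by simp)
  have hy := hloc.1 y (by simp)
  have hxy := hloc.pair
  have hp : Pres x.a y.a a b := by
    rcases h with h | h
    · exact pres_fwd h hx.1 hy.1 hxy
    · exact pres_bwd h hx.1 hy.1 hxy
  refine ⟨?_, hloc.replace2 ⟨hp.o1, hp.p1 _ hx.2⟩ ⟨hp.o2, hp.p2 _ hy.2⟩ hp.o12 hp.hl hp.hr⟩
  rcases h with h | h
  · obtain ⟨la, lb, h | ⟨k, hk, rfl, rfl⟩ | ⟨hE, hA, hT, hidle, s, k, φ, hr, rfl, rfl⟩⟩ := h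
    · obtain ⟨-, -, -, -, -, rfl, rfl⟩ := h
      exact rep_same2 hrep rfl rfl rfl rfl
    · exact rep_same2 hrep rfl rfl rfl rfl
    · refine rep_link hrep hE hA hT rfl rfl rfl rfl rfl rfl
        (Or.inr (Or.inr ⟨s, k, φ, rfl, rfl⟩)) ?_
      rw [hr, hidle]; rfl
  · obtain ⟨xa, xt, xd⟩ := x
    obtain ⟨ya, yt, yd⟩ := y
    obtain ⟨la, lb, h | ⟨k, hk, rfl, rfl⟩ | ⟨hE, hA, hT, hidle, s, k, φ, hr, rfl, rfl⟩⟩ := h
    · obtain ⟨-, -, -, -, -, rfl, rfl⟩ := h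
      exact rep_same2 hrep rfl rfl rfl rfl
    · exact rep_same2 hrep rfl rfl rfl rfl
    · refine rep_link hrep hE hA hT rfl rfl rfl rfl rfl rfl
        (Or.inr (Or.inl ⟨s, k, φ, hr, hidle⟩)) ?_
      rw [hr, hidle]; rfl

theorem tiv (l r : List (Cell M)) (x : Cell M) (a t : V) (u : List (Cell (M * BB)))
    (hg : Good (l ++ x :: r) u) (h : TIV x.a x.t a t ∨ TIV a t x.a x.t) :
    Good (l ++ ⟨a, t, x.d⟩ :: r) u := by
  obtain ⟨hrep, hloc⟩ := hg
  obtain ⟨ha, hp⟩ := hloc.1 x (by simp)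
  obtain ⟨xa, xt, xd⟩ := x
  rcases h with h | h
  · have hst := h.st_eq.2
    obtain ⟨la, hA, hidle, s, k, φ, hsk, rfl, ht⟩ := h
    simp only at la hA hidle ht hst ha hp
    refine ⟨rep_ready hrep hA rfl rfl rfl (fun z hz => ?_)
      (Or.inr (Or.inl ⟨s, k, φ, rfl, rfl⟩)) ?_, hloc.replace1 ⟨⟨ha.hF, ha.hE, ha.p0, ha.p9, ha.pp,
        ha.fA, ha.fT, ha.eA, ha.eT, ha.tA, ha.tT, ha.hP, fun h => ?_⟩,
        ⟨fun h => ?_, fun h => ?_, fun _ s' k' φ' h => ?_, fun _ s' k' h => ?_⟩⟩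
      (fun p _ hp => ⟨hp.col, hp.colu, hp.EF, hp.pS, hp.pU, hp.aS, hp.aU, hp.tS, hp.tU, hp.grp,
        lk_left hp.lk (V.not_isR_of_none la) (V.not_isR_of_none la)⟩)
      (fun p _ hp => ⟨hp.col, hp.colu, hp.EF, hp.pS, hp.pU, hp.aS, hp.aU, hp.tS, hp.tU, hp.grp,
        lk_right hp.lk (V.not_isL_of_none la) (V.not_isL_of_none la)⟩)⟩
    · simp only [hidle] at hz
      rcases hz with ⟨-, h⟩ | ⟨_, _, _, h, -⟩ | ⟨_, _, _, h, -⟩
      · exact h
      · cases h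
      · cases h
    · simp only [hidle, ht]; rfl
    · simp [V.setArm, hA] at h
    · simp [V.setArm, hA] at h
    · simp only [hst]; exact hp.col hA
    · simp only [V.setArm, Arm.ready.injEq] at h
      obtain ⟨rfl, rfl, rfl⟩ := h
      exact hsk
    · simp [V.setArm] at h
  · have hst := h.st_eq.2
    obtain ⟨la, hA, hidle, s, k, φ, hsk, hxa, ht⟩ := h
    simp only at hxa hsk ht hst ha hp
    subst hxa
    refine ⟨rep_ready hrep hA rfl rfl rfl (fun z hz => ?_)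
      (Or.inl ⟨hidle, rfl⟩) ?_, hloc.replace1 ⟨⟨ha.hF, ha.hE, ha.p0, ha.p9, ha.pp,
        ha.fA, ha.fT, ha.eA, ha.eT, ha.tA, ha.tT, ha.hP, fun _ => hidle⟩,
        ⟨fun h => ?_, fun h => ?_, fun _ s' k' φ' h => ?_, fun _ s' k' h => ?_⟩⟩
      (fun p _ hp => ⟨hp.col, hp.colu, hp.EF, hp.pS, hp.pU, hp.aS, hp.aU, hp.tS, hp.tU, hp.grp,
        lk_left hp.lk (V.not_isR_of_none la) (V.not_isR_of_none la)⟩)
      (fun p _ hp => ⟨hp.col, hp.colu, hp.EF, hp.pS, hp.pU, hp.aS, hp.aU, hp.tS, hp.tU, hp.grp,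
        lk_right hp.lk (V.not_isL_of_none la) (V.not_isL_of_none la)⟩)⟩
    · simp only [V.setArm] at hz
      rcases hz with ⟨h, -⟩ | ⟨_, _, _, -, h⟩ | ⟨_, _, _, h, -⟩
      · cases h
      · exact h
      · cases h
    · simp only [hidle, ht]; rfl
    · simp [hA] at h
    · simp only [← hst]; exact hp.col hA
    · simp [hidle] at h
    · simp [hidle] at h

end InvI

theorem invIStmt (M : ℕ) [NeZero M] : InvIStmt M := ⟨InvI.ti, InvI.tiv⟩

end Crest.Agent.R176
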