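import Crest.Agent.R176.CBasic

/-! Row 176: invariance of good words under the swap rule. -/

set_option autoImplicit false

namespace Crest.Agent.R176

namespace InvS

theorem succ_mod (κ : Fin qq) :
    (κ.val + 1 < qq ∧ (κ.val + 1) % qq = κ.val + 1) ∨
      (κ.val + 1 = qq ∧ (κ.val + 1) % qq = 0) := by
  have := κ.isLt
  rcases Nat.lt_or_ge (κ.val + 1) qq with h | h
  · exact Or.inl ⟨h, Nat.mod_eq_of_lt h⟩
  · have h' : κ.val + 1 = qq := by omega
    exact Or.inr ⟨h', by rw [h', Nat.mod_self]⟩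

theorem par {a b : V} (h : b.st.κ.val = (a.st.κ.val + 1) % qq) :
    (a.st.κ.val % 2 = 0 → b.st.κ.val = a.st.κ.val + 1) ∧
      (a.st.κ.val % 2 = 0 ↔ b.st.κ.val % 2 ≠ 0) := by
  have h1 := succ_mod a.st.κ
  have h2 := qq_eq
  omega

theorem iff_swap {p q : Prop} (h : p ↔ ¬ q) : q ↔ ¬ p := by tauto

theorem allowed_sw {a b : V} (h : Allowed Kind.sw a b) : a.π = true ∧
    ((a.st.E = false ∧ (a.st.κ.val % 2 = 0 ∨ (a.mb.τ ≠ Tag.P ∧ b.mb.τ ≠ Tag.P))) ∨
      (a.st.E = true ∧ a.mb.τ = Tag.T ∧ b.mb.τ = Tag.T ∧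
        ∃ φ φ', a.mb.arm = Arm.armed Side.L Kind.sw φ ∧ b.mb.arm = Arm.armed Side.R Kind.sw φ')) := by
  obtain ⟨hp, h | h | h | h | ⟨k0, -, h⟩⟩ := h
  · exact ⟨hp, Or.inl h.2⟩
  · exact absurd h.1 (by decide)
  · exact absurd h.1 (by decide)
  · exact ⟨hp, Or.inr h.2⟩
  · cases k0 <;> simp [derGo] at h

theorem flip_eq {a : V} {s : Side} {sv : Mb} (h : a.lk = mkLk s Kind.sw sv) :
    a.flip = { a with mb := sv, lk := Lk.sw s a.mb } := by
  unfold V.flip
  rw [h]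
  rfl

theorem lk_left {p a : V} {k : Kind} (hs : a.sk = some (Side.L, k)) (h : LK p a) :
    LK p a.flip := by
  have h1 : ¬ a.isR := V.isL.not_isR ⟨k, hs⟩
  refine LK.of_free (fun hp => h1 (h.1.1 hp)) ?_
  rintro ⟨k', hk'⟩
  exact h1 ⟨k', by simpa using hk'⟩

theorem lk_right {p b : V} {k : Kind} (hs : b.sk = some (Side.R, k)) (h : LK b p) :
    LK b.flip p := by
  have h1 : ¬ b.isL := fun h' => h'.not_isR ⟨k, hs⟩
  refine LK.of_free ?_ (fun hp => h1 (h.1.2 hp))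
  rintro ⟨k', hk'⟩
  exact h1 ⟨k', by simpa using hk'⟩

/-- the local checks, inside a block -/
theorem loc_in {a b t u : V} (ha : OK1 a) (hb : OK1 b) (hat : OKp a t) (hbu : OKp b u)
    (hab : OK2 a b) (hsa : a.sk = some (Side.L, Kind.sw)) (hsb : b.sk = some (Side.R, Kind.sw))
    (hE : a.st.E = false) :
    (OK1 a.flip ∧ OKp a.flip u) ∧ (OK1 b.flip ∧ OKp b.flip t) ∧ OK2 a.flip b.flip ∧
      (∀ p : V, OK1 p → OK2 p a → OK2 p a.flip) ∧ (∀ p : V, OK1 p → OK2 b p → OK2 b.flip p) := by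
  obtain ⟨hal, hla, hlb⟩ := hab.lk.of_sk hsa
  obtain ⟨hπ, hal⟩ := allowed_sw hal
  have hev : a.st.κ.val % 2 = 0 ∨ (a.mb.τ ≠ Tag.P ∧ b.mb.τ ≠ Tag.P) := by
    rcases hal with h | h
    · exact h.2
    · rw [hE] at h
      exact absurd h.1 (by decide)
  have hp := par hab.col
  have hu : b.st.κu = a.st.κu := by
    refine Fin.ext ?_
    rw [hab.colu, hE]
    simpa using Nat.mod_eq_of_lt a.st.κu.isLt
  have hF : b.st.F = false := by rw [← hab.EF, hE]
  have ea := flip_eq hla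
  have eb := flip_eq hlb
  have mA : a.flip.mb = ⟨b.mb.τ, b.mb.dg, b.mb.arm,
      (a.mb.sA && decide (a.mb.τ ≠ Tag.A)) || decide (b.mb.τ = Tag.A),
      (a.mb.sT && decide (a.mb.τ ≠ Tag.T)) || decide (b.mb.τ = Tag.T)⟩ := by
    rw [ea]
    simp [svL, hE]
  have mB : b.flip.mb = ⟨a.mb.τ, a.mb.dg, a.mb.arm, b.mb.sA, b.mb.sT⟩ := by
    rw [eb]
    simp [svR, hE]
  have aS := hab.aS hE
  have aU := hab.aU hE
  have tS := hab.tS hE
  have tU := hab.tU hE
  have tA := ha.tA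
  have tT := ha.tT
  refine ⟨⟨⟨?_, ?_, ?_, ?_, ?_, ?_, ?_, ?_, ?_, ?_, ?_, ?_, ?_⟩, ⟨?_, ?_, ?_, ?_⟩⟩,
    ⟨⟨?_, ?_, ?_, ?_, ?_, ?_, ?_, ?_, ?_, ?_, ?_, ?_, ?_⟩, ⟨?_, ?_, ?_, ?_⟩⟩,
    ⟨?_, ?_, ?_, ?_, ?_, ?_, ?_, ?_, ?_, ?_, ?_⟩,
    fun p _ hp' => ⟨?_, ?_, ?_, ?_, ?_, ?_, ?_, ?_, ?_, ?_, lk_left hsa hp'.lk⟩,
    fun p _ hp' => ⟨?_, ?_, ?_, ?_, ?_, ?_, ?_, ?_, ?_, ?_, lk_right hsb hp'.lk⟩⟩
  all_goals try simp only [V.flip_st, V.flip_π, V.flip_sπ, mA, mB]
  · exact ha.hF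
  · exact ha.hE
  · exact ha.p0
  · exact ha.p9
  · exact ha.pp
  · intro h
    rw [ha.fA h]
    by_cases h1 : a.mb.τ = Tag.A <;> simp [h1]
  · intro h
    rw [ha.fT h]
    by_cases h1 : a.mb.τ = Tag.T <;> simp [h1]
  · simp [hE]
  · simp [hE]
  · intro h
    simp [h]
  · intro h
    simp [h]
  · intro h
    have h1 := hb.hP h
    have h2 : a.st.κ.val % 2 = 0 := hev.resolve_right fun h' => h'.2 h
    have h3 := hp.1 h2
    omega
  · exact hb.idle
  · exact hbu.blank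
  · intro h
    rw [hbu.col h, hu]
  · exact hbu.ready
  · exact hbu.linked
  · exact hb.hF
  · exact hb.hE
  · exact hb.p0
  · exact hb.p9
  · exact hb.pp
  · simp [hF]
  · simp [hF]
  · exact hb.eA
  · exact hb.eT
  · intro h
    simp [aS, tA h]
  · intro h
    simp [tS, tT h]
  · intro h
    have h1 := ha.hP h
    have h2 : a.st.κ.val % 2 = 0 := hev.resolve_right fun h' => h'.1 h
    have h3 := hp.1 h2
    omega
  · exact ha.idle
  · exact hat.blank
  · intro h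
    rw [hat.col h, hu]
  · exact hat.ready
  · exact hat.linked
  · exact hab.col
  · exact hab.colu
  · exact hab.EF
  · exact hab.pS
  · exact hab.pU
  · intro _
    rw [aS]
    by_cases h1 : a.mb.τ = Tag.A
    · simp [h1, tA h1]
    · simp [h1]
  · intro _ h1
    by_cases h2 : b.mb.τ = Tag.A
    · have := aU h2
      rw [tA h1] at this
      exact absurd this (by decide)
    · simp [h1, h2]
  · intro _
    rw [tS]
    by_cases h1 : a.mb.τ = Tag.T
    · simp [h1, tT h1]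
    · simp [h1]
  · intro _ h1
    by_cases h2 : b.mb.τ = Tag.T
    · have := tU h2
      rw [tT h1] at this
      exact absurd this (by decide)
    · simp [h1, h2]
  · exact fun h => iff_swap (hab.grp h)
  · refine ⟨⟨fun _ => ⟨_, by simpa using hsb⟩, fun _ => ⟨_, by simpa using hsa⟩⟩,
      fun _ => ⟨Kind.sw, ⟨by simpa using hπ, Or.inl ⟨rfl, by simpa using hE, ?_⟩⟩, ?_, ?_⟩⟩
    · simp only [V.flip_st, mA, mB]
      exact hev.imp id And.symm
    · have e1 : svL a.flip b.flip = a.mb := by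
        unfold svL
        rw [if_neg (by simp [hE]), mA, mB]
        refine Mb.ext rfl rfl rfl ?_ ?_
        · by_cases h1 : a.mb.τ = Tag.A
          · simp [h1, tA h1]
          · by_cases h2 : b.mb.τ = Tag.A
            · simp [h1, h2, aU h2]
            · simp [h1, h2]
        · by_cases h1 : a.mb.τ = Tag.T
          · simp [h1, tT h1]
          · by_cases h2 : b.mb.τ = Tag.T
            · simp [h1, h2, tU h2]
            · simp [h1, h2]
      rw [e1, ea]
      rfl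
    · have e1 : svR a.flip b.flip = b.mb := by
        unfold svR
        rw [if_neg (by simp [hE]), mA, mB]
      rw [e1, eb]
      rfl
  · exact hp'.col
  · exact hp'.colu
  · exact hp'.EF
  · exact hp'.pS
  · exact hp'.pU
  · intro h
    rw [hp'.aS h]
    by_cases h1 : a.mb.τ = Tag.A
    · simp [h1, hp'.aU h h1]
    · simp [h1]
  · intro h h1
    have h2 := hp'.aS h
    rw [aU h1] at h2
    exact (Bool.or_eq_false_iff.1 h2.symm).1
  · intro h
    rw [hp'.tS h]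
    by_cases h1 : a.mb.τ = Tag.T
    · simp [h1, hp'.tU h h1]
    · simp [h1]
  · intro h h1
    have h2 := hp'.tS h
    rw [tU h1] at h2
    exact (Bool.or_eq_false_iff.1 h2.symm).1
  · intro h
    have h1 := (par hp'.col).2.1 h
    have h2 := hev.resolve_left h1
    exact iff_of_true ((hp'.grp h).2 h2.1) h2.2
  · exact hp'.col
  · exact hp'.colu
  · exact hp'.EF
  · exact hp'.pS
  · exact hp'.pU
  · exact hp'.aS
  · exact hp'.aU
  · exact hp'.tS
  · exact hp'.tU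
  · intro h
    have h2 := hev.resolve_left fun h1 => hp.2.1 h1 h
    exact iff_of_false h2.1 fun h3 => h2.2 ((hp'.grp h).2 h3)

/-- the local checks, at a block boundary -/
theorem loc_bd {a b t u : V} (ha : OK1 a) (hb : OK1 b)
    (hab : OK2 a b) (hsa : a.sk = some (Side.L, Kind.sw)) (hsb : b.sk = some (Side.R, Kind.sw))
    (hE : a.st.E = true) :
    (OK1 a.flip ∧ OKp a.flip u) ∧ (OK1 b.flip ∧ OKp b.flip t) ∧ OK2 a.flip b.flip ∧
      (∀ p : V, OK1 p → OK2 p a → OK2 p a.flip) ∧ (∀ p : V, OK1 p → OK2 b p → OK2 b.flip p) := by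
  obtain ⟨hal, hla, hlb⟩ := hab.lk.of_sk hsa
  obtain ⟨hπ, hal⟩ := allowed_sw hal
  obtain ⟨hTa, hTb, φ, φ', hφ, hφ'⟩ : a.mb.τ = Tag.T ∧ b.mb.τ = Tag.T ∧
      ∃ φ φ', a.mb.arm = Arm.armed Side.L Kind.sw φ ∧ b.mb.arm = Arm.armed Side.R Kind.sw φ' := by
    rcases hal with h | h
    · rw [hE] at h
      exact absurd h.1 (by decide)
    · exact h.2
  have ea := flip_eq hla
  have eb := flip_eq hlb
  have mA : a.flip.mb = ⟨a.mb.τ, b.mb.dg, Arm.armed Side.L Kind.sw (!φ), a.mb.sA, a.mb.sT⟩ := by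
    rw [ea]
    simp [svL, hE, hφ, Arm.tog]
  have mB : b.flip.mb = ⟨b.mb.τ, a.mb.dg, Arm.armed Side.R Kind.sw (!φ'), b.mb.sA, b.mb.sT⟩ := by
    rw [eb]
    simp [svR, hE, hφ', Arm.tog]
  refine ⟨⟨⟨?_, ?_, ?_, ?_, ?_, ?_, ?_, ?_, ?_, ?_, ?_, ?_, ?_⟩, ⟨?_, ?_, ?_, ?_⟩⟩,
    ⟨⟨?_, ?_, ?_, ?_, ?_, ?_, ?_, ?_, ?_, ?_, ?_, ?_, ?_⟩, ⟨?_, ?_, ?_, ?_⟩⟩,
    ⟨?_, ?_, ?_, ?_, ?_, ?_, ?_, ?_, ?_, ?_, ?_⟩,
    fun p _ hp' => ⟨?_, ?_, ?_, ?_, ?_, ?_, ?_, ?_, ?_, ?_, lk_left hsa hp'.lk⟩,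
    fun p _ hp' => ⟨?_, ?_, ?_, ?_, ?_, ?_, ?_, ?_, ?_, ?_, lk_right hsb hp'.lk⟩⟩
  all_goals try simp only [V.flip_st, V.flip_π, V.flip_sπ, mA, mB]
  · exact ha.hF
  · exact ha.hE
  · exact ha.p0
  · exact ha.p9
  · exact ha.pp
  · exact ha.fA
  · exact ha.fT
  · exact ha.eA
  · exact ha.eT
  · exact ha.tA
  · exact ha.tT
  · simp [hTa]
  · simp [hTa]
  · simp [hTa]
  · simp [hTa]
  · simp [hTa]
  · simp [hTa]
  · exact hb.hF
  · exact hb.hE
  · exact hb.p0
  · exact hb.p9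
  · exact hb.pp
  · exact hb.fA
  · exact hb.fT
  · exact hb.eA
  · exact hb.eT
  · exact hb.tA
  · exact hb.tT
  · simp [hTb]
  · simp [hTb]
  · simp [hTb]
  · simp [hTb]
  · simp [hTb]
  · simp [hTb]
  · exact hab.col
  · exact hab.colu
  · exact hab.EF
  · exact hab.pS
  · exact hab.pU
  · exact hab.aS
  · exact hab.aU
  · exact hab.tS
  · exact hab.tU
  · exact hab.grp
  · refine ⟨⟨fun _ => ⟨_, by simpa using hsb⟩, fun _ => ⟨_, by simpa using hsa⟩⟩,
      fun _ => ⟨Kind.sw, ⟨by simpa using hπ, Or.inr (Or.inr (Or.inr (Or.inl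
        ⟨Or.inl rfl, by simpa using hE, ?_, ?_, !φ, !φ', ?_, ?_⟩)))⟩, ?_, ?_⟩⟩
    · rw [mA, hTa]
    · rw [mB, hTb]
    · rw [mA]
    · rw [mB]
    · have e1 : svL a.flip b.flip = a.mb := by
        unfold svL
        rw [if_pos (by simp [hE]), mA, mB]
        refine Mb.ext rfl rfl ?_ rfl rfl
        simp [Arm.tog, hφ]
      rw [e1, ea]
      rfl
    · have e1 : svR a.flip b.flip = b.mb := by
        unfold svR
        rw [if_pos (by simp [hE]), mA, mB]
        refine Mb.ext rfl rfl ?_ rfl rfl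
        simp [Arm.tog, hφ']
      rw [e1, eb]
      rfl
  · exact hp'.col
  · exact hp'.colu
  · exact hp'.EF
  · exact hp'.pS
  · exact hp'.pU
  · exact hp'.aS
  · exact hp'.aU
  · exact hp'.tS
  · exact hp'.tU
  · exact hp'.grp
  · exact hp'.col
  · exact hp'.colu
  · exact hp'.EF
  · exact hp'.pS
  · exact hp'.pU
  · exact hp'.aS
  · exact hp'.aU
  · exact hp'.tS
  · exact hp'.tU
  · exact hp'.grp

variable {M : ℕ}

theorem lab_of_cont {x y : Cell M} (h : cont x = cont y) : lab x = lab y := by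
  have h1 : x.a.mb.dg = y.a.mb.dg := congrArg Ct.dg h
  have h2 : x.d = y.d := congrArg Ct.d h
  rw [lab, lab, h1, h2]

theorem blk_perm {X : Cell (M * BB)} {f g : ℕ → Cell M} {iA iT : ℕ} (h : BlkF X f iA iT)
    (σ : ℕ → ℕ) (hσ : ∀ j, σ (σ j) = j) (hlt : ∀ j < nb M, σ j < nb M)
    (hst : ∀ j < nb M, (g j).a.st = (f j).a.st) (hc : ∀ j < nb M, cont (g j) = cont (f (σ j)))
    (hP : ∀ j < nb M, (f (σ j)).a.mb.τ = Tag.P → σ j / 2 = j / 2) :
    BlkF X g (σ iA) (σ iT) := by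
  have hτ : ∀ j < nb M, (g j).a.mb.τ = (f (σ j)).a.mb.τ := fun j hj => congrArg Ct.τ (hc j hj)
  have hl : ∀ j < nb M, lab (g j) = lab (f (σ j)) := fun j hj => lab_of_cont (hc j hj)
  have hiff : ∀ j i, σ j = i ↔ j = σ i := fun j i =>
    ⟨fun e => by rw [← e, hσ], fun e => by rw [e, hσ]⟩
  have cA : cont (g (σ iA)) = cont (f iA) := by rw [hc _ (hlt _ h.hA), hσ]
  have cT : cont (g (σ iT)) = cont (f iT) := by rw [hc _ (hlt _ h.hT), hσ]
  have aA : (g (σ iA)).a.mb.arm = (f iA).a.mb.arm := congrArg Ct.arm cA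
  have aT : (g (σ iT)).a.mb.arm = (f iT).a.mb.arm := congrArg Ct.arm cT
  have tA : (g (σ iA)).t = (f iA).t := congrArg Ct.t cA
  have tT : (g (σ iT)).t = (f iT).t := congrArg Ct.t cT
  refine ⟨hlt _ h.hA, hlt _ h.hT, fun j hj => by rw [hst j hj, h.st j hj],
    fun j hj => by rw [hτ j hj, h.tA _ (hlt j hj), hiff],
    fun j hj => by rw [hτ j hj, h.tT _ (hlt j hj), hiff], fun j hj hjP => ?_,
    by rw [lab_of_cont cA, h.labA], fun j hj hjI => ?_, fun i hi j hj hiI hjI e => ?_,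
    by rw [aA, aT]; exact h.arms, by rw [aA, aT, tA]; exact h.ea, by rw [tT]; exact h.et,
    by rw [lab_of_cont cT]; exact h.ed⟩
  · rw [hτ j hj] at hjP
    rw [hl j hj, h.labP _ (hlt j hj) hjP, hP j hj hjP]
  · rw [hτ j hj] at hjI
    rw [hl j hj]
    exact h.labI _ (hlt j hj) hjI
  · rw [hτ i hi] at hiI
    rw [hτ j hj] at hjI
    rw [hl i hi, hl j hj] at e
    have := h.injI _ (hlt i hi) _ (hlt j hj) hiI hjI e
    rw [← hσ i, this, hσ]

theorem blk_updT {X X' : Cell (M * BB)} {f g : ℕ → Cell M} {iA iT : ℕ} (h : BlkF X f iA iT)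
    {s : Side} {k : Kind} {φ : Bool} (harm : (f iT).a.mb.arm = Arm.armed s k φ)
    (hg : ∀ j, j ≠ iT → g j = f j) (hst : (g iT).a.st = (f iT).a.st)
    (hτ : (g iT).a.mb.τ = Tag.T) (harm' : (g iT).a.mb.arm = Arm.armed s k (!φ))
    (ea : X'.a = X.a.flip) (et : X'.t = (g iT).t) (ed : X'.d.val = lab (g iT)) :
    BlkF X' g iA iT := by
  have hT : (f iT).a.mb.τ = Tag.T := (h.tT _ h.hT).2 rfl
  have hA : (f iA).a.mb.τ = Tag.A := (h.tA _ h.hA).2 rfl
  have hne : iA ≠ iT := by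
    rintro rfl
    rw [hT] at hA
    cases hA
  have hτ' : ∀ j, (g j).a.mb.τ = (f j).a.mb.τ := by
    intro j
    by_cases hj : j = iT
    · rw [hj, hτ, hT]
    · rw [hg j hj]
  have hne' : ∀ j, (f j).a.mb.τ ≠ Tag.T → g j = f j := fun j hj => hg j (by
    rintro rfl
    exact hj hT)
  have hlk : (f iA).a.mb.arm = Arm.linked s k := by
    rcases h.arms with ⟨-, h1⟩ | ⟨_, _, _, -, h1⟩ | ⟨s', k', φ', h1, h2⟩
    · rw [harm] at h1
      cases h1
    · rw [harm] at h1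
      cases h1
    · rw [harm] at h2
      cases h2
      exact h1
  refine ⟨h.hA, h.hT, fun j hj => ?_, fun j hj => by rw [hτ', h.tA j hj],
    fun j hj => by rw [hτ', h.tT j hj], fun j hj hjP => ?_, by rw [hg _ hne, h.labA],
    fun j hj hjI => ?_, fun i hi j hj hiI hjI e => ?_, ?_, ?_, et, ed⟩
  · rw [ea, V.flip_st, ← h.st j hj]
    by_cases hj' : j = iT
    · rw [hj', hst]
    · rw [hg j hj']
  · rw [hτ'] at hjP
    rw [hne' j (by rw [hjP]; decide)]
    exact h.labP j hj hjP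
  · rw [hτ'] at hjI
    rw [hne' j (by rw [hjI]; decide)]
    exact h.labI j hj hjI
  · rw [hτ'] at hiI hjI
    rw [hne' i (by rw [hiI]; decide), hne' j (by rw [hjI]; decide)] at e
    exact h.injI i hi j hj hiI hjI e
  · rw [hg _ hne, hlk, harm']
    exact Or.inr (Or.inr ⟨s, k, !φ, rfl, rfl⟩)
  · rw [ea, h.ea, hg _ hne, hlk, harm, harm']
    cases φ <;> simp [eff, phi]

variable [NeZero M]

theorem cat_mid (l r : List (Cell M)) (x : Cell M) : cat (l ++ x :: r) l.length = x := by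
  simp [cat]

theorem cat_ne (l r : List (Cell M)) (x x' : Cell M) {j : ℕ} (hj : j ≠ l.length) :
    cat (l ++ x' :: r) j = cat (l ++ x :: r) j := by
  unfold cat
  rcases Nat.lt_or_ge j l.length with h | h
  · simp [List.getD, List.getElem?_append_left h]
  · obtain ⟨k, rfl⟩ : ∃ k, j = l.length + (k + 1) := ⟨j - l.length - 1, by omega⟩
    simp [List.getD, List.getElem?_append_right]

theorem cat_mid2 (l r : List (Cell M)) (x y : Cell M) :
    cat (l ++ x :: y :: r) (l.length + 1) = y := by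
  have := cat_mid (l ++ [x]) r y
  simpa using this

theorem cat_ne2 (l r : List (Cell M)) (x y x' y' : Cell M) {j : ℕ} (hj : j ≠ l.length)
    (hj' : j ≠ l.length + 1) : cat (l ++ x' :: y' :: r) j = cat (l ++ x :: y :: r) j := by
  rw [cat_ne l (y' :: r) x x' hj]
  have := cat_ne (l ++ [x]) r y y' (j := j) (by simpa using hj')
  simpa using this

end InvS

open InvS in
/-- C-INVS -/
theorem invSStmt (M : ℕ) [NeZero M] : InvSStmt M := by
  intro l r x y u hG hsx hsy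
  obtain ⟨hR, hL⟩ := hG
  have hx := hL.1 x (by simp)
  have hy := hL.1 y (by simp)
  have hxy : OK2 x.a y.a := hL.pair
  obtain ⟨hal, hla, hlb⟩ := hxy.lk.of_sk hsx
  obtain ⟨-, hal⟩ := allowed_sw hal
  have ea := flip_eq hla
  have eb := flip_eq hlb
  rcases hR.two with ⟨u1, X, u2, v1, l', r', v2, rfl, rfl, rfl, h1, ⟨hlen, iA, iT, hB⟩, h2, hE⟩ |
    ⟨u1, X, Y, u2, v1, l', r', v2, rfl, rfl, rfl, h1, ⟨hlen, iA, iT, hB⟩, ⟨hlen', jA, jT, hB'⟩,
      h2, hE⟩
  · obtain ⟨k1, k2, k3, k4, k5⟩ := loc_in hx.1 hy.1 hx.2 hy.2 hxy hsx hsy hE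
    refine ⟨_, ⟨?_, hL.replace2 k1 k2 k3 k4 k5⟩, Sys.Eqv.refl _⟩
    have hev : x.a.st.κ.val % 2 = 0 ∨ (x.a.mb.τ ≠ Tag.P ∧ y.a.mb.τ ≠ Tag.P) := by
      rcases hal with h | h
      · exact h.2
      · rw [hE] at h
        exact absurd h.1 (by decide)
    have hi : l'.length + 1 < nb M := by
      rw [← hlen]
      simp
    have hκ : x.a.st.κ.val % 2 = l'.length % 2 := by
      have := hB.st l'.length (by omega)
      rw [cat_mid] at this
      rw [this]
      exact Nat.mod_mod_of_dvd _ ⟨BB, qq_eq⟩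
    have hBlk : Blk X (l' ++ (⟨x.a.flip, y.t, y.d⟩ : Cell M) :: ⟨y.a.flip, x.t, x.d⟩ :: r') := by
      refine ⟨by simpa using hlen, _, _, blk_perm hB (Equiv.swap l'.length (l'.length + 1))
        (Equiv.swap_apply_self _ _) ?_ ?_ ?_ ?_⟩
      · intro j hj
        rw [Equiv.swap_apply_def]
        split_ifs <;> omega
      · intro j _
        by_cases e1 : j = l'.length
        · rw [e1, cat_mid, cat_mid, V.flip_st]
        · by_cases e2 : j = l'.length + 1
          · rw [e2, cat_mid2, cat_mid2, V.flip_st]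
          · rw [cat_ne2 l' r' x y _ _ e1 e2]
      · intro j _
        by_cases e1 : j = l'.length
        · rw [e1, Equiv.swap_apply_left, cat_mid, cat_mid2, ea]
          simp [cont, svL, hE]
        · by_cases e2 : j = l'.length + 1
          · rw [e2, Equiv.swap_apply_right, cat_mid2, cat_mid, eb]
            simp [cont, svR, hE]
          · rw [Equiv.swap_apply_of_ne_of_ne e1 e2, cat_ne2 l' r' x y _ _ e1 e2]
      · intro j _ hP
        by_cases e1 : j = l'.length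
        · rw [e1, Equiv.swap_apply_left] at hP ⊢
          rw [cat_mid2] at hP
          have := hev.resolve_right fun h' => h'.2 hP
          omega
        · by_cases e2 : j = l'.length + 1
          · rw [e2, Equiv.swap_apply_right] at hP ⊢
            rw [cat_mid] at hP
            have := hev.resolve_right fun h' => h'.1 hP
            omega
          · rw [Equiv.swap_apply_of_ne_of_ne e1 e2]
    have := h1.append (Rep.cons hBlk h2)
    simpa using this
  · obtain ⟨k1, k2, k3, k4, k5⟩ := loc_bd (t := x.t) (u := y.t) hx.1 hy.1 hxy hsx hsy hE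
    obtain ⟨hTa, hTb, φ, φ', hφ, hφ'⟩ : x.a.mb.τ = Tag.T ∧ y.a.mb.τ = Tag.T ∧
        ∃ φ φ', x.a.mb.arm = Arm.armed Side.L Kind.sw φ ∧
          y.a.mb.arm = Arm.armed Side.R Kind.sw φ' := by
      rcases hal with h | h
      · rw [hE] at h
        exact absurd h.1 (by decide)
      · exact h.2
    have hi : l'.length < nb M := by
      rw [← hlen]
      simp
    have h0 : 0 < nb M := by omega
    have cx : cat (l' ++ [x]) l'.length = x := cat_mid _ _ _
    have cy : cat (y :: r') 0 = y := cat_mid [] _ _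
    have eT : l'.length = iT := (hB.tT _ hi).1 (by rw [cx, hTa])
    have eT' : 0 = jT := (hB'.tT _ h0).1 (by rw [cy, hTb])
    subst eT eT'
    have mA := cat_mem (v := l' ++ [x]) (i := iA) (by rw [hlen]; exact hB.hA)
    have mA' := cat_mem (v := y :: r') (i := jA) (by rw [hlen']; exact hB'.hA)
    have sX : X.a.sk = some (Side.L, Kind.sw) :=
      hB.sk_of_armed (hL.1 _ (by simp at mA ⊢; tauto)).2 (by rw [cx, hφ])
    have sY : Y.a.sk = some (Side.R, Kind.sw) :=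
      hB'.sk_of_armed (hL.1 _ (by simp at mA' ⊢; tauto)).2 (by rw [cy, hφ'])
    refine ⟨u1 ++ ⟨X.a.flip, Y.t, Y.d⟩ :: ⟨Y.a.flip, X.t, X.d⟩ :: u2,
      ⟨?_, hL.replace2 k1 k2 k3 k4 k5⟩,
      (Sys.Step.two u1 u2 X Y _ _ (Or.inr (Or.inl ⟨sX, sY, rfl, rfl⟩))).eqv⟩
    have b1 : Blk (⟨X.a.flip, Y.t, Y.d⟩ : Cell (M * BB))
        (l' ++ [(⟨x.a.flip, y.t, y.d⟩ : Cell M)]) := by
      refine ⟨by simpa using hlen, iA, l'.length, blk_updT hB (s := Side.L) (k := Kind.sw) (φ := φ)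
        (by rw [cx, hφ]) (fun j hj => cat_ne l' [] x _ hj) ?_ ?_ ?_ rfl ?_ ?_⟩
      · rw [cat_mid, cx, V.flip_st]
      · rw [cat_mid, ea]
        simp [svL, hE, hTa]
      · rw [cat_mid, ea]
        simp [svL, hE, hφ, Arm.tog]
      · rw [cat_mid]
        exact hB'.et.trans (by rw [cy])
      · rw [cat_mid, ea]
        refine hB'.ed.trans ?_
        rw [cy]
        simp [lab, svL, hE]
    have b2 : Blk (⟨Y.a.flip, X.t, X.d⟩ : Cell (M * BB))
        ((⟨y.a.flip, x.t, x.d⟩ : Cell M) :: r') := by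
      have cy' : cat ((⟨y.a.flip, x.t, x.d⟩ : Cell M) :: r') 0 = ⟨y.a.flip, x.t, x.d⟩ :=
        cat_mid [] _ _
      refine ⟨by simpa using hlen', jA, 0, blk_updT hB' (s := Side.R) (k := Kind.sw) (φ := φ')
        (by rw [cy, hφ']) (fun j hj => cat_ne [] r' y _ hj) ?_ ?_ ?_ rfl ?_ ?_⟩
      · rw [cy', cy, V.flip_st]
      · rw [cy', eb]
        simp [svR, hE, hTb]
      · rw [cy', eb]
        simp [svR, hE, hφ', Arm.tog]
      · rw [cy']
        exact hB.et.trans (by rw [cx])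
      · rw [cy', eb]
        refine hB.ed.trans ?_
        rw [cx]
        simp [lab, svR, hE]
    have := h1.append (Rep.cons b1 (Rep.cons b2 h2))
    simpa using this

end Crest.Agent.R176
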