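import Crest.Agent.R176.CBasic

/-! Row 176: the payload tables and the zero patterns of a good word. -/

set_option autoImplicit false

namespace Crest.Agent.R176

variable {M : ℕ} [NeZero M]

namespace InvTAux

theorem cat_mid (l r : List (Cell M)) (x : Cell M) : cat (l ++ x :: r) l.length = x := by
  simp [cat]

theorem cat_mid2 (l r : List (Cell M)) (x y : Cell M) :
    cat (l ++ x :: y :: r) (l.length + 1) = y := by
  have := cat_mid (l ++ [x]) r y
  simpa using this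

theorem cat_ne (l r : List (Cell M)) (x x' : Cell M) {i : ℕ} (hi : i ≠ l.length) :
    cat (l ++ x' :: r) i = cat (l ++ x :: r) i := by
  unfold cat
  rcases Nat.lt_or_gt_of_ne hi with h | h
  · simp [List.getD, List.getElem?_append_left h]
  · obtain ⟨j, rfl⟩ : ∃ j, i = l.length + (j + 1) := ⟨i - l.length - 1, by omega⟩
    simp [List.getD, List.getElem?_append_right]

omit [NeZero M] in
theorem setT {X : Cell (M * BB)} {f g : ℕ → Cell M} {iA iT : ℕ} (h : BlkF X f iA iT)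
    (ha : ∀ i, (g i).a = (f i).a) (hd : ∀ i, (g i).d = (f i).d)
    (hs : (g iA).t.st = (f iA).t.st) :
    BlkF ⟨eff (f iA).a.mb.arm (f iT).a.mb.arm (g iA).t, (g iT).t, X.d⟩ g iA iT := by
  have hl : ∀ i, lab (g i) = lab (f i) := fun i => by simp only [lab, ha, hd]
  have hst : (eff (f iA).a.mb.arm (f iT).a.mb.arm (g iA).t).st = X.a.st := by
    rw [h.ea, eff_st, eff_st, hs]
  refine ⟨h.hA, h.hT, fun i hi => ?_, fun i hi => ?_, fun i hi => ?_, fun i hi => ?_, ?_,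
    fun i hi => ?_, fun i hi j hj => ?_, ?_, ?_, rfl, ?_⟩
  · rw [ha, hst]; exact h.st i hi
  · rw [ha]; exact h.tA i hi
  · rw [ha]; exact h.tT i hi
  · rw [ha, hl]; exact h.labP i hi
  · rw [hl]; exact h.labA
  · rw [ha, hl]; exact h.labI i hi
  · rw [ha, ha, hl, hl]; exact h.injI i hi j hj
  · rw [ha, ha]; exact h.arms
  · rw [ha, ha]
  · rw [hl]; exact h.ed

theorem upd_a (l r : List (Cell M)) (x : Cell M) (t : V) (i : ℕ) :
    (cat (l ++ (⟨x.a, t, x.d⟩ : Cell M) :: r) i).a = (cat (l ++ x :: r) i).a := by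
  by_cases hi : i = l.length
  · rw [hi, cat_mid, cat_mid]
  · rw [cat_ne l r x _ hi]

theorem upd_d (l r : List (Cell M)) (x : Cell M) (t : V) (i : ℕ) :
    (cat (l ++ (⟨x.a, t, x.d⟩ : Cell M) :: r) i).d = (cat (l ++ x :: r) i).d := by
  by_cases hi : i = l.length
  · rw [hi, cat_mid, cat_mid]
  · rw [cat_ne l r x _ hi]

theorem pos_lt {X : Cell (M * BB)} {l r : List (Cell M)} {x : Cell M} (h : Blk X (l ++ x :: r)) :
    l.length + 1 + r.length = nb M := by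
  have := h.1
  simp only [List.length_append, List.length_cons] at this
  omega

theorem eff_idle {y : Arm} (h : ArmOK Arm.idle y) (t : V) : eff Arm.idle y t = t := by
  rcases h with ⟨-, rfl⟩ | ⟨_, _, _, h, -⟩ | ⟨_, _, _, h, -⟩
  · simp [eff, phi]
  · cases h
  · cases h

/-- The idle token `A`. -/
theorem blkA {X : Cell (M * BB)} {l r : List (Cell M)} {x : Cell M} (h : Blk X (l ++ x :: r))
    (hτ : x.a.mb.τ = Tag.A) (harm : x.a.mb.arm = Arm.idle) :
    X.a = x.t ∧ ∀ t : V, t.st = x.t.st →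
      Blk (⟨t, X.t, X.d⟩ : Cell (M * BB)) (l ++ ⟨x.a, t, x.d⟩ :: r) := by
  have hp := pos_lt h
  obtain ⟨h0, iA, iT, h⟩ := h
  have hA : l.length = iA := (h.tA _ (by omega)).1 (by rw [cat_mid]; exact hτ)
  subst hA
  have hT : iT ≠ l.length := fun e => by
    have := (h.tT _ h.hT).2 rfl
    rw [e, cat_mid, hτ] at this
    cases this
  have harms := h.arms
  rw [cat_mid, harm] at harms
  refine ⟨by rw [h.ea, cat_mid, harm, eff_idle harms],
    fun t ht => ⟨by simpa using h0, l.length, iT, ?_⟩⟩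
  have := setT h (upd_a l r x t) (upd_d l r x t) (by rw [cat_mid, cat_mid]; exact ht)
  rw [cat_mid, cat_mid, harm, eff_idle harms, cat_ne l r x ⟨x.a, t, x.d⟩ hT, ← h.et] at this
  exact this

/-- The token `T`. -/
theorem blkT {X : Cell (M * BB)} {l r : List (Cell M)} {x : Cell M} (h : Blk X (l ++ x :: r))
    (hτ : x.a.mb.τ = Tag.T) :
    X.t = x.t ∧ X.d.val = lab x ∧ ∀ t : V,
      Blk (⟨X.a, t, X.d⟩ : Cell (M * BB)) (l ++ ⟨x.a, t, x.d⟩ :: r) := by
  have hp := pos_lt h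
  obtain ⟨h0, iA, iT, h⟩ := h
  have hT : l.length = iT := (h.tT _ (by omega)).1 (by rw [cat_mid]; exact hτ)
  subst hT
  have hA : iA ≠ l.length := fun e => by
    have := (h.tA _ h.hA).2 rfl
    rw [e, cat_mid, hτ] at this
    cases this
  refine ⟨by rw [h.et, cat_mid], by rw [h.ed, cat_mid],
    fun t => ⟨by simpa using h0, iA, l.length, ?_⟩⟩
  have := setT h (upd_a l r x t) (upd_d l r x t) (by rw [cat_ne l r x _ hA])
  rw [cat_ne l r x ⟨x.a, t, x.d⟩ hA, ← h.ea, cat_mid] at this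
  exact this

theorem blk_sk {X : Cell (M * BB)} {l r : List (Cell M)} {x : Cell M} (h : Blk X (l ++ x :: r))
    (hl : Loc (l ++ x :: r)) (hτ : x.a.mb.τ = Tag.T) {s : Side} {k : Kind} {φ : Bool}
    (ha : x.a.mb.arm = Arm.armed s k φ) : X.a.sk = some (s, k) := by
  have hp := pos_lt h
  obtain ⟨h0, iA, iT, h⟩ := h
  have hT : l.length = iT := (h.tT _ (by omega)).1 (by rw [cat_mid]; exact hτ)
  subst hT
  exact h.sk_of_armed (hl.1 _ (cat_mem (by rw [h0]; exact h.hA))).2 (by rw [cat_mid]; exact ha)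

theorem blk_info {X : Cell (M * BB)} {l r : List (Cell M)} {x : Cell M}
    (h : Blk X (l ++ x :: r)) :
    x.a.st = stOf M X.a.st.κ l.length ∧ (x.a.mb.τ = Tag.P → lab x = l.length / 2) ∧
      (x.a.mb.τ = Tag.A → lab x = 0) ∧ (x.a.mb.τ = Tag.I → 0 < lab x ∧ lab x + 1 < M * BB) := by
  have hp := pos_lt h
  obtain ⟨h0, iA, iT, h⟩ := h
  have hl : l.length < nb M := by omega
  have h1 := h.st _ hl
  have h2 := h.labP _ hl
  have h3 := h.tA _ hl
  have h4 := h.labI _ hl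
  rw [cat_mid] at h1 h2 h3 h4
  refine ⟨h1, h2, fun hA => ?_, h4⟩
  have := h.labA
  rwa [← h3.1 hA, cat_mid] at this

theorem blk_info2 {X : Cell (M * BB)} {l r : List (Cell M)} {x y : Cell M}
    (h : Blk X (l ++ x :: y :: r)) :
    (x.a.mb.τ = Tag.I → y.a.mb.τ = Tag.I → lab x ≠ lab y) ∧
      (x.a.mb.τ = Tag.A → y.a.mb.τ = Tag.T → ArmOK x.a.mb.arm y.a.mb.arm) := by
  have hp := pos_lt h
  simp only [List.length_cons] at hp
  obtain ⟨h0, iA, iT, h⟩ := h
  refine ⟨fun h1 h2 h3 => ?_, fun h1 h2 => ?_⟩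
  · have := h.injI l.length (by omega) (l.length + 1) (by omega)
    rw [cat_mid, cat_mid2] at this
    have := this h1 h2 h3
    omega
  · have hA : l.length = iA := (h.tA _ (by omega)).1 (by rw [cat_mid]; exact h1)
    have hT : l.length + 1 = iT := (h.tT _ (by omega)).1 (by rw [cat_mid2]; exact h2)
    have := h.arms
    rwa [← hA, ← hT, cat_mid, cat_mid2] at this

omit [NeZero M] in
theorem assoc1 (l r : List (Cell M)) (x y : Cell M) :
    l ++ x :: y :: r = (l ++ [x]) ++ y :: r := by simp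

/-- The three ways of holding a table lock. -/
theorem allowed_tab {k : Kind} {a b : V} (h : Allowed k a b) (hk : k = Kind.tI ∨ k = Kind.tIV) :
    (k = Kind.tIV ∧ a.st.E = false ∧ a.mb.τ = Tag.A ∧ b.mb.τ = Tag.T ∧ a.mb.arm = Arm.idle) ∨
    (k = Kind.tI ∧ a.st.E = true ∧ a.mb.τ = Tag.A ∧ b.mb.τ = Tag.A ∧
      a.mb.arm = Arm.idle ∧ b.mb.arm = Arm.idle) ∨
    (a.st.E = true ∧ a.mb.τ = Tag.T ∧ b.mb.τ = Tag.T ∧
      ∃ φ φ', a.mb.arm = Arm.armed Side.L k φ ∧ b.mb.arm = Arm.armed Side.R k φ') := by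
  obtain ⟨-, h | h | h | h | ⟨k0, -, h⟩⟩ := h
  · rcases hk with rfl | rfl <;> cases h.1
  · exact Or.inl ⟨h.1, h.2.1, h.2.2.1, h.2.2.2.1, h.2.2.2.2.1⟩
  · exact Or.inr (Or.inl h)
  · exact Or.inr (Or.inr h.2)
  · rcases hk with rfl | rfl <;> cases k0 <;> simp [derGo] at h

theorem allowed_test {k : Kind} {a b : V} (h : Allowed k a b) {m d d' : ℕ}
    (hf : fails k m d d') : ∃ k0, Req a b k0 ∧ derGo k0 a.mb.dg.val b.mb.dg.val k := by
  obtain ⟨-, h | h | h | h | h⟩ := h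
  · rw [h.1] at hf; exact hf.elim
  · rw [h.1] at hf; exact hf.elim
  · rw [h.1] at hf; exact hf.elim
  · rcases h.1 with rfl | rfl | rfl <;> exact hf.elim
  · exact h

theorem okp_A {a t t' : V} (h : OKp a t) (hτ : a.mb.τ = Tag.A) (harm : a.mb.arm = Arm.idle)
    (hs : t'.st = t.st) : OKp a t' := by
  refine ⟨fun h1 => ?_, fun h1 => by rw [hs]; exact h.col h1, fun _ s k φ h1 => ?_,
    fun _ s k h1 => ?_⟩
  · rw [hτ] at h1; rcases h1 with h1 | h1 <;> cases h1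
  · rw [harm] at h1; cases h1
  · rw [harm] at h1; cases h1

theorem okp_T {a : V} (hτ : a.mb.τ = Tag.T) (t' : V) : OKp a t' := by
  refine ⟨fun h1 => ?_, fun h1 => ?_, fun h1 => ?_, fun h1 => ?_⟩ <;> rw [hτ] at h1
  · rcases h1 with h1 | h1 <;> cases h1
  · cases h1
  · cases h1
  · cases h1

omit [NeZero M] in
theorem loc_upd {l r : List (Cell M)} {x y : Cell M} {t t' : V} (h : Loc (l ++ x :: y :: r))
    (h1 : OKp x.a t) (h2 : OKp y.a t') :
    Loc (l ++ (⟨x.a, t, x.d⟩ : Cell M) :: (⟨y.a, t', y.d⟩ : Cell M) :: r) :=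
  h.replace2 ⟨(h.1 x (by simp)).1, h1⟩ ⟨(h.1 y (by simp)).1, h2⟩ h.pair
    (fun _ _ h => h) (fun _ _ h => h)

theorem rep1 {v1 v2 b : List (Cell M)} {u1 u2 : List (Cell (M * BB))} {X : Cell (M * BB)}
    (h1 : Rep v1 u1) (hb : Blk X b) (h2 : Rep v2 u2) : Rep (v1 ++ (b ++ v2)) (u1 ++ X :: u2) :=
  h1.append (Rep.cons hb h2)

theorem rep2 {v1 v2 b c : List (Cell M)} {u1 u2 : List (Cell (M * BB))} {X Y : Cell (M * BB)}
    (h1 : Rep v1 u1) (hb : Blk X b) (hc : Blk Y c) (h2 : Rep v2 u2) :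
    Rep (v1 ++ (b ++ (c ++ v2))) (u1 ++ X :: Y :: u2) :=
  h1.append (Rep.cons hb (Rep.cons hc h2))

theorem tb_st {k : Kind} {t u t' u' : V} (h : Tb k t u t' u' ∨ Tb k t' u' t u) :
    t'.st = t.st ∧ u'.st = u.st := by
  rcases h with (⟨-, h⟩ | ⟨-, h⟩) | (⟨-, h⟩ | ⟨-, h⟩)
  · exact h.st_eq
  · exact h.st_eq
  · exact ⟨h.st_eq.1.symm, h.st_eq.2.symm⟩
  · exact ⟨h.st_eq.1.symm, h.st_eq.2.symm⟩

omit [NeZero M] in
theorem loc_left {v1 l' r' v2 : List (Cell M)} {x y : Cell M}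
    (h : Loc (v1 ++ l' ++ x :: y :: (r' ++ v2))) : Loc (l' ++ [x]) :=
  h.infix ⟨v1, y :: (r' ++ v2), by simp⟩

omit [NeZero M] in
theorem loc_right {v1 l' r' v2 : List (Cell M)} {x y : Cell M}
    (h : Loc (v1 ++ l' ++ x :: y :: (r' ++ v2))) : Loc ([] ++ y :: r') :=
  h.infix ⟨v1 ++ l' ++ [x], v2, by simp⟩

/-- A requested test failing on the labels of adjacent cells. -/
theorem key {l r : List (Cell M)} {x y : Cell M} {u : List (Cell (M * BB))} {k : Kind}
    (h : Good (l ++ x :: y :: r) u) (hr : Req x.a y.a k)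
    (hf : fails k (M * BB) (lab x) (lab y)) : (RS (M * BB)).Zero u := by
  have h2 := h.2.pair
  have hq := qq_eq
  have hnb : nb M = 2 * (M * BB) := rfl
  rcases h.1.two with ⟨u1, X, u2, v1, l', r', v2, rfl, rfl, rfl, -, hb, -, hE⟩ |
    ⟨u1, X, Y, u2, v1, l', r', v2, rfl, rfl, rfl, -, hb, hc, -, hE⟩
  · exfalso
    obtain ⟨x1, x2, x3, x4⟩ := blk_info hb
    obtain ⟨y1, y2, y3, y4⟩ := blk_info (assoc1 l' r' x y ▸ hb)
    obtain ⟨z1, -⟩ := blk_info2 hb
    simp only [List.length_append, List.length_singleton] at y1 y2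
    rcases hr with ⟨-, ⟨a, b, rfl⟩ | ⟨a, b, rfl⟩ | ⟨c, a, b, rfl⟩ | ⟨c, a, b, rfl⟩ |
      ⟨c, a, b, rfl⟩⟩ | ⟨hE', -⟩
    · have hg : ¬ (x.a.st.κ.val % 2 = 0) := fun e => (h2.grp e).1 a b
      rw [x1] at hg
      simp only [stOf] at hg
      rw [Nat.mod_mod_of_dvd _ ⟨BB, hq⟩] at hg
      simp only [fails] at hf
      rw [x2 a, y2 b] at hf
      omega
    · exact z1 a b hf
    · rw [x1] at c
      simp only [stOf, decide_eq_true_eq] at c
      simp only [fails] at hf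
      have := x2 a
      have := y4 b
      omega
    · rw [x1] at c
      simp only [stOf, decide_eq_true_eq] at c
      simp only [fails] at hf
      have := x2 a
      have := y3 b
      omega
    · rw [y1] at c
      simp only [stOf, decide_eq_true_eq] at c
      simp only [fails] at hf
      have := x4 a
      have := y2 b
      omega
    · rw [hE] at hE'; cases hE'
  · rcases hr with ⟨hE', -⟩ | ⟨-, ⟨a, b, rfl⟩ | ⟨a, b, φ, φ', c, d⟩⟩
    · rw [hE] at hE'; cases hE'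
    · exfalso
      have hp := pos_lt hb
      have e1 := (blk_info hb).2.1 a
      have e2 := (blk_info (l := []) hc).2.1 b
      simp only [List.length_nil] at hp e2
      simp only [fails] at hf
      omega
    · have e1 := (blkT hb a).2.1
      have e2 := (blkT (l := []) hc b).2.1
      have s1 := blk_sk hb (loc_left h.2) a c
      have s2 := blk_sk (l := []) hc (loc_right h.2) b d
      exact (Sys.ZPat.two (S := RS (M * BB)) u1 u2 X Y
        (Or.inr ⟨k, s1, s2, Or.inr (by rw [e1, e2]; exact hf)⟩)).zero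

end InvTAux

open InvTAux in
theorem invTStmt (M : ℕ) [NeZero M] : InvTStmt M := by
  intro l r x y k t t' u h hx hy hT
  have hk : k = Kind.tI ∨ k = Kind.tIV := by
    rcases hT with (⟨h, -⟩ | ⟨h, -⟩) | (⟨h, -⟩ | ⟨h, -⟩)
    exacts [Or.inl h, Or.inr h, Or.inl h, Or.inr h]
  have hA := (h.2.pair.lk.of_sk hx).1
  obtain ⟨s1, s2⟩ := tb_st hT
  have px := (h.2.1 x (by simp)).2
  have py := (h.2.1 y (by simp)).2
  rcases h.1.two with ⟨u1, X, u2, v1, l', r', v2, rfl, rfl, rfl, r1, hb, r2, hE⟩ |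
    ⟨u1, X, Y, u2, v1, l', r', v2, rfl, rfl, rfl, r1, hb, hc, r2, hE⟩
  · rcases allowed_tab hA hk with ⟨rfl, -, a, b, c⟩ | ⟨-, hE', -⟩ | ⟨hE', -⟩
    · obtain ⟨e1, b1⟩ := blkA hb a c
      obtain ⟨e2, -, b2⟩ := blkT (assoc1 l' r' _ y ▸ b1 t s1) b
      have b3 := b2 t'
      rw [← assoc1] at b3
      refine ⟨u1 ++ ⟨t, t', X.d⟩ :: u2, ⟨?_, loc_upd h.2 (okp_A px a c s1) (okp_T b _)⟩, ?_⟩
      · have := rep1 r1 b3 r2
        simpa using this
      · dsimp only at e2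
        rw [← e1, ← e2] at hT
        rcases hT with (⟨h, -⟩ | ⟨-, h⟩) | (⟨h, -⟩ | ⟨-, h⟩)
        · cases h
        · exact (Sys.Step.one (S := RS (M * BB)) u1 u2 X ⟨t, t', X.d⟩ ⟨h, rfl⟩).eqv
        · cases h
        · exact (Sys.Step.one (S := RS (M * BB)) u1 u2 ⟨t, t', X.d⟩ X ⟨h, rfl⟩).eqv.symm
    · rw [hE] at hE'; cases hE'
    · rw [hE] at hE'; cases hE'
  · rcases allowed_tab hA hk with ⟨-, hE', -⟩ | ⟨rfl, -, a, b, c, d⟩ | ⟨-, a, b, φ, φ', c, d⟩
    · rw [hE] at hE'; cases hE'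
    · obtain ⟨e1, b1⟩ := blkA hb a c
      obtain ⟨e2, b2⟩ := blkA (l := []) hc b d
      refine ⟨u1 ++ ⟨t, X.t, X.d⟩ :: ⟨t', Y.t, Y.d⟩ :: u2,
        ⟨?_, loc_upd h.2 (okp_A px a c s1) (okp_A py b d s2)⟩, ?_⟩
      · have := rep2 r1 (b1 t s1) (b2 t' s2) r2
        simpa using this
      · rw [← e1, ← e2] at hT
        rcases hT with (⟨-, h⟩ | ⟨h, -⟩) | (⟨-, h⟩ | ⟨h, -⟩)
        · exact (Sys.Step.two (S := RS (M * BB)) u1 u2 X Y ⟨t, X.t, X.d⟩ ⟨t', Y.t, Y.d⟩
            (Or.inl ⟨h, rfl, rfl, rfl, rfl⟩)).eqv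
        · cases h
        · exact (Sys.Step.two (S := RS (M * BB)) u1 u2 ⟨t, X.t, X.d⟩ ⟨t', Y.t, Y.d⟩ X Y
            (Or.inl ⟨h, rfl, rfl, rfl, rfl⟩)).eqv.symm
        · cases h
    · obtain ⟨e1, -, b1⟩ := blkT hb a
      obtain ⟨e2, -, b2⟩ := blkT (l := []) hc b
      have k1 := blk_sk hb (loc_left h.2) a c
      have k2 := blk_sk (l := []) hc (loc_right h.2) b d
      refine ⟨u1 ++ ⟨X.a, t, X.d⟩ :: ⟨Y.a, t', Y.d⟩ :: u2,
        ⟨?_, loc_upd h.2 (okp_T a _) (okp_T b _)⟩, ?_⟩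
      · have := rep2 r1 (b1 t) (b2 t') r2
        simpa using this
      · rw [← e1, ← e2] at hT
        rcases hT with h | h
        · exact (Sys.Step.two (S := RS (M * BB)) u1 u2 X Y ⟨X.a, t, X.d⟩ ⟨Y.a, t', Y.d⟩
            (Or.inr (Or.inr ⟨k, k1, k2, h, rfl, rfl, rfl, rfl⟩))).eqv
        · exact (Sys.Step.two (S := RS (M * BB)) u1 u2 ⟨X.a, t, X.d⟩ ⟨Y.a, t', Y.d⟩ X Y
            (Or.inr (Or.inr ⟨k, k1, k2, h, rfl, rfl, rfl, rfl⟩))).eqv.symm

open InvTAux in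
theorem zerStmt (M : ℕ) [NeZero M] : ZerStmt M := by
  intro v u h hz
  cases hz with
  | one l r x hx => exact absurd (h.2.1 x (by simp)) hx
  | two l r x y hxy =>
    rcases hxy with (h1 | ⟨hE, a, b, c⟩ | ⟨k, h1, h2⟩) | ⟨k, hx, hy, hZ | hf⟩
    · exact absurd h.2.pair h1
    · rcases h.1.two with ⟨u1, X, u2, v1, l', r', v2, -, -, -, -, hb, -, -⟩ |
        ⟨u1, X, Y, u2, v1, l', r', v2, -, -, -, -, -, -, -, hE'⟩
      · exact absurd ((blk_info2 hb).2 a b) c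
      · rw [hE] at hE'; cases hE'
    · exact key h h1 ((fails_iff k M x.a.mb.dg.isLt y.a.mb.dg.isLt).2 (Or.inl h2))
    · have hk : k = Kind.tI ∨ k = Kind.tIV := hZ.imp And.left And.left
      have hA := (h.2.pair.lk.of_sk hx).1
      rcases h.1.two with ⟨u1, X, u2, v1, l', r', v2, rfl, rfl, rfl, r1, hb, r2, hE⟩ |
        ⟨u1, X, Y, u2, v1, l', r', v2, rfl, rfl, rfl, r1, hb, hc, r2, hE⟩
      · rcases allowed_tab hA hk with ⟨rfl, -, a, b, c⟩ | ⟨-, hE', -⟩ | ⟨hE', -⟩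
        · have e1 := (blkA hb a c).1
          have e2 := (blkT (assoc1 l' r' x y ▸ hb) b).1
          rw [← e1, ← e2] at hZ
          rcases hZ with ⟨h, -⟩ | ⟨-, h⟩
          · cases h
          · exact (Sys.ZPat.one (S := RS (M * BB)) u1 u2 X h).zero
        · rw [hE] at hE'; cases hE'
        · rw [hE] at hE'; cases hE'
      · rcases allowed_tab hA hk with ⟨-, hE', -⟩ | ⟨rfl, -, a, b, c, d⟩ | ⟨-, a, b, φ, φ', c, d⟩
        · rw [hE] at hE'; cases hE'
        · have e1 := (blkA hb a c).1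
          have e2 := (blkA (l := []) hc b d).1
          rw [← e1, ← e2] at hZ
          rcases hZ with ⟨-, h⟩ | ⟨h, -⟩
          · exact (Sys.ZPat.two (S := RS (M * BB)) u1 u2 X Y (Or.inl h)).zero
          · cases h
        · have e1 := (blkT hb a).1
          have e2 := (blkT (l := []) hc b).1
          have k1 := blk_sk hb (loc_left h.2) a c
          have k2 := blk_sk (l := []) hc (loc_right h.2) b d
          rw [← e1, ← e2] at hZ
          exact (Sys.ZPat.two (S := RS (M * BB)) u1 u2 X Y (Or.inr ⟨k, k1, k2, Or.inl hZ⟩)).zero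
    · obtain ⟨k0, h1, h2⟩ := allowed_test (h.2.pair.lk.of_sk hx).1 hf
      exact key h h1 ((fails_iff k0 M x.a.mb.dg.isLt y.a.mb.dg.isLt).2 (Or.inr ⟨k, h2, hf⟩))

end Crest.Agent.R176
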