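import Crest.Agent.R176.CBasic

/-! Row 176: simple locks at block boundaries (`JcStmt`, `ScStmt`). -/

set_option autoImplicit false

namespace Crest.Agent.R176

namespace Jc

lemma cls_sk {s : Side} {a : V} {k : Kind} : (cls s a).1 = some k ↔ a.sk = some (s, k) := by
  unfold cls
  rcases a.sk with _ | ⟨s', k'⟩
  · simp
  · by_cases h : s' = s <;> simp [h]

lemma mkLk_ne {s : Side} {k : Kind} (hk : k = Kind.tI ∨ k = Kind.wr) (sv sv' : Mb) :
    mkLk s k sv = mkLk s k sv' := by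
  rcases hk with rfl | rfl <;> rfl

lemma derGo_tI {k : Kind} {x y : ℕ} : ¬ derGo k x y Kind.tI := by
  cases k <;> simp [derGo]

lemma derGo_wr {k : Kind} {x y : ℕ} (h : derGo k x y Kind.wr) :
    k = Kind.wr ∧ x + 1 = BB ∧ y = 0 := by
  cases k <;> simp_all [derGo]

lemma derGo_of_simple {k k' : Kind} {x y : ℕ} (hk : k = Kind.tI ∨ k = Kind.wr)
    (h : derGo k x y k') : k' = Kind.wr := by
  rcases hk with rfl | rfl <;> simp_all [derGo]

lemma allowed_wr {a b : V} (h : Allowed Kind.wr a b) :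
    Req a b Kind.wr ∧ a.mb.dg.val + 1 = BB ∧ b.mb.dg.val = 0 := by
  obtain ⟨-, h | h | h | h | ⟨k0, h1, h2⟩⟩ := h
  · cases h.1
  · cases h.1
  · cases h.1
  · simp at h
  · obtain ⟨rfl, h3⟩ := derGo_wr h2
    exact ⟨h1, h3⟩

/-- the locks across a block boundary -/
lemma allowed_E {k : Kind} {a b : V} (h : Allowed k a b) (hE : a.st.E = true) :
    (k = Kind.tI ∨ k = Kind.wr) ∨ ∃ k0 φ φ', a.mb.τ = Tag.T ∧ b.mb.τ = Tag.T ∧
      a.mb.arm = Arm.armed Side.L k0 φ ∧ b.mb.arm = Arm.armed Side.R k0 φ' ∧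
      ((k0 = Kind.tI ∨ k0 = Kind.wr) → (k = Kind.tI ∨ k = Kind.wr)) := by
  obtain ⟨-, h | h | h | ⟨-, -, h1, h2, φ, φ', h3, h4⟩ | ⟨k0, h1, h2⟩⟩ := h
  · rw [h.2.1] at hE; cases hE
  · rw [h.2.1] at hE; cases hE
  · exact Or.inl (Or.inl h.1)
  · exact Or.inr ⟨k, φ, φ', h1, h2, h3, h4, id⟩
  · rcases h1 with h1 | ⟨-, ⟨-, -, rfl⟩ | ⟨h3, h4, φ, φ', h5, h6⟩⟩
    · rw [h1.1] at hE; cases hE
    · exact Or.inl (Or.inr (derGo_of_simple (Or.inr rfl) h2))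
    · exact Or.inr ⟨k0, φ, φ', h3, h4, h5, h6, fun hk => Or.inr (derGo_of_simple hk h2)⟩

lemma sk_right {a b : V} (h : LK a b) {k : Kind} (hk : b.sk = some (Side.R, k)) :
    Allowed k a b ∧ b.lk = mkLk Side.R k (svR a b) := by
  obtain ⟨k', h1, -, h3⟩ := h.2 (h.1.2 ⟨k, hk⟩)
  have := V.sk_of_mkLk h3
  rw [hk] at this
  cases this
  exact ⟨h1, h3⟩

variable {M : ℕ} [NeZero M]

lemma sk_of_T {X : Cell (M * BB)} {l r v : List (Cell M)} {x : Cell M} (hb : Blk X (l ++ x :: r))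
    (hi : l ++ x :: r <:+: v) (hv : Loc v) (hT : x.a.mb.τ = Tag.T) {s : Side} {k : Kind}
    {φ : Bool} (ha : x.a.mb.arm = Arm.armed s k φ) : X.a.sk = some (s, k) := by
  obtain ⟨h1, iA, iT, h2⟩ := hb
  have e : cat (l ++ x :: r) l.length = x := cat_append_right l (x :: r) 0
  have e' : l.length = iT := (h2.tT l.length (by rw [← h1]; simp)).1 (by rw [e]; exact hT)
  refine h2.sk_of_armed (hv.1 _ (hi.subset (cat_mem (h1 ▸ h2.hA)))).2 (φ := φ) ?_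
  rw [← e', e, ha]

end Jc

open Jc in
theorem jcStmt : JcStmt := by
  intro l f l' g h f' hE hE' h1 h2 h3 hs c1 c2
  have s1 : ∀ k, l'.sk = some (Side.L, k) ↔ l.sk = some (Side.L, k) := fun k => by
    rw [← cls_sk, ← cls_sk, c1]
  have s2 : ∀ k, f'.sk = some (Side.R, k) ↔ f.sk = some (Side.R, k) := fun k => by
    rw [← cls_sk, ← cls_sk, c2]
  have t1 : l'.mb.τ = l.mb.τ := congrArg (fun c : Cls => c.2.1) c1
  have t2 : f'.mb.τ = f.mb.τ := congrArg (fun c : Cls => c.2.1) c2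
  have a1 : l'.mb.arm = l.mb.arm := congrArg (fun c : Cls => c.2.2) c1
  have a2 : f'.mb.arm = f.mb.arm := congrArg (fun c : Cls => c.2.2) c2
  by_cases hl : l.isL
  swap
  · exact LK.of_free (fun ⟨k, hk⟩ => hl ⟨k, (s1 k).1 hk⟩) fun ⟨k, hk⟩ => hl (h1.1.2 ⟨k, (s2 k).1 hk⟩)
  obtain ⟨k, hk⟩ := hl
  obtain ⟨b1, -, b2⟩ := h1.of_sk hk
  have hf := V.sk_of_mkLk b2
  have hk' : k = Kind.tI ∨ k = Kind.wr := hs.elim (fun h => h k hk) fun h => h k hf
  obtain ⟨b3, b4, -⟩ := h2.of_sk ((s1 k).2 hk)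
  obtain ⟨b5, b6⟩ := sk_right h3 ((s2 k).2 hf)
  refine ⟨⟨fun _ => ⟨k, (s2 k).2 hf⟩, fun _ => ⟨k, (s1 k).2 hk⟩⟩, fun _ =>
    ⟨k, ⟨b3.1, ?_⟩, b4.trans (mkLk_ne hk' _ _), b6.trans (mkLk_ne hk' _ _)⟩⟩
  rw [t1, t2, a1, a2]
  rcases hk' with rfl | rfl
  · obtain ⟨-, b | b | b | b | ⟨k0, -, b⟩⟩ := b1
    · cases b.1
    · cases b.1
    · exact Or.inr (Or.inr (Or.inl ⟨rfl, hE', b.2.2⟩))
    · exact Or.inr (Or.inr (Or.inr (Or.inl ⟨b.1, hE', b.2.2⟩)))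
    · exact (derGo_tI b).elim
  · refine Or.inr (Or.inr (Or.inr (Or.inr ⟨Kind.wr, ?_, (allowed_wr b3).2.1,
      (allowed_wr b5).2.2, rfl⟩)))
    rcases (allowed_wr b1).1 with b | b
    · rw [b.1] at hE; cases hE
    · refine Or.inr ⟨hE', ?_⟩
      rw [t1, t2, a1, a2]
      exact b.2

open Jc in
theorem scStmt (M : ℕ) [NeZero M] : ScStmt M where
  left v u x X f hg hx hX hf hs k hk := by
    obtain ⟨Y, l, hY, hb, hi⟩ := hg.1.last hx
    obtain rfl : Y = X := Option.some.inj (hY.symm.trans hX)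
    have h5 := nb_ge (M := M)
    have hE : x.a.st.E = true := by
      simp [hb.last x (by simp), stOf, Nat.sub_add_cancel (show 1 ≤ nb M by omega)]
    rcases allowed_E (hf.of_sk hk).1 hE with h | ⟨k0, φ, φ', h1, -, h2, -, h3⟩
    · exact h
    · exact h3 (hs k0 (sk_of_T hb hi hg.2 h1 h2))
  right v u x X h hg hx hX hE hf hs k hk := by
    obtain ⟨Y, r, hY, hb, hi⟩ := hg.1.head hx
    obtain rfl : Y = X := Option.some.inj (hY.symm.trans hX)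
    rcases allowed_E (sk_right hf hk).1 hE with h | ⟨k0, φ, φ', -, h1, -, h2, h3⟩
    · exact h
    · exact h3 (hs k0 (sk_of_T (l := []) hb hi hg.2 h1 h2))

end Crest.Agent.R176
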