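import Crest.Agent.R176.KDefs

/-! Row 176: basic lemmas on Gauss elimination over lists, shuffles and list products. -/

set_option autoImplicit false

open scoped commutatorElement

namespace Crest.Agent.R176

variable {R : Type} [Ring R] {J : Z5 → Z5 → AddSubgroup R} {ι : Type}

/-! ### Fits, elim -/

theorem Fits.mono {v : ι → Z5} {ν : ι → ι → R} {L L' : List ι} (h : Fits J v ν L)
    (hs : ∀ p ∈ L', p ∈ L) : Fits J v ν L' := by
  exact fun p hp q hq => h p (hs p hp) q (hs q hq)

theorem Fits.elim (P : PR J) {v : ι → Z5} {ν : ι → ι → R} {L : List ι} {q : ι}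
    (h : Fits J v ν L) (hq : q ∈ L) : Fits J v (elim q ν) L := by
  intro a ha b hb
  exact add_mem (h a ha b hb) (P.mul_mem (P.mul_iv_mem (h q hq q hq) (h a ha q hq)) (h q hq b hb))

theorem Fits.elimL (P : PR J) {v : ι → Z5} {ν : ι → ι → R} {L X : List ι}
    (h : Fits J v ν L) (hX : ∀ q ∈ X, q ∈ L) : Fits J v (elimL X ν) L := by
  induction X generalizing ν with
  | nil => exact h
  | cons q X ih =>
    exact ih (h.elim P (hX q List.mem_cons_self)) (fun x hx => hX x (List.mem_cons_of_mem _ hx))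

theorem elimL_append (X Y : List ι) (ν : ι → ι → R) :
    elimL (X ++ Y) ν = elimL Y (elimL X ν) := by
  induction X generalizing ν with
  | nil => rfl
  | cons q X ih => exact ih _

/-! Gauss identities for the `2 × 2` block matrix `1 + (c, a; b, d)`. -/

theorem gauss_mem (P : PR J) {i j : Z5} {c d a b : R} (hc : c ∈ J i i) (hd : d ∈ J j j)
    (ha : a ∈ J i j) (hb : b ∈ J j i) : c + a * iv d * b ∈ J i i :=
  add_mem hc (P.mul_mem (P.mul_iv_mem hd ha) hb)

theorem gauss_id2 (P : PR J) {i j : Z5} {c d a b : R} (hc : c ∈ J i i) (hd : d ∈ J j j)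
    (ha : a ∈ J i j) (hb : b ∈ J j i) :
    iv c * a * iv (d + b * iv c * a) = iv (c + a * iv d * b) * a * iv d := by
  have hu := P.iv_mul (gauss_mem P hc hd ha hb)
  have hv := P.mul_iv (gauss_mem P hd hc hb ha)
  have hp := P.mul_iv hc
  have hs := P.iv_mul hd
  generalize iv (d + b * iv c * a) = V at hv ⊢
  generalize iv (c + a * iv d * b) = U at hu ⊢
  generalize iv c = Pc at hp hv ⊢
  generalize iv d = S at hs hu ⊢
  have key : (1 + (c + a * S * b)) * Pc * a = a * S * (1 + (d + b * Pc * a)) := by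
    calc (1 + (c + a * S * b)) * Pc * a = ((1 + c) * Pc) * a + a * S * b * Pc * a := by noncomm_ring
      _ = a * (S * (1 + d)) + a * S * b * Pc * a := by rw [hp, hs, one_mul, mul_one]
      _ = _ := by noncomm_ring
  calc Pc * a * V = (U * (1 + (c + a * S * b))) * Pc * a * V := by rw [hu, one_mul]
    _ = U * ((1 + (c + a * S * b)) * Pc * a) * V := by simp only [mul_assoc]
    _ = U * a * S * ((1 + (d + b * Pc * a)) * V) := by rw [key]; simp only [mul_assoc]
    _ = _ := by rw [hv, mul_one]

theorem gauss_id3 (P : PR J) {i j : Z5} {c d a b : R} (hc : c ∈ J i i) (hd : d ∈ J j j)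
    (ha : a ∈ J i j) (hb : b ∈ J j i) :
    iv (d + b * iv c * a) * b * iv c = iv d * b * iv (c + a * iv d * b) :=
  (gauss_id2 P hd hc hb ha).symm

theorem gauss_id1 (P : PR J) {i j : Z5} {c d a b : R} (hc : c ∈ J i i) (hd : d ∈ J j j)
    (ha : a ∈ J i j) (hb : b ∈ J j i) :
    iv (c + a * iv d * b) = iv c + iv c * a * iv (d + b * iv c * a) * b * iv c := by
  rw [gauss_id2 P hc hd ha hb]
  have hu := P.iv_mul (gauss_mem P hc hd ha hb)
  have hp := P.mul_iv hc
  generalize iv (c + a * iv d * b) = U at hu ⊢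
  generalize iv c = Pc at hp ⊢
  generalize iv d = S at hu ⊢
  have h2 := P.two Pc
  have h3 := P.two U
  have key : U + U * a * S * b * Pc = Pc := by
    calc U + U * a * S * b * Pc = U * ((1 + c) * Pc) + U * a * S * b * Pc := by rw [hp, mul_one]
      _ = (U * (1 + (c + a * S * b))) * Pc := by noncomm_ring
      _ = Pc := by rw [hu, one_mul]
  calc U = U + (U * a * S * b * Pc + U * a * S * b * Pc) := by rw [P.two, add_zero]
    _ = (U + U * a * S * b * Pc) + U * a * S * b * Pc := by rw [add_assoc]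
    _ = _ := by rw [key]

theorem gauss_id4 (P : PR J) {i j : Z5} {c d a b : R} (hc : c ∈ J i i) (hd : d ∈ J j j)
    (ha : a ∈ J i j) (hb : b ∈ J j i) :
    iv (d + b * iv c * a) = iv d + iv d * b * iv (c + a * iv d * b) * a * iv d :=
  gauss_id1 P hd hc hb ha

/-- Schur complements commute (two states at different vertices). -/
theorem elim_comm (P : PR J) {v : ι → Z5} {ν : ι → ι → R} {q r : ι} (hqr : v q ≠ v r)
    (h : Fits J v ν [q, r]) (a b : ι) :
    elim r (elim q ν) a b = elim q (elim r ν) a b := by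
  have hqq := h q (by simp) q (by simp)
  have hqr' := h q (by simp) r (by simp)
  have hrq := h r (by simp) q (by simp)
  have hrr := h r (by simp) r (by simp)
  have h1 := gauss_id1 P hqq hrr hqr' hrq
  have h2 := gauss_id2 P hqq hrr hqr' hrq
  have h3 := gauss_id3 P hqq hrr hqr' hrq
  have h4 := gauss_id4 P hqq hrr hqr' hrq
  simp only [elim]
  generalize iv (ν r r + ν r q * iv (ν q q) * ν q r) = V at h1 h2 h3 h4 ⊢
  generalize iv (ν q q + ν q r * iv (ν r r) * ν r q) = U at h1 h2 h3 h4 ⊢
  generalize iv (ν q q) = Pq at h1 h2 h3 h4 ⊢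
  generalize iv (ν r r) = S at h1 h2 h3 h4 ⊢
  calc ν a b + ν a q * Pq * ν q b + (ν a r + ν a q * Pq * ν q r) * V * (ν r b + ν r q * Pq * ν q b)
      = ν a b + ν a q * (Pq + Pq * ν q r * V * ν r q * Pq) * ν q b
        + ν a q * (Pq * ν q r * V) * ν r b + ν a r * (V * ν r q * Pq) * ν q b
        + ν a r * V * ν r b := by noncomm_ring
    _ = ν a b + ν a q * U * ν q b
        + ν a q * (U * ν q r * S) * ν r b + ν a r * (S * ν r q * U) * ν q b
        + ν a r * (S + S * ν r q * U * ν q r * S) * ν r b := by rw [← h1, h2, h3, ← h4]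
    _ = _ := by noncomm_ring

/-- `elimL` only depends on the entries on the list, and is natural for maps of states. -/
theorem elimL_map {ι' : Type} (f : ι → ι') {ν : ι → ι → R} {ν' : ι' → ι' → R} {L X : List ι}
    (hX : ∀ q ∈ X, q ∈ L) (h : ∀ p ∈ L, ∀ q ∈ L, ν' (f p) (f q) = ν p q) :
    ∀ p ∈ L, ∀ q ∈ L, elimL (X.map f) ν' (f p) (f q) = elimL X ν p q := by
  induction X generalizing ν ν' with
  | nil => exact h
  | cons x X ih =>
    have hx := hX x List.mem_cons_self
    refine ih (ν := elim x ν) (ν' := elim (f x) ν') (fun y hy => hX y (List.mem_cons_of_mem _ hy)) ?_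
    intro p hp q hq
    simp only [elim]
    rw [h p hp q hq, h p hp x hx, h x hx x hx, h x hx q hq]

theorem elimL_congr {ν ν' : ι → ι → R} {L X : List ι}
    (hX : ∀ q ∈ X, q ∈ L) (h : ∀ p ∈ L, ∀ q ∈ L, ν' p q = ν p q) :
    ∀ p ∈ L, ∀ q ∈ L, elimL X ν' p q = elimL X ν p q := by
  simpa using elimL_map id hX h

/-- Elimination of a block without internal edges. -/
theorem elimL_zero_block {ν : ι → ι → R} {X : List ι} (h : ∀ p ∈ X, ∀ q ∈ X, ν p q = 0)
    (a b : ι) : elimL X ν a b = ν a b + mulL X ν ν a b := by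
  induction X generalizing ν with
  | nil => simp [elimL, mulL]
  | cons x X ih =>
    have hx : x ∈ x :: X := List.mem_cons_self
    have hm : ∀ y ∈ X, y ∈ x :: X := fun y hy => List.mem_cons_of_mem _ hy
    have h' : ∀ p ∈ X, ∀ q ∈ X, elim x ν p q = 0 := by
      intro p hp q hq
      simp only [elim]
      rw [h p (hm p hp) q (hm q hq), h p (hm p hp) x hx, zero_mul, zero_mul, add_zero]
    change elimL X (elim x ν) a b = _
    rw [ih h']
    have e : mulL X (elim x ν) (elim x ν) a b = mulL X ν ν a b := by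
      unfold mulL
      congr 1
      refine List.map_congr_left fun q hq => ?_
      simp only [elim]
      rw [h x hx q (hm q hq), h q (hm q hq) x hx]
      simp
    rw [e]
    simp only [elim, mulL, List.map_cons, List.sum_cons]
    rw [h x hx x hx, iv_zero, mul_one, add_assoc]

theorem Acyc.mono {ν : ι → ι → R} {L L' : List ι} (h : Acyc ν L) (hs : ∀ p ∈ L', p ∈ L) :
    Acyc ν L' := by
  obtain ⟨rk, hrk⟩ := h
  exact ⟨rk, fun p hp q hq => hrk p (hs p hp) q (hs q hq)⟩

theorem Acyc.elim {ν : ι → ι → R} {L : List ι} {q : ι} (h : Acyc ν L) (hq : q ∈ L) :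
    Acyc (elim q ν) L := by
  obtain ⟨rk, hrk⟩ := h
  refine ⟨rk, fun a ha b hb hab => ?_⟩
  by_cases h1 : ν a b = 0
  · have h2 : ν a q ≠ 0 := by
      intro h2; apply hab; simp [Crest.Agent.R176.elim, h1, h2]
    have h3 : ν q b ≠ 0 := by
      intro h3; apply hab; simp [Crest.Agent.R176.elim, h1, h3]
    exact (hrk a ha q hq h2).trans (hrk q hq b hb h3)
  · exact hrk a ha b hb h1

theorem Acyc.elimL {ν : ι → ι → R} {L X : List ι} (h : Acyc ν L) (hX : ∀ q ∈ X, q ∈ L) :
    Acyc (elimL X ν) L := by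
  induction X generalizing ν with
  | nil => exact h
  | cons q X ih =>
    exact ih (h.elim (hX q List.mem_cons_self)) (fun x hx => hX x (List.mem_cons_of_mem _ hx))

/-! ### Shuffles -/

theorem Sh.symm {v : ι → Z5} {L L' : List ι} (h : Sh v L L') : Sh v L' L := by
  induction h with
  | refl L => exact Sh.refl L
  | swap X Y q r h => exact Sh.swap X Y r q h.symm
  | trans _ _ ih1 ih2 => exact ih2.trans ih1

theorem Sh.perm {v : ι → Z5} {L L' : List ι} (h : Sh v L L') : L.Perm L' := by
  induction h with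
  | refl L => exact List.Perm.refl L
  | swap X Y q r h => exact (List.Perm.swap r q Y).append_left X
  | trans _ _ ih1 ih2 => exact ih1.trans ih2

theorem Sh.mem_iff {v : ι → Z5} {L L' : List ι} (h : Sh v L L') {p : ι} : p ∈ L ↔ p ∈ L' :=
  h.perm.mem_iff

theorem Sh.append_left {v : ι → Z5} {L L' : List ι} (h : Sh v L L') (X : List ι) :
    Sh v (X ++ L) (X ++ L') := by
  induction h with
  | refl L => exact Sh.refl _
  | swap X' Y q r h =>
    rw [← List.append_assoc, ← List.append_assoc]; exact Sh.swap _ Y q r h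
  | trans _ _ ih1 ih2 => exact ih1.trans ih2

theorem Sh.append_right {v : ι → Z5} {L L' : List ι} (h : Sh v L L') (Y : List ι) :
    Sh v (L ++ Y) (L' ++ Y) := by
  induction h with
  | refl L => exact Sh.refl _
  | swap X Y' q r h =>
    simp only [List.append_assoc, List.cons_append]; exact Sh.swap X _ q r h
  | trans _ _ ih1 ih2 => exact ih1.trans ih2

theorem Sh.cons {v : ι → Z5} {L L' : List ι} (h : Sh v L L') (q : ι) :
    Sh v (q :: L) (q :: L') := h.append_left [q]

theorem Sh.append_comm {v : ι → Z5} {A B : List ι} (h : ∀ a ∈ A, ∀ b ∈ B, v a ≠ v b) :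
    Sh v (A ++ B) (B ++ A) := by
  have one : ∀ (a : ι) (B Y : List ι), (∀ b ∈ B, v a ≠ v b) → Sh v (a :: (B ++ Y)) (B ++ a :: Y) := by
    intro a B Y hB
    induction B with
    | nil => exact Sh.refl _
    | cons b B ih =>
      have h1 : Sh v (a :: b :: (B ++ Y)) (b :: a :: (B ++ Y)) :=
        Sh.swap [] _ a b (hB b List.mem_cons_self)
      exact h1.trans ((ih fun c hc => hB c (List.mem_cons_of_mem _ hc)).cons b)
  induction A with
  | nil => simpa using Sh.refl B
  | cons a A ih =>
    have h1 : Sh v (a :: (A ++ B)) (a :: (B ++ A)) :=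
      (ih fun c hc => h c (List.mem_cons_of_mem _ hc)).cons a
    exact h1.trans (one a B A (h a List.mem_cons_self))

/-- Two lists are shuffles of each other iff they agree vertex by vertex. -/
theorem Sh.of_filter {v : ι → Z5} {L L' : List ι}
    (h : ∀ z : Z5, L.filter (fun p => v p = z) = L'.filter (fun p => v p = z)) : Sh v L L' := by
  induction L generalizing L' with
  | nil =>
    cases L' with
    | nil => exact Sh.refl _
    | cons q L' => simpa using h (v q)
  | cons q L ih =>
    have h0 := h (v q)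
    rw [List.filter_cons_of_pos (by simp), eq_comm, List.filter_eq_cons_iff] at h0
    obtain ⟨l₁, l₂, rfl, h1, -, h2⟩ := h0
    have h1' : ∀ x ∈ l₁, v x ≠ v q := fun x hx => by simpa using h1 x hx
    have h3 : Sh v L (l₁ ++ l₂) := by
      refine ih fun z => ?_
      by_cases hz : v q = z
      · subst hz
        rw [List.filter_append, h2, List.filter_eq_nil_iff.2 h1, List.nil_append]
      · have := h z
        simpa [List.filter_append, List.filter_cons, hz] using this
    have h4 : Sh v ([q] ++ l₁ ++ l₂) (l₁ ++ [q] ++ l₂) :=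
      (Sh.append_comm (A := [q]) (B := l₁)
        (fun a ha b hb => by
          rw [List.mem_singleton.1 ha]; exact (h1' b hb).symm)).append_right l₂
    refine (h3.cons q).trans ?_
    simpa using h4

theorem Sh.filter_eq {v : ι → Z5} {L L' : List ι} (h : Sh v L L') (z : Z5) :
    L.filter (fun p => v p = z) = L'.filter (fun p => v p = z) := by
  induction h with
  | refl L => rfl
  | swap X Y q r h =>
    by_cases hq : v q = z
    · have hr : ¬ v r = z := fun hr => h (hq.trans hr.symm)
      simp [List.filter_append, List.filter_cons, hq, hr]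
    · simp [List.filter_append, List.filter_cons, hq]
  | trans _ _ ih1 ih2 => exact ih1.trans ih2

theorem Sh.map {ι' : Type} {v : ι → Z5} {v' : ι' → Z5} (f : ι → ι') {L L' : List ι}
    (h : Sh v L L') (hv : ∀ p ∈ L, v' (f p) = v p) : Sh v' (L.map f) (L'.map f) := by
  induction h with
  | refl L => exact Sh.refl _
  | swap X Y q r h =>
    simp only [List.map_append, List.map_cons]
    refine Sh.swap _ _ _ _ ?_
    rw [hv q (by simp), hv r (by simp)]; exact h
  | trans h1 _ ih1 ih2 => exact (ih1 hv).trans (ih2 fun p hp => hv p (h1.mem_iff.2 hp))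

theorem Sh.congr {v v' : ι → Z5} {L L' : List ι} (h : Sh v L L') (hv : ∀ p ∈ L, v' p = v p) :
    Sh v' L L' := by
  simpa using h.map id hv

theorem Sh.of_perm_nodup {v : ι → Z5} {L L' : List ι} (h : L.Perm L') (hn : (L.map v).Nodup) :
    Sh v L L' := by
  induction h with
  | nil => exact Sh.refl _
  | cons x _ ih => exact (ih (List.nodup_cons.1 hn).2).cons x
  | swap x y l =>
    refine Sh.swap [] l y x fun e => ?_
    simp [e] at hn
  | trans h1 _ ih1 ih2 => exact (ih1 hn).trans (ih2 ((h1.map v).nodup_iff.1 hn))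

theorem elimL_sh (P : PR J) {v : ι → Z5} {ν : ι → ι → R} {L L' : List ι} (h : Fits J v ν L)
    (hs : Sh v L L') (a b : ι) : elimL L ν a b = elimL L' ν a b := by
  induction hs with
  | refl L => rfl
  | swap X Y q r hqr =>
    rw [elimL_append, elimL_append]
    have hF : Fits J v (elimL X ν) [q, r] :=
      (h.elimL P (X := X) fun x hx => by simp [hx]).mono fun p hp => by
        simp only [List.mem_cons, List.not_mem_nil, or_false] at hp
        rcases hp with rfl | rfl <;> simp
    have e : elim r (elim q (elimL X ν)) = elim q (elim r (elimL X ν)) := by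
      funext a b; exact elim_comm P hqr hF a b
    change elimL Y (elim r (elim q (elimL X ν))) a b = elimL Y (elim q (elim r (elimL X ν))) a b
    rw [e]
  | trans h1 _ ih1 ih2 => exact (ih1 h).trans (ih2 (h.mono fun p hp => h1.mem_iff.2 hp))

/-! ### List products -/

theorem mulL_nil {ι₁ ι₃ : Type} (a : ι₁ → ι → R) (b : ι → ι₃ → R) (p : ι₁) (r : ι₃) :
    mulL [] a b p r = 0 := rfl

theorem mulL_cons {ι₁ ι₃ : Type} (q : ι) (L : List ι) (a : ι₁ → ι → R) (b : ι → ι₃ → R)
    (p : ι₁) (r : ι₃) : mulL (q :: L) a b p r = a p q * b q r + mulL L a b p r := by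
  simp [mulL]

theorem mulL_append {ι₁ ι₃ : Type} (L L' : List ι) (a : ι₁ → ι → R) (b : ι → ι₃ → R)
    (p : ι₁) (r : ι₃) : mulL (L ++ L') a b p r = mulL L a b p r + mulL L' a b p r := by
  simp [mulL]

theorem mulL_map {ι' ι₁ ι₃ : Type} (f : ι' → ι) (L : List ι') (a : ι₁ → ι → R)
    (b : ι → ι₃ → R) (p : ι₁) (r : ι₃) :
    mulL (L.map f) a b p r = mulL L (fun p q => a p (f q)) (fun q r => b (f q) r) p r := by
  simp [mulL, List.map_map, Function.comp_def]

theorem mulL_congr {ι₁ ι₃ : Type} {L : List ι} {a a' : ι₁ → ι → R} {b b' : ι → ι₃ → R}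
    {p : ι₁} {r : ι₃} (h : ∀ q ∈ L, a p q * b q r = a' p q * b' q r) :
    mulL L a b p r = mulL L a' b' p r := by
  unfold mulL
  rw [List.map_congr_left h]

theorem mulL_eq_zero {ι₁ ι₃ : Type} {L : List ι} {a : ι₁ → ι → R} {b : ι → ι₃ → R}
    {p : ι₁} {r : ι₃} (h : ∀ q ∈ L, a p q * b q r = 0) : mulL L a b p r = 0 := by
  unfold mulL
  rw [List.map_congr_left h]; simp

theorem mulL_perm {ι₁ ι₃ : Type} {L L' : List ι} (h : L.Perm L') (a : ι₁ → ι → R)
    (b : ι → ι₃ → R) : mulL L a b = mulL L' a b := by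
  funext p r
  exact (h.map _).sum_eq

theorem mulL_assoc {ι' ι₁ ι₃ : Type} (L : List ι) (L' : List ι') (a : ι₁ → ι → R)
    (b : ι → ι' → R) (c : ι' → ι₃ → R) :
    mulL L' (mulL L a b) c = mulL L a (mulL L' b c) := by
  funext p r
  induction L with
  | nil => simp [mulL]
  | cons q L ih =>
    rw [mulL_cons, ← ih]
    simp only [mulL, List.map_cons, List.sum_cons, add_mul, List.sum_map_add, mul_assoc,
      List.sum_map_mul_left]

theorem mulL_mem {ι₁ ι₃ : Type} {L : List ι} {a : ι₁ → ι → R} {b : ι → ι₃ → R}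
    {p : ι₁} {r : ι₃} (H : AddSubgroup R) (h : ∀ q ∈ L, a p q * b q r ∈ H) :
    mulL L a b p r ∈ H := by
  unfold mulL
  refine list_sum_mem fun x hx => ?_
  obtain ⟨q, hq, rfl⟩ := List.mem_map.1 hx
  exact h q hq

theorem map_mulL {ι₁ ι₃ : Type} (f : R →+ R) (L : List ι) (a : ι₁ → ι → R) (b : ι → ι₃ → R)
    (p : ι₁) (r : ι₃) : f (mulL L a b p r) = (L.map fun q => f (a p q * b q r)).sum := by
  simp only [mulL, map_list_sum, List.map_map, Function.comp_def]

theorem InJ.mulL (P : PR J) {ι₁ ι₃ : Type} {i j k : Z5} {A : List ι₁} {B : List ι}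
    {C : List ι₃} {a : ι₁ → ι → R} {b : ι → ι₃ → R} (ha : InJ J i j A B a)
    (hb : InJ J j k B C b) : InJ J i k A C (mulL B a b) := by
  intro p hp r hr
  exact mulL_mem _ fun q hq => P.mul_mem (ha p hp q hq) (hb q hq r hr)

theorem mem_cblk {K : ℕ} (hK : 0 < K) {P : List ι} {p : ι × ℕ} :
    p ∈ cblk K P ↔ p.1 ∈ P ∧ p.2 < K := by
  obtain ⟨p, k⟩ := p
  simp only [cblk, List.mem_append, List.mem_flatMap, List.mem_range'_1, List.mem_map,
    Prod.mk.injEq]
  constructor
  · rintro (⟨k', ⟨h1, h2⟩, a, ha, rfl, rfl⟩ | ⟨a, ha, rfl, rfl⟩)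
    · exact ⟨ha, by omega⟩
    · exact ⟨ha, hK⟩
  · rintro ⟨h1, h2⟩
    rcases Nat.eq_zero_or_pos k with rfl | hk
    · exact Or.inr ⟨p, h1, rfl, rfl⟩
    · exact Or.inl ⟨k, ⟨hk, by omega⟩, p, h1, rfl, rfl⟩

/-- Sums over `cblk` are double sums. -/
theorem sum_cblk {M : Type} [AddCommMonoid M] {K : ℕ} (hK : 0 < K) (P : List ι)
    (f : ι × ℕ → M) :
    ((cblk K P).map f).sum = ∑ k ∈ Finset.range K, (P.map fun p => f (p, k)).sum := by
  obtain ⟨n, rfl⟩ : ∃ n, K = n + 1 := ⟨K - 1, by omega⟩
  rw [Finset.sum_range_succ']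
  simp only [cblk, List.map_append, List.sum_append, List.map_map, Function.comp_def,
    Nat.add_sub_cancel]
  congr 1
  clear hK
  induction n with
  | zero => simp
  | succ n ih =>
    rw [List.range'_concat, List.flatMap_append, List.map_append, List.sum_append, ih,
      Finset.sum_range_succ]
    simp [List.map_map, Function.comp_def, add_comm]

end Crest.Agent.R176
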