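import Crest.Agent.R176.KBas1

/-! Row 176: basic lemmas on det, Lam, om and the centraliser. -/

set_option autoImplicit false

open scoped commutatorElement

namespace Crest.Agent.R176

variable {R : Type} [Ring R] {J : Z5 → Z5 → AddSubgroup R} {ι : Type}

namespace KBasic

theorem acyc_self {ν : ι → ι → R} {L : List ι} (h : Acyc ν L) {q : ι} (hq : q ∈ L) : ν q q = 0 := by
  obtain ⟨rk, hrk⟩ := h
  by_contra hc
  exact lt_irrefl _ (hrk q hq q hq hc)

theorem elim_map {ι' : Type} (f : ι → ι') {ν : ι → ι → R} {ν' : ι' → ι' → R} {q : ι} {L : List ι}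
    (h : ∀ p ∈ q :: L, ∀ r ∈ q :: L, ν' (f p) (f r) = ν p r) :
    ∀ p ∈ L, ∀ r ∈ L, elim (f q) ν' (f p) (f r) = elim q ν p r := fun p hp r hr => by
  have hq := List.mem_cons_self (a := q) (l := L)
  have hp' := List.mem_cons_of_mem q hp
  have hr' := List.mem_cons_of_mem q hr
  simp only [elim, h p hp' r hr', h p hp' q hq, h q hq q hq, h q hq r hr']

end KBasic

/-! ### det, Lam, om, C -/

variable {G : Type} [Group G] (E : StG J G)

theorem StG.mem_C {g : G} : g ∈ E.C ↔ ∀ i j r, Commute g (E.x i j r) := by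
  rw [StG.C, Subgroup.mem_centralizer_iff]
  exact ⟨fun h i j r => (h _ ⟨i, j, r, rfl⟩).symm, by rintro h _ ⟨i, j, r, rfl⟩; exact (h i j r).symm⟩

theorem StG.commute_col {g : G} (hg : g ∈ E.C) (v : ι → Z5) (ν : ι → ι → R) (q : ι) (L : List ι) :
    Commute g (E.col v ν q L) :=
  Commute.list_prod_right _ _ fun x hx => by
    obtain ⟨a, -, rfl⟩ := List.mem_map.1 hx
    exact E.mem_C.1 hg _ _ _

theorem StG.commute_row {g : G} (hg : g ∈ E.C) (v : ι → Z5) (ν : ι → ι → R) (q : ι) (L : List ι) :
    Commute g (E.row v ν q L) :=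
  Commute.list_prod_right _ _ fun x hx => by
    obtain ⟨a, -, rfl⟩ := List.mem_map.1 hx
    exact E.mem_C.1 hg _ _ _

/-- Torus elements normalise the centraliser. -/
theorem StG.h_conj_mem_C (P : PR J) {i : Z5} {a : R} (ha : a ∈ J i i) {g : G} (hg : g ∈ E.C) :
    E.h i a * g * (E.h i a)⁻¹ ∈ E.C := by
  rw [E.mem_C] at hg ⊢
  intro k l r
  by_cases hr : r ∈ J k l
  · have h1 : iv a * r ∈ J k l := by
      by_cases hk : i = k
      · subst hk; exact P.iv_mul_mem ha hr
      · rw [P.iv_mul_of_ne ha hr hk]; exact hr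
    have h2 : iv a * r * (1 + a) ∈ J k l := by
      rw [mul_add, mul_one]
      by_cases hl : l = i
      · subst hl; exact add_mem h1 (P.mul_mem h1 ha)
      · rw [P.mul_zero h1 ha hl, add_zero]; exact h1
    have h3 := E.h_conj ha h2
    have h4 : (1 + a) * (iv a * r * (1 + a)) * iv a = r := by
      calc _ = ((1 + a) * iv a) * r * ((1 + a) * iv a) := by simp only [mul_assoc]
        _ = r := by rw [P.mul_iv ha, one_mul, mul_one]
    rw [h4] at h3
    rw [← h3]
    exact (hg k l _).conj _
  · rw [E.rels.triv fun h => hr h.2]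
    exact Commute.one_right _

theorem StG.det_conj_mem_C (P : PR J) {v : ι → Z5} {ν : ι → ι → R} {X : List ι}
    (h : Fits J v ν X) {g : G} (hg : g ∈ E.C) : E.det v ν X * g * (E.det v ν X)⁻¹ ∈ E.C := by
  induction X generalizing ν with
  | nil => simpa [StG.det] using hg
  | cons q X ih =>
    have h1 := E.h_conj_mem_C P (h q List.mem_cons_self q List.mem_cons_self)
      (ih ((h.elim P List.mem_cons_self).mono fun p hp => List.mem_cons_of_mem _ hp))
    simpa only [StG.det, mul_inv_rev, mul_assoc] using h1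

/-- On the centraliser, conjugation by `Lam` is conjugation by `det`. -/
theorem StG.Lam_conj (P : PR J) {v : ι → Z5} {ν : ι → ι → R} {X : List ι}
    (h : Fits J v ν X) {g : G} (hg : g ∈ E.C) :
    E.Lam v ν X * g * (E.Lam v ν X)⁻¹ = E.det v ν X * g * (E.det v ν X)⁻¹ := by
  induction X generalizing ν with
  | nil => simp [StG.det, StG.Lam]
  | cons q X ih =>
    have h1 := ih ((h.elim P List.mem_cons_self).mono fun p hp => List.mem_cons_of_mem _ hp)
    have h2 := (E.commute_col (E.det_conj_mem_C P h hg) v ν q X).eq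
    have h3 := (E.commute_row hg v ν q X).eq
    rw [StG.det] at h2 ⊢
    rw [StG.Lam]
    calc _ = E.col v ν q X * E.h (v q) (ν q q) * (E.Lam v (elim q ν) X * (E.row v ν q X * g *
          (E.row v ν q X)⁻¹) * (E.Lam v (elim q ν) X)⁻¹) * (E.h (v q) (ν q q))⁻¹ *
          (E.col v ν q X)⁻¹ := by group
      _ = E.col v ν q X * (E.h (v q) (ν q q) * E.det v (elim q ν) X * g *
          (E.h (v q) (ν q q) * E.det v (elim q ν) X)⁻¹) * (E.col v ν q X)⁻¹ := by
        rw [← h3, mul_inv_cancel_right, h1]; group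
      _ = _ := by rw [← h2, mul_inv_cancel_right]

theorem StG.det_append (v : ι → Z5) (ν : ι → ι → R) (X Y : List ι) :
    E.det v ν (X ++ Y) = E.det v ν X * E.det v (elimL X ν) Y := by
  induction X generalizing ν with
  | nil => simp [StG.det, elimL]
  | cons q X ih => simp only [List.cons_append, StG.det, elimL, ih, mul_assoc]

theorem StG.det_acyc {v : ι → Z5} {ν : ι → ι → R} {X : List ι} (h : Acyc ν X) :
    E.det v ν X = 1 := by
  induction X generalizing ν with
  | nil => rfl
  | cons q X ih =>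
    rw [StG.det, ih ((h.elim List.mem_cons_self).mono fun p hp => List.mem_cons_of_mem _ hp),
      KBasic.acyc_self h List.mem_cons_self, E.h_zero, one_mul]

theorem StG.det_map {ι' : Type} (f : ι → ι') {v : ι → Z5} {v' : ι' → Z5} {ν : ι → ι → R}
    {ν' : ι' → ι' → R} {L : List ι} (hv : ∀ p ∈ L, v' (f p) = v p)
    (h : ∀ p ∈ L, ∀ q ∈ L, ν' (f p) (f q) = ν p q) : E.det v' ν' (L.map f) = E.det v ν L := by
  induction L generalizing ν ν' with
  | nil => rfl
  | cons q L ih =>
    rw [List.map_cons, StG.det, StG.det, hv q List.mem_cons_self,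
      h q List.mem_cons_self q List.mem_cons_self,
      ih (fun p hp => hv p (List.mem_cons_of_mem _ hp)) (KBasic.elim_map f h)]

theorem StG.Lam_map {ι' : Type} (f : ι → ι') {v : ι → Z5} {v' : ι' → Z5} {ν : ι → ι → R}
    {ν' : ι' → ι' → R} {L : List ι} (hv : ∀ p ∈ L, v' (f p) = v p)
    (h : ∀ p ∈ L, ∀ q ∈ L, ν' (f p) (f q) = ν p q) : E.Lam v' ν' (L.map f) = E.Lam v ν L := by
  induction L generalizing ν ν' with
  | nil => rfl
  | cons q L ih =>
    have hq := List.mem_cons_self (a := q) (l := L)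
    have h1 : E.col v' ν' (f q) (L.map f) = E.col v ν q L := by
      rw [StG.col, StG.col, List.map_map]
      congr 1
      refine List.map_congr_left fun a ha => ?_
      have ha' := List.mem_cons_of_mem q ha
      simp only [Function.comp, hv a ha', hv q hq, h a ha' q hq, h q hq q hq]
    have h2 : E.row v' ν' (f q) (L.map f) = E.row v ν q L := by
      rw [StG.row, StG.row, List.map_map]
      congr 1
      refine List.map_congr_left fun a ha => ?_
      have ha' := List.mem_cons_of_mem q ha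
      simp only [Function.comp, hv a ha', hv q hq, h q hq a ha', h q hq q hq]
    rw [List.map_cons, StG.Lam, StG.Lam, h1, h2, hv q hq, h q hq q hq,
      ih (fun p hp => hv p (List.mem_cons_of_mem _ hp)) (KBasic.elim_map f h)]

theorem StG.det_congr {v v' : ι → Z5} {ν ν' : ι → ι → R} {L : List ι}
    (hv : ∀ p ∈ L, v' p = v p) (h : ∀ p ∈ L, ∀ q ∈ L, ν' p q = ν p q) :
    E.det v' ν' L = E.det v ν L := by
  simpa using E.det_map id hv h

theorem StG.Lam_congr {v v' : ι → Z5} {ν ν' : ι → ι → R} {L : List ι}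
    (hv : ∀ p ∈ L, v' p = v p) (h : ∀ p ∈ L, ∀ q ∈ L, ν' p q = ν p q) :
    E.Lam v' ν' L = E.Lam v ν L := by
  simpa using E.Lam_map id hv h

theorem StG.om_symm (v : ι → Z5) (ν : ι → ι → R) (q r : ι) :
    E.om v ν r q = (E.om v ν q r)⁻¹ := by
  simp [StG.om]

theorem StG.om_acyc {v : ι → Z5} {ν : ι → ι → R} {q r : ι} (h : Acyc ν [q, r]) :
    E.om v ν q r = 1 := by
  have h1 : ν q q = 0 := KBasic.acyc_self h (by simp)
  have h2 : ν r r = 0 := KBasic.acyc_self h (by simp)
  have h3 : ν q r = 0 ∨ ν r q = 0 := by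
    obtain ⟨rk, hrk⟩ := h
    by_contra hc
    rw [not_or] at hc
    have := hrk q (by simp) r (by simp) hc.1
    have := hrk r (by simp) q (by simp) hc.2
    omega
  rcases h3 with h3 | h3 <;>
    simp [StG.om, StG.Lam, StG.col, StG.row, elim, h1, h2, h3, E.h_zero, E.rels.zero]

theorem StG.Lam_zero {v : ι → Z5} {ν : ι → ι → R} {L : List ι}
    (h : ∀ p ∈ L, ∀ q ∈ L, ν p q = 0) : E.Lam v ν L = 1 := by
  induction L generalizing ν with
  | nil => rfl
  | cons q L ih =>
    have hq := List.mem_cons_self (a := q) (l := L)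
    have h1 : E.col v ν q L = 1 := List.prod_eq_one fun x hx => by
      obtain ⟨a, ha, rfl⟩ := List.mem_map.1 hx
      rw [h a (List.mem_cons_of_mem _ ha) q hq, zero_mul, E.rels.zero]
    have h2 : E.row v ν q L = 1 := List.prod_eq_one fun x hx => by
      obtain ⟨a, ha, rfl⟩ := List.mem_map.1 hx
      rw [h q hq a (List.mem_cons_of_mem _ ha), mul_zero, E.rels.zero]
    rw [StG.Lam, h1, h2, h q hq q hq, E.h_zero, ih fun a ha b hb => ?_]
    · simp
    · simp [elim, h a (List.mem_cons_of_mem _ ha) b (List.mem_cons_of_mem _ hb),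
        h a (List.mem_cons_of_mem _ ha) q hq]

/-- `col` and `row` do not depend on the order of the list. -/
theorem StG.col_perm (P : PR J) {v : ι → Z5} {ν : ι → ι → R} {q : ι} {L L' : List ι}
    (h : Fits J v ν (q :: L)) (hq : ∀ a ∈ L, v a ≠ v q) (hp : L.Perm L') :
    E.col v ν q L = E.col v ν q L' := by
  have hq' := List.mem_cons_self (a := q) (l := L)
  refine (hp.map _).prod_eq' (List.pairwise_map.2 (List.pairwise_of_forall_mem_list ?_))
  intro a ha b hb
  exact E.rels.com (P.mul_iv_mem (h q hq' q hq') (h a (List.mem_cons_of_mem _ ha) q hq'))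
    (P.mul_iv_mem (h q hq' q hq') (h b (List.mem_cons_of_mem _ hb) q hq')) (hq b hb).symm
    (hq a ha).symm

theorem StG.row_perm (P : PR J) {v : ι → Z5} {ν : ι → ι → R} {q : ι} {L L' : List ι}
    (h : Fits J v ν (q :: L)) (hq : ∀ a ∈ L, v a ≠ v q) (hp : L.Perm L') :
    E.row v ν q L = E.row v ν q L' := by
  have hq' := List.mem_cons_self (a := q) (l := L)
  refine (hp.map _).prod_eq' (List.pairwise_map.2 (List.pairwise_of_forall_mem_list ?_))
  intro a ha b hb
  exact E.rels.com (P.iv_mul_mem (h q hq' q hq') (h q hq' a (List.mem_cons_of_mem _ ha)))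
    (P.iv_mul_mem (h q hq' q hq') (h q hq' b (List.mem_cons_of_mem _ hb))) (hq a ha) (hq b hb)

end Crest.Agent.R176
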