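import Crest.Agent.R176.Alg

/-! Row 176, group side: Peirce rings, unit-free Steinberg groups, Gauss transport. -/

set_option autoImplicit false

open scoped commutatorElement

namespace Crest.Agent.R176

abbrev Z5 : Type := ZMod 5

section Peirce
variable {R : Type} [Ring R]

/-- Abstract Peirce data of a nil ring of characteristic two over the cyclic quiver `Z5`. -/
structure PR (J : Z5 → Z5 → AddSubgroup R) : Prop where
  two : ∀ r : R, r + r = 0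
  mul_mem : ∀ {i j k : Z5} {a b : R}, a ∈ J i j → b ∈ J j k → a * b ∈ J i k
  mul_zero : ∀ {i j k l : Z5} {a b : R}, a ∈ J i j → b ∈ J k l → j ≠ k → a * b = 0
  nil : ∀ {i : Z5} {a : R}, a ∈ J i i → IsNilpotent a
  pr : ∀ i j : Z5, ∃ f : R →+ R, (∀ r ∈ J i j, f r = r) ∧
    (∀ k l : Z5, ¬ (k = i ∧ l = j) → ∀ r ∈ J k l, f r = 0) ∧ f 1 = 0
  fact : ∀ i j h : Z5, h ≠ i → (h - i).val < (j - i).val →
    J i j ≤ AddSubgroup.closure {r | ∃ a ∈ J i h, ∃ b ∈ J h j, r = a * b}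

/-- The inverse of `1 + a`. -/
noncomputable def iv (a : R) : R := Ring.inverse (1 + a)

variable {J : Z5 → Z5 → AddSubgroup R}

theorem PR.unit (P : PR J) {i : Z5} {a : R} (h : a ∈ J i i) : IsUnit (1 + a) :=
  (P.nil h).isUnit_one_add

theorem PR.mul_iv (P : PR J) {i : Z5} {a : R} (h : a ∈ J i i) : (1 + a) * iv a = 1 :=
  Ring.mul_inverse_cancel _ (P.unit h)

theorem PR.iv_mul (P : PR J) {i : Z5} {a : R} (h : a ∈ J i i) : iv a * (1 + a) = 1 :=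
  Ring.inverse_mul_cancel _ (P.unit h)

@[simp] theorem iv_zero : iv (0 : R) = 1 := by simp [iv]

theorem PR.neg_eq (P : PR J) (r : R) : -r = r := neg_eq_of_add_eq_zero_left (P.two r)

theorem PR.sub_eq (P : PR J) (r s : R) : r - s = r + s := by rw [sub_eq_add_neg, P.neg_eq]

theorem PR.pow_mem (P : PR J) {i : Z5} {a : R} (h : a ∈ J i i) (n : ℕ) : a ^ (n + 1) ∈ J i i := by
  induction n with
  | zero => simpa using h
  | succ n ih => rw [pow_succ]; exact P.mul_mem ih h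

/-- `iv a = 1 + a'` with `a'` in the same diagonal piece. -/
theorem PR.iv_eq (P : PR J) {i : Z5} {a : R} (h : a ∈ J i i) : ∃ a' ∈ J i i, iv a = 1 + a' := by
  obtain ⟨n, hn⟩ := P.nil h
  refine ⟨∑ k ∈ Finset.range n, a ^ (k + 1), AddSubgroup.sum_mem _ fun k _ => P.pow_mem h k, ?_⟩
  have key : ∀ m : ℕ, (1 + a) * (1 + ∑ k ∈ Finset.range m, a ^ (k + 1)) = 1 + a ^ (m + 1) := by
    intro m
    induction m with
    | zero => simp
    | succ m ih =>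
      rw [Finset.sum_range_succ, ← add_assoc, mul_add, ih, add_mul, one_mul, ← pow_succ']
      have := P.two (a ^ (m + 1))
      calc 1 + a ^ (m + 1) + (a ^ (m + 1) + a ^ (m + 1 + 1))
          = 1 + (a ^ (m + 1) + a ^ (m + 1)) + a ^ (m + 1 + 1) := by abel
        _ = _ := by rw [this, add_zero]
  have h1 := key n
  rw [pow_succ, hn, zero_mul, add_zero] at h1
  calc iv a = iv a * ((1 + a) * (1 + ∑ k ∈ Finset.range n, a ^ (k + 1))) := by rw [h1, mul_one]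
    _ = _ := by rw [← mul_assoc, P.iv_mul h, one_mul]

theorem PR.mul_iv_mem (P : PR J) {i j : Z5} {a r : R} (h : a ∈ J j j) (hr : r ∈ J i j) :
    r * iv a ∈ J i j := by
  obtain ⟨a', h1, h2⟩ := P.iv_eq h
  rw [h2, mul_add, mul_one]; exact add_mem hr (P.mul_mem hr h1)

theorem PR.iv_mul_mem (P : PR J) {i j : Z5} {a r : R} (h : a ∈ J i i) (hr : r ∈ J i j) :
    iv a * r ∈ J i j := by
  obtain ⟨a', h1, h2⟩ := P.iv_eq h
  rw [h2, add_mul, one_mul]; exact add_mem hr (P.mul_mem h1 hr)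

theorem PR.mul_iv_of_ne (P : PR J) {i j k : Z5} {a r : R} (h : a ∈ J k k) (hr : r ∈ J i j)
    (hk : j ≠ k) : r * iv a = r := by
  obtain ⟨a', h1, h2⟩ := P.iv_eq h
  rw [h2, mul_add, mul_one, P.mul_zero hr h1 hk, add_zero]

theorem PR.iv_mul_of_ne (P : PR J) {i j k : Z5} {a r : R} (h : a ∈ J k k) (hr : r ∈ J i j)
    (hk : k ≠ i) : iv a * r = r := by
  obtain ⟨a', h1, h2⟩ := P.iv_eq h
  rw [h2, add_mul, one_mul, P.mul_zero h1 hr hk, add_zero]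

theorem PR.conj_mem (P : PR J) {i k l : Z5} {a r : R} (h : a ∈ J i i) (hr : r ∈ J k l) :
    (1 + a) * r * iv a ∈ J k l := by
  have h1 : (1 + a) * r ∈ J k l := by
    rw [add_mul, one_mul]
    by_cases hik : i = k
    · subst hik; exact add_mem hr (P.mul_mem h hr)
    · rw [P.mul_zero h hr hik, add_zero]; exact hr
  by_cases hl : l = i
  · subst hl; exact P.mul_iv_mem h h1
  · rw [P.mul_iv_of_ne h h1 hl]; exact h1

/-! ### The Steinberg group -/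

/-- Steinberg relators on the symbols `(i, j, r)`. -/
def stRel (J : Z5 → Z5 → AddSubgroup R) : Set (FreeGroup (Z5 × Z5 × R)) :=
  {g | (∃ i j r, ¬ (i ≠ j ∧ r ∈ J i j) ∧ g = FreeGroup.of (i, j, r)) ∨
    (∃ i j r s, r ∈ J i j ∧ s ∈ J i j ∧
      g = FreeGroup.of (i, j, r) * FreeGroup.of (i, j, s) * (FreeGroup.of (i, j, r + s))⁻¹) ∨
    (∃ i j k l r s, r ∈ J i j ∧ s ∈ J k l ∧ j ≠ k ∧ l ≠ i ∧
      g = ⁅FreeGroup.of (i, j, r), FreeGroup.of (k, l, s)⁆) ∨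
    (∃ i j k r s, r ∈ J i j ∧ s ∈ J j k ∧ i ≠ j ∧ j ≠ k ∧ i ≠ k ∧
      g = ⁅FreeGroup.of (i, j, r), FreeGroup.of (j, k, s)⁆ * (FreeGroup.of (i, k, r * s))⁻¹)}

/-- The unit-free Steinberg group. -/
abbrev Stb (J : Z5 → Z5 → AddSubgroup R) : Type := PresentedGroup (stRel J)

def xS (J : Z5 → Z5 → AddSubgroup R) (i j : Z5) (r : R) : Stb J := PresentedGroup.of (i, j, r)

/-- Steinberg relations for a family `x` in a group `G`. -/
structure StRels (J : Z5 → Z5 → AddSubgroup R) {G : Type} [Group G] (x : Z5 → Z5 → R → G) :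
    Prop where
  triv : ∀ {i j : Z5} {r : R}, ¬ (i ≠ j ∧ r ∈ J i j) → x i j r = 1
  add : ∀ {i j : Z5} {r s : R}, r ∈ J i j → s ∈ J i j → x i j r * x i j s = x i j (r + s)
  com : ∀ {i j k l : Z5} {r s : R}, r ∈ J i j → s ∈ J k l → j ≠ k → l ≠ i →
    Commute (x i j r) (x k l s)
  st : ∀ {i j k : Z5} {r s : R}, r ∈ J i j → s ∈ J j k → i ≠ j → j ≠ k → i ≠ k →
    ⁅x i j r, x j k s⁆ = x i k (r * s)

theorem xS_rels (J : Z5 → Z5 → AddSubgroup R) : StRels J (xS J) where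
  triv h := PresentedGroup.one_of_mem (Or.inl ⟨_, _, _, h, rfl⟩)
  add hr hs := by
    have := PresentedGroup.one_of_mem (rels := stRel J)
      (Or.inr (Or.inl ⟨_, _, _, _, hr, hs, rfl⟩))
    simp only [map_mul, map_inv] at this
    exact mul_inv_eq_one.1 this
  com hr hs h1 h2 := by
    have := PresentedGroup.one_of_mem (rels := stRel J)
      (Or.inr (Or.inr (Or.inl ⟨_, _, _, _, _, _, hr, hs, h1, h2, rfl⟩)))
    rw [map_commutatorElement] at this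
    exact commutatorElement_eq_one_iff_commute.1 this
  st hr hs h1 h2 h3 := by
    have := PresentedGroup.one_of_mem (rels := stRel J)
      (Or.inr (Or.inr (Or.inr ⟨_, _, _, _, _, hr, hs, h1, h2, h3, rfl⟩)))
    simp only [map_mul, map_inv, map_commutatorElement] at this
    exact mul_inv_eq_one.1 this

/-- The universal property of the Steinberg group. -/
def StRels.lift {G : Type} [Group G] {x : Z5 → Z5 → R → G} (h : StRels J x) : Stb J →* G :=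
  PresentedGroup.toGroup (f := fun p : Z5 × Z5 × R => x p.1 p.2.1 p.2.2) (by
    rintro g (⟨i, j, r, h1, rfl⟩ | ⟨i, j, r, s, hr, hs, rfl⟩ | ⟨i, j, k, l, r, s, hr, hs, h1, h2, rfl⟩ |
      ⟨i, j, k, r, s, hr, hs, h1, h2, h3, rfl⟩)
    · simpa using h.triv h1
    · simp [h.add hr hs]
    · rw [map_commutatorElement]
      simpa using commutatorElement_eq_one_iff_commute.2 (h.com hr hs h1 h2)
    · simp only [map_mul, map_inv, map_commutatorElement, FreeGroup.lift_apply_of]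
      rw [h.st hr hs h1 h2 h3, mul_inv_cancel])

@[simp] theorem StRels.lift_xS {G : Type} [Group G] {x : Z5 → Z5 → R → G} (h : StRels J x)
    (i j : Z5) (r : R) : h.lift (xS J i j r) = x i j r := PresentedGroup.toGroup.of _

theorem StRels.zero {G : Type} [Group G] {x : Z5 → Z5 → R → G} (h : StRels J x) (i j : Z5) :
    x i j 0 = 1 := by
  have := h.add (i := i) (j := j) (zero_mem _) (zero_mem _)
  rw [add_zero] at this
  exact mul_eq_left.1 this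

theorem StRels.mul_self {G : Type} [Group G] {x : Z5 → Z5 → R → G} (h : StRels J x) (P : PR J)
    (i j : Z5) (r : R) : x i j r * x i j r = 1 := by
  by_cases hr : r ∈ J i j
  · rw [h.add hr hr, P.two, h.zero]
  · rw [h.triv (fun h' => hr h'.2), one_mul]

theorem StRels.inv_eq {G : Type} [Group G] {x : Z5 → Z5 → R → G} (h : StRels J x) (P : PR J)
    (i j : Z5) (r : R) : (x i j r)⁻¹ = x i j r := inv_eq_of_mul_eq_one_right (h.mul_self P i j r)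

/-- A group with Steinberg elements, torus elements and a projection to the units of `R`. -/
structure StG (J : Z5 → Z5 → AddSubgroup R) (G : Type) [Group G] where
  x : Z5 → Z5 → R → G
  h : Z5 → R → G
  pi : G →* Rˣ
  rels : StRels J x
  h_zero : ∀ i, h i 0 = 1
  h_conj : ∀ {i k l : Z5} {a r : R}, a ∈ J i i → r ∈ J k l →
    h i a * x k l r * (h i a)⁻¹ = x k l ((1 + a) * r * iv a)
  pi_x : ∀ {i j : Z5} {r : R}, i ≠ j → r ∈ J i j → ((pi (x i j r) : Rˣ) : R) = 1 + r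
  pi_h : ∀ {i : Z5} {a : R}, a ∈ J i i → ((pi (h i a) : Rˣ) : R) = 1 + a

/-- K-HAT: the Steinberg group embeds in a group with torus elements. -/
def HatStmt (J : Z5 → Z5 → AddSubgroup R) : Prop :=
  ∃ (G : Type) (_ : Group G) (E : StG J G) (e : Stb J →* G),
    Function.Injective e ∧ ∀ i j r, e (xS J i j r) = E.x i j r

/-! ### Gauss elimination on lists of located states -/

section Gauss
variable {ι : Type}

/-- All entries between states of `L` lie in the right Peirce pieces. -/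
def Fits (J : Z5 → Z5 → AddSubgroup R) (v : ι → Z5) (ν : ι → ι → R) (L : List ι) : Prop :=
  ∀ p ∈ L, ∀ q ∈ L, ν p q ∈ J (v p) (v q)

/-- Schur complement of `1 + ν` with respect to the state `q`. -/
noncomputable def elim (q : ι) (ν : ι → ι → R) : ι → ι → R :=
  fun a b => ν a b + ν a q * iv (ν q q) * ν q b

noncomputable def elimL : List ι → (ι → ι → R) → ι → ι → R
  | [], ν => ν
  | q :: X, ν => elimL X (elim q ν)

/-- `ν` is strictly triangular on `L`. -/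
def Acyc (ν : ι → ι → R) (L : List ι) : Prop :=
  ∃ rk : ι → ℕ, ∀ p ∈ L, ∀ q ∈ L, ν p q ≠ 0 → rk p < rk q

/-- Shuffles: adjacent transpositions of states at different vertices. -/
inductive Sh (v : ι → Z5) : List ι → List ι → Prop
  | refl (L : List ι) : Sh v L L
  | swap (X Y : List ι) (q r : ι) (h : v q ≠ v r) : Sh v (X ++ q :: r :: Y) (X ++ r :: q :: Y)
  | trans {L L' L'' : List ι} : Sh v L L' → Sh v L' L'' → Sh v L L''

/-- Product of matrices, summing over the list `L`. -/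
def mulL {ι₁ ι₃ : Type} (L : List ι) (a : ι₁ → ι → R) (b : ι → ι₃ → R) : ι₁ → ι₃ → R :=
  fun p r => (L.map fun q => a p q * b q r).sum

variable {G : Type} [Group G] (E : StG J G)

/-- The centraliser of the Steinberg elements. -/
def StG.C : Subgroup G := Subgroup.centralizer {g | ∃ i j r, g = E.x i j r}

noncomputable def StG.det (v : ι → Z5) : (ι → ι → R) → List ι → G
  | _, [] => 1
  | ν, q :: X => E.h (v q) (ν q q) * StG.det v (elim q ν) X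

noncomputable def StG.col (v : ι → Z5) (ν : ι → ι → R) (q : ι) (L : List ι) : G :=
  (L.map fun a => E.x (v a) (v q) (ν a q * iv (ν q q))).prod

noncomputable def StG.row (v : ι → Z5) (ν : ι → ι → R) (q : ι) (L : List ι) : G :=
  (L.map fun b => E.x (v q) (v b) (iv (ν q q) * ν q b)).prod

/-- The LDU lift of `1 + ν` in the chart `L`. -/
noncomputable def StG.Lam (v : ι → Z5) : (ι → ι → R) → List ι → G
  | _, [] => 1
  | ν, q :: L => E.col v ν q L * E.h (v q) (ν q q) * StG.Lam v (elim q ν) L * E.row v ν q L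

/-- The Dennis-Stein transport of one adjacent transposition. -/
noncomputable def StG.om (v : ι → Z5) (ν : ι → ι → R) (q r : ι) : G :=
  E.Lam v ν [r, q] * (E.Lam v ν [q, r])⁻¹

end Gauss

variable {G : Type} [Group G] (E : StG J G)

/-- `g` acts on the Steinberg elements as conjugation by the unit `t`. -/
def StG.Acts (g : G) (t : Rˣ) : Prop :=
  ∀ (k l : Z5) (r : R), r ∈ J k l → g * E.x k l r * g⁻¹ = E.x k l (t * r * (t⁻¹ : Rˣ))

/-- The Dennis-Stein element. -/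
noncomputable def StG.ds (i j : Z5) (a b : R) : G :=
  E.x i j (a * iv (b * a)) * E.x j i b * E.x i j a * E.x j i (iv (b * a) * b)

/-- K-DS for the pair `i, j`. -/
def DsAt (i j : Z5) : Prop :=
  ∀ a ∈ J i j, ∀ b ∈ J j i, E.Acts (E.ds i j a b) (E.pi (E.ds i j a b))

/-- K-DS1: non-adjacent pairs. -/
def Ds1Stmt : Prop := ∀ i j : Z5, i ≠ j → j ≠ i + 1 → i ≠ j + 1 → DsAt E i j

/-- K-DS2: all pairs. -/
def DsStmt : Prop := ∀ i j : Z5, i ≠ j → DsAt E i j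

/-- K-OM: the transports centralise the Steinberg elements. -/
def OmStmt : Prop :=
  ∀ (ι : Type) (v : ι → Z5) (ν : ι → ι → R) (q r : ι), v q ≠ v r → Fits J v ν [q, r] →
    E.om v ν q r ∈ E.C

/-- K-CHART. -/
def ChartStmt : Prop :=
  ∀ (ι : Type) (v : ι → Z5) (ν : ι → ι → R) (q r : ι) (Y : List ι),
    Fits J v ν (q :: r :: Y) → ((q :: r :: Y).map v).Nodup →
      E.Lam v ν (r :: q :: Y) = E.om v ν q r * E.Lam v ν (q :: r :: Y)

/-- A coherent system of transports between orders of elimination. -/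
structure Tr where
  tr : ∀ {ι : Type}, (ι → Z5) → (ι → ι → R) → List ι → List ι → G
  refl : ∀ {ι : Type} (v : ι → Z5) (ν : ι → ι → R) (L : List ι), tr v ν L L = 1
  trans : ∀ {ι : Type} (v : ι → Z5) (ν : ι → ι → R) (L L' L'' : List ι),
    tr v ν L' L'' * tr v ν L L' = tr v ν L L''
  swap : ∀ {ι : Type} (v : ι → Z5) (ν : ι → ι → R) (q r : ι) (Y : List ι),
    Fits J v ν (q :: r :: Y) → v q ≠ v r → tr v ν (q :: r :: Y) (r :: q :: Y) = E.om v ν q r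
  cons : ∀ {ι : Type} (v : ι → Z5) (ν : ι → ι → R) (q : ι) (L L' : List ι),
    Fits J v ν (q :: L) → Sh v L L' →
      tr v ν (q :: L) (q :: L') = E.h (v q) (ν q q) * tr v (elim q ν) L L' * (E.h (v q) (ν q q))⁻¹

variable {E}

/-- K-TR: consequences of the four axioms of `Tr`. -/
structure TrMore (τ : Tr E) : Prop where
  mem : ∀ {ι : Type} {v : ι → Z5} {ν : ι → ι → R} {L L' : List ι},
    Fits J v ν L → Sh v L L' → τ.tr v ν L L' ∈ E.C
  suffix : ∀ {ι : Type} {v : ι → Z5} {ν : ι → ι → R} {L L' : List ι} (Y : List ι),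
    Fits J v ν (L ++ Y) → Sh v L L' → τ.tr v ν (L ++ Y) (L' ++ Y) = τ.tr v ν L L'
  pref : ∀ {ι : Type} {v : ι → Z5} {ν : ι → ι → R} (X : List ι) {L L' : List ι},
    Fits J v ν (X ++ L) → Sh v L L' →
      τ.tr v ν (X ++ L) (X ++ L') = E.det v ν X * τ.tr v (elimL X ν) L L' * (E.det v ν X)⁻¹
  map : ∀ {ι ι' : Type} {v : ι → Z5} {ν : ι → ι → R} {v' : ι' → Z5} {ν' : ι' → ι' → R}
    (f : ι → ι') {L L' : List ι}, Fits J v ν L → Sh v L L' → (∀ p ∈ L, v' (f p) = v p) →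
      (∀ p ∈ L, ∀ q ∈ L, ν' (f p) (f q) = ν p q) →
        τ.tr v' ν' (L.map f) (L'.map f) = τ.tr v ν L L'
  acyc : ∀ {ι : Type} {v : ι → Z5} {ν : ι → ι → R} {L L' : List ι},
    Fits J v ν L → Acyc ν L → Sh v L L' → τ.tr v ν L L' = 1
  chart : ∀ {ι : Type} {v : ι → Z5} {ν : ι → ι → R} {L L' : List ι},
    Fits J v ν L → (L.map v).Nodup → Sh v L L' → E.Lam v ν L' = τ.tr v ν L L' * E.Lam v ν L

/-! ### Two-block transports -/

def blk2 {ι₁ ι₂ : Type} (a : ι₁ → ι₂ → R) (b : ι₂ → ι₁ → R) : ι₁ ⊕ ι₂ → ι₁ ⊕ ι₂ → R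
  | Sum.inl p, Sum.inr q => a p q
  | Sum.inr q, Sum.inl p => b q p
  | _, _ => 0

/-- All entries of `a` on `A × B` lie in `J i j`. -/
def InJ (J : Z5 → Z5 → AddSubgroup R) {ι₁ ι₂ : Type} (i j : Z5) (A : List ι₁) (B : List ι₂)
    (a : ι₁ → ι₂ → R) : Prop := ∀ p ∈ A, ∀ q ∈ B, a p q ∈ J i j

/-- Transport from `det (1 + a b)` on `A` to `det (1 + b a)` on `B`. -/
def Tr.DD (τ : Tr E) {ι₁ ι₂ : Type} (i j : Z5) (A : List ι₁) (B : List ι₂)
    (a : ι₁ → ι₂ → R) (b : ι₂ → ι₁ → R) : G :=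
  τ.tr (Sum.elim (fun _ => i) (fun _ => j)) (blk2 a b)
    (B.map Sum.inr ++ A.map Sum.inl) (A.map Sum.inl ++ B.map Sum.inr)

/-- `K` copies of the list `P`, the copy `0` last. -/
def cblk {ι : Type} (K : ℕ) (P : List ι) : List (ι × ℕ) :=
  ((List.range' 1 (K - 1)).flatMap fun k => P.map fun p => (p, k)) ++ P.map fun p => (p, 0)

/-- `γ 0 * β * γ 1 * β * ... * γ k`. -/
def cycProd {ι₁ ι₂ : Type} (A : List ι₁) (B : List ι₂) (β : ι₁ → ι₂ → R)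
    (γ : ℕ → ι₂ → ι₁ → R) : ℕ → ι₂ → ι₁ → R
  | 0 => γ 0
  | k + 1 => mulL B (mulL A (cycProd A B β γ k) β) (γ (k + 1))

/-- K-DD: calculus of two-block transports. -/
structure DDFacts (τ : Tr E) : Prop where
  mem : ∀ {ι₁ ι₂ : Type} {i j : Z5} {A : List ι₁} {B : List ι₂} {a : ι₁ → ι₂ → R}
    {b : ι₂ → ι₁ → R}, i ≠ j → InJ J i j A B a → InJ J j i B A b → τ.DD i j A B a b ∈ E.C
  congr : ∀ {ι₁ ι₂ : Type} {i j : Z5} {A : List ι₁} {B : List ι₂} {a a' : ι₁ → ι₂ → R}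
    {b b' : ι₂ → ι₁ → R}, i ≠ j → InJ J i j A B a → InJ J j i B A b →
      (∀ p ∈ A, ∀ q ∈ B, a' p q = a p q) → (∀ q ∈ B, ∀ p ∈ A, b' q p = b q p) →
        τ.DD i j A B a' b' = τ.DD i j A B a b
  acyc : ∀ {ι₁ ι₂ : Type} {i j : Z5} {A : List ι₁} {B : List ι₂} {a : ι₁ → ι₂ → R}
    {b : ι₂ → ι₁ → R} (rk₁ : ι₁ → ℕ) (rk₂ : ι₂ → ℕ), i ≠ j → InJ J i j A B a → InJ J j i B A b →
      (∀ p ∈ A, ∀ q ∈ B, a p q ≠ 0 → rk₁ p < rk₂ q) →
      (∀ q ∈ B, ∀ p ∈ A, b q p ≠ 0 → rk₂ q < rk₁ p) → τ.DD i j A B a b = 1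
  hex : ∀ {ι₁ ι₂ ι₃ : Type} {i j k : Z5} {A : List ι₁} {B : List ι₂} {C : List ι₃}
    {a : ι₁ → ι₂ → R} {b : ι₂ → ι₃ → R} {c : ι₃ → ι₁ → R}, i ≠ j → j ≠ k → i ≠ k →
      InJ J i j A B a → InJ J j k B C b → InJ J k i C A c →
        τ.DD i k A C (mulL B a b) c = τ.DD j k B C b (mulL A c a) * τ.DD i j A B a (mulL C b c)

/-- K-CYC: a block-cyclic two-vertex matrix reduces to its first-return matrix. -/
def CycStmt (τ : Tr E) : Prop :=
  ∀ (ι₁ ι₂ : Type) (i j : Z5) (A : List ι₁) (B : List ι₂) (β : ι₁ → ι₂ → R)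
    (γ : ℕ → ι₂ → ι₁ → R) (K : ℕ), 0 < K → i ≠ j → InJ J i j A B β →
      (∀ k, InJ J j i B A (γ k)) →
        τ.DD i j (cblk K A) (cblk K B) (fun p q => if p.2 = q.2 then β p.1 q.1 else 0)
            (fun q p => if p.2 = (q.2 + 1) % K then γ q.2 q.1 p.1 else 0)
          = τ.DD i j A B β (cycProd A B β γ (K - 1))

/-! ### Levels -/

/-- Homogeneous pieces, moduli and address projections. -/
structure Lev (R : Type) [Ring R] where
  Hm : ℕ → AddSubgroup R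
  N : ℕ → ℕ
  lam : ℕ → ℕ
  dd : ℕ → ℕ
  prj : ℕ → ℕ → R →+ R

structure LevOK (J : Z5 → Z5 → AddSubgroup R) (Λ : Lev R) : Prop where
  Hm_mul : ∀ {d e : ℕ} {a b : R}, a ∈ Λ.Hm d → b ∈ Λ.Hm e → a * b ∈ Λ.Hm (d + e)
  N_zero : Λ.N 0 = 5
  lam_zero : Λ.lam 0 = 1
  N_dvd : ∀ l, Λ.N l ∣ Λ.N (l + 1)
  N_pos : ∀ l, 0 < Λ.N l
  N_big : ∀ n, ∃ l0, ∀ l, l0 ≤ l → n ≤ Λ.N l
  lam_mono : ∀ l, Λ.lam l ≤ Λ.lam (l + 1)
  dd_mod : ∀ l, Λ.dd l % 5 = if l % 2 = 0 then 2 else 3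
  dd_lo : ∀ l, Λ.lam (l + 1) ≤ Λ.dd l
  dd_hi : ∀ l, Λ.lam (l + 1) + Λ.dd l < Λ.N l
  prj_J : ∀ (l c : ℕ) {i j : Z5} {a : R}, a ∈ J i j → Λ.prj l c a ∈ J i j
  prj_Hm : ∀ (l c : ℕ) {d : ℕ} {a : R}, a ∈ Λ.Hm d → Λ.prj l c a ∈ Λ.Hm d
  prj_congr : ∀ (l : ℕ) {c c' : ℕ}, c ≡ c' [MOD Λ.N l] → Λ.prj l c = Λ.prj l c'
  prj_left : ∀ (l c : ℕ) {d e : ℕ} {x y : R}, x ∈ Λ.Hm d → Λ.lam l ≤ d → y ∈ Λ.Hm e →
    Λ.prj l c (x * y) = Λ.prj l c x * y
  prj_right : ∀ (l c : ℕ) {d e : ℕ} {x y : R}, x ∈ Λ.Hm d → y ∈ Λ.Hm e → Λ.lam l ≤ e →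
    Λ.prj l c (x * y) = x * Λ.prj l (c + d) y
  prj_prj : ∀ (l c c' : ℕ) (x : R),
    Λ.prj l c (Λ.prj l c' x) = if c ≡ c' [MOD Λ.N l] then Λ.prj l c x else 0
  prj_succ : ∀ (l z : ℕ) {d : ℕ} {x : R}, x ∈ Λ.Hm d → Λ.lam (l + 1) ≤ d →
    Λ.prj l z x = ∑ k ∈ Finset.range (Λ.N (l + 1) / Λ.N l), Λ.prj (l + 1) (z + k * Λ.N l) x
  prj_zero : ∀ (z : ℕ) {i j : Z5} {x : R}, x ∈ J i j → (z : Z5) = i → Λ.prj 0 z x = x
  nil1 : ∀ (n : ℕ) (A : Matrix (Fin n) (Fin n) R), (∀ i j, A i j ∈ Λ.Hm 1) → IsNilpotent A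

/-- Sums over paths with `d` steps starting at vertex `z` (junk value for `d = 0`). -/
def pw {ι : Type} (ν : ι → ι → R) (Q : Z5 → List ι) : ℕ → Z5 → ι → ι → R
  | 0, _ => fun _ _ => 0
  | 1, _ => ν
  | d + 2, z => mulL (Q (z + 1)) ν (pw ν Q (d + 1) (z + 1))

/-- Degree one edges from vertex `z` to vertex `z + 1`. -/
structure CoreOK (J : Z5 → Z5 → AddSubgroup R) (Λ : Lev R) {ι : Type} (ν : ι → ι → R)
    (Q : Z5 → List ι) : Prop where
  fit : ∀ z, ∀ p ∈ Q z, ∀ q ∈ Q (z + 1), ν p q ∈ J z (z + 1)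
  deg : ∀ z, ∀ p ∈ Q z, ∀ q ∈ Q (z + 1), ν p q ∈ Λ.Hm 1

/-- A change at the vertex `i` that keeps the two-step products through `i`. -/
structure OneV {ι : Type} (i : Z5) (ν ν' : ι → ι → R) (Q Q' : Z5 → List ι) : Prop where
  hQ : ∀ z, z ≠ i → Q' z = Q z
  hν : ∀ z, z ≠ i → z + 1 ≠ i → ∀ p ∈ Q z, ∀ q ∈ Q (z + 1), ν' p q = ν p q
  hm : ∀ p ∈ Q (i - 1), ∀ q ∈ Q (i + 1), mulL (Q' i) ν' ν' p q = mulL (Q i) ν ν p q

/-- K-PW: path sums. -/
structure PwFacts (J : Z5 → Z5 → AddSubgroup R) (Λ : Lev R) : Prop where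
  add : ∀ {ι : Type} (ν : ι → ι → R) (Q : Z5 → List ι) (d e : ℕ) (z : Z5), 0 < d → 0 < e →
    pw ν Q (d + e) z = mulL (Q (z + d)) (pw ν Q d z) (pw ν Q e (z + d))
  memJ : ∀ {ι : Type} {ν : ι → ι → R} {Q : Z5 → List ι}, CoreOK J Λ ν Q → ∀ (d : ℕ) (z : Z5),
    InJ J z (z + d) (Q z) (Q (z + d)) (pw ν Q d z)
  memH : ∀ {ι : Type} {ν : ι → ι → R} {Q : Z5 → List ι}, CoreOK J Λ ν Q → ∀ (d : ℕ) (z : Z5),
    ∀ p ∈ Q z, ∀ q ∈ Q (z + d), pw ν Q d z p q ∈ Λ.Hm d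
  nil : ∀ {ι : Type} {ν : ι → ι → R} {Q : Z5 → List ι}, CoreOK J Λ ν Q → ∃ n : ℕ,
    ∀ d, n ≤ d → ∀ z : Z5, ∀ p ∈ Q z, ∀ q ∈ Q (z + d), pw ν Q d z p q = 0
  onev : ∀ {ι : Type} {i : Z5} {ν ν' : ι → ι → R} {Q Q' : Z5 → List ι}, OneV i ν ν' Q Q' →
    ∀ (d : ℕ) (z : Z5), z ≠ i → z + d ≠ i → ∀ p ∈ Q z, ∀ q ∈ Q (z + d),
      pw ν' Q' d z p q = pw ν Q d z p q
  acyc : ∀ {ι : Type} {ν : ι → ι → R} {Q : Z5 → List ι} (rk : ι → ℕ),
    (∀ z, ∀ p ∈ Q z, ∀ q ∈ Q (z + 1), ν p q ≠ 0 → rk p < rk q) →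
      ∀ (d : ℕ) (z : Z5), ∀ p ∈ Q z, ∀ q ∈ Q (z + d), pw ν Q d z p q ≠ 0 → rk p < rk q

section Theta
variable (τ : Tr E) (Λ : Lev R) {ι : Type} (ν : ι → ι → R) (Q : Z5 → List ι)

/-- The rung from position `z` to position `z + 1` at level `l`. -/
def Rg (l z : ℕ) : G :=
  τ.DD (z : Z5) ((z : Z5) + 1) (Q z) (Q ((z : Z5) + 1)) ν
    (fun h p => Λ.prj l (z + 1) (pw ν Q (Λ.N l - 1) ((z : Z5) + 1) h p))

/-- The transition from position `z` at level `l` to position `z + dd l` at level `l + 1`. -/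
def Trn (l z : ℕ) : G :=
  τ.DD (z : Z5) ((z : Z5) + (Λ.dd l : Z5)) (Q z)
    (cblk (Λ.N (l + 1) / Λ.N l) (Q ((z : Z5) + (Λ.dd l : Z5))))
    (fun p hk => Λ.prj (l + 1) (z + hk.2 * Λ.N l) (pw ν Q (Λ.dd l) z p hk.1))
    (fun hk p => Λ.prj (l + 1) (z + Λ.dd l + hk.2 * Λ.N l)
      (pw ν Q (Λ.N l - Λ.dd l) ((z : Z5) + (Λ.dd l : Z5)) hk.1 p))

def posn (t : ℕ) : ℕ → ℕ
  | 0 => t
  | l + 1 => posn t l + Λ.dd l

def theta (t : ℕ) : ℕ → G
  | 0 => 1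
  | l + 1 => Trn τ Λ ν Q l (posn Λ t l) * theta t l

end Theta

/-- K-SQ: the square lemma. -/
def SqStmt (τ : Tr E) (Λ : Lev R) : Prop :=
  ∀ (ι : Type) (ν : ι → ι → R) (Q : Z5 → List ι), CoreOK J Λ ν Q → ∀ l z : ℕ,
    Trn τ Λ ν Q l (z + 1) * Rg τ Λ ν Q l z = Rg τ Λ ν Q (l + 1) (z + Λ.dd l) * Trn τ Λ ν Q l z

/-- K-TH: properties of the canonical trivialisations. -/
structure ThFacts (τ : Tr E) (Λ : Lev R) : Prop where
  mem : ∀ {ι : Type} {ν : ι → ι → R} {Q : Z5 → List ι}, CoreOK J Λ ν Q → ∀ t L : ℕ,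
    theta τ Λ ν Q t L ∈ E.C
  cmp : ∀ {ι : Type} {ν : ι → ι → R} {Q : Z5 → List ι}, CoreOK J Λ ν Q →
    ∀ᶠ L in Filter.atTop, theta τ Λ ν Q 1 L * Rg τ Λ ν Q 0 0 = theta τ Λ ν Q 0 L
  onev : ∀ {ι : Type} {i : Z5} {ν ν' : ι → ι → R} {Q Q' : Z5 → List ι}, CoreOK J Λ ν Q →
    OneV i ν ν' Q Q' → ∀ t : ℕ, (t : Z5) ≠ i → (t : Z5) + 2 ≠ i → ∀ L,
      theta τ Λ ν' Q' t L = theta τ Λ ν Q t L
  acyc : ∀ {ι : Type} {ν : ι → ι → R} {Q : Z5 → List ι} (rk : ι → ℕ), CoreOK J Λ ν Q →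
    (∀ z, ∀ p ∈ Q z, ∀ q ∈ Q (z + 1), ν p q ≠ 0 → rk p < rk q) → ∀ t L : ℕ,
      theta τ Λ ν Q t L = 1

/-! ### Automata with boundary -/

structure Aut (ι R : Type) where
  v : ι → Z5
  ν : ι → ι → R
  I : Z5 → List ι
  b : Z5 → ι

namespace Aut
variable {ι : Type} (A : Aut ι R)

def Q (z : Z5) : List ι := A.I z ++ [A.b z]
def Int : List ι := A.I 0 ++ A.I 1 ++ A.I 2 ++ A.I 3 ++ A.I 4
def Vl : List ι := [A.b 0, A.b 1, A.b 2, A.b 3, A.b 4]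
def All : List ι := A.Int ++ A.Vl
def Lz (z : Z5) : List ι := A.Q (z + 1) ++ A.Q (z + 2) ++ A.Q (z + 3) ++ A.Q (z + 4) ++ A.Q z

/-- States other than the interior states at vertex `i`. -/
def Rest (i : Z5) (p : ι) : Prop := (∃ z, z ≠ i ∧ p ∈ A.I z) ∨ ∃ z, p = A.b z

structure OK (J : Z5 → Z5 → AddSubgroup R) (Λ : Lev R) : Prop where
  vI : ∀ z, ∀ p ∈ A.I z, A.v p = z
  vb : ∀ z, A.v (A.b z) = z
  fit : Fits J A.v A.ν A.All
  deg : ∀ p ∈ A.All, ∀ q ∈ A.All, A.ν p q ∈ Λ.Hm 1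
  nxt : ∀ p ∈ A.All, ∀ q ∈ A.All, A.v q ≠ A.v p + 1 → A.ν p q = 0
  acy : Acyc A.ν A.Int

/-- The canonical lift of the behaviour of the automaton, computed with `L` levels. -/
noncomputable def s (τ : Tr E) (Λ : Lev R) (L : ℕ) : G :=
  theta τ Λ A.ν A.Q 0 L * τ.tr A.v A.ν A.All (A.Lz 0) * E.Lam A.v (elimL A.Int A.ν) A.Vl

end Aut

/-- K-INV: invariance under a change of the interior states at one vertex. -/
def InvAStmt (τ : Tr E) (Λ : Lev R) : Prop :=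
  ∀ (ι : Type) (A A' : Aut ι R) (i : Z5), A.OK J Λ → A'.OK J Λ → A'.b = A.b →
    (∀ z, z ≠ i → A'.I z = A.I z) →
    (∀ p q, A.Rest i p → A.Rest i q → A'.ν p q = A.ν p q) →
    (∀ p q, A.Rest i p → A.Rest i q → A.v p + 1 = i → A.v q = i + 1 →
      mulL (A'.I i) A'.ν A'.ν p q = mulL (A.I i) A.ν A.ν p q) →
    ∀ᶠ L in Filter.atTop, A'.s τ Λ L = A.s τ Λ L

/-- K-T3: right multiplication by a generator. -/
def T3Stmt (τ : Tr E) (Λ : Lev R) : Prop :=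
  ∀ (ι : Type) (A A' : Aut ι R) (i : Z5) (q : ι) (y : R), A.OK J Λ → A'.OK J Λ →
    y ∈ J i (i + 1) → A'.b = A.b → (∀ z, z ≠ i → A'.I z = A.I z) → A'.I i = q :: A.I i →
    (∀ z, A.b z ∉ A.Int) →
    (∀ p ∈ A.All, ∀ r ∈ A.All, ¬ (p = A.b i ∧ r = A.b (i + 1)) → A'.ν p r = A.ν p r) →
    A'.ν (A.b i) (A.b (i + 1)) = A.ν (A.b i) (A.b (i + 1)) + y →
    (∀ p ∈ A.All, A'.ν p q = A.ν p (A.b i)) →
    (∀ r ∈ A.All, r ≠ A.b (i + 1) → A'.ν q r = 0) → A'.ν q (A.b (i + 1)) = y →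
    ∀ᶠ L in Filter.atTop, A'.s τ Λ L = A.s τ Λ L * E.x i (i + 1) y

/-- K-T4: an automaton without edges into the boundary has trivial lift. -/
def T4Stmt (τ : Tr E) (Λ : Lev R) : Prop :=
  ∀ (ι : Type) (A : Aut ι R), A.OK J Λ → Acyc A.ν A.All →
    (∀ p ∈ A.All, ∀ z, A.ν p (A.b z) = 0) → ∀ L, A.s τ Λ L = 1

/-- K-UNR: unreachable interior states can be removed. -/
def UnrStmt (τ : Tr E) (Λ : Lev R) : Prop :=
  ∀ (ι : Type) (A A' : Aut ι R) (Z : Z5 → List ι), A.OK J Λ → A'.OK J Λ → A'.b = A.b →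
    A'.v = A.v → A'.ν = A.ν → (∀ z, A'.I z = A.I z ++ Z z) →
    (∀ p ∈ A.All, ∀ z, ∀ c ∈ Z z, A.ν p c = 0) →
    ∀ᶠ L in Filter.atTop, A'.s τ Λ L = A.s τ Λ L

end Peirce

set_option linter.unusedVariables false in
theorem realize_KDefs : True := by
  have := @blk2.eq_1
  have := @blk2.eq_2
  have := @blk2.eq_3
  have := @cycProd.eq_1
  have := @cycProd.eq_2
  have := @cycProd.eq_def
  have := @Rg.eq_1
  have := @StG.ds.eq_1
  trivial

end Crest.Agent.R176
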