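import Crest.Agent.R176.KDefs

/-! Row 176, group side: statements about the concrete algebra of a system. -/

set_option autoImplicit false

open scoped commutatorElement

namespace Crest.Agent.R176

variable {α : Type} {S : Sys α}

/-- K-LEV: the address projections. -/
def LevStmt (X : Vtx S) : Prop :=
  ∃ Λ : Lev (Alg S), LevOK (Jsp X) Λ ∧ ∀ d r, r ∈ Λ.Hm d ↔ r ∈ Hsp S d

/-! ### Finite presentation -/

/-- The iterated commutator attached to a word. -/
def XW {G : Type} [Group G] (g : α → G) : List α → G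
  | [] => 1
  | [a] => g a
  | a :: b :: w => if (w.length + 2) % 5 = 1 then ⁅⁅g a, g b⁆, XW g w⁆ else ⁅g a, XW g (b :: w)⁆

/-- The Steinberg relations for the words of length at most `n`. -/
structure XF (X : Vtx S) {G : Type} [Group G] (g : α → G) (n : ℕ) : Prop where
  cut : ∀ {i j k : Z5} {u w : List α}, Valid X i j u → Valid X j k w → i ≠ j → j ≠ k → i ≠ k →
    u.length + w.length ≤ n → XW g (u ++ w) = ⁅XW g u, XW g w⁆
  com : ∀ {i j k l : Z5} {u w : List α}, Valid X i j u → Valid X k l w → i ≠ j → k ≠ l →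
    j ≠ k → l ≠ i → u.length ≤ n → w.length ≤ n → Commute (XW g u) (XW g w)
  sq : ∀ {i j : Z5} {w : List α}, Valid X i j w → i ≠ j → w.length ≤ n → XW g w * XW g w = 1
  step : ∀ {i j : Z5} {w w' : List α}, Valid X i j w → i ≠ j → w.length ≤ n → S.Step w w' →
    XW g w = XW g w'
  zero : ∀ {i j : Z5} {w : List α}, Valid X i j w → i ≠ j → w.length ≤ n → S.ZPat w →
    XW g w = 1

/-- K-FP1: the relations for short words imply all of them. -/
def Fp1Stmt (X : Vtx S) : Prop :=
  ∀ (G : Type) [Group G] (g : α → G), XF X g 7 → ∀ n, XF X g n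

/-- The Steinberg generator of a letter. -/
noncomputable def xL (X : Vtx S) (a : α) : Stb (Jsp X) :=
  xS (Jsp X) (X.vtx a) (X.vtx a + 1) (gen S a)

/-- K-XW: in the Steinberg group the iterated commutator is the generator of the monomial. -/
def XwStmt (X : Vtx S) : Prop :=
  ∀ (i j : Z5) (w : List α), Valid X i j w → i ≠ j → XW (xL X) w = xS (Jsp X) i j (mon S w)

/-- K-GEN: the letters generate the Steinberg group (as a monoid). -/
def GenStmt (X : Vtx S) : Prop := ∀ γ : Stb (Jsp X), ∃ l : List α, γ = (l.map (xL X)).prod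

/-! ### Tries -/

inductive TS (α : Type)
  | bd (z : Z5)
  | pre (u : List α)
  | suf (w : List α)
  | ex (z : Z5)

/-- Start vertex of a word. -/
def wst (X : Vtx S) : List α → Z5
  | [] => 0
  | a :: _ => X.vtx a

def tv (X : Vtx S) : TS α → Z5
  | TS.bd z => z
  | TS.pre u => wst X u + (u.length : Z5)
  | TS.suf w => wst X w
  | TS.ex z => z

/-- The state reached after reading `u`, about to read `x`. -/
def tsrc (X : Vtx S) : List α → α → TS α
  | [], x => TS.bd (X.vtx x)
  | a :: u, _ => TS.pre (a :: u)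

/-- The state reached after reading `x`, about to read `w`. -/
def tdst (X : Vtx S) : α → List α → TS α
  | x, [] => TS.bd (X.vtx x + 1)
  | _, a :: w => TS.suf (a :: w)

/-- Nonempty paths of length at most `n`. -/
def IsWd (X : Vtx S) (n : ℕ) (w : List α) : Prop :=
  w ≠ [] ∧ w.length ≤ n ∧ Valid X (wst X w) (wst X w + (w.length : Z5)) w

theorem finite_IsWd [Finite α] (X : Vtx S) (n : ℕ) : {w | IsWd X n w}.Finite :=
  (List.finite_length_le α n).subset fun _ h => h.2.1

/-- A duplicate-free list of the nonempty paths of length at most `n`. -/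
noncomputable def wds [Finite α] (X : Vtx S) (n : ℕ) : List (List α) :=
  (finite_IsWd X n).toFinset.toList

theorem mem_wds [Finite α] {X : Vtx S} {n : ℕ} {w : List α} : w ∈ wds X n ↔ IsWd X n w := by
  simp [wds]

theorem nodup_wds [Finite α] (X : Vtx S) (n : ℕ) : (wds X n).Nodup := Finset.nodup_toList _

open Classical in
/-- Edges of the prefix trie. -/
noncomputable def nuP (X : Vtx S) (p : TS α) : TS α → Alg S
  | TS.pre w => if h : w ≠ [] then
      (if p = tsrc X w.dropLast (w.getLast h) then gen S (w.getLast h) else 0) else 0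
  | _ => 0

open Classical in
/-- Edges of the suffix trie. -/
noncomputable def nuS (X : Vtx S) : TS α → TS α → Alg S
  | TS.suf (x :: w), q => if q = tdst X x w then gen S x else 0
  | _, _ => 0

open Classical in
/-- Bridges `(u, x, w)` from the prefix trie to the suffix trie. -/
noncomputable def nuB (X : Vtx S) (B : List (List α × α × List α)) (p q : TS α) : Alg S :=
  (B.map fun t => if p = tsrc X t.1 t.2.1 ∧ q = tdst X t.2.1 t.2.2 then gen S t.2.1 else 0).sum

noncomputable def nuT (X : Vtx S) (B : List (List α × α × List α)) (p q : TS α) : Alg S :=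
  nuP X p q + nuS X p q + nuB X B p q

noncomputable def IP [Finite α] (X : Vtx S) (n : ℕ) (z : Z5) : List (TS α) :=
  ((wds X n).map TS.pre).filter fun p => tv X p = z

noncomputable def IS [Finite α] (X : Vtx S) (n : ℕ) (z : Z5) : List (TS α) :=
  ((wds X n).map TS.suf).filter fun p => tv X p = z

/-- The prefix trie with bridges. -/
noncomputable def autP [Finite α] (X : Vtx S) (n : ℕ) (B : List (List α × α × List α)) :
    Aut (TS α) (Alg S) := ⟨tv X, nuT X B, IP X n, TS.bd⟩

/-- Both tries with bridges. -/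
noncomputable def autPS [Finite α] (X : Vtx S) (n : ℕ) (B : List (List α × α × List α)) :
    Aut (TS α) (Alg S) := ⟨tv X, nuT X B, fun z => IP X n z ++ IS X n z, TS.bd⟩

/-- The word of a bridge. -/
def bw (t : List α × α × List α) : List α := t.1 ++ t.2.1 :: t.2.2

/-- All bridges spell paths of length at most `n`. -/
def BOK (X : Vtx S) (n : ℕ) (B : List (List α × α × List α)) : Prop := ∀ t ∈ B, IsWd X n (bw t)

section
variable [Finite α] (X : Vtx S) {G : Type} [Group G] {E : StG (Jsp X) G} (τ : Tr E)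
  (Λ : Lev (Alg S))

/-- K-TOK: the tries are admissible automata. -/
def TokStmt : Prop :=
  ∀ n B, BOK X n B → (autP X n B).OK (Jsp X) Λ ∧ (autPS X n B).OK (Jsp X) Λ

/-- K-SHIFT: elementary moves of one bridge in `autPS`. -/
structure MoveStmt : Prop where
  shift : ∀ n B (u : List α) (x x' : α) (w : List α), BOK X n ((u, x, x' :: w) :: B) →
    ∀ᶠ L in Filter.atTop, (autPS X n ((u ++ [x], x', w) :: B)).s τ Λ L =
      (autPS X n ((u, x, x' :: w) :: B)).s τ Λ L
  rule : ∀ n B (u : List α) (a b c d : α) (w : List α), BOK X n ((u ++ [a], b, w) :: B) →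
    X.vtx c = X.vtx a → X.vtx d = X.vtx b → gen S a * gen S b = gen S c * gen S d →
    ∀ᶠ L in Filter.atTop, (autPS X n ((u ++ [c], d, w) :: B)).s τ Λ L =
      (autPS X n ((u ++ [a], b, w) :: B)).s τ Λ L
  kill : ∀ n B (u : List α) (a b : α) (w : List α), BOK X n ((u ++ [a], b, w) :: B) →
    gen S a * gen S b = 0 →
    ∀ᶠ L in Filter.atTop, (autPS X n ((u ++ [a], b, w) :: B)).s τ Λ L = (autPS X n B).s τ Λ L

/-- K-TRIEA: bridges with vanishing total monomial can be removed. -/
def TrieAStmt : Prop :=
  ∀ n B, BOK X n B → (B.map fun t => mon S (bw t)).sum = 0 →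
    ∀ᶠ L in Filter.atTop, (autPS X n B).s τ Λ L = (autPS X n []).s τ Λ L

/-- K-TRIEB: right multiplication by a letter, on exit bridges of the prefix trie. -/
def TrieBStmt : Prop :=
  ∀ n B (y : α), (∀ t ∈ B, t.2.2 = [] ∧ IsWd X n (bw t)) →
    ∀ᶠ L in Filter.atTop,
      (autP X (n + 1) (([], y, []) :: B ++
        (B.filter fun t => X.vtx t.2.1 + 1 = X.vtx y).map fun t => (bw t, y, []))).s τ Λ L =
      (autP X (n + 1) B).s τ Λ L * E.x (X.vtx y) (X.vtx y + 1) (gen S y)

end

/-- K-INJ: the Steinberg group embeds in the unit group. -/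
def InjStmt (X : Vtx S) : Prop :=
  ∃ f : Stb (Jsp X) →* (Alg S)ˣ, Function.Injective f ∧
    ∀ i j r, i ≠ j → r ∈ Jsp X i j → ((f (xS (Jsp X) i j r) : (Alg S)ˣ) : Alg S) = 1 + r

/-- The conclusion of S0265. -/
def Goal265 : Prop :=
  ∃ (G : Type) (_ : Group G),
    Infinite G ∧ Group.IsFinitelyPresented G ∧ Group.ResiduallyFinite G ∧ IsPGroup 2 G

set_option linter.unusedVariables false in
theorem realize_KDefs2 : True := by
  have := @nuP.eq_1
  have := @nuP.eq_2
  have := @XW.eq_1
  have := @XW.eq_2
  have := @XW.eq_3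
  have := @XW.eq_def
  have := @bw.eq_1
  have := @tdst.eq_1
  have := @tdst.eq_2
  have := @tsrc.eq_1
  have := @tsrc.eq_2
  have := @wst.eq_1
  have := @wst.eq_2
  have := @IP.eq_1
  have := @nuT.eq_1
  have := @nuB.eq_1
  have := @xL.eq_1
  trivial

end Crest.Agent.R176
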