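import Crest.Agent.R176.KDefs2

/-! Row 176: the address projections (`LevStmt`). -/

set_option autoImplicit false

namespace Crest.Agent.R176

variable {α : Type} {S : Sys α}

namespace LevAux

open Classical in
/-- The value of the address projection on a word. -/
noncomputable def fw {X : Vtx S} (A : Addr S X) (l c : ℕ) (w : List α) : Alg S :=
  if A.lam l ≤ w.length ∧ A.ad l w ≡ c [MOD A.N l] then mon S w else 0

variable {X : Vtx S} (A : Addr S X)

theorem fw_pos {l c : ℕ} {w : List α} (h1 : A.lam l ≤ w.length) (h2 : A.ad l w ≡ c [MOD A.N l]) :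
    fw A l c w = mon S w := if_pos ⟨h1, h2⟩

theorem fw_neg {l c : ℕ} {w : List α} (h : ¬ (A.lam l ≤ w.length ∧ A.ad l w ≡ c [MOD A.N l])) :
    fw A l c w = 0 := if_neg h

theorem fw_of_mon_eq_zero {l c : ℕ} {w : List α} (h : mon S w = 0) : fw A l c w = 0 := by
  unfold fw; split_ifs <;> simp [h]

theorem fw_congr {l c l' c' : ℕ} {w w' : List α} (hm : mon S w = mon S w')
    (h : (A.lam l ≤ w.length ∧ A.ad l w ≡ c [MOD A.N l]) ↔
      (A.lam l' ≤ w'.length ∧ A.ad l' w' ≡ c' [MOD A.N l'])) : fw A l c w = fw A l' c' w' := by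
  by_cases h1 : A.lam l ≤ w.length ∧ A.ad l w ≡ c [MOD A.N l]
  · rw [fw_pos A h1.1 h1.2, fw_pos A (h.1 h1).1 (h.1 h1).2, hm]
  · rw [fw_neg A h1, fw_neg A (fun h' => h1 (h.2 h'))]

theorem fw_step (l c : ℕ) (w w' : List α) (h : S.Step w w') : fw A l c w = fw A l c w' := by
  by_cases hz : S.Zero w
  · rw [fw_of_mon_eq_zero A (mon_zero hz),
      fw_of_mon_eq_zero A ((mon_step h).symm.trans (mon_zero hz))]
  · refine fw_congr A (mon_step h) ?_
    rw [← h.length_eq]
    refine and_congr_right fun h1 => ?_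
    have := A.ad_step l w w' hz h1 h
    exact ⟨fun h2 => this.symm.trans h2, fun h2 => this.trans h2⟩

theorem exists_prj (hL : LiftStmt S) (l c : ℕ) :
    ∃ φ : Alg S →ₗ[ZMod 2] Alg S, ∀ w, φ (mon S w) = fw A l c w :=
  hL (Alg S) (fw A l c) (fw_step A l c) (fun _ h => fw_of_mon_eq_zero A (mon_zpat h))

/-- The address projection. -/
noncomputable def pj (hL : LiftStmt S) (l c : ℕ) : Alg S →ₗ[ZMod 2] Alg S :=
  (exists_prj A hL l c).choose

theorem pj_mon (hL : LiftStmt S) (l c : ℕ) (w : List α) : pj A hL l c (mon S w) = fw A l c w :=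
  (exists_prj A hL l c).choose_spec w

theorem fw_mem {σ : Type} [SetLike σ (Alg S)] [ZeroMemClass σ (Alg S)] {T : σ} {l c : ℕ}
    {w : List α} (h : mon S w ∈ T) : fw A l c w ∈ T := by
  unfold fw; split_ifs
  · exact h
  · exact zero_mem _

theorem mon_mem_Hsp (w : List α) {d : ℕ} (h : w.length = d) : mon S w ∈ Hsp S d :=
  Submodule.subset_span ⟨w, h, rfl⟩

/-- Linear maps agreeing on words of length `d` agree on `Hsp d`. -/
theorem Hsp_ext {d : ℕ} {φ ψ : Alg S →ₗ[ZMod 2] Alg S}
    (h : ∀ w : List α, w.length = d → φ (mon S w) = ψ (mon S w)) {x : Alg S} (hx : x ∈ Hsp S d) :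
    φ x = ψ x := by
  refine LinearMap.eqOn_span' ?_ hx
  rintro _ ⟨w, hw, rfl⟩
  exact h w hw

theorem Hsp_mul {d e : ℕ} {a b : Alg S} (ha : a ∈ Hsp S d) (hb : b ∈ Hsp S e) :
    a * b ∈ Hsp S (d + e) := by
  induction ha using Submodule.span_induction with
  | mem x hx =>
    obtain ⟨u, hu, rfl⟩ := hx
    induction hb using Submodule.span_induction with
    | mem y hy =>
      obtain ⟨w, hw, rfl⟩ := hy
      rw [← mon_append]
      exact mon_mem_Hsp _ (by simp [hu, hw])
    | zero => simp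
    | add y z _ _ h1 h2 => rw [mul_add]; exact add_mem h1 h2
    | smul c y _ h1 => rw [mul_smul_comm]; exact Submodule.smul_mem _ _ h1
  | zero => simp
  | add y z _ _ h1 h2 => rw [add_mul]; exact add_mem h1 h2
  | smul c y _ h1 => rw [smul_mul_assoc]; exact Submodule.smul_mem _ _ h1

/-- Bilinear identities reduce to words. -/
theorem Hsp_ext₂ {d e : ℕ} {φ ψ₁ ψ₂ : Alg S →ₗ[ZMod 2] Alg S}
    (h : ∀ u w : List α, u.length = d → w.length = e →
      φ (mon S u * mon S w) = ψ₁ (mon S u) * ψ₂ (mon S w)) {x y : Alg S}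
    (hx : x ∈ Hsp S d) (hy : y ∈ Hsp S e) : φ (x * y) = ψ₁ x * ψ₂ y := by
  have h1 : ∀ u : List α, u.length = d → φ (mon S u * y) = ψ₁ (mon S u) * ψ₂ y := fun u hu =>
    Hsp_ext (φ := φ ∘ₗ LinearMap.mulLeft (ZMod 2) (mon S u))
      (ψ := LinearMap.mulLeft (ZMod 2) (ψ₁ (mon S u)) ∘ₗ ψ₂) (fun w hw => h u w hu hw) hy
  exact Hsp_ext (φ := φ ∘ₗ LinearMap.mulRight (ZMod 2) y)
    (ψ := LinearMap.mulRight (ZMod 2) (ψ₂ y) ∘ₗ ψ₁) h1 hx

theorem all_ext (hS : SpanStmt S) {φ ψ : Alg S →ₗ[ZMod 2] Alg S}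
    (h : ∀ w : List α, φ (mon S w) = ψ (mon S w)) : φ = ψ :=
  LinearMap.ext_on_range hS h

/-- Residues modulo `N * m` above a residue modulo `N`. -/
theorem exists_unique_lift {N m a z : ℕ} (hN : 0 < N) (hm : 0 < m) (h : a ≡ z [MOD N]) :
    ∃ k, k < m ∧ a ≡ z + k * N [MOD N * m] ∧
      ∀ k', k' < m → a ≡ z + k' * N [MOD N * m] → k' = k := by
  have hex : ∃ k, k < m ∧ a ≡ z + k * N [MOD N * m] := by
    obtain ⟨t, ht⟩ := (Nat.modEq_iff_dvd.1 h.symm)
    have hm' : (0 : ℤ) < m := by exact_mod_cast hm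
    refine ⟨(t % m).toNat, ?_, ?_⟩
    · have := Int.emod_lt_of_pos t hm'
      have := Int.emod_nonneg t hm'.ne'
      omega
    · refine Nat.ModEq.symm (Nat.modEq_iff_dvd.2 ⟨t / m, ?_⟩)
      have h0 := Int.emod_nonneg t hm'.ne'
      have h1 := Int.mul_ediv_add_emod t m
      push_cast
      rw [Int.toNat_of_nonneg h0]
      linear_combination ht - (N : ℤ) * h1
  obtain ⟨k, hk, hk2⟩ := hex
  refine ⟨k, hk, hk2, fun k' hk' h' => ?_⟩
  have h1 : k' * N ≡ k * N [MOD N * m] := Nat.ModEq.add_left_cancel' z (h'.symm.trans hk2)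
  rw [mul_comm N m] at h1
  have h2 : k' ≡ k [MOD m] := Nat.ModEq.mul_right_cancel' hN.ne' h1
  exact Nat.ModEq.eq_of_lt_of_lt h2 hk' hk

theorem fw_succ (l z : ℕ) (w : List α) (hw : A.lam (l + 1) ≤ w.length) :
    fw A l z w = ∑ k ∈ Finset.range (A.N (l + 1) / A.N l), fw A (l + 1) (z + k * A.N l) w := by
  by_cases hz : S.Zero w
  · rw [fw_of_mon_eq_zero A (mon_zero hz)]
    exact (Finset.sum_eq_zero fun k _ => fw_of_mon_eq_zero A (mon_zero hz)).symm
  have hs := A.ad_succ l w hz hw
  obtain ⟨m, hm⟩ := A.N_dvd l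
  have hN := A.N_pos l
  have hm0 : 0 < m := Nat.pos_of_ne_zero (by
    rintro rfl
    have := A.N_pos (l + 1)
    omega)
  have hdiv : A.N (l + 1) / A.N l = m := by rw [hm, Nat.mul_div_cancel_left _ hN]
  rw [hdiv]
  by_cases hc : A.ad l w ≡ z [MOD A.N l]
  · rw [fw_pos A ((A.lam_mono l).trans hw) hc]
    obtain ⟨k, hk, hk1, hk2⟩ := exists_unique_lift hN hm0 (hs.trans hc)
    rw [Finset.sum_eq_single k]
    · rw [fw_pos A hw (by rw [hm]; exact hk1)]
    · intro k' hk' hne
      refine fw_neg A fun h => hne (hk2 k' (Finset.mem_range.1 hk') ?_)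
      rw [← hm]; exact h.2
    · intro h; exact absurd (Finset.mem_range.2 hk) h
  · rw [fw_neg A fun h => hc h.2]
    refine (Finset.sum_eq_zero fun k _ => fw_neg A fun h => hc ?_).symm
    have h1 : A.ad (l + 1) w ≡ z + k * A.N l [MOD A.N l] := h.2.of_dvd (A.N_dvd l)
    have h2 : z + k * A.N l ≡ z [MOD A.N l] := by
      simp [Nat.ModEq]
    exact hs.symm.trans (h1.trans h2)

/-- The level data of an address system. -/
noncomputable def lev (hL : LiftStmt S) : Lev (Alg S) where
  Hm d := (Hsp S d).toAddSubgroup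
  N := A.N
  lam := A.lam
  dd := A.dd
  prj l c := (pj A hL l c).toAddMonoidHom

theorem levOK (hL : LiftStmt S) (hS : SpanStmt S) (hN : NilStmt S) :
    LevOK (Jsp X) (lev A hL) where
  Hm_mul ha hb := Hsp_mul ha hb
  N_zero := A.N_zero
  lam_zero := A.lam_zero
  N_dvd := A.N_dvd
  N_pos := A.N_pos
  N_big := A.N_big
  lam_mono := A.lam_mono
  dd_mod := A.dd_mod
  dd_lo := A.dd_lo
  dd_hi := A.dd_hi
  prj_J l c i j a ha := by
    change pj A hL l c a ∈ Jsp X i j
    induction ha using AddSubgroup.closure_induction with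
    | mem x hx =>
      obtain ⟨w, h0, hv, rfl⟩ := hx
      rw [pj_mon]
      exact fw_mem A (mon_mem_Jsp h0 hv)
    | zero => simp
    | add x y _ _ h1 h2 => rw [map_add]; exact add_mem h1 h2
    | neg x _ h1 => rw [map_neg]; exact neg_mem h1
  prj_Hm l c d a ha := by
    change pj A hL l c a ∈ Hsp S d
    change a ∈ Hsp S d at ha
    induction ha using Submodule.span_induction with
    | mem x hx =>
      obtain ⟨w, hw, rfl⟩ := hx
      rw [pj_mon]
      exact fw_mem A (mon_mem_Hsp w hw)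
    | zero => simp
    | add x y _ _ h1 h2 => rw [map_add]; exact add_mem h1 h2
    | smul c x _ h1 => rw [map_smul]; exact Submodule.smul_mem _ _ h1
  prj_congr l c c' h := by
    have : pj A hL l c = pj A hL l c' := all_ext hS fun w => by
      rw [pj_mon, pj_mon]
      exact fw_congr A rfl (and_congr_right fun _ =>
        ⟨fun h2 => h2.trans h, fun h2 => h2.trans h.symm⟩)
    change (pj A hL l c).toAddMonoidHom = (pj A hL l c').toAddMonoidHom
    rw [this]
  prj_left l c d e x y hx hd hy := by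
    change pj A hL l c (x * y) = pj A hL l c x * LinearMap.id (R := ZMod 2) y
    refine Hsp_ext₂ (d := d) (e := e) (fun u w hu hw => ?_) hx hy
    change A.lam l ≤ d at hd
    rw [← mon_append, pj_mon, pj_mon, LinearMap.id_apply]
    by_cases hz : S.Zero (u ++ w)
    · have h0 := mon_zero hz
      rw [fw_of_mon_eq_zero A h0]
      unfold fw; split_ifs
      · rw [← mon_append, h0]
      · rw [zero_mul]
    · have := A.ad_left l u w hz (hu ▸ hd)
      by_cases hc : A.ad l u ≡ c [MOD A.N l]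
      · rw [fw_pos A (by simp; omega) (this.trans hc), fw_pos A (hu ▸ hd) hc, mon_append]
      · rw [fw_neg A fun h => hc (this.symm.trans h.2), fw_neg A fun h => hc h.2, zero_mul]
  prj_right l c d e x y hx hy he := by
    change pj A hL l c (x * y) = LinearMap.id (R := ZMod 2) x * pj A hL l (c + d) y
    refine Hsp_ext₂ (d := d) (e := e) (fun u w hu hw => ?_) hx hy
    change A.lam l ≤ e at he
    rw [← mon_append, pj_mon, pj_mon, LinearMap.id_apply]
    by_cases hz : S.Zero (u ++ w)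
    · have h0 := mon_zero hz
      rw [fw_of_mon_eq_zero A h0]
      unfold fw; split_ifs
      · rw [← mon_append, h0]
      · rw [mul_zero]
    · have := A.ad_right l u w hz (hw ▸ he)
      rw [hu] at this
      by_cases hc : A.ad l (u ++ w) ≡ c [MOD A.N l]
      · rw [fw_pos A (by simp; omega) hc,
          fw_pos A (hw ▸ he) (this.symm.trans (hc.add_right d)), mon_append]
      · rw [fw_neg A fun h => hc h.2,
          fw_neg A fun h => hc (Nat.ModEq.add_right_cancel' d (this.trans h.2)), mul_zero]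
  prj_prj l c c' x := by
    change pj A hL l c (pj A hL l c' x) = if c ≡ c' [MOD A.N l] then pj A hL l c x else 0
    split_ifs with h
    · have : pj A hL l c ∘ₗ pj A hL l c' = pj A hL l c := all_ext hS fun w => by
        rw [LinearMap.comp_apply, pj_mon, pj_mon]
        by_cases hc : A.lam l ≤ w.length ∧ A.ad l w ≡ c' [MOD A.N l]
        · rw [fw_pos A hc.1 hc.2, pj_mon]
        · rw [fw_neg A hc, map_zero, fw_neg A fun h' => hc ⟨h'.1, h'.2.trans h⟩]
      exact LinearMap.congr_fun this x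
    · have : pj A hL l c ∘ₗ pj A hL l c' = 0 := all_ext hS fun w => by
        rw [LinearMap.comp_apply, pj_mon, LinearMap.zero_apply]
        by_cases hc : A.lam l ≤ w.length ∧ A.ad l w ≡ c' [MOD A.N l]
        · rw [fw_pos A hc.1 hc.2, pj_mon, fw_neg A fun h' => h (h'.2.symm.trans hc.2)]
        · rw [fw_neg A hc, map_zero]
      exact LinearMap.congr_fun this x
  prj_succ l z d x hx hd := by
    change pj A hL l z x =
      ∑ k ∈ Finset.range (A.N (l + 1) / A.N l), pj A hL (l + 1) (z + k * A.N l) x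
    rw [← LinearMap.sum_apply]
    refine Hsp_ext (d := d) (fun w hw => ?_) hx
    change A.lam (l + 1) ≤ d at hd
    rw [LinearMap.sum_apply, pj_mon, fw_succ A l z w (hw ▸ hd)]
    simp only [pj_mon]
  prj_zero z i j x hx hz := by
    change pj A hL 0 z x = x
    induction hx using AddSubgroup.closure_induction with
    | mem x hx =>
      obtain ⟨w, h0, hv, rfl⟩ := hx
      obtain ⟨a, w, rfl⟩ := List.exists_cons_of_ne_nil h0
      rw [pj_mon]
      refine fw_pos A (by rw [A.lam_zero]; simp) ?_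
      rw [A.N_zero, ← ZMod.natCast_eq_natCast_iff, A.ad_zero, hv.1, hz]
    | zero => simp
    | add x y _ _ h1 h2 => rw [map_add, h1, h2]
    | neg x _ h1 => rw [map_neg, h1]
  nil1 n M hM := by
    refine hN n M fun i j => ?_
    have : Hsp S 1 ≤ Rpl S := by
      refine Submodule.span_mono ?_
      rintro _ ⟨w, hw, rfl⟩
      exact ⟨w, by rintro rfl; simp at hw, rfl⟩
    exact this (hM i j)

end LevAux

theorem levStmt [Finite α] (X : Vtx S) (A : Addr S X) (hL : LiftStmt S) (hS : SpanStmt S)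
    (hN : NilStmt S) : LevStmt X :=
  ⟨LevAux.lev A hL, LevAux.levOK A hL hS hN, fun _ _ => Iff.rfl⟩

end Crest.Agent.R176
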