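import Crest.Agent.R176.Alg

/-! Row 176: linear maps out of the algebra of a system; the monomials span. -/

set_option autoImplicit false

namespace Crest.Agent.R176

variable {α : Type}

namespace Lift

variable (S : Sys α)

/-- The relations between words. -/
noncomputable def NN : Submodule (ZMod 2) (List α →₀ ZMod 2) :=
  Submodule.span (ZMod 2)
    ({x | ∃ w w', S.Step w w' ∧ x = Finsupp.single w 1 - Finsupp.single w' 1} ∪
      {x | ∃ w, S.ZPat w ∧ x = Finsupp.single w 1})

/-- The regular module. -/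
abbrev WW : Type := (List α →₀ ZMod 2) ⧸ NN S

/-- The class of a word. -/
noncomputable def ee (w : List α) : WW S := (NN S).mkQ (Finsupp.single w 1)

variable {S}

theorem ee_step {w w' : List α} (h : S.Step w w') : ee S w = ee S w' := by
  rw [← sub_eq_zero, ee, ee, ← map_sub, Submodule.mkQ_apply, Submodule.Quotient.mk_eq_zero]
  exact Submodule.subset_span (Or.inl ⟨w, w', h, rfl⟩)

theorem ee_zpat {w : List α} (h : S.ZPat w) : ee S w = 0 := by
  rw [ee, Submodule.mkQ_apply, Submodule.Quotient.mk_eq_zero]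
  exact Submodule.subset_span (Or.inr ⟨w, h, rfl⟩)

theorem exists_lift {M : Type} [AddCommGroup M] [Module (ZMod 2) M] (f : List α → M)
    (h1 : ∀ w w', S.Step w w' → f w = f w') (h2 : ∀ w, S.ZPat w → f w = 0) :
    ∃ φ : WW S →ₗ[ZMod 2] M, ∀ w, φ (ee S w) = f w := by
  refine ⟨(NN S).liftQ (Finsupp.linearCombination (ZMod 2) f) (Submodule.span_le.2 ?_),
    fun w => by simp [ee]⟩
  rintro x (⟨w, w', h, rfl⟩ | ⟨w, h, rfl⟩)
  · simp [h1 w w' h]
  · simp [h2 w h]

theorem hom_ext {M : Type} [AddCommGroup M] [Module (ZMod 2) M] {φ ψ : WW S →ₗ[ZMod 2] M}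
    (h : ∀ w, φ (ee S w) = ψ (ee S w)) : φ = ψ := by
  refine Submodule.linearMap_qext _ (Finsupp.lhom_ext' fun w => LinearMap.ext_ring ?_)
  simpa [ee] using h w

theorem exists_left (a : α) : ∃ L : Module.End (ZMod 2) (WW S), ∀ w, L (ee S w) = ee S (a :: w) :=
  exists_lift _ (fun _ _ h => ee_step (by simpa using h.ctx [a] []))
    fun _ h => ee_zpat (by simpa using h.ctx [a] [])

end Lift

theorem liftStmt (S : Sys α) : LiftStmt S := by
  intro M _ _ f h1 h2
  obtain ⟨φ, hφ⟩ := Lift.exists_lift f h1 h2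
  choose L hL using Lift.exists_left (S := S)
  let ρ : Alg S →ₐ[ZMod 2] Module.End (ZMod 2) (Lift.WW S) :=
    RingQuot.liftAlgHom (ZMod 2) ⟨FreeAlgebra.lift (ZMod 2) L, by
      rintro x y (⟨a, b, h, rfl, rfl⟩ | ⟨a, b, c, d, h, rfl, rfl⟩ | ⟨a, h, rfl, rfl⟩ |
        ⟨a, b, h, rfl, rfl⟩) <;> refine Lift.hom_ext fun w => ?_ <;>
        simp only [map_mul, map_zero, FreeAlgebra.lift_ι_apply, Module.End.mul_apply, hL,
          LinearMap.zero_apply]
      · exact Lift.ee_step (Sys.Step.one [] w a b h)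
      · exact Lift.ee_step (Sys.Step.two [] w a b c d h)
      · exact Lift.ee_zpat (Sys.ZPat.one [] w a h)
      · exact Lift.ee_zpat (Sys.ZPat.two [] w a b h)⟩
  have hg : ∀ a, ρ (gen S a) = L a := fun a => by simp [ρ, gen]
  have hm : ∀ w, ρ (mon S w) (Lift.ee S []) = Lift.ee S w := fun w => by
    induction w with
    | nil => simp
    | cons a w ih => rw [mon_cons, map_mul, Module.End.mul_apply, ih, hg, hL]
  refine ⟨φ ∘ₗ LinearMap.applyₗ (Lift.ee S []) ∘ₗ ρ.toLinearMap, fun w => ?_⟩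
  simp [hm, hφ]

theorem spanStmt (S : Sys α) : SpanStmt S := by
  rw [SpanStmt, eq_top_iff]
  rintro r -
  obtain ⟨x, rfl⟩ := RingQuot.mkAlgHom_surjective (ZMod 2) S.rel r
  induction x using FreeAlgebra.induction with
  | grade0 c =>
    rw [AlgHom.commutes, Algebra.algebraMap_eq_smul_one]
    exact Submodule.smul_mem _ _ (Submodule.subset_span ⟨[], mon_nil⟩)
  | grade1 a => exact Submodule.subset_span ⟨[a], mon_single a⟩
  | mul x y hx hy =>
    rw [map_mul]
    refine Submodule.span_induction₂ (p := fun a b _ _ =>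
      a * b ∈ Submodule.span (ZMod 2) (Set.range (mon S))) ?_ ?_ ?_ ?_ ?_ ?_ ?_ hx hy
    · rintro _ _ ⟨u, rfl⟩ ⟨w, rfl⟩
      exact Submodule.subset_span ⟨u ++ w, mon_append u w⟩
    · simp
    · simp
    · intro a b c _ _ _ h h'; rw [add_mul]; exact add_mem h h'
    · intro a b c _ _ _ h h'; rw [mul_add]; exact add_mem h h'
    · intro c a b _ _ h; rw [smul_mul_assoc]; exact Submodule.smul_mem _ _ h
    · intro c a b _ _ h; rw [mul_smul_comm]; exact Submodule.smul_mem _ _ h
  | add x y hx hy => rw [map_add]; exact add_mem hx hy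

end Crest.Agent.R176
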