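import Crest.Agent.R176.CBasic

/-! Row 176: C-NRM, normal form of good words with free ends. -/

set_option autoImplicit false

namespace Crest.Agent.R176

namespace Nrm

variable {M : ℕ} [NeZero M]

/-- The label of a content. -/
def labC (c : Ct M) : ℕ := c.dg.val + BB * c.d.val

theorem eq_mkC (c : Ct M) : c = mkC M c.τ c.arm c.t (labC c) := by
  have h1 := c.dg.isLt
  have h2 := c.d.isLt
  refine Ct.ext rfl (Fin.ext ?_) rfl rfl (Fin.ext ?_)
  · simp [mkC, labC, Nat.mod_eq_of_lt h1]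
  · simp [mkC, labC, Nat.add_mul_div_left _ _ BB_pos, Nat.div_eq_of_lt h1, Nat.mod_eq_of_lt h2]

/-- Contents of a block, up to the arms of the tokens and the payload of `A`. -/
structure CB (X : Cell (M * BB)) (ct : ℕ → Ct M) (iA iT : ℕ) : Prop where
  hA : iA < nb M
  hT : iT < nb M
  tA : ∀ i < nb M, ((ct i).τ = Tag.A ↔ i = iA)
  tT : ∀ i < nb M, ((ct i).τ = Tag.T ↔ i = iT)
  cP : ∀ i < nb M, (ct i).τ = Tag.P → (ct i).arm = Arm.idle ∧ (ct i).t = t0 ∧ labC (ct i) = i / 2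
  cI : ∀ i < nb M, (ct i).τ = Tag.I → (ct i).arm = Arm.idle ∧ (ct i).t = t0 ∧ 0 < labC (ct i) ∧
    labC (ct i) + 1 < M * BB
  injI : ∀ i < nb M, ∀ j < nb M, (ct i).τ = Tag.I → (ct j).τ = Tag.I →
    labC (ct i) = labC (ct j) → i = j
  labA : labC (ct iA) = 0
  et : (ct iT).t = X.t
  ed : labC (ct iT) = X.d.val

variable {X : Cell (M * BB)} {ct : ℕ → Ct M} {iA iT : ℕ} {pm : ℕ → Bool}

omit [NeZero M] in
theorem CB.ne (h : CB X ct iA iT) : iA ≠ iT := by
  intro e
  have h1 := (h.tA iA h.hA).2 rfl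
  have h2 := (h.tT iA h.hA).2 e
  rw [h1] at h2; cases h2

omit [NeZero M] in
theorem CB.perm (h : CB X ct iA iT) {f : ℕ → ℕ} (hf : ∀ i < nb M, f i < nb M)
    (hinj : ∀ i < nb M, ∀ j < nb M, f i = f j → i = j)
    (hP : ∀ i < nb M, (ct (f i)).τ = Tag.P → f i / 2 = i / 2) {p q : ℕ} (hp : p < nb M)
    (hq : q < nb M) (ep : f p = iA) (eq : f q = iT) : CB X (fun i => ct (f i)) p q where
  hA := hp
  hT := hq
  tA i hi := by
    rw [h.tA _ (hf i hi), ← ep]
    exact ⟨hinj i hi p hp, fun e => by rw [e]⟩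
  tT i hi := by
    rw [h.tT _ (hf i hi), ← eq]
    exact ⟨hinj i hi q hq, fun e => by rw [e]⟩
  cP i hi hτ := by
    have := h.cP _ (hf i hi) hτ
    rw [hP i hi hτ] at this
    exact this
  cI i hi hτ := h.cI _ (hf i hi) hτ
  injI i hi j hj h1 h2 h3 := hinj i hi j hj (h.injI _ (hf i hi) _ (hf j hj) h1 h2 h3)
  labA := by rw [ep]; exact h.labA
  et := by rw [eq]; exact h.et
  ed := by rw [eq]; exact h.ed

/-- Change of the arms of the tokens and of the payload of `A`. -/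
def upd (ct : ℕ → Ct M) (iA iT : ℕ) (x y : Arm) (t : V) (i : ℕ) : Ct M :=
  if i = iA then { ct i with arm := x, t := t } else if i = iT then { ct i with arm := y } else ct i

omit [NeZero M] in
theorem upd_τ (x y : Arm) (t : V) (i : ℕ) : (upd ct iA iT x y t i).τ = (ct i).τ := by
  unfold upd; split_ifs <;> rfl

omit [NeZero M] in
theorem upd_dg (x y : Arm) (t : V) (i : ℕ) : (upd ct iA iT x y t i).dg = (ct i).dg := by
  unfold upd; split_ifs <;> rfl

omit [NeZero M] in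
theorem upd_d (x y : Arm) (t : V) (i : ℕ) : (upd ct iA iT x y t i).d = (ct i).d := by
  unfold upd; split_ifs <;> rfl

omit [NeZero M] in
theorem upd_lab (x y : Arm) (t : V) (i : ℕ) : labC (upd ct iA iT x y t i) = labC (ct i) := by
  rw [labC, labC, upd_dg, upd_d]

omit [NeZero M] in
theorem upd_ne (x y : Arm) (t : V) {i : ℕ} (h1 : i ≠ iA) (h2 : i ≠ iT) :
    upd ct iA iT x y t i = ct i := by
  rw [upd, if_neg h1, if_neg h2]

omit [NeZero M] in
theorem upd_A (x y : Arm) (t : V) : upd ct iA iT x y t iA = { ct iA with arm := x, t := t } := by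
  rw [upd, if_pos rfl]

omit [NeZero M] in
theorem upd_T (h : iA ≠ iT) (x y : Arm) (t : V) :
    upd ct iA iT x y t iT = { ct iT with arm := y } := by
  rw [upd, if_neg h.symm, if_pos rfl]

omit [NeZero M] in
theorem CB.upd (h : CB X ct iA iT) (x y : Arm) (t : V) : CB X (upd ct iA iT x y t) iA iT := by
  have key : ∀ i < nb M, (ct i).τ = Tag.P ∨ (ct i).τ = Tag.I → Nrm.upd ct iA iT x y t i = ct i := by
    intro i hi hτ
    refine upd_ne x y t (fun e => ?_) (fun e => ?_)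
    · rw [(h.tA i hi).2 e] at hτ; simp at hτ
    · rw [(h.tT i hi).2 e] at hτ; simp at hτ
  refine ⟨h.hA, h.hT, fun i hi => ?_, fun i hi => ?_, fun i hi hτ => ?_, fun i hi hτ => ?_,
    fun i hi j hj h1 h2 h3 => ?_, ?_, ?_, ?_⟩
  · rw [upd_τ]; exact h.tA i hi
  · rw [upd_τ]; exact h.tT i hi
  · rw [upd_τ] at hτ; rw [key i hi (Or.inl hτ)]; exact h.cP i hi hτ
  · rw [upd_τ] at hτ; rw [key i hi (Or.inr hτ)]; exact h.cI i hi hτ
  · rw [upd_τ] at h1 h2; rw [upd_lab, upd_lab] at h3; exact h.injI i hi j hj h1 h2 h3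
  · rw [upd_lab]; exact h.labA
  · rw [upd_T h.ne]; exact h.et
  · rw [upd_lab]; exact h.ed

omit [NeZero M] in
theorem layC_setArm {st : ℕ → St} {ct' : ℕ → Ct M} {sA0 sT0 : Bool} {i : ℕ}
    (hτ : ∀ j, (ct' j).τ = (ct j).τ) (hd : (ct' i).dg = (ct i).dg) :
    (layC st pm ct sA0 sT0 i).a = (layC st pm ct' sA0 sT0 i).a.setArm (ct i).arm := by
  simp only [layC, V.setArm, hτ, hd]

/-- All arms idle: the layout is a permutation of the standard block. -/
theorem idle_case (hP : PermStmt M) (hE : EncStmt M) (h : CB X ct iA iT)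
    (hL : LayOK (nb M) (stOf M X.a.st.κ) pm ct false false) (h1 : (ct iA).arm = Arm.idle)
    (h2 : (ct iA).t = X.a) (h3 : (ct iT).arm = Arm.idle) :
    (RS M).Eqv (enc1 X) (lay (nb M) (stOf M X.a.st.κ) pm ct false false) := by
  have hn := nb_ge (M := M)
  have hn2 : nb M = 2 * (M * BB) := rfl
  let f : ℕ → ℕ := fun i => match (ct i).τ with
    | Tag.P => 2 * (i / 2)
    | Tag.A => 1
    | Tag.T => nb M - 1
    | Tag.I => 2 * labC (ct i) + 1
  have fP : ∀ i, (ct i).τ = Tag.P → f i = 2 * (i / 2) := fun i hi => by simp only [f, hi]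
  have fA : ∀ i, (ct i).τ = Tag.A → f i = 1 := fun i hi => by simp only [f, hi]
  have fT : ∀ i, (ct i).τ = Tag.T → f i = nb M - 1 := fun i hi => by simp only [f, hi]
  have fI : ∀ i, (ct i).τ = Tag.I → f i = 2 * labC (ct i) + 1 := fun i hi => by simp only [f, hi]
  have hc : ∀ i < nb M, ct i = encC X (f i) := by
    intro i hi
    rw [eq_mkC (ct i)]
    cases hτ : (ct i).τ with
    | P =>
      obtain ⟨a1, a2, a3⟩ := h.cP i hi hτ
      rw [fP i hτ, a1, a2, a3, encC, if_pos (by omega)]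
      congr 1; omega
    | I =>
      obtain ⟨a1, a2, a3, a4⟩ := h.cI i hi hτ
      rw [fI i hτ, a1, a2, encC, if_neg (by omega), if_neg (by omega), if_neg (by omega)]
      congr 1; omega
    | A =>
      rw [fA i hτ, (h.tA i hi).1 hτ, h1, h2, h.labA, encC, if_neg (by omega), if_pos rfl]
    | T =>
      rw [fT i hτ, (h.tT i hi).1 hτ, h3, h.et, h.ed, encC, if_neg (by omega), if_neg (by omega),
        if_pos (by omega)]
  refine hP _ _ _ _ _ _ _ _ f (hE.layOK X) hL (fun i hi => ?_) (fun i hi j hj e => ?_) hc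
    (fun i _ hτ => ?_)
  · cases hτ : (ct i).τ with
    | P => rw [fP i hτ]; omega
    | I => have := (h.cI i hi hτ).2.2.2; rw [fI i hτ]; omega
    | A => rw [fA i hτ]; omega
    | T => rw [fT i hτ]; omega
  · have e1 : ct i = ct j := by rw [hc i hi, hc j hj, e]
    cases hτ : (ct i).τ with
    | P =>
      have hτ' : (ct j).τ = Tag.P := e1 ▸ hτ
      rw [fP i hτ, fP j hτ'] at e
      by_contra hne
      have hg := hL.grp (i / 2) (by omega)
      have hab : (i = 2 * (i / 2) ∧ j = 2 * (i / 2) + 1) ∨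
          (j = 2 * (i / 2) ∧ i = 2 * (i / 2) + 1) := by omega
      rcases hab with ⟨a, b⟩ | ⟨a, b⟩
      · rw [← b, ← a] at hg; exact hg.1 hτ hτ'
      · rw [← b, ← a] at hg; exact hg.1 hτ' hτ
    | I => exact h.injI i hi j hj hτ (e1 ▸ hτ) (by rw [e1])
    | A => exact ((h.tA i hi).1 hτ).trans ((h.tA j hj).1 (e1 ▸ hτ)).symm
    | T => exact ((h.tT i hi).1 hτ).trans ((h.tT j hj).1 (e1 ▸ hτ)).symm
  · rw [fP i hτ]; omega

/-- The token `A` is ready. -/
theorem ready_case (hP : PermStmt M) (hE : EncStmt M) (h : CB X ct iA iT)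
    (hL : LayOK (nb M) (stOf M X.a.st.κ) pm ct false false) {s : Side} {k : Kind} {φ : Bool}
    (h1 : (ct iA).arm = Arm.ready s k φ) (hs : (ct iA).t.sk = some (s, k))
    (h2 : X.a = if φ = true then (ct iA).t.flip else (ct iA).t) (h3 : (ct iT).arm = Arm.idle) :
    (RS M).Eqv (enc1 X) (lay (nb M) (stOf M X.a.st.κ) pm ct false false) := by
  have hL' : LayOK (nb M) (stOf M X.a.st.κ) pm (upd ct iA iT Arm.idle Arm.idle X.a) false false :=
    hL.congr (fun _ _ => rfl) (fun _ _ => rfl) fun i _ => upd_τ _ _ _ i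
  refine (idle_case hP hE (h.upd Arm.idle Arm.idle X.a) hL' (by rw [upd_A]) (by rw [upd_A])
    (by rw [upd_T h.ne])).trans (eqv_range1 h.hA (fun j _ hj => ?_) (Sys.Eqv.of_r1 ?_))
  · refine layC_congr rfl (fun _ _ => rfl) (fun i _ => (upd_τ _ _ _ i).symm) ?_
    by_cases hT : j = iT
    · rw [hT, upd_T h.ne, ← h3]
    · rw [upd_ne _ _ _ hj hT]
  · refine ⟨⟨rfl, ?_, ?_, s, k, φ, hs, ?_, ?_⟩, (upd_d _ _ _ _).symm⟩
    · exact (upd_τ _ _ _ _).trans ((h.tA iA h.hA).2 rfl)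
    · change (upd ct iA iT Arm.idle Arm.idle X.a iA).arm = _
      rw [upd_A]
    · rw [← h1]; exact layC_setArm (upd_τ _ _ _) (upd_dg _ _ _ _)
    · change (upd ct iA iT Arm.idle Arm.idle X.a iA).t = _
      rw [upd_A]; exact h2

/-- The tokens are linked and adjacent. -/
theorem link_adj (hP : PermStmt M) (hE : EncStmt M) (h : CB X ct 1 2)
    (hL : LayOK (nb M) (stOf M X.a.st.κ) pm ct false false) {s : Side} {k : Kind} {φ : Bool}
    (h1 : (ct 1).arm = Arm.linked s k) (hs : (ct 1).t.sk = some (s, k))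
    (h2 : X.a = if φ = true then (ct 1).t.flip else (ct 1).t) (h3 : (ct 2).arm = Arm.armed s k φ) :
    (RS M).Eqv (enc1 X) (lay (nb M) (stOf M X.a.st.κ) pm ct false false) := by
  have hn := nb_ge (M := M)
  have hL' : LayOK (nb M) (stOf M X.a.st.κ) pm
      (upd ct 1 2 (Arm.ready s k φ) Arm.idle (ct 1).t) false false :=
    hL.congr (fun _ _ => rfl) (fun _ _ => rfl) fun i _ => upd_τ _ _ _ i
  refine (ready_case hP hE (h.upd (Arm.ready s k φ) Arm.idle (ct 1).t) hL' (s := s) (k := k)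
    (φ := φ) (by rw [upd_A]) (by rw [upd_A]; exact hs) (by rw [upd_A]; exact h2)
    (by rw [upd_T h.ne])).trans
    (eqv_range2 (i := 1) (by omega) (fun j _ hj hj' => ?_) (Sys.Eqv.of_r2 (Or.inl ?_)))
  · exact layC_congr rfl (fun _ _ => rfl) (fun i _ => (upd_τ _ _ _ i).symm)
      (upd_ne _ _ _ hj hj').symm
  · refine ⟨⟨rfl, rfl, Or.inr (Or.inr ⟨?_, ?_, ?_, ?_, s, k, φ, ?_, ?_, ?_⟩)⟩, ?_,
      (upd_d _ _ _ _).symm, ?_, (upd_d _ _ _ _).symm⟩
    · exact hL.noE 1 (by omega)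
    · exact (upd_τ _ _ _ _).trans ((h.tA 1 h.hA).2 rfl)
    · exact (upd_τ _ _ _ _).trans ((h.tT 2 h.hT).2 rfl)
    · change (upd ct 1 2 (Arm.ready s k φ) Arm.idle (ct 1).t 2).arm = _
      rw [upd_T h.ne]
    · change (upd ct 1 2 (Arm.ready s k φ) Arm.idle (ct 1).t 1).arm = _
      rw [upd_A]
    · rw [← h1]; exact layC_setArm (upd_τ _ _ _) (upd_dg _ _ _ _)
    · rw [← h3]; exact layC_setArm (upd_τ _ _ _) (upd_dg _ _ _ _)
    · change (ct 1).t = (upd ct 1 2 (Arm.ready s k φ) Arm.idle (ct 1).t 1).t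
      rw [upd_A]
    · change (ct 2).t = (upd ct 1 2 (Arm.ready s k φ) Arm.idle (ct 1).t 2).t
      rw [upd_T h.ne]

theorem link_case (hP : PermStmt M) (hE : EncStmt M) (h : CB X ct iA iT)
    (hL : LayOK (nb M) (stOf M X.a.st.κ) pm ct false false) {s : Side} {k : Kind} {φ : Bool}
    (h1 : (ct iA).arm = Arm.linked s k) (hs : (ct iA).t.sk = some (s, k))
    (h2 : X.a = if φ = true then (ct iA).t.flip else (ct iA).t)
    (h3 : (ct iT).arm = Arm.armed s k φ) :
    (RS M).Eqv (enc1 X) (lay (nb M) (stOf M X.a.st.κ) pm ct false false) := by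
  have hn := nb_ge (M := M)
  obtain ⟨f, hf, hinj, hfP, e1, e2⟩ := hL.exists_place2 (p := 1) h.hA h.hT h.ne
    (by rw [(h.tA iA h.hA).2 rfl]; decide) (by rw [(h.tT iT h.hT).2 rfl]; decide) rfl (by omega)
  have hL' := hL.perm hf hinj hfP
  have h' := h.perm hf hinj hfP (p := 1) (q := 2) (by omega) (by omega) e1 e2
  have e2' : f 2 = iT := e2
  refine (link_adj hP hE h' hL' (s := s) (k := k) (φ := φ) ?_ ?_ ?_ ?_).trans
    (hP _ _ _ _ _ _ _ _ f hL hL' hf hinj (fun _ _ => rfl) hfP).symm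
  · rw [e1]; exact h1
  · rw [e1]; exact hs
  · rw [e1]; exact h2
  · rw [e2']; exact h3

theorem block (hU : UnlStmt M) (hP : PermStmt M) (hE : EncStmt M) {b : List (Cell M)}
    (hb : Blk X b) (hl : Loc b) : (RS M).Eqv (b.map unlC) (enc1 X) := by
  have hn := nb_ge (M := M)
  obtain ⟨hlen, iA, iT, hF⟩ := hb
  have hok := (loc_iff_cat.1 hl).1
  rw [hlen] at hok
  have h0 := hF.st 0 (by omega)
  obtain ⟨hL, he⟩ := hU.ext b hl (hlen ▸ ten_dvd_nb M) (by rw [h0]; simp [stOf])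
    (fun i hi => by
      rw [hlen] at hi
      rw [hF.st i (by omega)]
      simp only [stOf, decide_eq_false_iff_not]; omega)
  have hF0 : (cat b 0).a.st.F = true := by rw [h0]; simp [stOf]
  have eA : ((cat b 0).a.mb.sA && decide ((cat b 0).a.mb.τ ≠ Tag.A)) = false := by
    rw [(hok 0 (by omega)).1.fA hF0]; simp
  have eT : ((cat b 0).a.mb.sT && decide ((cat b 0).a.mb.τ ≠ Tag.T)) = false := by
    rw [(hok 0 (by omega)).1.fT hF0]; simp
  rw [eA, eT, hlen] at hL he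
  have hL' := hL.congr (st' := stOf M X.a.st.κ) (fun i hi => (hF.st i hi).symm) (fun _ _ => rfl)
    (fun _ _ => rfl)
  rw [he, lay_congr (st := stOf M X.a.st.κ) hF.st (fun _ _ => rfl) (fun _ _ => rfl)]
  have hC : CB X (fun i => cont (cat b i)) iA iT :=
    ⟨hF.hA, hF.hT, hF.tA, hF.tT,
      fun i hi hτ => ⟨(hok i hi).1.idle (Or.inl hτ), (hok i hi).2.blank (Or.inl hτ),
        hF.labP i hi hτ⟩,
      fun i hi hτ => ⟨(hok i hi).1.idle (Or.inr hτ), (hok i hi).2.blank (Or.inr hτ),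
        hF.labI i hi hτ⟩, hF.injI, hF.labA, hF.et.symm, hF.ed.symm⟩
  have hτA := (hF.tA iA hF.hA).2 rfl
  have hea := hF.ea
  refine Sys.Eqv.symm ?_
  rcases hF.arms with ⟨a1, a2⟩ | ⟨s, k, φ, a1, a2⟩ | ⟨s, k, φ, a1, a2⟩
  · rw [a1, a2] at hea
    exact idle_case hP hE hC hL' a1 hea.symm a2
  · rw [a1, a2] at hea
    exact ready_case hP hE hC hL' a1 ((hok iA hF.hA).2.ready hτA s k φ a1) hea a2
  · rw [a1, a2] at hea
    exact link_case hP hE hC hL' a1 ((hok iA hF.hA).2.linked hτA s k a1) hea a2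

end Nrm

theorem nrmStmt (M : ℕ) [NeZero M] (hU : UnlStmt M) (hP : PermStmt M) (hE : EncStmt M) :
    NrmStmt M := by
  intro v u hg hl hr
  refine (hU.free v hg.2 hl hr).trans ?_
  obtain ⟨h1, h2⟩ := hg
  clear hl hr
  induction h1 with
  | nil => exact Sys.Eqv.refl _
  | cons hb _ ih =>
    rw [List.map_append, enc_cons]
    obtain ⟨h3, h4, -⟩ := loc_append.1 h2
    exact (Nrm.block hU hP hE hb h3).append (ih h4)

end Crest.Agent.R176
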