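import Crest.Agent.R176.CBas1

/-! Row 176: permuting permits and contents of a layout (`PermStmt`). -/

set_option autoImplicit false

namespace Crest.Agent.R176

namespace PermAux

variable {M : ℕ} {n : ℕ} {st : ℕ → St} {sA0 sT0 : Bool}

/-! ### Permits -/

theorem move {pm pm' : ℕ → Bool} {ct : ℕ → Ct M} (h : LayOK n st pm ct sA0 sT0)
    (h' : LayOK n st pm' ct sA0 sT0) {j : ℕ} (hj : j + 1 < n) (h9 : j % 10 ≠ 9)
    (h1 : pm j = true) (h2 : pm' (j + 1) = true)
    (he : ∀ i < n, i ≠ j → i ≠ j + 1 → pm' i = pm i) :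
    (RS M).Eqv (lay n st pm ct sA0 sT0) (lay n st pm' ct sA0 sT0) := by
  have hw : (j + 1) / 10 = j / 10 := by omega
  have h3 : pm (j + 1) = false := by
    by_contra hh
    have := h.pmU (j + 1) hj j (by omega) hw (by simpa using hh) h1
    omega
  have h4 : pm' j = false := by
    by_contra hh
    have := h'.pmU (j + 1) hj j (by omega) hw h2 (by simpa using hh)
    omega
  refine eqv_range2 hj (fun i hi hij hij' => ?_) (Sys.Eqv.of_r2 (Or.inl ⟨?_, rfl, rfl, rfl, rfl⟩))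
  · have : (∃ k, k ≤ i ∧ k / 10 = i / 10 ∧ pm' k = true) ↔
        ∃ k, k ≤ i ∧ k / 10 = i / 10 ∧ pm k = true := by
      constructor
      · rintro ⟨k, hk1, hk2, hk3⟩
        by_cases hk : k = j + 1
        · exact ⟨j, by omega, by omega, h1⟩
        · have hk' : k ≠ j := by rintro rfl; rw [h4] at hk3; cases hk3
          exact ⟨k, hk1, hk2, by rw [← he k (by omega) hk' hk]; exact hk3⟩
      · rintro ⟨k, hk1, hk2, hk3⟩
        by_cases hk : k = j
        · exact ⟨j + 1, by omega, by omega, h2⟩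
        · have hk' : k ≠ j + 1 := by rintro rfl; rw [h3] at hk3; cases hk3
          exact ⟨k, hk1, hk2, by rw [he k (by omega) hk hk']; exact hk3⟩
    simp only [layC, he i hi hij hij', this]
  · refine ⟨rfl, rfl, Or.inl ⟨?_, h1, ?_, h3, ?_, ?_, ?_⟩⟩
    · change (st j).κ.val % 10 ≠ 9
      rw [h.al j (by omega)]; exact h9
    · simp only [layC, decide_eq_true_eq]
      exact ⟨j, le_rfl, rfl, h1⟩
    · simp only [layC, decide_eq_true_eq]
      exact ⟨j, by omega, by omega, h1⟩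
    · refine V.ext rfl h4 ?_ rfl rfl
      simp only [layC, decide_eq_false_iff_not]
      rintro ⟨k, hk1, hk2, hk3⟩
      have := h'.pmU k (by omega) (j + 1) hj (by omega) hk3 h2
      omega
    · refine V.ext rfl h2 ?_ rfl rfl
      simp only [layC, decide_eq_decide]
      exact ⟨fun _ => ⟨j, by omega, by omega, h1⟩, fun _ => ⟨j + 1, le_rfl, rfl, h2⟩⟩

/-- The permit function after moving the permit at `j + 1` back to `j`. -/
def back (pm : ℕ → Bool) (j i : ℕ) : Bool := if i = j then true else if i = j + 1 then false else pm i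

theorem ok_back {pm : ℕ → Bool} {ct : ℕ → Ct M} (h : LayOK n st pm ct sA0 sT0) {j : ℕ}
    (hj : j + 1 < n) (h9 : j % 10 ≠ 9) (h1 : pm (j + 1) = true) :
    LayOK n st (back pm j) ct sA0 sT0 where
  dvd := h.dvd
  al := h.al
  noE := h.noE
  grp := h.grp
  uA := h.uA
  uT := h.uT
  pmE i hi := by
    obtain ⟨k, hk, hk1, hk2⟩ := h.pmE i hi
    by_cases hkj : k = j + 1
    · exact ⟨j, by omega, by omega, by simp [back]⟩
    · refine ⟨k, hk, hk1, ?_⟩
      unfold back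
      split_ifs
      · rfl
      · exact hk2
  pmU i hi k hk hik h2 h3 := by
    unfold back at h2 h3
    split_ifs at h2 h3 with a1 a2 a3 a4 a5 a6
    · omega
    · have := h.pmU k hk (j + 1) hj (by omega) h3 h1
      omega
    · have := h.pmU i hi (j + 1) hj (by omega) h2 h1
      omega
    · exact h.pmU i hi k hk hik h2 h3

theorem to_start {ct : ℕ → Ct M} (s : ℕ) : ∀ pm : ℕ → Bool, LayOK n st pm ct sA0 sT0 →
    (∑ i ∈ Finset.range n, if pm i = true then i else 0) = s →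
    (RS M).Eqv (lay n st pm ct sA0 sT0) (lay n st (fun i => decide (i % 10 = 0)) ct sA0 sT0) := by
  induction s using Nat.strong_induction_on with
  | _ s ih =>
  intro pm h hs
  by_cases hex : ∃ j, j + 1 < n ∧ j % 10 ≠ 9 ∧ pm (j + 1) = true
  · obtain ⟨j, hj, h9, h1⟩ := hex
    have hb := ok_back h hj h9 h1
    have h0 : pm j = false := by
      by_contra hh
      have := h.pmU (j + 1) hj j (by omega) (by omega) h1 (by simpa using hh)
      omega
    have hm := move hb h hj h9 (by simp [back]) h1 (fun i _ a b => by simp [back, a, b])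
    refine hm.symm.trans (ih _ ?_ _ hb rfl)
    rw [← hs]
    have e1 : ∀ g : ℕ → ℕ, ∑ i ∈ Finset.range n, g i =
        g j + (g (j + 1) + ∑ i ∈ ((Finset.range n).erase j).erase (j + 1), g i) := by
      intro g
      rw [Finset.add_sum_erase _ g (by simp; omega), Finset.add_sum_erase _ g (by simp; omega)]
    rw [e1, e1 fun i => if pm i = true then i else 0]
    have e2 : (∑ i ∈ ((Finset.range n).erase j).erase (j + 1), if back pm j i = true then i else 0)
        = ∑ i ∈ ((Finset.range n).erase j).erase (j + 1), if pm i = true then i else 0 := by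
      refine Finset.sum_congr rfl fun i hi => ?_
      simp only [Finset.mem_erase] at hi
      simp [back, hi.1, hi.2.1]
    rw [e2]
    simp [back, h0, h1]
  · refine Sys.Eqv.of_eq (lay_congr (fun _ _ => rfl) (fun i hi => ?_) fun _ _ => rfl).symm
    have key : ∀ k < n, pm k = true → k % 10 = 0 := by
      intro k hk hk1
      by_contra hk0
      obtain ⟨j, rfl⟩ : ∃ j, k = j + 1 := ⟨k - 1, by omega⟩
      exact hex ⟨j, hk, by omega, hk1⟩
    by_cases h0 : i % 10 = 0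
    · obtain ⟨k, hk, hk1, hk2⟩ := h.pmE i hi
      have := key k hk hk2
      obtain rfl : k = i := by omega
      simp [h0, hk2]
    · have : pm i = false := by
        by_contra hh
        exact h0 (key i hi (by simpa using hh))
      simp [h0, this]

/-- The permits are irrelevant. -/
theorem pm_eqv {pm pm' : ℕ → Bool} {ct : ℕ → Ct M} (h : LayOK n st pm ct sA0 sT0)
    (h' : LayOK n st pm' ct sA0 sT0) :
    (RS M).Eqv (lay n st pm ct sA0 sT0) (lay n st pm' ct sA0 sT0) :=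
  (to_start _ pm h rfl).trans (to_start _ pm' h' rfl).symm

/-! ### Adjacent swaps -/

/-- `ct'` is `ct` with the contents at `i` and `i + 1` exchanged. -/
structure Adj (ct ct' : ℕ → Ct M) (i : ℕ) : Prop where
  l : ct' i = ct (i + 1)
  r : ct' (i + 1) = ct i
  o : ∀ j, j ≠ i → j ≠ i + 1 → ct' j = ct j

theorem Adj.symm {ct ct' : ℕ → Ct M} {i : ℕ} (h : Adj ct ct' i) : Adj ct' ct i :=
  ⟨h.r.symm, h.l.symm, fun j a b => (h.o j a b).symm⟩

theorem Adj.ex_imp {ct ct' : ℕ → Ct M} {i : ℕ} (h : Adj ct ct' i) (τ : Tag) {k : ℕ} (hk : k ≠ i)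
    (he : ∃ j, j ≤ k ∧ (ct j).τ = τ) : ∃ j, j ≤ k ∧ (ct' j).τ = τ := by
  obtain ⟨j, hj, hτ⟩ := he
  by_cases h1 : j = i
  · exact ⟨i + 1, by omega, by rw [h.r, ← h1, hτ]⟩
  · by_cases h2 : j = i + 1
    · exact ⟨i, by omega, by rw [h.l, ← h2, hτ]⟩
    · exact ⟨j, hj, by rw [h.o j h1 h2, hτ]⟩

theorem Adj.ex_iff {ct ct' : ℕ → Ct M} {i : ℕ} (h : Adj ct ct' i) (τ : Tag) {k : ℕ} (hk : k ≠ i) :
    (∃ j, j ≤ k ∧ (ct' j).τ = τ) ↔ ∃ j, j ≤ k ∧ (ct j).τ = τ :=
  ⟨h.symm.ex_imp τ hk, h.ex_imp τ hk⟩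

open Classical in
theorem Adj.flag {ct ct' : ℕ → Ct M} {i : ℕ} (h : Adj ct ct' i) (τ : Tag) (s0 : Bool)
    (hu : (ct i).τ = τ → s0 = false ∧ ∀ j < i, (ct j).τ ≠ τ) :
    (s0 || decide (∃ j, j ≤ i ∧ (ct' j).τ = τ)) =
      ((s0 || decide (∃ j, j ≤ i ∧ (ct j).τ = τ)) && decide ((ct i).τ ≠ τ) ||
        decide ((ct (i + 1)).τ = τ)) := by
  rw [Bool.eq_iff_iff]
  simp only [Bool.or_eq_true, Bool.and_eq_true, decide_eq_true_eq]
  constructor
  · rintro (h0 | ⟨j, hj, hτ⟩)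
    · refine Or.inl ⟨Or.inl h0, fun h1 => ?_⟩
      rw [(hu h1).1] at h0; cases h0
    · rcases hj.eq_or_lt with rfl | hj'
      · right; rw [← h.l, hτ]
      · rw [h.o j (by omega) (by omega)] at hτ
        exact Or.inl ⟨Or.inr ⟨j, hj, hτ⟩, fun h1 => (hu h1).2 j hj' hτ⟩
  · rintro (⟨h0 | ⟨j, hj, hτ⟩, h1⟩ | h1)
    · exact Or.inl h0
    · have : j ≠ i := by rintro rfl; exact h1 hτ
      exact Or.inr ⟨j, hj, by rw [h.o j this (by omega), hτ]⟩
    · exact Or.inr ⟨i, le_rfl, by rw [h.l, h1]⟩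

theorem mbL {pm : ℕ → Bool} {ct ct' : ℕ → Ct M} (h : LayOK n st pm ct sA0 sT0) {i : ℕ}
    (hi : i + 1 < n) (ha : Adj ct ct' i) :
    (layC st pm ct' sA0 sT0 i).a.mb =
      svL (layC st pm ct sA0 sT0 i).a (layC st pm ct sA0 sT0 (i + 1)).a := by
  have hE : ¬ (layC st pm ct sA0 sT0 i).a.st.E = true := by
    change ¬ (st i).E = true
    rw [h.noE i hi]; simp
  rw [svL, if_neg hE]
  refine Mb.ext ?_ ?_ ?_ ?_ ?_
  · change (ct' i).τ = (ct (i + 1)).τ
    rw [ha.l]
  · change (ct' i).dg = (ct (i + 1)).dg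
    rw [ha.l]
  · change (ct' i).arm = (ct (i + 1)).arm
    rw [ha.l]
  · have := ha.flag Tag.A sA0 fun h1 => ⟨(h.uA i (by omega) h1).1, fun j hj h2 => by
      have := (h.uA i (by omega) h1).2 j (by omega) h2
      omega⟩
    simp only [layC]
    convert this
  · have := ha.flag Tag.T sT0 fun h1 => ⟨(h.uT i (by omega) h1).1, fun j hj h2 => by
      have := (h.uT i (by omega) h1).2 j (by omega) h2
      omega⟩
    simp only [layC]
    convert this

theorem mbR {pm : ℕ → Bool} {ct ct' : ℕ → Ct M} (h : LayOK n st pm ct sA0 sT0) {i : ℕ}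
    (hi : i + 1 < n) (ha : Adj ct ct' i) :
    (layC st pm ct' sA0 sT0 (i + 1)).a.mb =
      svR (layC st pm ct sA0 sT0 i).a (layC st pm ct sA0 sT0 (i + 1)).a := by
  have hE : ¬ (layC st pm ct sA0 sT0 i).a.st.E = true := by
    change ¬ (st i).E = true
    rw [h.noE i hi]; simp
  rw [svR, if_neg hE]
  simp only [layC, ha.r, ha.ex_iff _ (show i + 1 ≠ i by omega)]

theorem allowed {pm : ℕ → Bool} {ct : ℕ → Ct M} (h : LayOK n st pm ct sA0 sT0) {i : ℕ}
    (hi : i + 1 < n) (hp : pm i = true)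
    (hc : i % 2 = 0 ∨ ((ct i).τ ≠ Tag.P ∧ (ct (i + 1)).τ ≠ Tag.P)) :
    Allowed Kind.sw (layC st pm ct sA0 sT0 i).a (layC st pm ct sA0 sT0 (i + 1)).a := by
  refine ⟨hp, Or.inl ⟨rfl, h.noE i hi, ?_⟩⟩
  rcases hc with hc | hc
  · left
    have := h.al i (by omega)
    change (st i).κ.val % 2 = 0
    omega
  · exact Or.inr hc

theorem lock_eqv {x y : Cell M} (hx : x.a.lk = Lk.none) (hy : y.a.lk = Lk.none)
    (h : Allowed Kind.sw x.a y.a) :
    (RS M).Eqv [x, y] [⟨lockL Kind.sw x.a y.a, x.t, x.d⟩, ⟨lockR Kind.sw x.a y.a, y.t, y.d⟩] :=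
  Sys.Eqv.of_r2 (Or.inl ⟨⟨hx, hy, Or.inr (Or.inl ⟨Kind.sw, h, rfl, rfl⟩)⟩, rfl, rfl, rfl, rfl⟩)

theorem adj_pm {pm : ℕ → Bool} {ct ct' : ℕ → Ct M} (h : LayOK n st pm ct sA0 sT0)
    (h' : LayOK n st pm ct' sA0 sT0) {i : ℕ} (hi : i + 1 < n) (hp : pm i = true) (ha : Adj ct ct' i)
    (hc : i % 2 = 0 ∨ ((ct i).τ ≠ Tag.P ∧ (ct (i + 1)).τ ≠ Tag.P)) :
    (RS M).Eqv (lay n st pm ct sA0 sT0) (lay n st pm ct' sA0 sT0) := by
  have hc' : i % 2 = 0 ∨ ((ct' i).τ ≠ Tag.P ∧ (ct' (i + 1)).τ ≠ Tag.P) := by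
    rw [ha.l, ha.r]; tauto
  refine eqv_range2 hi (fun j _ h1 h2 => ?_) ?_
  · simp only [layC, ha.o j h1 h2, ha.ex_iff _ h1]
  · have e1 := lock_eqv rfl rfl (allowed h hi hp hc)
    have e2 := lock_eqv rfl rfl (allowed h' hi hp hc')
    refine e1.trans (Sys.Eqv.trans (Sys.Eqv.of_r2 (Or.inr (Or.inl ⟨?_, ?_, ?_, ?_⟩))) e2.symm)
    · exact sk_lockL _ _ _
    · exact sk_lockR _ _ _
    · refine Cell.ext (V.ext rfl rfl rfl (mbL h hi ha) ?_) ?_ ?_
      · change Lk.sw Side.L _ = Lk.sw Side.L _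
        rw [← mbL h' hi ha.symm]; rfl
      · change (ct' i).t = (ct (i + 1)).t
        rw [ha.l]
      · change (ct' i).d = (ct (i + 1)).d
        rw [ha.l]
    · refine Cell.ext (V.ext rfl rfl rfl (mbR h hi ha) ?_) ?_ ?_
      · change Lk.sw Side.R _ = Lk.sw Side.R _
        rw [← mbR h' hi ha.symm]; rfl
      · change (ct' (i + 1)).t = (ct i).t
        rw [ha.r]
      · change (ct' (i + 1)).d = (ct i).d
        rw [ha.r]

/-- The contents after a transposition. -/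
def sw (ct : ℕ → Ct M) (i j : ℕ) : ℕ → Ct M := fun x => ct (Equiv.swap i j x)

theorem sw_l (ct : ℕ → Ct M) (i j : ℕ) : sw ct i j i = ct j := by simp [sw]
theorem sw_r (ct : ℕ → Ct M) (i j : ℕ) : sw ct i j j = ct i := by simp [sw]
theorem sw_o (ct : ℕ → Ct M) {i j k : ℕ} (h1 : k ≠ i) (h2 : k ≠ j) : sw ct i j k = ct k := by
  simp [sw, Equiv.swap_apply_of_ne_of_ne h1 h2]

theorem sw_comm (ct : ℕ → Ct M) (i j : ℕ) : sw ct i j = sw ct j i := by
  funext x; simp [sw, Equiv.swap_comm i j]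

theorem sw_conj (ct : ℕ → Ct M) {i j k : ℕ} (h1 : i ≠ k) (h2 : i ≠ j) :
    sw (sw (sw ct k j) i k) k j = sw ct i j := by
  funext x
  simp only [sw, Equiv.swap_apply_def]
  congr 1
  split_ifs <;> omega

theorem swap_lt {i j k : ℕ} (hi : i < n) (hj : j < n) (hk : k < n) : Equiv.swap i j k < n := by
  rw [Equiv.swap_apply_def]; split_ifs <;> assumption

theorem ok_sw {pm : ℕ → Bool} {ct : ℕ → Ct M} (h : LayOK n st pm ct sA0 sT0) {i j : ℕ}
    (hi : i < n) (hj : j < n) (hc : i / 2 = j / 2 ∨ ((ct i).τ ≠ Tag.P ∧ (ct j).τ ≠ Tag.P)) :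
    LayOK n st pm (sw ct i j) sA0 sT0 := by
  refine h.perm (f := Equiv.swap i j) (fun k hk => swap_lt hi hj hk)
    (fun a _ b _ hab => (Equiv.swap i j).injective hab) fun k _ hk => ?_
  rw [Equiv.swap_apply_def] at hk ⊢
  split_ifs at hk ⊢ with h1 h2
  · rcases hc with hc | hc
    · omega
    · exact absurd hk hc.2
  · rcases hc with hc | hc
    · omega
    · exact absurd hk hc.1
  · rfl

variable (n st sA0 sT0) in
/-- The transposition of the contents at `i` and `j` is realised by the rules. -/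
def Sw (pm : ℕ → Bool) (ct : ℕ → Ct M) (i j : ℕ) : Prop :=
  (RS M).Eqv (lay n st pm ct sA0 sT0) (lay n st pm (sw ct i j) sA0 sT0)

theorem Sw.comm {pm : ℕ → Bool} {ct : ℕ → Ct M} {i j : ℕ} (h : Sw n st sA0 sT0 pm ct i j) :
    Sw n st sA0 sT0 pm ct j i := by
  unfold Sw at h ⊢
  rwa [sw_comm]

theorem Sw.conj {pm : ℕ → Bool} {ct : ℕ → Ct M} {i j k : ℕ} (h1 : i ≠ k) (h2 : i ≠ j)
    (a : Sw n st sA0 sT0 pm ct k j) (b : Sw n st sA0 sT0 pm (sw ct k j) i k)
    (c : Sw n st sA0 sT0 pm (sw (sw ct k j) i k) k j) : Sw n st sA0 sT0 pm ct i j := by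
  unfold Sw at a b c ⊢
  rw [sw_conj ct h1 h2] at c
  exact (a.trans b).trans c

theorem sw_adj {pm : ℕ → Bool} {ct : ℕ → Ct M} (h : LayOK n st pm ct sA0 sT0) {i : ℕ}
    (hi : i + 1 < n) (hc : i % 2 = 0 ∨ ((ct i).τ ≠ Tag.P ∧ (ct (i + 1)).τ ≠ Tag.P)) :
    Sw n st sA0 sT0 pm ct i (i + 1) := by
  have h' := ok_sw h (show i < n by omega) hi (hc.imp (fun _ => by omega) id)
  refine (pm_eqv h (h.pmAt i)).trans (Sys.Eqv.trans ?_ (pm_eqv (h'.pmAt i) h'))
  exact adj_pm (h.pmAt i) (h'.pmAt i) hi (by simp [pmAt])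
    ⟨sw_l _ _ _, sw_r _ _ _, fun j a b => sw_o _ a b⟩ hc

theorem sw_nonP {pm : ℕ → Bool} (d : ℕ) : ∀ ct : ℕ → Ct M, LayOK n st pm ct sA0 sT0 →
    ∀ i j, j < n → j = i + d + 1 → (ct i).τ ≠ Tag.P → (ct j).τ ≠ Tag.P →
      Sw n st sA0 sT0 pm ct i j := by
  induction d using Nat.strong_induction_on with
  | _ d ih =>
  intro ct h i j hj hd hi0 hj0
  rcases d with _ | d
  · subst hd
    exact sw_adj h hj (Or.inr ⟨hi0, hj0⟩)
  obtain ⟨k, rfl⟩ : ∃ k, j = k + 1 := ⟨j - 1, by omega⟩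
  by_cases hk : k % 2 = 0 ∨ (ct k).τ ≠ Tag.P
  · have a := sw_adj h hj (hk.imp id fun h1 => ⟨h1, hj0⟩)
    have h1 := ok_sw h (show k < n by omega) hj (hk.imp (fun _ => by omega) fun h1 => ⟨h1, hj0⟩)
    have n1 : (sw ct k (k + 1) i).τ ≠ Tag.P := by rwa [sw_o _ (by omega) (by omega)]
    have n2 : (sw ct k (k + 1) k).τ ≠ Tag.P := by rwa [sw_l]
    have b := ih d (by omega) _ h1 i k (by omega) (by omega) n1 n2
    have h2 := ok_sw h1 (show i < n by omega) (show k < n by omega) (Or.inr ⟨n1, n2⟩)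
    refine Sw.conj (by omega) (by omega) a b (sw_adj h2 hj (hk.imp id fun h3 => ⟨?_, ?_⟩))
    · rwa [sw_r]
    · rwa [sw_o _ (by omega) (by omega), sw_r]
  · push Not at hk
    obtain ⟨g, rfl⟩ : ∃ g, k = 2 * g + 1 := ⟨k / 2, by omega⟩
    have hg : (ct (2 * g)).τ ≠ Tag.P := fun h1 => (h.grp g (by omega)).1 h1 hk.2
    rcases d with _ | d
    · obtain rfl : i = 2 * g := by omega
      have a := sw_adj h (show 2 * g + 1 < n by omega) (Or.inl (by omega))
      have h1 := ok_sw h (show 2 * g + 1 < n by omega) (show 2 * g < n by omega)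
        (Or.inl (by omega))
      have n1 : (sw ct (2 * g + 1) (2 * g) (2 * g + 1)).τ ≠ Tag.P := by rwa [sw_l]
      have n2 : (sw ct (2 * g + 1) (2 * g) (2 * g + 1 + 1)).τ ≠ Tag.P := by
        rwa [sw_o _ (by omega) (by omega)]
      have b := sw_adj h1 hj (Or.inr ⟨n1, n2⟩)
      have h2 := ok_sw h1 hj (show 2 * g + 1 < n by omega) (Or.inr ⟨n2, n1⟩)
      exact (Sw.conj (by omega) (by omega) a.comm b.comm
        (sw_adj h2 (show 2 * g + 1 < n by omega) (Or.inl (by omega))).comm).comm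
    · have a := ih 1 (by omega) ct h (2 * g) (2 * g + 1 + 1) hj rfl hg hj0
      have h1 := ok_sw h (show 2 * g < n by omega) hj (Or.inr ⟨hg, hj0⟩)
      have n1 : (sw ct (2 * g) (2 * g + 1 + 1) i).τ ≠ Tag.P := by
        rwa [sw_o _ (by omega) (by omega)]
      have n2 : (sw ct (2 * g) (2 * g + 1 + 1) (2 * g)).τ ≠ Tag.P := by rwa [sw_l]
      have b := ih d (by omega) _ h1 i (2 * g) (by omega) (by omega) n1 n2
      have h2 := ok_sw h1 (show i < n by omega) (show 2 * g < n by omega) (Or.inr ⟨n1, n2⟩)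
      refine Sw.conj (by omega) (by omega) a b
        (ih 1 (by omega) _ h2 (2 * g) (2 * g + 1 + 1) hj rfl ?_ ?_)
      · rwa [sw_r]
      · rwa [sw_o _ (by omega) (by omega), sw_r]

theorem sw_gen {pm : ℕ → Bool} {ct : ℕ → Ct M} (h : LayOK n st pm ct sA0 sT0) {i j : ℕ}
    (hi : i < n) (hj : j < n) (hij : i ≠ j)
    (hc : i / 2 = j / 2 ∨ ((ct i).τ ≠ Tag.P ∧ (ct j).τ ≠ Tag.P)) :
    Sw n st sA0 sT0 pm ct i j := by
  wlog hlt : i < j generalizing i j
  · exact (this hj hi hij.symm (hc.imp Eq.symm And.symm) (by omega)).comm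
  rcases hc with hc | hc
  · obtain rfl : j = i + 1 := by omega
    exact sw_adj h hj (Or.inl (by omega))
  · exact sw_nonP (j - i - 1) ct h i j hj (by omega) hc.1 hc.2

theorem perm_aux {pm : ℕ → Bool} {ct : ℕ → Ct M} (h : LayOK n st pm ct sA0 sT0) (s : ℕ) :
    ∀ f : ℕ → ℕ, (∀ i < n, f i < n) → (∀ i < n, ∀ j < n, f i = f j → i = j) →
      (∀ i < n, (ct (f i)).τ = Tag.P → f i / 2 = i / 2) →
      ((Finset.range n).filter fun i => f i ≠ i).card = s →
      (RS M).Eqv (lay n st pm ct sA0 sT0) (lay n st pm (fun i => ct (f i)) sA0 sT0) := by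
  induction s using Nat.strong_induction_on with
  | _ s ih =>
  intro f hf hinj hP hs
  have hok := h.perm hf hinj hP
  -- one step: a transposition `(i j)` with `f j = i`
  have step : ∀ i < n, ∀ j < n, i ≠ j → f j = i →
      (i / 2 = j / 2 ∨ ((ct (f i)).τ ≠ Tag.P ∧ (ct (f j)).τ ≠ Tag.P)) →
      (RS M).Eqv (lay n st pm ct sA0 sT0) (lay n st pm (fun i => ct (f i)) sA0 sT0) := by
    intro i hi j hj hij hfj hc
    have hfi : f i ≠ i := fun e => hij (hinj i hi j hj (e.trans hfj.symm))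
    have a := sw_gen hok hi hj hij hc
    refine Sys.Eqv.trans (ih _ ?_ (fun x => f (Equiv.swap i j x))
      (fun k hk => hf _ (swap_lt hi hj hk))
      (fun a ha b hb hab => (Equiv.swap i j).injective
        (hinj _ (swap_lt hi hj ha) _ (swap_lt hi hj hb) hab)) (fun k hk h1 => ?_) rfl) a.symm
    · rw [← hs]
      refine Finset.card_lt_card ⟨fun k hk => ?_, fun hsub => ?_⟩
      · simp only [Finset.mem_filter, Finset.mem_range] at hk ⊢
        refine ⟨hk.1, ?_⟩
        by_cases h1 : k = i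
        · rw [h1]; exact hfi
        · by_cases h2 : k = j
          · rw [h2, hfj]; exact hij
          · have := hk.2
            rwa [Equiv.swap_apply_of_ne_of_ne h1 h2] at this
      · have := hsub (Finset.mem_filter.2 ⟨Finset.mem_range.2 hi, hfi⟩)
        simp [hfj] at this
    · have h2 := hP _ (swap_lt hi hj hk) h1
      rw [h2]
      rw [Equiv.swap_apply_def] at h1 ⊢
      split_ifs at h1 ⊢ with h3 h4
      · rcases hc with hc | hc
        · omega
        · exact absurd h1 hc.2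
      · rcases hc with hc | hc
        · omega
        · exact absurd h1 hc.1
      · rfl
  by_cases h1 : ∃ j < n, f j ≠ j ∧ (ct (f j)).τ = Tag.P
  · obtain ⟨j, hj, h2, h3⟩ := h1
    exact step (f j) (hf j hj) j hj h2 rfl (Or.inl (hP j hj h3))
  push Not at h1
  by_cases h2 : ∃ j < n, f j ≠ j
  · obtain ⟨j, hj, h2⟩ := h2
    refine step (f j) (hf j hj) j hj h2 rfl (Or.inr ⟨h1 _ (hf j hj) fun e => h2 ?_, h1 j hj h2⟩)
    exact hinj _ (hf j hj) j hj e
  · push Not at h2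
    exact Sys.Eqv.of_eq (lay_congr (fun _ _ => rfl) (fun _ _ => rfl)
      fun i hi => by rw [h2 i hi]).symm

end PermAux

theorem permStmt (M : ℕ) [NeZero M] : PermStmt M := by
  intro n st pm pm' ct ct' sA0 sT0 f h h' hf hinj hct hP
  have hP' : ∀ i < n, (ct (f i)).τ = Tag.P → f i / 2 = i / 2 := fun i hi h1 =>
    hP i hi (by rw [hct i hi]; exact h1)
  have a := PermAux.perm_aux h _ f hf hinj hP' rfl
  have b := PermAux.pm_eqv (h.perm hf hinj hP') (h'.congr (ct' := fun i => ct (f i))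
    (fun _ _ => rfl) (fun _ _ => rfl) fun i hi => by rw [hct i hi])
  exact (a.trans b).trans (Sys.Eqv.of_eq
    (lay_congr (fun _ _ => rfl) (fun _ _ => rfl) hct).symm)

end Crest.Agent.R176
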