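import Crest.Agent.R176.Tower

/-! Row 176: long nonzero words contain many permutable distinct chunks. -/

set_option autoImplicit false

namespace Crest.Agent.R176

namespace PermPA

theorem exists_pow_lt {a b : ℕ} (ha : 0 < a) (hab : a < b) (K : ℕ) : ∃ s : ℕ, K * a ^ s < b ^ s := by
  have ha' : (0 : ℚ) < a := by exact_mod_cast ha
  have h1 : (1 : ℚ) < (b : ℚ) / a := by
    rw [one_lt_div ha']; exact_mod_cast hab
  obtain ⟨s, hs⟩ := pow_unbounded_of_one_lt (K : ℚ) h1
  refine ⟨s, ?_⟩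
  rw [div_pow, lt_div_iff₀ (pow_pos ha' s)] at hs
  exact_mod_cast hs

theorem length_flatten {α : Type} {D : ℕ} : ∀ {n : ℕ} (f : Fin n → List α),
    (∀ k, (f k).length = D) → (List.ofFn f).flatten.length = n * D
  | 0, f, _ => by simp
  | n + 1, f, h => by
    rw [List.ofFn_succ, List.flatten_cons, List.length_append,
      length_flatten (fun i => f i.succ) (fun k => h _), h 0]
    ring

theorem chunk_flatten {α : Type} {D : ℕ} : ∀ {n : ℕ} (f : Fin n → List α),
    (∀ k, (f k).length = D) → ∀ k : Fin n, ((List.ofFn f).flatten.drop (k.val * D)).take D = f k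
  | 0, _, _, k => k.elim0
  | n + 1, f, h, k => by
    rw [List.ofFn_succ, List.flatten_cons]
    refine Fin.cases ?_ (fun k => ?_) k
    · simp only [Fin.val_zero, zero_mul, List.drop_zero]
      exact List.take_left' (h 0)
    · have e : k.succ.val * D = (f 0).length + k.val * D := by rw [h 0, Fin.val_succ]; ring
      rw [e, List.drop_length_add_append]
      exact chunk_flatten (fun i => f i.succ) (fun k => h _) k

theorem tower_ofFn (hT : TowFacts) {s : ℕ} : ∀ {n : ℕ} (X : Fin n → Cell (mS s)) (B : List C0),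
    Tower s B (List.ofFn X) →
      ∃ Wc : Fin n → List C0, B = (List.ofFn Wc).flatten ∧ ∀ k, Tower s (Wc k) [X k]
  | 0, X, B, h => by
    have := hT.length h
    refine ⟨fun k => k.elim0, ?_, fun k => k.elim0⟩
    simpa using this
  | n + 1, X, B, h => by
    rw [List.ofFn_succ] at h
    obtain ⟨W1, W2, rfl, h1, h2⟩ := hT.split (u := [X 0]) h
    obtain ⟨Wc, rfl, h3⟩ := tower_ofFn hT (fun i => X i.succ) W2 h2
    refine ⟨Fin.cons W1 Wc, ?_, fun k => ?_⟩
    · rw [List.ofFn_succ]; simp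
    · refine Fin.cases ?_ (fun k => ?_) k
      · simpa using h1
      · simpa using h3 k

/-- The position of the chosen block. -/
def IsPos (s : ℕ) (w : List C0) (p : ℕ) : Prop :=
  4 * DL (s + 1) ≤ p ∧ p < 5 * DL (s + 1) ∧
    ∃ Z : Cell (mS (s + 1)), Tower (s + 1) ((w.drop p).take (DL (s + 1))) [Z]

theorem exists_isPos (hT : TowFacts) (hX : XFacts) (s : ℕ) {w : List C0} (hw : ¬ S0.Zero w)
    (hl : 10 * DL (s + 1) ≤ w.length) : ∃ p, IsPos s w p := by
  obtain ⟨l, W, r, v, rfl, h1, -, h2, h3⟩ := hX.exact (s + 1) w hw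
  have hD := DL_pos (s + 1)
  have hW := hT.length h1
  unfold IsPos
  generalize hDe : DL (s + 1) = D at *
  simp only [List.length_append] at hl
  obtain ⟨k, hk1, hk2⟩ : ∃ k, 4 * D ≤ l.length + k * D ∧ l.length + k * D < 5 * D := by
    refine ⟨(5 * D - 1 - l.length) / D, ?_, ?_⟩
    · have := Nat.lt_div_mul_add (a := 5 * D - 1 - l.length) hD
      omega
    · have := Nat.div_mul_le_self (5 * D - 1 - l.length) D
      omega
  have hk : k < v.length := by
    by_contra hk
    have : v.length * D ≤ k * D := Nat.mul_le_mul_right _ (by omega)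
    omega
  have hv : v = v.take k ++ ([v[k]] ++ v.drop (k + 1)) := by simp
  rw [hv] at h1
  obtain ⟨W1, W2, rfl, h4, h5⟩ := hT.split h1
  obtain ⟨W3, W4, rfl, h6, h7⟩ := hT.split h5
  have l1 : W1.length = k * D := by
    rw [hT.length h4, List.length_take, min_eq_left hk.le, hDe]
  have l3 : W3.length = D := by rw [hT.length h6, hDe]; simp
  refine ⟨l.length + k * D, hk1, hk2, v[k], ?_⟩
  have e : l ++ (W1 ++ (W3 ++ W4)) ++ r = (l ++ W1) ++ (W3 ++ (W4 ++ r)) := by simp
  rw [e, List.drop_left' (by rw [List.length_append, l1]), List.take_left' l3]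
  exact h6

/-- The context of the chosen block. -/
theorem isPos_ctx (hT : TowFacts) {s : ℕ} {l W r : List C0} {v : List (Cell (mS (s + 1)))}
    (h1 : Tower (s + 1) W v) (h2 : l.length ≤ 3 * DL (s + 1)) (h3 : r.length ≤ 3 * DL (s + 1))
    (hl : 10 * DL (s + 1) ≤ (l ++ W ++ r).length) {p : ℕ} (hp : IsPos s (l ++ W ++ r) p) :
    ∃ A C : List C0, W = A ++ (((l ++ W ++ r).drop p).take (DL (s + 1))) ++ C ∧
      p = l.length + A.length ∧ A ≠ [] ∧ C ≠ [] ∧ DL (s + 1) ∣ A.length := by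
  obtain ⟨hp1, hp2, Z, hZ⟩ := hp
  have hD := DL_pos (s + 1)
  simp only [List.length_append] at hl
  obtain ⟨q, rfl⟩ : ∃ q, p = l.length + q := ⟨p - l.length, by omega⟩
  have hq : q + DL (s + 1) < W.length := by omega
  have e : ((l ++ W ++ r).drop (l.length + q)).take (DL (s + 1)) = (W.drop q).take (DL (s + 1)) := by
    rw [List.append_assoc, List.drop_length_add_append,
      List.drop_append_of_le_length (by omega), List.take_append_of_le_length (by simp; omega)]
  rw [e] at hZ ⊢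
  have hW : W = W.take q ++ (W.drop q).take (DL (s + 1)) ++ W.drop (q + DL (s + 1)) := by
    rw [List.append_assoc, ← List.drop_drop, List.take_append_drop, List.take_append_drop]
  have lA : (W.take q).length = q := by simp; omega
  refine ⟨W.take q, W.drop (q + DL (s + 1)), hW, by rw [lA], ?_, ?_, ?_⟩
  · intro h; rw [h] at lA; simp at lA; omega
  · intro h
    have := congrArg List.length h
    simp at this; omega
  · rw [hW] at h1
    obtain ⟨x, y, -, h4, -⟩ := hT.align h1 hZ (by simp)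
    rw [hT.length h4]; exact Dvd.intro_left _ rfl

theorem isPos_unique (hT : TowFacts) (hX : XFacts) {s : ℕ} {w : List C0} (hw : ¬ S0.Zero w)
    (hl : 10 * DL (s + 1) ≤ w.length) {p p' : ℕ} (hp : IsPos s w p) (hp' : IsPos s w p') :
    p = p' := by
  obtain ⟨l, W, r, v, rfl, h1, -, h2, h3⟩ := hX.exact (s + 1) w hw
  obtain ⟨A, -, -, e, -, -, a, ha⟩ := isPos_ctx hT h1 h2 h3 hl hp
  obtain ⟨A', -, -, e', -, -, a', ha'⟩ := isPos_ctx hT h1 h2 h3 hl hp'
  obtain ⟨hp1, hp2, -⟩ := hp
  obtain ⟨hp1', hp2', -⟩ := hp'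
  rw [ha] at e
  rw [ha'] at e'
  generalize DL (s + 1) = D at *
  rcases lt_trichotomy a a' with h | rfl | h
  · have : D * (a + 1) ≤ D * a' := Nat.mul_le_mul_left _ h
    rw [mul_add] at this; omega
  · omega
  · have : D * (a' + 1) ≤ D * a := Nat.mul_le_mul_left _ h
    rw [mul_add] at this; omega

/-- Full structure around the chosen block. -/
theorem isPos_struct (hT : TowFacts) (hX : XFacts) {s : ℕ} {w : List C0} (hw : ¬ S0.Zero w)
    (hl : 10 * DL (s + 1) ≤ w.length) {p : ℕ} (hp : IsPos s w p) :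
    ∃ (Z : Cell (mS (s + 1))) (X : Fin (nb (mS s)) → Cell (mS s))
      (Wc : Fin (nb (mS s)) → List C0) (x y : Cell (mS s)) (l Wx Wy r : List C0),
      w = (l ++ Wx) ++ (List.ofFn Wc).flatten ++ (Wy ++ r) ∧ p = (l ++ Wx).length ∧
      Good (M := mS s) (List.ofFn X) [Z] ∧ (∀ k, Tower s (Wc k) [X k]) ∧
      Tower s (Wx ++ (List.ofFn Wc).flatten ++ Wy) (x :: List.ofFn X ++ [y]) ∧
      Wx.length = DL s ∧ ((x :: List.ofFn X ++ [y]).IsChain fun a b => ColAdj a.a b.a) := by
  obtain ⟨l, W, r, v, rfl, h1, -, h2, h3⟩ := hX.exact (s + 1) w hw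
  obtain ⟨A, C, hW, e, hA, hC, -⟩ := isPos_ctx hT h1 h2 h3 hl hp
  obtain ⟨-, -, Z, hZ⟩ := hp
  generalize ((l ++ W ++ r).drop p).take (DL (s + 1)) = B at hW hZ
  subst hW
  obtain ⟨vs, h4, h5⟩ := h1
  obtain ⟨z, h6, h7⟩ := hZ
  have lz : z.length = nb (mS s) := h7.1.length_eq.trans (one_mul _)
  have hz0 : z ≠ [] := by
    intro h; rw [h] at lz; have := nb_ge (M := mS s); simp at lz; omega
  obtain ⟨vx, vy, rfl, h8, h9⟩ := hT.align h4 h6 hz0
  have hvx : vx ≠ [] := by
    rintro rfl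
    exact hA (by simpa using hT.length h8)
  have hvy : vy ≠ [] := by
    rintro rfl
    exact hC (by simpa using hT.length h9)
  obtain ⟨vx', x, rfl⟩ : ∃ vx' x, vx = vx' ++ [x] :=
    ⟨vx.dropLast, vx.getLast hvx, (List.dropLast_append_getLast hvx).symm⟩
  obtain ⟨y, vy', rfl⟩ := List.exists_cons_of_ne_nil hvy
  obtain ⟨X, rfl⟩ : ∃ X : Fin (nb (mS s)) → Cell (mS s), z = List.ofFn X := by
    refine ⟨fun k => z[k.val]'(by rw [lz]; exact k.2), ?_⟩
    apply List.ext_getElem
    · simp [lz]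
    · intro i h1 h2; simp
  obtain ⟨Wc, rfl, h10⟩ := tower_ofFn hT X B h6
  have e1 : vx' ++ [x] ++ List.ofFn X ++ y :: vy' = vx' ++ ((x :: List.ofFn X ++ [y]) ++ vy') := by
    simp
  have h4' := h4
  rw [e1] at h4' h5
  obtain ⟨W1, W2, e2, h11, h12⟩ := hT.split h4'
  obtain ⟨W3, W4, rfl, h13, h14⟩ := hT.split h12
  obtain ⟨W5, Wy, rfl, h15, h16⟩ := hT.split h13
  obtain ⟨Wx, B', rfl, h17, h18⟩ := hT.split (u := [x]) (u' := List.ofFn X) h15
  have lx : Wx.length = DL s := by simpa using hT.length h17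
  have lA : A.length = (W1 ++ Wx).length := by
    rw [hT.length h8, List.length_append, List.length_append, hT.length h11, lx]; simp; ring
  have lB : (List.ofFn Wc).flatten.length = B'.length := by rw [hT.length h6, hT.length h18]
  have e3 : A ++ ((List.ofFn Wc).flatten ++ C) = (W1 ++ Wx) ++ (B' ++ (Wy ++ W4)) := by
    simpa using e2
  obtain ⟨rfl, e4⟩ := List.append_inj e3 lA
  obtain ⟨rfl, rfl⟩ := List.append_inj e4 lB
  refine ⟨Z, X, Wc, x, y, l ++ W1, Wx, Wy, W4 ++ r, by simp, by simp [e], h7, h10, h13,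
    lx, ?_⟩
  have hch : (x :: List.ofFn X ++ [y]).IsChain fun a b => OK2 a.a b.a :=
    h5.2.2.infix ⟨vx', vy', by simp⟩
  exact hch.imp fun a b h => h.col

/-- The type of a chunk. -/
abbrev Ty (s : ℕ) : Type := V × (Fin s → Cls) × (Fin s → Cls)

def tyOf (s : ℕ) (a : V) (fl ll : List V) : Ty s :=
  (a, fun m => cls Side.R (fl.getD m t0), fun m => cls Side.L (ll.getD m t0))

open Classical in
noncomputable def ty (s : ℕ) (W : List C0) : Ty s :=
  if h : ∃ q : Cell (mS s) × List V × List V, TB s W [q.1] q.2.1 q.2.2 then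
    tyOf s h.choose.1.a h.choose.2.1 h.choose.2.2
  else tyOf s t0 [] []

theorem ty_eq (hT : TowFacts) {s : ℕ} {W : List C0} {X : Cell (mS s)} {fl ll : List V}
    (h : TB s W [X] fl ll) : ty s W = tyOf s X.a fl ll := by
  have h0 : ∃ q : Cell (mS s) × List V × List V, TB s W [q.1] q.2.1 q.2.2 := ⟨(X, fl, ll), h⟩
  obtain ⟨h1, h2, h3⟩ := hT.tb_unique h0.choose_spec h
  rw [ty, dif_pos h0, h2, h3, (List.cons.inj h1).1]

theorem map_eq_of_fun {s : ℕ} {f : V → Cls} {a b : List V} (ha : a.length = s) (hb : b.length = s)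
    (h : (fun m : Fin s => f (a.getD m t0)) = fun m : Fin s => f (b.getD m t0)) :
    a.map f = b.map f := by
  apply List.ext_getElem
  · simp [ha, hb]
  · intro i h1 h2
    simp only [List.length_map] at h1 h2
    have := congrFun h ⟨i, ha ▸ h1⟩
    simpa [List.getD, h1, h2] using this

def SelOK {s n r : ℕ} (θ : Fin n → Ty s) (e : Fin r → Fin n) : Prop :=
  Function.Injective e ∧ (∀ a, 10 ≤ (e a).val ∧ (e a).val + 10 < n ∧
    (θ (e a)).1.mb.τ = Tag.I ∧ (θ (e a)).1.lk = Lk.none) ∧ ∀ a b, θ (e a) = θ (e b)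

theorem exists_sel {s n r : ℕ} (θ : Fin n → Ty s) (E : Finset (Fin n))
    (hE : ∀ i ∈ E, 10 ≤ i.val ∧ i.val + 10 < n ∧ (θ i).1.mb.τ = Tag.I ∧ (θ i).1.lk = Lk.none)
    (hc : Nat.card (Ty s) * r < E.card) : ∃ e : Fin r → Fin n, SelOK θ e := by
  classical
  let : Fintype (Ty s) := Fintype.ofFinite _
  rw [Nat.card_eq_fintype_card, ← Finset.card_univ] at hc
  obtain ⟨y, -, hy⟩ := Finset.exists_lt_card_fiber_of_mul_lt_card_of_maps_to (f := θ)
    (fun a _ => Finset.mem_univ (θ a)) hc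
  have hm := Finset.orderEmbOfCardLe_mem _ hy.le
  simp only [Finset.mem_filter] at hm
  exact ⟨Finset.orderEmbOfCardLe _ hy.le, (Finset.orderEmbOfCardLe _ hy.le).injective,
    fun a => hE _ (hm a).1, fun a b => (hm a).2.trans (hm b).2.symm⟩

noncomputable def pos (s : ℕ) (w : List C0) : ℕ := Classical.epsilon (IsPos s w)

noncomputable def ch (s : ℕ) (w : List C0) (k : Fin (nb (mS s))) : List C0 :=
  (((w.drop (pos s w)).take (DL (s + 1))).drop (k.val * DL s)).take (DL s)

instance (s : ℕ) : Nonempty (Fin (nb (mS s))) := ⟨⟨0, by have := nb_ge (M := mS s); omega⟩⟩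

noncomputable def sel (s r : ℕ) (w : List C0) : Fin r → Fin (nb (mS s)) :=
  Classical.epsilon (SelOK (r := r) fun k => ty s (ch s w k))

theorem read {s : ℕ} {w P Q : List C0} {Wc : Fin (nb (mS s)) → List C0}
    (hw : w = P ++ (List.ofFn Wc).flatten ++ Q) (hp : pos s w = P.length)
    (hl : ∀ k, (Wc k).length = DL s) :
    w.take (pos s w) = P ∧ w.drop (pos s w + DL (s + 1)) = Q ∧ ch s w = Wc := by
  have lB : (List.ofFn Wc).flatten.length = DL (s + 1) := length_flatten Wc hl
  refine ⟨?_, ?_, ?_⟩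
  · rw [hp, hw, List.append_assoc, List.take_left' rfl]
  · rw [hp, hw, List.drop_left' (by rw [List.length_append, lB])]
  · funext k
    unfold ch
    rw [hp, hw, List.append_assoc, List.drop_left' rfl, List.take_left' lB]
    exact chunk_flatten Wc hl k

end PermPA

open PermPA in
theorem permP (h : OneLevel) (hT : TowFacts) (hX : XFacts) (hS : SwapStmt) : PermP S0 := by
  intro r
  have : Nonempty Cls := ⟨(none, Tag.I, Arm.idle)⟩
  obtain ⟨s, hs⟩ := exists_pow_lt (a := Fintype.card Cls ^ 2) (pow_pos Fintype.card_pos 2)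
    cls_lt_BB (Nat.card V * r)
  have hcard : Nat.card (Ty s) * r < mS s := by
    rw [mS_eq]
    refine lt_of_eq_of_lt ?_ hs
    rw [Nat.card_prod, Nat.card_prod, Nat.card_fun, Nat.card_fin,
      Nat.card_eq_fintype_card (α := Cls)]
    ring
  refine ⟨10 * DL (s + 1), nb (mS s), fun w => w.take (pos s w),
    fun w => w.drop (pos s w + DL (s + 1)), ch s, sel s r, fun w hw hl => ?_⟩
  have hp : IsPos s w (pos s w) := Classical.epsilon_spec (exists_isPos hT hX s hw hl)
  obtain ⟨Z, X, Wc, x, y, l, Wx, Wy, rr, ew, ep, hG, hW, hB, lx, hch⟩ :=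
    isPos_struct hT hX hw hl hp
  have hlen : ∀ k, (Wc k).length = DL s := fun k => by simpa using hT.length (hW k)
  obtain ⟨e1, e2, e3⟩ := read ew ep hlen
  choose fl ll hfl using fun k => hT.tb_of_tower (hW k) (by simp)
  have hty : ∀ k, ty s (Wc k) = tyOf s (X k).a (fl k) (ll k) := fun k => ty_eq hT (hfl k)
  have hsel : SelOK (fun k => ty s (ch s w k)) (sel s r w) := by
    apply Classical.epsilon_spec (p := SelOK (r := r) fun k => ty s (ch s w k))
    refine exists_sel _ _ ?_ (hcard.trans_le (h.cnt (mS s) Z X hG))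
    intro i hi
    simp only [Finset.mem_filter, Finset.mem_univ, true_and] at hi
    rw [e3, hty]
    exact hi
  simp only [e1, e2]
  rw [e3] at hsel ⊢
  obtain ⟨hinj, hel, hθ⟩ := hsel
  simp only [hty] at hel hθ
  refine ⟨ew, fun i j hij hc => hij (hinj ?_), fun i j w' hw' => ?_⟩
  · have h1 := hW (sel s r w i)
    rw [hc] at h1
    have h2 : X (sel s r w i) = X (sel s r w j) :=
      (List.cons.inj (hT.unique h1 (hW (sel s r w j)))).1
    obtain ⟨-, iA, iT, hb⟩ := Rep.single.1 hG.1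
    apply Fin.ext
    refine hb.injI _ (sel s r w i).2 _ (sel s r w j).2 ?_ ?_ ?_
    · rw [cat_ofFn]; exact (hel i).2.2.1
    · rw [cat_ofFn]; exact (hel j).2.2.1
    · rw [cat_ofFn, cat_ofFn, h2]
  · have hθ' := hθ j i
    simp only [tyOf, Prod.mk.injEq] at hθ'
    obtain ⟨t1, t2, t3⟩ := hθ'
    obtain ⟨hE, hZ⟩ := hS s Z X Wc fl ll x y Wx Wy (sel s r w i) (sel s r w j) hG hfl hB lx hch
      (hel i).1 (hel i).2.1 (hel j).1 (hel j).2.1 (hel i).2.2.1 (hel i).2.2.2 t1
      (map_eq_of_fun (hT.tb_length (hfl _)).1 (hT.tb_length (hfl _)).1 t2)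
      (map_eq_of_fun (hT.tb_length (hfl _)).2 (hT.tb_length (hfl _)).2 t3)
    have hE' : S0.Eqv w w' := by
      have := hE.ctx l rr
      rw [hw']
      convert this using 1
      · rw [ew]; simp
      · simp
    have hw0 : ¬ S0.Zero w' := fun hz => hw (hE'.zero_iff.2 hz)
    have hl' : 10 * DL (s + 1) ≤ w'.length := by rw [← hE'.length_eq]; exact hl
    have hlen' : ∀ k, ((Wc ∘ Equiv.swap (sel s r w i) (sel s r w j)) k).length = DL s :=
      fun k => hlen _
    have hp1 : IsPos s w' (l ++ Wx).length := by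
      refine ⟨ep ▸ hp.1, ep ▸ hp.2.1, Z, ?_⟩
      rw [hw', List.append_assoc, List.drop_left' rfl,
        List.take_left' (i := DL (s + 1)) (length_flatten _ hlen')]
      exact hZ
    have hp' : IsPos s w' (pos s w') := Classical.epsilon_spec ⟨_, hp1⟩
    obtain ⟨f1, f2, f3⟩ := read hw' (isPos_unique hT hX hw0 hl' hp' hp1) hlen'
    refine ⟨hE', f1, f2, f3, ?_⟩
    unfold sel
    rw [f3, e3]
    congr 2
    funext k
    have hv : ty s (Wc (sel s r w i)) = ty s (Wc (sel s r w j)) := by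
      rw [hty, hty]; exact hθ i j
    exact Equiv.apply_swap_eq_self (v := fun k => ty s (Wc k)) hv k

end Crest.Agent.R176
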