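import Crest.Agent.R176.CBasic

/-! Row 176: simulation of the rules and zeros run by the tokens `A`. -/

set_option autoImplicit false

namespace Crest.Agent.R176

namespace SimA

variable {M : ℕ}

/-- the lock rule -/
theorem lock_eqv {a b : V} {k : Kind} (ha : a.lk = Lk.none) (hb : b.lk = Lk.none)
    (hA : Allowed k a b) (t u : V) (d e : Fin M) :
    (RS M).Eqv [⟨a, t, d⟩, ⟨b, u, e⟩] [⟨lockL k a b, t, d⟩, ⟨lockR k a b, u, e⟩] :=
  Sys.Eqv.of_r2 (Or.inl ⟨⟨ha, hb, Or.inr (Or.inl ⟨k, hA, rfl, rfl⟩)⟩, rfl, rfl, rfl, rfl⟩)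

/-- lock, run the table, unlock -/
theorem tab_eqv {x y : Cell M} {k : Kind} (hx : x.a.lk = Lk.none) (hy : y.a.lk = Lk.none)
    (hA : Allowed k x.a y.a) {t u : V} (hT : Tb k x.t y.t t u) :
    (RS M).Eqv [x, y] [⟨x.a, t, x.d⟩, ⟨y.a, u, y.d⟩] :=
  (lock_eqv hx hy hA x.t y.t x.d y.d).trans
    ((Sys.Eqv.of_r2 (S := RS M) (a := ⟨lockL k x.a y.a, x.t, x.d⟩)
      (b := ⟨lockR k x.a y.a, y.t, y.d⟩) (c := ⟨lockL k x.a y.a, t, x.d⟩) (d := ⟨lockR k x.a y.a, u, y.d⟩)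
      (Or.inr (Or.inr ⟨k, sk_lockL .., sk_lockR .., hT, rfl, rfl, rfl, rfl⟩))).trans
      (lock_eqv hx hy hA t u x.d y.d).symm)

/-- lock, run the zero table -/
theorem tab_zero {x y : Cell M} {k : Kind} (hx : x.a.lk = Lk.none) (hy : y.a.lk = Lk.none)
    (hA : Allowed k x.a y.a) (hZ : Zb k x.t y.t) : (RS M).Zero [x, y] :=
  Sys.Zero.of_eqv (lock_eqv hx hy hA x.t y.t x.d y.d)
    (Sys.Zero.of_z2 (Or.inr ⟨k, sk_lockL .., sk_lockR .., Or.inl hZ⟩))

theorem layC_pay {st : ℕ → St} {pm : ℕ → Bool} {ct ct' : ℕ → Ct M} {sA0 sT0 : Bool} {i : ℕ}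
    (hτ : ∀ j, (ct' j).τ = (ct j).τ) (h1 : (ct' i).dg = (ct i).dg) (h2 : (ct' i).arm = (ct i).arm)
    (h3 : (ct' i).d = (ct i).d) :
    layC st pm ct' sA0 sT0 i =
      ⟨(layC st pm ct sA0 sT0 i).a, (ct' i).t, (layC st pm ct sA0 sT0 i).d⟩ := by
  simp only [layC, hτ, h1, h2, h3]

theorem pmAt_self (p : ℕ) : pmAt p p = true := by simp [pmAt]

variable [NeZero M]

theorem encC_τ (X X' : Cell (M * BB)) (i : ℕ) : (encC X' i).τ = (encC X i).τ := by
  unfold encC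
  split_ifs <;> rfl

theorem encC_congr {X X' : Cell (M * BB)} {i : ℕ} (h1 : i = 1 → X'.a = X.a)
    (h2 : i + 1 = nb M → X'.t = X.t ∧ X'.d = X.d) : encC X' i = encC X i := by
  unfold encC
  split_ifs with h h' h''
  · rfl
  · rw [h1 h']
  · rw [(h2 h'').1, (h2 h'').2]
  · rfl

theorem encC_one (X : Cell (M * BB)) : encC X 1 = mkC M Tag.A Arm.idle X.a 0 := by
  simp [encC]

theorem encC_last (X : Cell (M * BB)) {n : ℕ} (hn : n + 1 = nb M) :
    encC X n = mkC M Tag.T Arm.idle X.t X.d.val := by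
  have h1 := nb_ge (M := M)
  have h2 := ten_dvd_nb M
  rw [encC, if_neg (by omega), if_neg (by omega), if_pos hn]

/-- admissible rearrangements of a block -/
def Pl (M : ℕ) [NeZero M] (f : ℕ → ℕ) : Prop :=
  (∀ i < nb M, f i < nb M) ∧ (∀ i < nb M, ∀ j < nb M, f i = f j → i = j) ∧
    ∀ X : Cell (M * BB), ∀ i < nb M, (encC X (f i)).τ = Tag.P → f i / 2 = i / 2

/-- cell `i` of the rearranged block, with a permit at `p` -/
noncomputable def cl (X : Cell (M * BB)) (f : ℕ → ℕ) (p : ℕ) : ℕ → Cell M :=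
  layC (stOf M X.a.st.κ) (pmAt p) (fun i => encC X (f i)) false false

theorem mv (hE : EncStmt M) (hP : PermStmt M) {f : ℕ → ℕ} (hf : Pl M f) (X : Cell (M * BB))
    (p : ℕ) : (RS M).Eqv (enc1 X) ((List.range (nb M)).map (cl X f p)) :=
  hP _ _ _ _ _ _ _ _ f (hE.layOK X) (((hE.layOK X).perm hf.1 hf.2.1 (hf.2.2 X)).pmAt p) hf.1
    hf.2.1 (fun _ _ => rfl) (hf.2.2 X)

theorem place1 (hE : EncStmt M) {p : ℕ} (hp : p < nb M) : ∃ f, Pl M f ∧ f p = 1 := by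
  have h1 := nb_ge (M := M)
  obtain ⟨f, a, b, c, d⟩ := (hE.layOK default).exists_place1 (i := 1) (by omega)
    (by rw [encC_one]; simp [mkC]) hp
  exact ⟨f, ⟨a, b, fun X i hi h => c i hi (by rw [← h]; exact encC_τ _ _ _)⟩, d⟩

theorem place2 (hE : EncStmt M) {n : ℕ} (hn : n + 1 = nb M) :
    ∃ f, Pl M f ∧ f 1 = 1 ∧ f 2 = n := by
  have h1 := nb_ge (M := M)
  obtain ⟨f, a, b, c, d, e⟩ := (hE.layOK default).exists_place2 (i := 1) (j := n) (p := 1)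
    (by omega) (by omega) (by omega) (by rw [encC_one]; simp [mkC])
    (by rw [encC_last _ hn]; simp [mkC]) rfl (by omega)
  exact ⟨f, ⟨a, b, fun X i hi h => c i hi (by rw [← h]; exact encC_τ _ _ _)⟩, d, e⟩

theorem cl_congr {X X' : Cell (M * BB)} {f : ℕ → ℕ} {p j : ℕ} (hst : X'.a.st = X.a.st)
    (h : encC X' (f j) = encC X (f j)) : cl X' f p j = cl X f p j :=
  layC_congr (by rw [hst]) (fun _ _ => rfl) (fun _ _ => encC_τ _ _ _) h

theorem cl_A {X X' : Cell (M * BB)} {f : ℕ → ℕ} {p j : ℕ} (hst : X'.a.st = X.a.st)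
    (h : f j = 1) : cl X' f p j = ⟨(cl X f p j).a, X'.a, (cl X f p j).d⟩ := by
  rw [cl, hst, layC_pay (ct := fun i => encC X (f i)) (fun _ => encC_τ _ _ _)
    (by simp only [h, encC_one]; rfl) (by simp only [h, encC_one]; rfl)
    (by simp only [h, encC_one]; rfl)]
  simp only [h, encC_one]
  rfl

theorem cl_T {X X' : Cell (M * BB)} {f : ℕ → ℕ} {p j : ℕ} (hst : X'.a.st = X.a.st)
    (hd : X'.d = X.d) (h : f j + 1 = nb M) :
    cl X' f p j = ⟨(cl X f p j).a, X'.t, (cl X f p j).d⟩ := by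
  rw [cl, hst, layC_pay (ct := fun i => encC X (f i)) (fun _ => encC_τ _ _ _)
    (by simp only [encC_last _ h, hd]; rfl) (by simp only [encC_last _ h]; rfl)
    (by simp only [encC_last _ h, hd]; rfl)]
  simp only [encC_last _ h]
  rfl

theorem cl_t_A (X : Cell (M * BB)) {f : ℕ → ℕ} (p : ℕ) {j : ℕ} (h : f j = 1) :
    (cl X f p j).t = X.a := by rw [cl_A (X := X) rfl h]

theorem cl_t_T (X : Cell (M * BB)) {f : ℕ → ℕ} (p : ℕ) {j : ℕ} (h : f j + 1 = nb M) :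
    (cl X f p j).t = X.t := by rw [cl_T (X := X) rfl rfl h]

theorem allowed_tI (X Y : Cell (M * BB)) {f g : ℕ → ℕ} {n : ℕ} (hn : n + 1 = nb M)
    (hf : f n = 1) (hg : g 0 = 1) : Allowed Kind.tI (cl X f n n).a (cl Y g 0 0).a := by
  refine ⟨pmAt_self n, Or.inr (Or.inr (Or.inl ⟨rfl, ?_, ?_, ?_, ?_, ?_⟩))⟩
  · simp [cl, layC, stOf, hn]
  all_goals simp only [cl, layC, hf, hg, encC_one]; rfl

theorem allowed_tIV (X : Cell (M * BB)) {f : ℕ → ℕ} (h1 : f 1 = 1) (h2 : f 2 + 1 = nb M) :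
    Allowed Kind.tIV (cl X f 1 1).a (cl X f 1 2).a := by
  have := nb_ge (M := M)
  refine ⟨pmAt_self 1, Or.inr (Or.inl ⟨rfl, ?_, ?_, ?_, ?_, ?_⟩)⟩
  · simp only [cl, layC, stOf, decide_eq_false_iff_not]; omega
  all_goals simp only [cl, layC, h1, encC_one, encC_last _ h2]; rfl

end SimA

open SimA in
theorem simAStmt (M : ℕ) [NeZero M] (hE : EncStmt M) (hP : PermStmt M) : SimAStmt M := by
  have h1 := nb_ge (M := M)
  obtain ⟨n, hn⟩ : ∃ n, n + 1 = nb M := ⟨nb M - 1, by omega⟩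
  obtain ⟨f, hf, hfn⟩ := place1 hE (p := n) (by omega)
  obtain ⟨g, hg, hg0⟩ := place1 hE (p := 0) (by omega)
  obtain ⟨e, he, he1, he2⟩ := place2 hE hn
  have he2' : e 2 + 1 = nb M := by rw [he2, hn]
  refine ⟨fun X Y a b h => ?_, fun X Y h => ?_, fun X a t h => ?_, fun X h => ?_⟩
  · refine ((mv hE hP hf X n).append (mv hE hP hg Y 0)).trans
      (Sys.Eqv.trans ?_ ((mv hE hP hf _ n).append (mv hE hP hg _ 0)).symm)
    have key := eqv_junction (S := RS M) (n := n) (m := nb M) (by omega) (c := cl X f n)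
      (c' := cl ⟨a, X.t, X.d⟩ f n) (e := cl Y g 0) (e' := cl ⟨b, Y.t, Y.d⟩ g 0)
      (fun j hj => cl_congr h.st_eq.1 (encC_congr (fun h' => by
        have := hf.2.1 j (by omega) n (by omega) (h'.trans hfn.symm)
        omega) fun _ => ⟨rfl, rfl⟩))
      (fun j hj hj0 => cl_congr h.st_eq.2 (encC_congr (fun h' =>
        absurd (hg.2.1 j hj 0 (by omega) (h'.trans hg0.symm)) hj0) fun _ => ⟨rfl, rfl⟩))
      (by
        rw [cl_A (X := X) (X' := ⟨a, X.t, X.d⟩) h.st_eq.1 hfn,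
          cl_A (X := Y) (X' := ⟨b, Y.t, Y.d⟩) h.st_eq.2 hg0]
        refine tab_eqv rfl rfl (allowed_tI X Y hn hfn hg0) (Or.inl ⟨rfl, ?_⟩)
        rw [cl_t_A X n hfn, cl_t_A Y 0 hg0]
        exact h)
    rwa [hn] at key
  · refine Sys.Zero.of_eqv ((mv hE hP hf X n).append (mv hE hP hg Y 0)) ?_
    have key := zero_junction (S := RS M) (n := n) (m := nb M) (by omega) (c := cl X f n)
      (e := cl Y g 0) (by
        refine tab_zero rfl rfl (allowed_tI X Y hn hfn hg0) (Or.inl ⟨rfl, ?_⟩)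
        rw [cl_t_A X n hfn, cl_t_A Y 0 hg0]
        exact h)
    rwa [hn] at key
  · refine (mv hE hP he X 1).trans (Sys.Eqv.trans ?_ (mv hE hP he _ 1).symm)
    refine eqv_range2 (i := 1) (by omega)
      (fun j hj hj1 hj2 => cl_congr h.st_eq.1 (encC_congr (fun h' =>
        absurd (he.2.1 j hj 1 (by omega) (h'.trans he1.symm)) hj1) fun h' =>
        absurd (he.2.1 j hj 2 (by omega) (by omega)) hj2)) ?_
    rw [cl_A (X := X) (X' := ⟨a, t, X.d⟩) h.st_eq.1 he1,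
      cl_T (X := X) (X' := ⟨a, t, X.d⟩) h.st_eq.1 rfl he2']
    refine tab_eqv rfl rfl (allowed_tIV X he1 he2') (Or.inr ⟨rfl, ?_⟩)
    rw [cl_t_A X 1 he1, cl_t_T X 1 he2']
    exact h
  · refine Sys.Zero.of_eqv (mv hE hP he X 1) (zero_range2 (i := 1) (by omega) ?_)
    refine tab_zero rfl rfl (allowed_tIV X he1 he2') (Or.inr ⟨rfl, ?_⟩)
    rw [cl_t_A X 1 he1, cl_t_T X 1 he2']
    exact h

end Crest.Agent.R176
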