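import Crest.Agent.R176.CBasic

/-! Row 176: simulation of the rules and zeros run by the tokens `T`. -/

set_option autoImplicit false

namespace Crest.Agent.R176

namespace SimT

variable {M : ℕ}

/-- An unlocked cell. -/
def mk (st : St) (π sπ sA sT : Bool) (c : Ct M) : Cell M :=
  ⟨⟨st, π, sπ, ⟨c.τ, c.dg, c.arm, sA, sT⟩, Lk.none⟩, c.t, c.d⟩

theorem layC_mk (st : ℕ → St) (pm : ℕ → Bool) (τ : ℕ → Tag) (i : ℕ) :
    ∃ sπ sA sT, ∀ ct : ℕ → Ct M, (∀ j, (ct j).τ = τ j) →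
      layC st pm ct false false i = mk (st i) (pm i) sπ sA sT (ct i) := by
  classical
  refine ⟨decide (∃ j, j ≤ i ∧ j / 10 = i / 10 ∧ pm j = true), decide (∃ j, j ≤ i ∧ τ j = Tag.A),
    decide (∃ j, j ≤ i ∧ τ j = Tag.T), fun ct h => ?_⟩
  simp [layC, mk, h]

theorem lock_eqv {x y : Cell M} {k : Kind} (hx : x.a.lk = Lk.none) (hy : y.a.lk = Lk.none)
    (h : Allowed k x.a y.a) :
    (RS M).Eqv [x, y] [⟨lockL k x.a y.a, x.t, x.d⟩, ⟨lockR k x.a y.a, y.t, y.d⟩] :=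
  Sys.Eqv.of_r2 (Or.inl ⟨⟨hx, hy, Or.inr (Or.inl ⟨k, h, rfl, rfl⟩)⟩, rfl, rfl, rfl, rfl⟩)

section junction
variable {st st' : St} {sπ sA sT π' sπ' sA' sT' : Bool} {dg dg' : Fin BB} {t t' : V}
  {d d' : Fin M} {k : Kind} {φ φ' : Bool}

theorem allowed (hE : st.E = true) (hk : k = Kind.sw ∨ k = Kind.tI ∨ k = Kind.tIV) :
    Allowed k (mk st true sπ sA sT ⟨Tag.T, dg, Arm.armed Side.L k φ, t, d⟩).a
      (mk st' π' sπ' sA' sT' ⟨Tag.T, dg', Arm.armed Side.R k φ', t', d'⟩).a :=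
  ⟨rfl, Or.inr (Or.inr (Or.inr (Or.inl ⟨hk, hE, rfl, rfl, φ, φ', rfl, rfl⟩)))⟩

theorem j_sw (hE : st.E = true) :
    (RS M).Eqv [mk st true sπ sA sT ⟨Tag.T, dg, Arm.armed Side.L Kind.sw false, t, d⟩,
        mk st' π' sπ' sA' sT' ⟨Tag.T, dg', Arm.armed Side.R Kind.sw false, t', d'⟩]
      [mk st true sπ sA sT ⟨Tag.T, dg', Arm.armed Side.L Kind.sw true, t', d'⟩,
        mk st' π' sπ' sA' sT' ⟨Tag.T, dg, Arm.armed Side.R Kind.sw true, t, d⟩] := by
  refine (lock_eqv rfl rfl (allowed hE (Or.inl rfl))).trans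
    (Sys.Eqv.trans ?_ (lock_eqv rfl rfl (allowed hE (Or.inl rfl))).symm)
  refine Sys.Eqv.of_r2 (Or.inr (Or.inl ⟨sk_lockL _ _ _, sk_lockR _ _ _, ?_, ?_⟩))
  · simp [mk, lockL, mkLk, svL, V.flip, hE, Arm.tog]
  · simp [mk, lockR, mkLk, svR, V.flip, hE, Arm.tog]

theorem j_tb (hE : st.E = true) {u u' : V} (h : Tb k t t' u u') :
    (RS M).Eqv [mk st true sπ sA sT ⟨Tag.T, dg, Arm.armed Side.L k φ, t, d⟩,
        mk st' π' sπ' sA' sT' ⟨Tag.T, dg', Arm.armed Side.R k φ', t', d'⟩]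
      [mk st true sπ sA sT ⟨Tag.T, dg, Arm.armed Side.L k φ, u, d⟩,
        mk st' π' sπ' sA' sT' ⟨Tag.T, dg', Arm.armed Side.R k φ', u', d'⟩] := by
  have hk : k = Kind.sw ∨ k = Kind.tI ∨ k = Kind.tIV := Or.inr (h.imp And.left And.left)
  refine (lock_eqv rfl rfl (allowed hE hk)).trans
    (Sys.Eqv.trans ?_ (lock_eqv rfl rfl (allowed hE hk)).symm)
  exact Sys.Eqv.of_r2 (Or.inr (Or.inr ⟨k, sk_lockL _ _ _, sk_lockR _ _ _, h, rfl, rfl, rfl, rfl⟩))

theorem j_zb (hE : st.E = true)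
    (h : Zb k t t' ∨ fails k (M * BB) (dg.val + BB * d.val) (dg'.val + BB * d'.val)) :
    (RS M).Zero [mk st true sπ sA sT ⟨Tag.T, dg, Arm.armed Side.L k φ, t, d⟩,
        mk st' π' sπ' sA' sT' ⟨Tag.T, dg', Arm.armed Side.R k φ', t', d'⟩] := by
  rcases h with h | h
  · have hk : k = Kind.sw ∨ k = Kind.tI ∨ k = Kind.tIV := Or.inr (h.imp And.left And.left)
    exact Sys.Zero.of_eqv (lock_eqv rfl rfl (allowed hE hk))
      (Sys.Zero.of_z2 (Or.inr ⟨k, sk_lockL _ _ _, sk_lockR _ _ _, Or.inl h⟩))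
  · exact zero_of_req rfl rfl rfl (Or.inr ⟨hE, Or.inr ⟨rfl, rfl, φ, φ', rfl, rfl⟩⟩) h

end junction

variable [NeZero M]

/-- The contents of a block in standard order, with arbitrary tokens. -/
def gen (M : ℕ) [NeZero M] (xA : Arm) (w : V) (xT : Arm) (t : V) (g : ℕ) (i : ℕ) : Ct M :=
  if i % 2 = 0 then mkC M Tag.P Arm.idle t0 (i / 2)
  else if i = 1 then mkC M Tag.A xA w 0
  else if i + 1 = nb M then mkC M Tag.T xT t g
  else mkC M Tag.I Arm.idle t0 (i / 2)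

/-- The tags of a block in standard order. -/
def tg (M : ℕ) (i : ℕ) : Tag :=
  if i % 2 = 0 then Tag.P else if i = 1 then Tag.A else if i + 1 = nb M then Tag.T else Tag.I

theorem encC_eq (X : Cell (M * BB)) : encC X = gen M Arm.idle X.a Arm.idle X.t X.d.val := rfl

theorem gen_τ (xA : Arm) (w : V) (xT : Arm) (t : V) (g i : ℕ) :
    (gen M xA w xT t g i).τ = tg M i := by
  unfold gen tg; split_ifs <;> rfl

theorem gen_one (xA : Arm) (w : V) (xT : Arm) (t : V) (g : ℕ) :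
    gen M xA w xT t g 1 = mkC M Tag.A xA w 0 := by simp [gen]

theorem gen_last (xA : Arm) (w : V) (xT : Arm) (t : V) (g : ℕ) :
    gen M xA w xT t g (nb M - 1) = mkC M Tag.T xT t g := by
  have h1 := nb_ge (M := M)
  have h2 := ten_dvd_nb M
  rw [gen, if_neg (by omega), if_neg (by omega), if_pos (by omega)]

theorem gen_congrA {xA xA' : Arm} {w w' : V} {xT : Arm} {t : V} {g i : ℕ} (h : i ≠ 1) :
    gen M xA' w' xT t g i = gen M xA w xT t g i := by simp [gen, h]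

theorem gen_congrT {xA : Arm} {w : V} {xT xT' : Arm} {t t' : V} {g g' i : ℕ}
    (h : i ≠ nb M - 1) : gen M xA w xT' t' g' i = gen M xA w xT t g i := by
  have : i + 1 ≠ nb M := by omega
  simp [gen, this]

/-- An admissible rearrangement of a block. -/
def Adm (M : ℕ) (f : ℕ → ℕ) : Prop :=
  (∀ i < nb M, f i < nb M) ∧ (∀ i < nb M, ∀ j < nb M, f i = f j → i = j) ∧
    ∀ i < nb M, tg M (f i) = Tag.P → f i / 2 = i / 2

theorem adm_id : Adm M fun i => i := ⟨fun _ h => h, fun _ _ _ _ h => h, fun _ _ _ => rfl⟩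

section
variable (hE : EncStmt M) (hP : PermStmt M)
include hE

theorem layOK (X : Cell (M * BB)) (xA : Arm) (w : V) (xT : Arm) (t : V) (g : ℕ) :
    LayOK (nb M) (stOf M X.a.st.κ) (fun i => decide (i % 10 = 0)) (gen M xA w xT t g)
      false false :=
  (hE.layOK X).congr (fun _ _ => rfl) (fun _ _ => rfl) fun i _ => by rw [encC_eq, gen_τ, gen_τ]

theorem exists_first : ∃ f, Adm M f ∧ f 0 = nb M - 1 := by
  have h1 := nb_ge (M := M)
  obtain ⟨f, a, b, c, d⟩ := (hE.layOK default).exists_place1 (i := nb M - 1) (p := 0) (by omega)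
    (by rw [encC_eq, gen_last]; simp [mkC]) (by omega)
  exact ⟨f, ⟨a, b, fun i hi h => c i hi (by rw [encC_eq, gen_τ]; exact h)⟩, d⟩

theorem exists_link : ∃ f, Adm M f ∧ f 1 = 1 ∧ f 2 = nb M - 1 := by
  have h1 := nb_ge (M := M)
  obtain ⟨f, a, b, c, d⟩ := (hE.layOK default).exists_place2 (i := 1) (j := nb M - 1) (p := 1)
    (by omega) (by omega) (by omega) (by rw [encC_eq, gen_one]; simp [mkC])
    (by rw [encC_eq, gen_last]; simp [mkC]) rfl (by omega)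
  exact ⟨f, ⟨a, b, fun i hi h => c i hi (by rw [encC_eq, gen_τ]; exact h)⟩, d⟩

include hP

theorem move (X : Cell (M * BB)) (xA : Arm) (w : V) (xT : Arm) (t : V) (g : ℕ) {f : ℕ → ℕ}
    (hf : Adm M f) (p : ℕ) :
    (RS M).Eqv (lay (nb M) (stOf M X.a.st.κ) (fun i => decide (i % 10 = 0)) (gen M xA w xT t g)
        false false)
      (lay (nb M) (stOf M X.a.st.κ) (pmAt p) (fun i => gen M xA w xT t g (f i)) false false) := by
  have h3 : ∀ i < nb M, (gen M xA w xT t g (f i)).τ = Tag.P → f i / 2 = i / 2 :=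
    fun i hi h => hf.2.2 i hi (by rwa [gen_τ] at h)
  exact hP _ _ _ _ _ _ _ _ f (layOK hE X xA w xT t g)
    (((layOK hE X xA w xT t g).perm hf.1 hf.2.1 h3).pmAt p) hf.1 hf.2.1 (fun _ _ => rfl) h3

/-- Arming the token `T`. -/
theorem arm (X : Cell (M * BB)) {s : Side} {k : Kind} (φ : Bool) {w : V}
    (hw : w.sk = some (s, k)) (hX : X.a = if φ = true then w.flip else w) {f : ℕ → ℕ}
    (hf : Adm M f) (p : ℕ) :
    (RS M).Eqv (enc1 X) (lay (nb M) (stOf M X.a.st.κ) (pmAt p)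
      (fun i => gen M (Arm.linked s k) w (Arm.armed s k φ) X.t X.d.val (f i)) false false) := by
  have h1 := nb_ge (M := M)
  obtain ⟨g, hg, g1, g2⟩ := exists_link hE
  have e1 : (RS M).Eqv (enc1 X) (lay (nb M) (stOf M X.a.st.κ) (fun i => decide (i % 10 = 0))
      (gen M (Arm.ready s k φ) w Arm.idle X.t X.d.val) false false) := by
    rw [enc1, encC_eq]
    refine eqv_range1 (i := 1) (by omega) (fun j _ hj => ?_) ?_
    · exact layC_congr rfl (fun _ _ => rfl) (fun i _ => by rw [gen_τ, gen_τ]) (gen_congrA hj)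
    · obtain ⟨sπ, sA, sT, h⟩ :=
        layC_mk (M := M) (stOf M X.a.st.κ) (fun i => decide (i % 10 = 0)) (tg M) 1
      rw [h _ (gen_τ _ _ _ _ _), h _ (gen_τ _ _ _ _ _), gen_one, gen_one]
      exact Sys.Eqv.of_r1 ⟨⟨rfl, rfl, rfl, s, k, φ, hw, rfl, hX⟩, rfl⟩
  have e2 : (RS M).Eqv (lay (nb M) (stOf M X.a.st.κ) (pmAt 0)
        (fun i => gen M (Arm.ready s k φ) w Arm.idle X.t X.d.val (g i)) false false)
      (lay (nb M) (stOf M X.a.st.κ) (pmAt 0)
        (fun i => gen M (Arm.linked s k) w (Arm.armed s k φ) X.t X.d.val (g i)) false false) := by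
    refine eqv_range2 (i := 1) (by omega) (fun j hj hj1 hj2 => ?_) ?_
    · refine layC_congr rfl (fun _ _ => rfl) (fun i _ => by rw [gen_τ, gen_τ]) ?_
      have a1 : g j ≠ 1 := fun h => hj1 (hg.2.1 j hj 1 (by omega) (by rw [h, g1]))
      have a2 : g j ≠ nb M - 1 := fun h => hj2 (hg.2.1 j hj 2 (by omega) (by rw [h, g2]))
      exact (gen_congrA a1).trans (gen_congrT a2)
    · obtain ⟨sπ, sA, sT, h⟩ :=
        layC_mk (M := M) (stOf M X.a.st.κ) (pmAt 0) (fun i => tg M (g i)) 1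
      obtain ⟨sπ', sA', sT', h'⟩ :=
        layC_mk (M := M) (stOf M X.a.st.κ) (pmAt 0) (fun i => tg M (g i)) 2
      rw [show 1 + 1 = 2 from rfl, h _ (fun _ => gen_τ _ _ _ _ _ _),
        h _ (fun _ => gen_τ _ _ _ _ _ _), h' _ (fun _ => gen_τ _ _ _ _ _ _),
        h' _ (fun _ => gen_τ _ _ _ _ _ _), g1, g2, gen_one, gen_one, gen_last, gen_last]
      refine Sys.Eqv.of_r2 (Or.inl ⟨⟨rfl, rfl, Or.inr (Or.inr
        ⟨?_, rfl, rfl, rfl, s, k, φ, rfl, rfl, rfl⟩)⟩, rfl, rfl, rfl, rfl⟩)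
      show decide (1 + 1 = nb M) = false
      exact decide_eq_false (by omega)
  exact e1.trans ((move hE hP X _ _ _ _ _ hg 0).trans (e2.trans
    ((move hE hP X _ _ _ _ _ hg 0).symm.trans (move hE hP X _ _ _ _ _ hf p))))

end

/-- The two armed tokens face each other across the junction. -/
theorem junction (κ κ' : Fin qq) {f : ℕ → ℕ} (hf : Adm M f) (f0 : f 0 = nb M - 1) :
    ∃ (st st' : St) (sπ sA sT π' sπ' sA' sT' : Bool), st.E = true ∧
      (∀ (xA yA : Arm) (w w' : V) (x₁ y₁ x₂ y₂ : Arm) (t₁ u₁ t₂ u₂ : V) (g₁ h₁ g₂ h₂ : ℕ),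
        (RS M).Eqv [mk st true sπ sA sT (mkC M Tag.T x₁ t₁ g₁),
            mk st' π' sπ' sA' sT' (mkC M Tag.T y₁ u₁ h₁)]
          [mk st true sπ sA sT (mkC M Tag.T x₂ t₂ g₂),
            mk st' π' sπ' sA' sT' (mkC M Tag.T y₂ u₂ h₂)] →
        (RS M).Eqv (lay (nb M) (stOf M κ) (pmAt (nb M - 1)) (fun i => gen M xA w x₁ t₁ g₁ i)
            false false ++
            lay (nb M) (stOf M κ') (pmAt 0) (fun i => gen M yA w' y₁ u₁ h₁ (f i)) false false)
          (lay (nb M) (stOf M κ) (pmAt (nb M - 1)) (fun i => gen M xA w x₂ t₂ g₂ i)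
            false false ++
            lay (nb M) (stOf M κ') (pmAt 0) (fun i => gen M yA w' y₂ u₂ h₂ (f i)) false false)) ∧
      ∀ (xA yA : Arm) (w w' : V) (x₁ y₁ : Arm) (t₁ u₁ : V) (g₁ h₁ : ℕ),
        (RS M).Zero [mk st true sπ sA sT (mkC M Tag.T x₁ t₁ g₁),
            mk st' π' sπ' sA' sT' (mkC M Tag.T y₁ u₁ h₁)] →
        (RS M).Zero (lay (nb M) (stOf M κ) (pmAt (nb M - 1)) (fun i => gen M xA w x₁ t₁ g₁ i)
            false false ++
            lay (nb M) (stOf M κ') (pmAt 0) (fun i => gen M yA w' y₁ u₁ h₁ (f i)) false false) := by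
  have h1 := nb_ge (M := M)
  obtain ⟨sπ, sA, sT, h⟩ := layC_mk (M := M) (stOf M κ) (pmAt (nb M - 1)) (tg M) (nb M - 1)
  obtain ⟨sπ', sA', sT', h'⟩ := layC_mk (M := M) (stOf M κ') (pmAt 0) (fun i => tg M (f i)) 0
  have hp : pmAt (nb M - 1) (nb M - 1) = true := by simp [pmAt]
  have hn : ∀ c : ℕ → Cell M, (List.range (nb M)).map c = (List.range (nb M - 1 + 1)).map c :=
    fun c => by rw [Nat.sub_add_cancel (by omega)]
  refine ⟨stOf M κ (nb M - 1), stOf M κ' 0, sπ, sA, sT, pmAt 0 0, sπ', sA', sT',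
    decide_eq_true (by omega), fun xA yA w w' x₁ y₁ x₂ y₂ t₁ u₁ t₂ u₂ g₁ h₁ g₂ h₂ he => ?_,
    fun xA yA w w' x₁ y₁ t₁ u₁ g₁ h₁ hz => ?_⟩
  · simp only [lay]
    rw [hn (layC (stOf M κ) _ (fun i => gen M xA w x₁ t₁ g₁ i) _ _),
      hn (layC (stOf M κ) _ (fun i => gen M xA w x₂ t₂ g₂ i) _ _)]
    refine eqv_junction (by omega) (fun j hj => ?_) (fun j hj hj0 => ?_) ?_
    · exact layC_congr rfl (fun _ _ => rfl) (fun i _ => by rw [gen_τ, gen_τ]) (gen_congrT hj.ne)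
    · exact layC_congr rfl (fun _ _ => rfl) (fun i _ => by rw [gen_τ, gen_τ])
        (gen_congrT fun e => hj0 (hf.2.1 j hj 0 (by omega) (by rw [e, f0])))
    · rwa [h _ (fun _ => gen_τ _ _ _ _ _ _), h _ (fun _ => gen_τ _ _ _ _ _ _),
        h' _ (fun _ => gen_τ _ _ _ _ _ _), h' _ (fun _ => gen_τ _ _ _ _ _ _), f0, gen_last,
        gen_last, gen_last, gen_last, hp]
  · simp only [lay]
    rw [hn (layC (stOf M κ) _ (fun i => gen M xA w x₁ t₁ g₁ i) _ _)]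
    refine zero_junction (by omega) ?_
    rwa [h _ (fun _ => gen_τ _ _ _ _ _ _), h' _ (fun _ => gen_τ _ _ _ _ _ _), f0, gen_last,
      gen_last, hp]

end SimT

open SimT in
theorem simTStmt (M : ℕ) [NeZero M] (hE : EncStmt M) (hP : PermStmt M) : SimTStmt M := by
  obtain ⟨f, hf, f0⟩ := exists_first hE
  refine ⟨fun X Y hX hY => ?_, fun X Y k t u hX hY h => ?_, fun X Y k hX hY h => ?_⟩
  · obtain ⟨st, st', sπ, sA, sT, π', sπ', sA', sT', hs, hj, -⟩ :=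
      junction (M := M) X.a.st.κ Y.a.st.κ hf f0
    have a1 := arm hE hP ⟨X.a.flip, Y.t, Y.d⟩ true hX rfl adm_id (nb M - 1)
    have a2 := arm hE hP ⟨Y.a.flip, X.t, X.d⟩ true hY rfl hf 0
    simp only [V.flip_st] at a1 a2
    exact ((arm hE hP X false hX rfl adm_id (nb M - 1)).append (arm hE hP Y false hY rfl hf 0)).trans
      ((hj _ _ _ _ _ _ _ _ _ _ _ _ _ _ _ _ (j_sw hs)).trans (a1.append a2).symm)
  · obtain ⟨st, st', sπ, sA, sT, π', sπ', sA', sT', hs, hj, -⟩ :=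
      junction (M := M) X.a.st.κ Y.a.st.κ hf f0
    have a1 := arm hE hP ⟨X.a, t, X.d⟩ false hX rfl adm_id (nb M - 1)
    have a2 := arm hE hP ⟨Y.a, u, Y.d⟩ false hY rfl hf 0
    exact ((arm hE hP X false hX rfl adm_id (nb M - 1)).append (arm hE hP Y false hY rfl hf 0)).trans
      ((hj _ _ _ _ _ _ _ _ _ _ _ _ _ _ _ _ (j_tb hs h)).trans (a1.append a2).symm)
  · obtain ⟨st, st', sπ, sA, sT, π', sπ', sA', sT', hs, -, hj⟩ :=
      junction (M := M) X.a.st.κ Y.a.st.κ hf f0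
    refine Sys.Zero.of_eqv
      ((arm hE hP X false hX rfl adm_id (nb M - 1)).append (arm hE hP Y false hY rfl hf 0))
      (hj _ _ _ _ _ _ _ _ _ _ (j_zb hs (h.imp id fun h => ?_)))
    have e1 := lab_mkC (M := M) (τ := Tag.T) (x := Arm.idle) (t := X.t) X.d.isLt
    have e2 := lab_mkC (M := M) (τ := Tag.T) (x := Arm.idle) (t := Y.t) Y.d.isLt
    rw [← e1, ← e2] at h
    exact h

end Crest.Agent.R176
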