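import Crest.Agent.R176.Tower

/-! Row 176: structure of towers. -/

set_option autoImplicit false

namespace Crest.Agent.R176

namespace TowBas

section rep
variable {M : ℕ} [NeZero M] {v : List (Cell M)} {u : List (Cell (M * BB))}

theorem rep_ne_nil (h : Rep v u) (hu : u ≠ []) : v ≠ [] := by
  cases h with
  | nil => exact absurd rfl hu
  | cons hb _ => exact List.append_ne_nil_of_left_ne_nil hb.ne_nil _

theorem rep_head (h : Rep v u) {x : Cell M} (hx : v.head? = some x) :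
    ∃ ku, x.a.st = stOf M ku 0 := by
  cases h with
  | nil => cases hx
  | cons hb _ =>
    rw [List.head?_append_of_ne_nil _ hb.ne_nil] at hx
    exact ⟨_, hb.head x hx⟩

theorem rep_last (h : Rep v u) {y : Cell M} (hy : v.getLast? = some y) :
    ∃ ku, y.a.st = stOf M ku (nb M - 1) := by
  induction h with
  | nil => cases hy
  | @cons X b v u hb _ ih =>
    by_cases hv : v = []
    · subst hv
      rw [List.append_nil] at hy
      exact ⟨_, hb.last y hy⟩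
    · rw [List.getLast?_append_of_ne_nil _ hv] at hy
      exact ih hy

theorem rep_last_E (h : Rep v u) {y : Cell M} (hy : v.getLast? = some y) : y.a.st.E = true := by
  obtain ⟨ku, e⟩ := rep_last h hy
  have := nb_ge (M := M)
  rw [e]
  simp only [stOf, decide_eq_true_eq]
  omega

theorem rep_colAdj {v' : List (Cell M)} {u' : List (Cell (M * BB))} (h : Rep v u) (h' : Rep v' u')
    {y x : Cell M} (hy : v.getLast? = some y) (hx : v'.head? = some x) : ColAdj y.a x.a := by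
  obtain ⟨ku, e⟩ := rep_last h hy
  obtain ⟨ku', e'⟩ := rep_head h' hx
  have := nb_ge (M := M)
  rw [ColAdj, e, e']
  simp only [stOf]
  rw [Nat.mod_add_mod, Nat.sub_add_cancel (by omega), nb_eq, Nat.mul_mod_left, Nat.zero_mod]

end rep

theorem exists_head {α : Type} {v : List α} (h : v ≠ []) : ∃ x, v.head? = some x :=
  ⟨_, List.head?_eq_some_head h⟩

theorem exists_last {α : Type} {v : List α} (h : v ≠ []) : ∃ x, v.getLast? = some x :=
  ⟨_, List.getLast?_eq_some_getLast h⟩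

theorem length : ∀ {s W u}, Tower s W u → W.length = u.length * DL s
  | 0, _, _, h => by rw [show _ = _ from h, DL, mul_one]; rfl
  | _ + 1, _, _, ⟨_, h1, h2⟩ => by rw [length h1, h2.1.length_eq, DL, mul_assoc]; rfl

theorem unique : ∀ {s W u u'}, Tower s W u → Tower s W u' → u = u'
  | 0, _, _, _, h, h' => Eq.trans (Eq.symm h) h'
  | _ + 1, _, _, _, ⟨_, h1, h2⟩, ⟨_, h1', h2'⟩ => by
    obtain rfl := unique h1 h1'
    exact h2.1.unique h2'.1

theorem tb_unique : ∀ {s W u u' fl fl' ll ll'}, TB s W u fl ll → TB s W u' fl' ll' →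
    u = u' ∧ fl = fl' ∧ ll = ll'
  | 0, _, _, _, _, _, _, _, ⟨h1, h2, h3⟩, ⟨h1', h2', h3'⟩ =>
    ⟨h1.symm.trans h1', h2.trans h2'.symm, h3.trans h3'.symm⟩
  | _ + 1, _, _, _, _, _, _, _, ⟨_, _, _, _, _, h1, h2, h3, h4, h5, h6⟩,
      ⟨_, _, _, _, _, h1', h2', h3', h4', h5', h6'⟩ => by
    obtain ⟨rfl, rfl, rfl⟩ := tb_unique h1 h1'
    obtain rfl := Option.some.inj (h3.symm.trans h3')
    obtain rfl := Option.some.inj (h4.symm.trans h4')
    exact ⟨h2.1.unique h2'.1, h5.trans h5'.symm, h6.trans h6'.symm⟩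

theorem tower_of_tb : ∀ {s W u fl ll}, TB s W u fl ll → Tower s W u
  | 0, _, _, _, _, h => h.1
  | _ + 1, _, _, _, _, ⟨v, _, _, _, _, h1, h2, _⟩ => ⟨v, tower_of_tb h1, h2⟩

theorem tb_of_tower : ∀ {s W u}, Tower s W u → u ≠ [] → ∃ fl ll, TB s W u fl ll
  | 0, _, _, h, _ => ⟨[], [], h, rfl, rfl⟩
  | _ + 1, _, _, ⟨v, h1, h2⟩, hu => by
    have hv := rep_ne_nil h2.1 hu
    obtain ⟨fl, ll, h⟩ := tb_of_tower h1 hv
    obtain ⟨x, hx⟩ := exists_head hv
    obtain ⟨y, hy⟩ := exists_last hv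
    exact ⟨_, _, v, x, y, fl, ll, h, h2, hx, hy, rfl, rfl⟩

theorem tb_length : ∀ {s W u fl ll}, TB s W u fl ll → fl.length = s ∧ ll.length = s
  | 0, _, _, _, _, ⟨_, h2, h3⟩ => by simp [h2, h3]
  | _ + 1, _, _, _, _, ⟨_, _, _, _, _, h1, _, _, _, h5, h6⟩ => by
    simp [h5, h6, tb_length h1]

theorem tb_E : ∀ {s W u fl ll}, TB s W u fl ll → ∀ l ∈ ll, l.st.E = true
  | 0, _, _, _, _, ⟨_, _, h3⟩ => by simp [h3]
  | _ + 1, _, _, _, _, ⟨_, _, _, _, _, h1, h2, _, h4, _, h6⟩ => by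
    rw [h6]
    exact List.forall_mem_cons.2 ⟨rep_last_E h2.1 h4, tb_E h1⟩

theorem split : ∀ {s W u u'}, Tower s W (u ++ u') →
    ∃ W1 W2, W = W1 ++ W2 ∧ Tower s W1 u ∧ Tower s W2 u'
  | 0, _, u, u', h => ⟨u, u', h, rfl, rfl⟩
  | _ + 1, _, _, _, ⟨_, h1, h2⟩ => by
    obtain ⟨v1, v2, rfl, g1, g2⟩ := h2.split
    obtain ⟨W1, W2, e, t1, t2⟩ := split h1
    exact ⟨W1, W2, e, ⟨v1, t1, g1⟩, ⟨v2, t2, g2⟩⟩

theorem tb_split : ∀ {s W u u' fl ll}, TB s W (u ++ u') fl ll → u ≠ [] → u' ≠ [] →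
    ∃ W1 W2 ll1 fl2, W = W1 ++ W2 ∧ TB s W1 u fl ll1 ∧ TB s W2 u' fl2 ll ∧
      List.Forall₂ LK ll1 fl2
  | 0, _, u, u', _, _, ⟨h1, h2, h3⟩, _, _ =>
    ⟨u, u', [], [], h1, ⟨rfl, h2, rfl⟩, ⟨rfl, rfl, h3⟩, List.Forall₂.nil⟩
  | _ + 1, _, _, _, _, _, ⟨_, x, y, fl', ll', h1, h2, h3, h4, h5, h6⟩, hu, hu' => by
    obtain ⟨v1, v2, rfl, g1, g2⟩ := h2.split
    have n1 := rep_ne_nil g1.1 hu
    have n2 := rep_ne_nil g2.1 hu'
    obtain ⟨W1, W2, ll1, fl2, e, t1, t2, hk⟩ := tb_split h1 n1 n2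
    obtain ⟨x2, hx⟩ := exists_head n2
    obtain ⟨y1, hy⟩ := exists_last n1
    rw [List.head?_append_of_ne_nil _ n1] at h3
    rw [List.getLast?_append_of_ne_nil _ n2] at h4
    exact ⟨W1, W2, y1.a :: ll1, x2.a :: fl2, e, ⟨v1, x, y1, fl', ll1, t1, g1, h3, hy, h5, rfl⟩,
      ⟨v2, x2, y, fl2, ll', t2, g2, hx, h4, rfl, h6⟩,
      List.Forall₂.cons ((loc_append.1 h2.2).2.2 y1 hy x2 hx).lk hk⟩

theorem tb_append : ∀ {s W1 W2 u u' fl ll1 fl2 ll}, TB s W1 u fl ll1 → TB s W2 u' fl2 ll →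
    List.Forall₂ LK ll1 fl2 → (∀ X ∈ u.getLast?, ∀ Y ∈ u'.head?, ColAdj X.a Y.a) →
      TB s (W1 ++ W2) (u ++ u') fl ll
  | 0, _, _, _, _, _, _, _, _, ⟨h1, h2, _⟩, ⟨h1', _, h3'⟩, _, _ => ⟨by rw [h1, h1']; rfl, h2, h3'⟩
  | _ + 1, _, _, _, _, _, _, _, _, ⟨v1, x1, y1, fl', ll1', h1, h2, h3, h4, h5, h6⟩,
      ⟨v2, x2, y2, fl2', ll', h1', h2', h3', h4', h5', h6'⟩, hk, hc => by
    subst h6 h5'
    obtain ⟨hk1, hk2⟩ := List.forall₂_cons.1 hk
    have n1 : v1 ≠ [] := by rintro rfl; cases h3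
    have n2 : v2 ≠ [] := by rintro rfl; cases h3'
    refine ⟨v1 ++ v2, x1, y2, fl', ll', tb_append h1 h1' hk2 fun X hX Y hY => ?_,
      h2.append h2' hc fun X hX Y hY => ?_, ?_, ?_, h5, h6'⟩
    · exact rep_colAdj h2.1 h2'.1 hX hY
    · obtain rfl := Option.some.inj (h4.symm.trans hX)
      obtain rfl := Option.some.inj (h3'.symm.trans hY)
      exact hk1
    · rwa [List.head?_append_of_ne_nil _ n1]
    · rwa [List.getLast?_append_of_ne_nil _ n2]

theorem align : ∀ {s l W r u u'}, Tower s (l ++ W ++ r) u → Tower s W u' → u' ≠ [] →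
    ∃ x y, u = x ++ u' ++ y ∧ Tower s l x ∧ Tower s r y
  | 0, l, _, r, _, _, h, h', _ => 
    ⟨l, r, by rw [← show _ = _ from h, show _ = _ from h']; rfl, rfl, rfl⟩
  | _ + 1, _, _, _, _, _, ⟨_, h1, h2⟩, ⟨v', h1', h2'⟩, hu => by
    obtain ⟨x, y, rfl, t1, t2⟩ := align h1 h1' (rep_ne_nil h2'.1 hu)
    obtain ⟨x', y', e, r1, r2⟩ := h2.1.align h2'.1 hu
    exact ⟨x', y', e, ⟨x, t1, r1, h2.2.infix ⟨[], v' ++ y, by simp⟩⟩,
      ⟨y, t2, r2, h2.2.infix ⟨x ++ v', [], by simp⟩⟩⟩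

theorem encS_append : ∀ {s} (u u' : List (Cell (mS s))),
    encS s (u ++ u') = encS s u ++ encS s u'
  | 0, _, _ => rfl
  | s + 1, u, u' => by
    have := enc_append (M := mS s) u u'
    simp only [encS]
    rw [← encS_append, ← this]
    rfl

variable (h : OneLevel)
include h

theorem simpleL : ∀ {s W u fl ll fl' X}, TB s W u fl ll → u.getLast? = some X →
    Simple Side.L X.a → List.Forall₂ LK ll fl' → ∀ l ∈ ll, Simple Side.L l
  | 0, _, _, _, _, _, _, ⟨_, _, h3⟩, _, _, _ => by simp [h3]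
  | s + 1, _, u, _, _, _, X, ⟨v, _, y, _, _, h1, h2, _, h4, _, h6⟩, hX, hS, hk => by
    subst h6
    obtain ⟨f, fl'', hk1, hk2, rfl⟩ := List.forall₂_cons_left_iff.1 hk
    have := (h.sc (mS s)).left v u y X f h2 h4 hX hk1 hS
    exact List.forall_mem_cons.2 ⟨this, simpleL h1 h4 this hk2⟩

theorem simpleR : ∀ {s W u fl ll ll' X}, TB s W u fl ll → u.head? = some X →
    Simple Side.R X.a → List.Forall₂ LK ll' fl → (∀ l ∈ ll', l.st.E = true) →
      ∀ f ∈ fl, Simple Side.R f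
  | 0, _, _, _, _, _, _, ⟨_, h2, _⟩, _, _, _, _ => by simp [h2]
  | s + 1, _, u, _, _, _, X, ⟨v, x, _, _, _, h1, h2, h3, _, h5, _⟩, hX, hS, hk, hE => by
    subst h5
    obtain ⟨l, ll'', hk1, hk2, rfl⟩ := List.forall₂_cons_right_iff.1 hk
    obtain ⟨hE1, hE2⟩ := List.forall_mem_cons.1 hE
    have := (h.sc (mS s)).right v u x X l h2 h3 hX hE1 hk1 hS
    exact List.forall_mem_cons.2 ⟨this, simpleR h1 h3 this hk2 hE2⟩

theorem sim_eqv : ∀ {s u u'}, (RS (mS s)).Eqv u u' → S0.Eqv (encS s u) (encS s u')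
  | 0, _, _, e => e
  | s + 1, u, u', e => sim_eqv (s := s) ((h.sim (mS s)).eqv u u' e)

theorem sim_zero : ∀ {s u}, (RS (mS s)).Zero u → S0.Zero (encS s u)
  | 0, _, e => e
  | s + 1, u, e => sim_zero (s := s) ((h.sim (mS s)).zero u e)

theorem nz : ∀ {s W u}, Tower s W u → S0.Zero W → (RS (mS s)).Zero u
  | 0, _, _, t, e => by rwa [show _ = _ from t] at e
  | s + 1, _, u, ⟨v, h1, h2⟩, e => h.nz (mS s) v u h2 (nz h1 e)

theorem tb_enc : ∀ {s} (u : List (Cell (mS s))), u ≠ [] →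
    (u.IsChain fun X Y => ColAdj X.a Y.a) →
    ∃ fl ll, TB s (encS s u) u fl ll ∧ (∀ f ∈ fl, ¬ f.isR) ∧ ∀ l ∈ ll, ¬ l.isL
  | 0, _, _, _ => ⟨[], [], ⟨rfl, rfl, rfl⟩, by simp, by simp⟩
  | s + 1, u, hu, hc => by
    have g := (h.enc (mS s)).good u hc
    have hv := rep_ne_nil g.1 hu
    obtain ⟨fl, ll, t, h1, h2⟩ := tb_enc (enc (M := mS s) u) hv (g.2.2.imp fun _ _ h => h.col)
    obtain ⟨x, hx⟩ := exists_head hv
    obtain ⟨y, hy⟩ := exists_last hv
    exact ⟨x.a :: fl, y.a :: ll, ⟨_, x, y, fl, ll, t, g, hx, hy, rfl, rfl⟩,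
      List.forall_mem_cons.2
        ⟨V.not_isR_of_none ((h.enc (mS s)).unl u x (List.mem_of_mem_head? hx)), h1⟩,
      List.forall_mem_cons.2
        ⟨V.not_isL_of_none ((h.enc (mS s)).unl u y (List.mem_of_mem_getLast? hy)), h2⟩⟩

theorem norm : ∀ {s W u fl ll}, TB s W u fl ll → (∀ f ∈ fl, ¬ f.isR) → (∀ l ∈ ll, ¬ l.isL) →
    S0.Eqv W (encS s u)
  | 0, _, _, _, _, t, _, _ => Sys.Eqv.of_eq t.1
  | s + 1, _, u, _, _, ⟨v, x, y, _, _, h1, h2, h3, h4, h5, h6⟩, hf, hl => by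
    subst h5 h6
    obtain ⟨f1, f2⟩ := List.forall_mem_cons.1 hf
    obtain ⟨l1, l2⟩ := List.forall_mem_cons.1 hl
    refine (norm h1 f2 l2).trans (sim_eqv h (h.nrm (mS s) v u h2 (fun x' hx => ?_) fun y' hy => ?_))
    · obtain rfl := Option.some.inj (h3.symm.trans hx)
      exact f1
    · obtain rfl := Option.some.inj (h4.symm.trans hy)
      exact l1

end TowBas

open TowBas in
theorem towFacts (h : OneLevel) : TowFacts where
  length := length
  unique := unique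
  tb_unique := tb_unique
  tower_of_tb := tower_of_tb
  tb_of_tower := tb_of_tower
  tb_length := tb_length
  tb_E := tb_E
  split := split
  tb_split := tb_split
  tb_append := tb_append
  align := align
  simpleL := simpleL h
  simpleR := simpleR h
  sim_eqv := sim_eqv h
  sim_zero := sim_zero h
  nz := nz h
  encS_append := encS_append
  tb_enc := tb_enc h
  norm := TowBas.norm h

end Crest.Agent.R176
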