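import Crest.Agent.R176.CBasic

/-! Row 176: unlocking, and reading an unlocked word as a layout. -/

set_option autoImplicit false

namespace Crest.Agent.R176

namespace Unl

variable {M : ℕ}

theorem unlC_of_none {x : Cell M} (h : x.a.lk = Lk.none) : unlC x = x :=
  Cell.ext (V.ext rfl rfl rfl rfl h.symm) rfl rfl

theorem unlL_eq {x : Cell M} (h : ¬ x.a.isR) : unlL x = unlC x := by
  unfold unlL
  split_ifs with h'
  · rfl
  · exact (unlC_of_none (V.lk_none_iff.2 ⟨h', h⟩)).symm

theorem unlR_eq {x : Cell M} (h : ¬ x.a.isL) : unlR x = unlC x := by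
  unfold unlR
  split_ifs with h'
  · rfl
  · exact (unlC_of_none (V.lk_none_iff.2 ⟨h, h'⟩)).symm

theorem pair {x y : Cell M} (h : LK x.a y.a) : (RS M).Eqv [x, y] [unlL x, unlR y] := by
  unfold unlL unlR
  by_cases hx : x.a.isL
  · rw [if_pos hx, if_pos (h.1.1 hx)]
    exact (Sys.Eqv.of_r2 (S := RS M) (a := unlC x) (b := unlC y) (c := x) (d := y)
      (Or.inl ⟨h.unlock hx, rfl, rfl, rfl, rfl⟩)).symm
  · rw [if_neg hx, if_neg fun hy => hx (h.1.2 hy)]
    exact Sys.Eqv.refl _

theorem mid (y : Cell M) (v : List (Cell M)) : ∀ x : Cell M,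
    (x :: v ++ [y]).IsChain (fun x y => LK x.a y.a) →
      (RS M).Eqv (x :: v ++ [y]) (unlL x :: v.map unlC ++ [unlR y]) := by
  induction v with
  | nil => intro x h; exact pair (by simpa using h)
  | cons z v ih =>
    intro x h
    have h' : LK x.a z.a ∧ (z :: v ++ [y]).IsChain (fun x y => LK x.a y.a) :=
      List.isChain_cons_cons.1 h
    refine ((ih z h'.2).cons x).trans ?_
    by_cases hz : z.a.isL
    · have hx : ¬ x.a.isL := fun hx => hz.not_isR (h'.1.1.1 hx)
      rw [unlL_eq hz.not_isR, show unlL x = x from if_neg hx]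
      exact Sys.Eqv.refl _
    · rw [show unlL z = z from if_neg hz, List.map_cons, ← unlR_eq hz]
      exact (pair h'.1).append_right (v.map unlC ++ [unlR y])

theorem chain {v : List (Cell M)} (h : Loc v) : v.IsChain fun x y => LK x.a y.a :=
  h.2.imp fun _ _ h => h.lk

theorem flag (p s : ℕ → Bool) (s0 : Bool) (a b : ℕ) (h0 : s a = (s0 || p a))
    (h0' : p a = true → s0 = false) (hS : ∀ i, a ≤ i → i + 1 < b → s (i + 1) = (s i || p (i + 1)))
    (hU : ∀ i, a ≤ i → i + 1 < b → p (i + 1) = true → s i = false) :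
    (∀ i, a ≤ i → i < b → (s i = true ↔ s0 = true ∨ ∃ j, a ≤ j ∧ j ≤ i ∧ p j = true)) ∧
      ∀ i, a ≤ i → i < b → p i = true → s0 = false ∧ ∀ j, a ≤ j → j < b → p j = true → j = i := by
  have h1 : ∀ i, a ≤ i → i < b →
      (s i = true ↔ s0 = true ∨ ∃ j, a ≤ j ∧ j ≤ i ∧ p j = true) := by
    intro i hi
    induction i, hi using Nat.le_induction with
    | base =>
      intro _
      rw [h0, Bool.or_eq_true]
      refine or_congr Iff.rfl ⟨fun h => ⟨a, le_rfl, le_rfl, h⟩, ?_⟩
      rintro ⟨j, h1, h2, h3⟩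
      rwa [← le_antisymm h2 h1]
    | succ i hi ih =>
      intro hb
      rw [hS i hi hb, Bool.or_eq_true, ih (by omega), or_assoc]
      refine or_congr Iff.rfl ⟨?_, ?_⟩
      · rintro (⟨j, h1, h2, h3⟩ | h)
        · exact ⟨j, h1, by omega, h3⟩
        · exact ⟨i + 1, by omega, le_rfl, h⟩
      · rintro ⟨j, h1, h2, h3⟩
        rcases h2.eq_or_lt with rfl | h2
        · exact Or.inr h3
        · exact Or.inl ⟨j, h1, by omega, h3⟩
  have h2 : ∀ i, a ≤ i → i < b → p i = true →
      s0 = false ∧ ∀ j, a ≤ j → j < i → p j ≠ true := by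
    intro i hi hb hp
    rcases hi.eq_or_lt with rfl | hi
    · exact ⟨h0' hp, fun j h1 h2 => by omega⟩
    · obtain ⟨i, rfl⟩ : ∃ k, i = k + 1 := ⟨i - 1, by omega⟩
      have h3 := hU i (by omega) hb hp
      have h4 := (h1 i (by omega) (by omega)).not.1 (by simp [h3])
      rw [not_or] at h4
      exact ⟨by simpa using h4.1, fun j h5 h6 h7 => h4.2 ⟨j, h5, by omega, h7⟩⟩
  refine ⟨h1, fun i hi hb hp => ⟨(h2 i hi hb hp).1, fun j hj hjb hpj => ?_⟩⟩
  rcases lt_trichotomy j i with h | h | h
  · exact absurd hpj ((h2 i hi hb hp).2 j hj h)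
  · exact h
  · exact absurd hp ((h2 j hj hjb hpj).2 i hi h)

theorem start (b : Bool) (τ σ : Tag) (h : τ = σ → b = true) :
    b = ((b && decide (τ ≠ σ)) || decide (τ = σ)) ∧
      (decide (τ = σ) = true → (b && decide (τ ≠ σ)) = false) := by
  by_cases hτ : τ = σ <;> simp_all

end Unl

open Unl in
theorem unlStmt (M : ℕ) [NeZero M] : UnlStmt M where
  free v h hL hR := by
    rcases v with _ | ⟨x, v⟩
    · exact Sys.Eqv.refl _
    · have hx : ¬ x.a.isR := hL x rfl
      rcases v.eq_nil_or_concat' with rfl | ⟨v, y, rfl⟩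
      · rw [List.map_singleton, unlC_of_none (V.lk_none_iff.2 ⟨hR x rfl, hx⟩)]
        exact Sys.Eqv.refl _
      · have hy : ¬ y.a.isL := hR y (by rw [← List.cons_append, List.getLast?_concat]; rfl)
        have := mid y v x (chain h)
        rw [unlL_eq hx, unlR_eq hy] at this
        simpa using this
  mid x y v h := mid y v x (chain h)
  loc v h := by
    refine ⟨fun x hx => ?_, ?_⟩
    · obtain ⟨z, hz, rfl⟩ := List.mem_map.1 hx
      obtain ⟨h1, h2⟩ := h.1 z hz
      exact ⟨⟨h1.hF, h1.hE, h1.p0, h1.p9, h1.pp, h1.fA, h1.fT, h1.eA, h1.eT, h1.tA, h1.tT, h1.hP,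
        h1.idle⟩, ⟨h2.blank, h2.col, h2.ready, h2.linked⟩⟩
    · rw [List.isChain_map]
      exact h.2.imp fun _ _ h => ⟨h.col, h.colu, h.EF, h.pS, h.pU, h.aS, h.aU, h.tS, h.tU, h.grp,
        LK.of_free (V.not_isL_of_none rfl) (V.not_isR_of_none rfl)⟩
  ext v h hn h0 hE := by
    obtain ⟨h1, h2⟩ := loc_iff_cat.1 h
    have hv := eq_map_cat v
    generalize cat v = f at *
    generalize v.length = n at *
    have al : ∀ i < n, (f i).a.st.κ.val % 10 = i % 10 := by
      intro i
      induction i with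
      | zero => exact fun _ => h0
      | succ i ih =>
        intro hi
        rw [(h2 i hi).col, Nat.mod_mod_of_dvd _ ten_dvd_qq]
        have := ih (by omega)
        omega
    have fπ := fun (i : ℕ) (hi : i < n) => flag (fun j => (f j).a.π) (fun j => (f j).a.sπ) false
      (10 * (i / 10)) (10 * (i / 10) + 10)
      (by simpa using (h1 _ (by omega)).1.p0 (by rw [al _ (by omega)]; omega)) (fun _ => rfl)
      (fun j _ _ => (h2 j (by omega)).pS (by rw [al _ (by omega)]; omega))
      (fun j _ _ => (h2 j (by omega)).pU (by rw [al _ (by omega)]; omega))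
    have fA := fun hn0 : 0 < n => flag (fun j => decide ((f j).a.mb.τ = Tag.A))
      (fun j => (f j).a.mb.sA) ((f 0).a.mb.sA && decide ((f 0).a.mb.τ ≠ Tag.A)) 0 n
      (start _ _ _ (h1 0 hn0).1.tA).1 (start _ _ _ (h1 0 hn0).1.tA).2
      (fun j _ hj => (h2 j hj).aS (hE j hj))
      (fun j _ hj hp => (h2 j hj).aU (hE j hj) (by simpa using hp))
    have fT := fun hn0 : 0 < n => flag (fun j => decide ((f j).a.mb.τ = Tag.T))
      (fun j => (f j).a.mb.sT) ((f 0).a.mb.sT && decide ((f 0).a.mb.τ ≠ Tag.T)) 0 n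
      (start _ _ _ (h1 0 hn0).1.tT).1 (start _ _ _ (h1 0 hn0).1.tT).2
      (fun j _ hj => (h2 j hj).tS (hE j hj))
      (fun j _ hj hp => (h2 j hj).tU (hE j hj) (by simpa using hp))
    refine ⟨⟨hn, al, hE, fun i hi => ?_, fun i hi j hj hij hp hp' => ?_, fun g hg => ?_,
      fun i hi hτ => ?_, fun i hi hτ => ?_⟩, ?_⟩
    · have h9 := (h1 (10 * (i / 10) + 9) (by omega)).1.p9 (by rw [al _ (by omega)]; omega)
      obtain h | ⟨j, h3, h4, h5⟩ := ((fπ i hi).1 _ (by omega) (by omega)).1 h9
      · cases h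
      · exact ⟨j, by omega, by omega, h5⟩
    · exact ((fπ j hj).2 j (by omega) (by omega) hp').2 i (by omega) (by omega) hp
    · refine (h2 _ hg).grp ?_
      have := al (2 * g) (by omega)
      omega
    · have := (fA (by omega)).2 i (by omega) hi (decide_eq_true hτ)
      exact ⟨this.1, fun j hj hτ' => this.2 j (by omega) hj (decide_eq_true hτ')⟩
    · have := (fT (by omega)).2 i (by omega) hi (decide_eq_true hτ)
      exact ⟨this.1, fun j hj hτ' => this.2 j (by omega) hj (decide_eq_true hτ')⟩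
    · rw [hv, List.map_map, lay]
      refine List.map_congr_left fun i hi => ?_
      have hi : i < n := List.mem_range.1 hi
      refine Cell.ext (V.ext rfl rfl ?_ (Mb.ext rfl rfl rfl ?_ ?_) rfl) rfl rfl
      · refine Bool.eq_iff_iff.2 (((fπ i hi).1 i (by omega) (by omega)).trans ?_)
        simp only [layC, decide_eq_true_eq, Bool.false_eq_true, false_or]
        exact exists_congr fun j => ⟨fun h => ⟨h.2.1, by omega, h.2.2⟩,
          fun h => ⟨by omega, h.1, h.2.2⟩⟩
      · refine Bool.eq_iff_iff.2 (((fA (by omega)).1 i (by omega) hi).trans ?_)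
        simp only [layC, Bool.or_eq_true, decide_eq_true_eq, Nat.zero_le, true_and]
        rfl
      · refine Bool.eq_iff_iff.2 (((fT (by omega)).1 i (by omega) hi).trans ?_)
        simp only [layC, Bool.or_eq_true, decide_eq_true_eq, Nat.zero_le, true_and]
        rfl

end Crest.Agent.R176
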