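import Crest.Agent.R176.MainK
import Crest.Agent.R176.Glue
import Crest.Agent.R176.Jc
import Crest.Agent.R176.Unl
import Crest.Agent.R176.Perm
import Crest.Agent.R176.Enc
import Crest.Agent.R176.SimA
import Crest.Agent.R176.SimT
import Crest.Agent.R176.InvI
import Crest.Agent.R176.InvS
import Crest.Agent.R176.InvT
import Crest.Agent.R176.Nrm
import Crest.Agent.R176.Adr
import Crest.Agent.R176.Exa
import Crest.Agent.R176.TowBas
import Crest.Agent.R176.Free
import Crest.Agent.R176.Cand
import Crest.Agent.R176.Addr0
import Crest.Agent.R176.SwapT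
import Crest.Agent.R176.PermP

/-! Row 176: assembly. -/

set_option autoImplicit false

namespace Crest.Agent.R176

theorem oneLevel : OneLevel where
  enc M _ := encStmt M
  sim M _ := simStmt_of M (simAStmt M (encStmt M) (permStmt M)) (simTStmt M (encStmt M) (permStmt M))
  nz M _ := nzStmt_of M (invIStmt M) (invSStmt M) (invTStmt M) (zerStmt M)
  nrm M _ := nrmStmt M (unlStmt M) (permStmt M) (encStmt M)
  adr M _ := adrStmt M (unlStmt M) (permStmt M)
  exa M _ := exaStmt M (unlStmt M) (permStmt M) (adrStmt M (unlStmt M) (permStmt M))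
  swp M _ := swpStmt M (unlStmt M) (permStmt M)
  cnt M _ := cntStmt M
  sc M _ := scStmt M
  jc := jcStmt

theorem towFacts0 : TowFacts := towFacts oneLevel

theorem xFacts0 : XFacts := xFacts oneLevel towFacts0 (freeStmt towFacts0)

theorem permP0 : PermP S0 :=
  permP oneLevel towFacts0 xFacts0 (swapStmt oneLevel towFacts0 (freeStmt towFacts0))

theorem final266 : Goal266 := by
  letI : Fintype C0 := Fintype.ofFinite _
  exact goal266_of permP0 (longP towFacts0)

theorem final265 : Goal265 := by
  letI : Fintype C0 := Fintype.ofFinite _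
  obtain ⟨A⟩ := addr0 (candFacts oneLevel towFacts0 xFacts0)
  exact goal265_of vx0 A permP0 (longP towFacts0)

end Crest.Agent.R176
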