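import Crest.Agent.R176.KAut
import Crest.Agent.R176.KDefs2

/-! Row 176: K-TOK (the tries are admissible automata) and K-SHIFT (moves of one bridge). -/

set_option autoImplicit false

open scoped commutatorElement

namespace Crest.Agent.R176

variable {α : Type} {S : Sys α} {X : Vtx S}

namespace Move

theorem isWd_iff {n : ℕ} {w : List α} :
    IsWd X n w ↔ w ≠ [] ∧ w.length ≤ n ∧ ∃ i j, Valid X i j w := by
  refine ⟨fun h => ⟨h.1, h.2.1, _, _, h.2.2⟩, fun ⟨h0, h1, i, j, h2⟩ => ⟨h0, h1, ?_⟩⟩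
  cases w with
  | nil => exact absurd rfl h0
  | cons a w =>
    have e := h2.end_eq
    have e1 : wst X (a :: w) = i := h2.1
    rw [e1, ← e]; exact h2

theorem IsWd.left {n : ℕ} {u w : List α} (h : IsWd X n (u ++ w)) (hu : u ≠ []) : IsWd X n u := by
  obtain ⟨-, h1, i, j, h2⟩ := isWd_iff.1 h
  exact isWd_iff.2 ⟨hu, by simp at h1; omega, _, _, (valid_append_iff.1 h2).1⟩

theorem IsWd.right {n : ℕ} {u w : List α} (h : IsWd X n (u ++ w)) (hw : w ≠ []) :
    IsWd X n w := by
  obtain ⟨-, h1, i, j, h2⟩ := isWd_iff.1 h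
  exact isWd_iff.2 ⟨hw, by simp at h1; omega, _, _, (valid_append_iff.1 h2).2⟩

theorem tv_tsrc {i j : Z5} {u : List α} {x : α} {w : List α} (h : Valid X i j (u ++ x :: w)) :
    tv X (tsrc X u x) = X.vtx x := by
  cases u with
  | nil => rfl
  | cons a u =>
    have h1 := (valid_append_iff.1 h).2.1
    have h2 : X.vtx a = i := h.1
    rw [h1, ← h2]; rfl

theorem tv_tdst {i j : Z5} {u : List α} {x : α} {w : List α} (h : Valid X i j (u ++ x :: w)) :
    tv X (tdst X x w) = X.vtx x + 1 := by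
  cases w with
  | nil => rfl
  | cons a w =>
    have h1 := (valid_append_iff.1 h).2
    rw [h1.1, ← h1.2.1]; rfl

theorem tv_pre {i j : Z5} {u : List α} {x : α} {w : List α} (h : Valid X i j (u ++ x :: w)) :
    tv X (TS.pre (u ++ [x])) = X.vtx x + 1 := by
  have h1 := (valid_append_iff.1 h).2.1
  cases u with
  | nil => simp [tv, wst]
  | cons a u =>
    have h2 : X.vtx a = i := h.1
    rw [h1, ← h2]
    simp only [tv, wst, List.cons_append, List.length_cons, List.length_append, List.length_nil]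
    push_cast; ring

theorem tsrc_ne_suf (u : List α) (x : α) (w : List α) : TS.suf w ≠ tsrc X u x := by
  cases u <;> simp [tsrc]

theorem tdst_ne_pre (x : α) (w u : List α) : TS.pre u ≠ tdst X x w := by
  cases w <;> simp [tdst]

theorem tsrc_concat (u : List α) (x y : α) : tsrc X (u ++ [x]) y = TS.pre (u ++ [x]) := by
  cases u <;> rfl

theorem tsrc_congr (u : List α) {x y : α} (h : X.vtx x = X.vtx y) : tsrc X u x = tsrc X u y := by
  cases u <;> simp [tsrc, h]

theorem tdst_congr {x y : α} (h : X.vtx x = X.vtx y) (w : List α) : tdst X x w = tdst X y w := by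
  cases w <;> simp [tdst, h]

open Classical in
theorem nuP_concat (p : TS α) (u : List α) (x : α) :
    nuP X p (TS.pre (u ++ [x])) = if p = tsrc X u x then gen S x else 0 := by
  simp [nuP]

theorem nuB_eq_zero {B : List (List α × α × List α)} {p q : TS α}
    (h : ∀ u x w, ¬ (p = tsrc X u x ∧ q = tdst X x w)) : nuB X B p q = 0 := by
  unfold nuB
  refine List.sum_eq_zero fun r hr => ?_
  obtain ⟨t, -, rfl⟩ := List.mem_map.1 hr
  exact if_neg (h _ _ _)

theorem nuS_pre (p : TS α) (u : List α) : nuS X p (TS.pre u) = 0 := by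
  unfold nuS
  split
  · exact if_neg (tdst_ne_pre _ _ _)
  · rfl

theorem nuP_suf (w : List α) (q : TS α) : nuP X (TS.suf w) q = 0 := by
  unfold nuP
  split
  · split_ifs with h1 h2
    · exact absurd h2 (tsrc_ne_suf _ _ _)
    · rfl
    · rfl
  · rfl

/-- The rank function of the tries. -/
def rk (n : ℕ) : TS α → ℕ
  | TS.pre u => u.length
  | TS.suf w => 2 * n + 1 - w.length
  | _ => 0

/-- States of the tries. -/
def St (X : Vtx S) (n : ℕ) (p : TS α) : Prop :=
  (∃ w, IsWd X n w ∧ (p = TS.pre w ∨ p = TS.suf w)) ∨ ∃ z, p = TS.bd z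

theorem rk_tsrc (n : ℕ) (u : List α) (x : α) : rk n (tsrc X u x) = u.length := by
  cases u <;> rfl

theorem nuT_mem {n : ℕ} {B : List (List α × α × List α)} (hB : BOK X n B) {p q : TS α}
    (hp : St X n p) (hq : St X n q) (H : AddSubgroup (Alg S))
    (hH : ∀ x, tv X p = X.vtx x → tv X q = X.vtx x + 1 →
      ((∀ z, q ≠ TS.bd z) → rk n p < rk n q) → gen S x ∈ H) : nuT X B p q ∈ H := by
  refine add_mem (add_mem ?_ ?_) ?_
  · rcases hq with ⟨w, hw, rfl | rfl⟩ | ⟨z, rfl⟩
    · obtain ⟨u, x, rfl⟩ : ∃ u x, w = u ++ [x] :=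
        ⟨w.dropLast, w.getLast hw.1, (List.dropLast_append_getLast hw.1).symm⟩
      rw [nuP_concat]
      split_ifs with h
      · subst h
        refine hH x (tv_tsrc hw.2.2) (tv_pre hw.2.2) fun _ => ?_
        rw [rk_tsrc]; simp [rk]
      · exact zero_mem _
    · exact zero_mem _
    · exact zero_mem _
  · rcases hp with ⟨w, hw, rfl | rfl⟩ | ⟨z, rfl⟩
    · exact zero_mem _
    · cases w with
      | nil => exact zero_mem _
      | cons x w =>
        classical
        have e : nuS X (TS.suf (x :: w)) q = if q = tdst X x w then gen S x else 0 := by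
          simp [nuS]
        rw [e]
        split_ifs with h
        · subst h
          refine hH x rfl (tv_tdst (u := []) hw.2.2) fun hz => ?_
          have h1 := hw.2.1
          cases w with
          | nil => exact absurd rfl (hz _)
          | cons b w => simp only [rk, tdst, List.length_cons] at h1 ⊢; omega
        · exact zero_mem _
    · exact zero_mem _
  · refine AddSubgroup.list_sum_mem _ fun r hr => ?_
    obtain ⟨⟨u, x, w⟩, ht, rfl⟩ := List.mem_map.1 hr
    have hw := hB _ ht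
    split_ifs with h
    · obtain ⟨rfl, rfl⟩ := h
      refine hH x (tv_tsrc hw.2.2) (tv_tdst hw.2.2) fun hz => ?_
      have h1 := hw.2.1
      rw [rk_tsrc]
      cases w with
      | nil => exact absurd rfl (hz _)
      | cons b w =>
        simp only [rk, tdst, bw, List.length_cons, List.length_append] at h1 ⊢; omega
    · exact zero_mem _

theorem ok_of {Λ : Lev (Alg S)} (hH : ∀ d r, r ∈ Λ.Hm d ↔ r ∈ Hsp S d) {n : ℕ}
    {B : List (List α × α × List α)} (hB : BOK X n B) {I : Z5 → List (TS α)}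
    (hI : ∀ z, ∀ p ∈ I z, tv X p = z ∧ ∃ w, IsWd X n w ∧ (p = TS.pre w ∨ p = TS.suf w)) :
    Aut.OK ⟨tv X, nuT X B, I, TS.bd⟩ (Jsp X) Λ := by
  have hS : ∀ p ∈ Aut.All (⟨tv X, nuT X B, I, TS.bd⟩ : Aut (TS α) (Alg S)), St X n p := by
    intro p hp
    rcases Aut.mem_All'.1 hp with ⟨z, hz⟩ | hz
    · exact Or.inl (hI z p hz).2
    · exact Or.inr hz
  refine ⟨fun z p hp => (hI z p hp).1, fun _ => rfl, fun p hp q hq => ?_, fun p hp q hq => ?_,
    fun p hp q hq hv => ?_, ⟨rk n, fun p hp q hq h0 => ?_⟩⟩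
  · refine nuT_mem hB (hS p hp) (hS q hq) _ fun x h1 h2 _ => ?_
    rw [← mon_single]
    exact mon_mem_Jsp (List.cons_ne_nil _ _) ⟨h1.symm, (congrArg (· + 1) h1).trans h2.symm⟩
  · refine nuT_mem hB (hS p hp) (hS q hq) _ fun x _ _ _ => (hH _ _).2 ?_
    exact Submodule.subset_span ⟨[x], rfl, (mon_single x).symm⟩
  · refine AddSubgroup.mem_bot.1 (nuT_mem hB (hS p hp) (hS q hq) ⊥ fun x h1 h2 _ => ?_)
    exact absurd (by rw [← h1] at h2; exact h2) hv
  · obtain ⟨z, hz⟩ := Aut.mem_Int.1 hp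
    obtain ⟨z', hz'⟩ := Aut.mem_Int.1 hq
    by_contra hlt
    refine h0 (AddSubgroup.mem_bot.1 (nuT_mem hB (Or.inl (hI z p hz).2) (Or.inl (hI z' q hz').2) ⊥
      fun x _ _ h3 => absurd (h3 fun y hy => ?_) hlt))
    obtain ⟨w, -, rfl | rfl⟩ := (hI z' q hz').2 <;> cases hy

theorem sum_single {ι M : Type} [AddCommMonoid M] {L : List ι} (hL : L.Nodup) {m : ι} (hm : m ∈ L)
    {f : ι → M} (h : ∀ r ∈ L, r ≠ m → f r = 0) : (L.map f).sum = f m := by
  induction L with
  | nil => cases hm
  | cons a L ih =>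
    rw [List.nodup_cons] at hL
    rw [List.map_cons, List.sum_cons]
    rcases List.mem_cons.1 hm with rfl | hm'
    · rw [List.sum_eq_zero, add_zero]
      intro x hx
      obtain ⟨r, hr, rfl⟩ := List.mem_map.1 hx
      exact h r (List.mem_cons_of_mem _ hr) fun e => hL.1 (e ▸ hr)
    · rw [h a List.mem_cons_self fun e => hL.1 (e ▸ hm'), zero_add]
      exact ih hL.2 hm' fun r hr => h r (List.mem_cons_of_mem _ hr)

variable [Finite α]

theorem mem_IP {n : ℕ} {z : Z5} {p : TS α} :
    p ∈ IP X n z ↔ tv X p = z ∧ ∃ w, IsWd X n w ∧ p = TS.pre w := by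
  simp only [IP, List.mem_filter, List.mem_map, mem_wds, decide_eq_true_eq]
  exact ⟨fun ⟨⟨w, h1, h2⟩, h3⟩ => ⟨h3, w, h1, h2.symm⟩,
    fun ⟨h3, w, h1, h2⟩ => ⟨⟨w, h1, h2.symm⟩, h3⟩⟩

theorem mem_IS {n : ℕ} {z : Z5} {p : TS α} :
    p ∈ IS X n z ↔ tv X p = z ∧ ∃ w, IsWd X n w ∧ p = TS.suf w := by
  simp only [IS, List.mem_filter, List.mem_map, mem_wds, decide_eq_true_eq]
  exact ⟨fun ⟨⟨w, h1, h2⟩, h3⟩ => ⟨h3, w, h1, h2.symm⟩,
    fun ⟨h3, w, h1, h2⟩ => ⟨⟨w, h1, h2.symm⟩, h3⟩⟩

theorem nodup_IP (n : ℕ) (z : Z5) : (IP X n z).Nodup :=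
  ((nodup_wds X n).map fun _ _ h => TS.pre.inj h).filter _

theorem nodup_IS (n : ℕ) (z : Z5) : (IS X n z).Nodup :=
  ((nodup_wds X n).map fun _ _ h => TS.suf.inj h).filter _

theorem nodup_IPS (n : ℕ) (z : Z5) : (IP X n z ++ IS X n z).Nodup := by
  refine List.Nodup.append (nodup_IP n z) (nodup_IS n z) fun p h1 h2 => ?_
  obtain ⟨-, w, -, rfl⟩ := mem_IP.1 h1
  obtain ⟨-, w', -, h⟩ := mem_IS.1 h2
  cases h

end Move

open Move

open Classical in
/-- The unique edge into a state of the prefix trie. -/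
theorem nuT_pre (X : Vtx S) (B : List (List α × α × List α)) (p : TS α) (u : List α) (x : α) :
    nuT X B p (TS.pre (u ++ [x])) = if p = tsrc X u x then gen S x else 0 := by
  rw [nuT, nuP_concat, nuS_pre, nuB_eq_zero fun _ _ _ h => tdst_ne_pre _ _ _ h.2, add_zero,
    add_zero]

open Classical in
/-- The unique edge out of a state of the suffix trie. -/
theorem nuT_suf (X : Vtx S) (B : List (List α × α × List α)) (x : α) (w : List α) (q : TS α) :
    nuT X B (TS.suf (x :: w)) q = if q = tdst X x w then gen S x else 0 := by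
  rw [nuT, nuP_suf, nuB_eq_zero fun _ _ _ h => tsrc_ne_suf _ _ _ h.1, add_zero, zero_add]
  simp [nuS]

open Classical in
theorem nuT_cons (X : Vtx S) (u : List α) (x : α) (w : List α) (B : List (List α × α × List α))
    (p q : TS α) : nuT X ((u, x, w) :: B) p q =
      nuT X B p q + if p = tsrc X u x ∧ q = tdst X x w then gen S x else 0 := by
  simp only [nuT, nuB, List.map_cons, List.sum_cons]
  abel

variable [Finite α]

theorem tokStmt (X : Vtx S) (Λ : Lev (Alg S)) (hH : ∀ d r, r ∈ Λ.Hm d ↔ r ∈ Hsp S d) :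
    TokStmt X Λ := by
  intro n B hB
  refine ⟨ok_of hH hB fun z p hp => ?_, ok_of hH hB fun z p hp => ?_⟩
  · obtain ⟨h1, w, h2, h3⟩ := mem_IP.1 hp
    exact ⟨h1, w, h2, Or.inl h3⟩
  · rcases List.mem_append.1 hp with hp | hp
    · obtain ⟨h1, w, h2, h3⟩ := mem_IP.1 hp
      exact ⟨h1, w, h2, Or.inl h3⟩
    · obtain ⟨h1, w, h2, h3⟩ := mem_IS.1 hp
      exact ⟨h1, w, h2, Or.inr h3⟩

namespace Move

theorem rest_ne {n : ℕ} {B : List (List α × α × List α)} {i : Z5} {p m : TS α}
    (hp : (autPS X n B).Rest i p) (hm : m ∈ IP X n i ++ IS X n i) : p ≠ m := by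
  rintro rfl
  have h1 : tv X p = i ∧ ∀ z, p ≠ TS.bd z := by
    rcases List.mem_append.1 hm with h | h
    · obtain ⟨h1, w, -, rfl⟩ := mem_IP.1 h
      exact ⟨h1, fun _ h => by cases h⟩
    · obtain ⟨h1, w, -, rfl⟩ := mem_IS.1 h
      exact ⟨h1, fun _ h => by cases h⟩
  rcases hp with ⟨z, hz, h⟩ | ⟨z, h⟩
  · rcases List.mem_append.1 h with h | h
    · exact hz ((mem_IP.1 h).1.symm.trans h1.1)
    · exact hz ((mem_IS.1 h).1.symm.trans h1.1)
  · exact h1.2 z h

open Classical in
/-- A bridge leaving a state of the prefix trie at vertex `i`. -/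
theorem row_change {n : ℕ} {B B₀ : List (List α × α × List α)} {u : List α} {x y : α}
    {w : List α} (h : IsWd X n (u ++ x :: y :: w)) {p q : TS α}
    (hp : (autPS X n B₀).Rest (X.vtx x + 1) p) :
    nuT X ((u ++ [x], y, w) :: B) p q = nuT X B p q ∧
    mulL (IP X n (X.vtx x + 1) ++ IS X n (X.vtx x + 1)) (nuT X ((u ++ [x], y, w) :: B))
        (nuT X ((u ++ [x], y, w) :: B)) p q =
      mulL (IP X n (X.vtx x + 1) ++ IS X n (X.vtx x + 1)) (nuT X B) (nuT X B) p q +
        if p = tsrc X u x ∧ q = tdst X y w then gen S x * gen S y else 0 := by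
  have hm : TS.pre (u ++ [x]) ∈ IP X n (X.vtx x + 1) ++ IS X n (X.vtx x + 1) :=
    List.mem_append_left _ (mem_IP.2 ⟨tv_pre h.2.2, u ++ [x],
      IsWd.left (w := y :: w) (by simpa using h) (by simp), rfl⟩)
  have h1 : ∀ r, nuT X ((u ++ [x], y, w) :: B) p r = nuT X B p r := fun r => by
    rw [nuT_cons, if_neg, add_zero]
    rw [tsrc_concat]
    exact fun h' => rest_ne hp hm h'.1
  refine ⟨h1 q, ?_⟩
  simp only [mulL, h1]
  simp only [nuT_cons, mul_add, List.sum_map_add]
  congr 1
  rw [sum_single (nodup_IPS n _) hm]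
  · rw [nuT_pre, tsrc_concat]
    by_cases h2 : p = tsrc X u x <;> by_cases h3 : q = tdst X y w <;> simp [h2, h3]
  · intro r _ hr
    rw [tsrc_concat, if_neg fun h' => hr h'.1, mul_zero]

open Classical in
/-- A bridge entering a state of the suffix trie at vertex `i`. -/
theorem col_change {n : ℕ} {B B₀ : List (List α × α × List α)} {u : List α} {x y : α}
    {w : List α} (h : IsWd X n (u ++ x :: y :: w)) {p q : TS α}
    (hq : (autPS X n B₀).Rest (X.vtx x + 1) q) :
    nuT X ((u, x, y :: w) :: B) p q = nuT X B p q ∧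
    mulL (IP X n (X.vtx x + 1) ++ IS X n (X.vtx x + 1)) (nuT X ((u, x, y :: w) :: B))
        (nuT X ((u, x, y :: w) :: B)) p q =
      mulL (IP X n (X.vtx x + 1) ++ IS X n (X.vtx x + 1)) (nuT X B) (nuT X B) p q +
        if p = tsrc X u x ∧ q = tdst X y w then gen S x * gen S y else 0 := by
  have hm : TS.suf (y :: w) ∈ IP X n (X.vtx x + 1) ++ IS X n (X.vtx x + 1) :=
    List.mem_append_right _ (mem_IS.2 ⟨tv_tdst h.2.2, y :: w,
      IsWd.right (u := u ++ [x]) (by simpa using h) (by simp), rfl⟩)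
  have h1 : ∀ r, nuT X ((u, x, y :: w) :: B) r q = nuT X B r q := fun r => by
    rw [nuT_cons, if_neg, add_zero]
    exact fun h' => rest_ne hq hm h'.2
  refine ⟨h1 p, ?_⟩
  simp only [mulL, h1]
  simp only [nuT_cons, add_mul, List.sum_map_add]
  congr 1
  rw [sum_single (nodup_IPS n _) hm]
  · rw [nuT_suf]
    by_cases h2 : p = tsrc X u x <;> by_cases h3 : q = tdst X y w <;> simp [h2, h3, tdst]
  · intro r _ hr
    rw [if_neg fun h' => hr h'.2, zero_mul]

end Move

theorem moveStmt (X : Vtx S) {G : Type} [Group G] {E : StG (Jsp X) G} (τ : Tr E)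
    (Λ : Lev (Alg S)) (hK : TokStmt X Λ) (hI : InvAStmt τ Λ) : MoveStmt X τ Λ := by
  refine ⟨fun n B u x y w hB => ?_, fun n B u a b c d w hB hc hd hg => ?_,
    fun n B u a b w hB hg => ?_⟩
  · have h : IsWd X n (u ++ x :: y :: w) := hB _ List.mem_cons_self
    have hB' : BOK X n ((u ++ [x], y, w) :: B) := by
      intro t ht
      rcases List.mem_cons.1 ht with rfl | ht
      · simpa [bw] using h
      · exact hB t (List.mem_cons_of_mem _ ht)
    refine hI _ _ _ (X.vtx x + 1) (hK n _ hB).2 (hK n _ hB').2 rfl (fun _ _ => rfl)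
      (fun p q hp hq => ?_) (fun p q hp hq _ _ => ?_)
    · exact (row_change h hp).1.trans (col_change h hq).1.symm
    · exact (row_change h hp).2.trans (col_change h hq).2.symm
  · have h : IsWd X n (u ++ a :: b :: w) := by simpa [bw] using hB _ List.mem_cons_self
    have h' : IsWd X n (u ++ c :: d :: w) := by
      obtain ⟨-, h1, i, j, h2⟩ := isWd_iff.1 h
      refine isWd_iff.2 ⟨by simp, by simpa using h1, i, j, ?_⟩
      simpa [valid_append_iff, Valid, hc, hd] using h2
    have hB' : BOK X n ((u ++ [c], d, w) :: B) := by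
      intro t ht
      rcases List.mem_cons.1 ht with rfl | ht
      · simpa [bw] using h'
      · exact hB t (List.mem_cons_of_mem _ ht)
    refine hI _ _ _ (X.vtx a + 1) (hK n _ hB).2 (hK n _ hB').2 rfl (fun _ _ => rfl)
      (fun p q hp hq => ?_) (fun p q hp hq _ _ => ?_)
    · exact (row_change h' (by rw [hc]; exact hp)).1.trans (row_change h hp).1.symm
    · have e := (row_change (B := B) (q := q) h' (by rw [hc]; exact hp)).2
      rw [hc, tsrc_congr u hc, tdst_congr hd, ← hg] at e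
      exact e.trans (row_change h hp).2.symm
  · have h : IsWd X n (u ++ a :: b :: w) := by simpa [bw] using hB _ List.mem_cons_self
    have hB' : BOK X n B := fun t ht => hB t (List.mem_cons_of_mem _ ht)
    refine hI _ _ _ (X.vtx a + 1) (hK n _ hB').2 (hK n _ hB).2 rfl (fun _ _ => rfl)
      (fun p q hp hq => ?_) (fun p q hp hq _ _ => ?_)
    · exact (row_change h hp).1
    · have e := (row_change (B := B) (q := q) h hp).2
      rw [hg, ite_self, add_zero] at e
      exact e

end Crest.Agent.R176
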