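import Crest.Agent.R176.Alg

/-! Row 176: matrices over the augmentation ideal are nilpotent. -/

set_option autoImplicit false

namespace Crest.Agent.R176

open Polynomial

variable {α : Type}

namespace Nil

variable {R : Type} [Ring R]

/-- the monomial of a word -/
def mn (g : α → R) (w : List α) : R := (w.map g).prod

section
variable [Fintype α] {S : Sys α} {M T : Type} [Semiring M] [Semiring T] (Φ : M →+* T) (Ψ : R →+* T)
  (g : α → R)

theorem pow_eq (hc : ∀ a r, Commute (Ψ r) (Φ a)) (ρ : α → M) (N : ℕ) :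
    (∑ x, Φ (ρ x) * Ψ (g x)) ^ N =
      ∑ f : Fin N → α, Φ ((List.ofFn f).map ρ).prod * Ψ (mn g (List.ofFn f)) := by
  induction N with
  | zero => simp [mn]
  | succ N ih =>
    rw [pow_succ', ih, Finset.sum_mul_sum, ← Fintype.sum_prod_type']
    refine Fintype.sum_equiv (Fin.consEquiv fun _ => α) _ _ fun p => ?_
    obtain ⟨x, f⟩ := p
    have e : List.ofFn ((Fin.consEquiv fun _ => α) (x, f)) = x :: List.ofFn f := by
      simp [List.ofFn_succ]
    rw [e]
    simp only [mn, List.map_cons, List.prod_cons, map_mul, mul_assoc]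
    rw [← mul_assoc (Ψ _), (hc _ _).eq, mul_assoc]

open Classical in
theorem pow_eq_zero (hc : ∀ a r, Commute (Ψ r) (Φ a)) (ρ : α → M) (N : ℕ)
    (h1 : ∀ w w', S.Eqv w w' → mn g w = mn g w') (h2 : ∀ w, S.Zero w → mn g w = 0)
    (h : ∀ w : List α, w.length = N → ¬ S.Zero w →
      ∑ f ∈ (Finset.univ : Finset (Fin N → α)).filter (fun f => S.Eqv w (List.ofFn f)),
        ((List.ofFn f).map ρ).prod = 0) :
    (∑ x, Φ (ρ x) * Ψ (g x)) ^ N = 0 := by
  rw [pow_eq Φ Ψ g hc]
  let R : Setoid (Fin N → α) := ⟨fun a b => S.Eqv (List.ofFn b) (List.ofFn a),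
    fun _ => Sys.Eqv.refl _, Sys.Eqv.symm, fun h1 h2 => h2.trans h1⟩
  refine Finset.sum_cancels_of_partition_cancels R fun x _ => ?_
  have e : ∑ a ∈ Finset.univ with R a x,
      Φ ((List.ofFn a).map ρ).prod * Ψ (mn g (List.ofFn a)) =
      Φ (∑ a : Fin N → α with S.Eqv (List.ofFn x) (List.ofFn a), ((List.ofFn a).map ρ).prod) *
        Ψ (mn g (List.ofFn x)) := by
    rw [map_sum, Finset.sum_mul]
    refine Finset.sum_congr (by congr) fun a ha => ?_
    rw [h1 _ _ (Finset.mem_filter.1 ha).2]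
  rw [e]
  by_cases hz : S.Zero (List.ofFn x)
  · rw [h2 _ hz, map_zero, mul_zero]
  · rw [h _ (List.length_ofFn) hz, map_zero, zero_mul]

end

/-- words of length less than `m` -/
abbrev U (α : Type) (m : ℕ) : Type := {u : List α // u.length < m}

noncomputable instance [Fintype α] (m : ℕ) : Fintype (U α m) := (List.finite_length_lt α m).fintype

theorem sum_snoc [Fintype α] {M : Type} [AddCommMonoid M] {m : ℕ} (F : List α → M)
    (s : Finset (List α)) (hs : ∀ w ∈ s, w ≠ [] ∧ w.length ≤ m) (hF : ∀ w, w ≠ [] → w ∉ s → F w = 0) :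
    ∑ u : U α m, ∑ x, F (u.1 ++ [x]) = ∑ w ∈ s, F w := by
  classical
  rw [← Fintype.sum_prod_type' (fun (u : U α m) x => F (u.1 ++ [x])),
    ← Finset.sum_image (g := fun p : U α m × α => p.1.1 ++ [p.2]) (f := F)]
  · symm
    refine Finset.sum_subset (fun w hw => ?_) fun w hw hw' => hF w ?_ hw'
    · obtain ⟨h1, h2⟩ := hs w hw
      refine Finset.mem_image.2 ⟨(⟨w.dropLast, ?_⟩, w.getLast h1), Finset.mem_univ _,
        List.dropLast_append_getLast h1⟩
      have := List.length_pos_iff.2 h1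
      rw [List.length_dropLast]; omega
    · obtain ⟨p, -, rfl⟩ := Finset.mem_image.1 hw
      simp
  · rintro ⟨u, x⟩ - ⟨u', x'⟩ - h
    obtain ⟨h1, h2⟩ := List.append_inj' h rfl
    exact Prod.ext (Subtype.ext h1) (by simpa using h2)

theorem nil_of_inv {n : Type} [Fintype n] [DecidableEq n] (A : Matrix n n R)
    (W : Matrix n n R[X]) (h : (1 - Matrix.of fun i j => X * C (A i j)) * W = 1) :
    IsNilpotent A := by
  have h1 : ∀ i j, W i j = (1 : Matrix n n R[X]) i j + X * ∑ l, C (A i l) * W l j := fun i j => by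
    rw [← h, sub_mul, one_mul, Matrix.sub_apply, Matrix.mul_apply, Finset.mul_sum]
    simp only [Matrix.of_apply, mul_assoc, sub_add_cancel]
  have h2 : ∀ k, A ^ k = Matrix.of fun i j => (W i j).coeff k := fun k => by
    induction k with
    | zero =>
      ext i j
      rw [Matrix.of_apply, h1, coeff_add, coeff_X_mul_zero, add_zero, pow_zero, Matrix.one_apply,
        Matrix.one_apply]
      split_ifs <;> simp
    | succ k ih =>
      ext i j
      rw [pow_succ', ih, Matrix.of_apply, h1, coeff_add, coeff_X_mul, Matrix.mul_apply,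
        finsetSum_coeff, Matrix.one_apply]
      have : (if i = j then (1 : R[X]) else 0).coeff (k + 1) = 0 := by
        split_ifs <;> simp [coeff_one]
      simp [this]
  refine ⟨(Finset.univ.sup fun p : n × n => (W p.1 p.2).natDegree) + 1, ?_⟩
  rw [h2]
  ext i j
  refine coeff_eq_zero_of_natDegree_lt (Nat.lt_succ_of_le ?_)
  exact Finset.le_sup (f := fun p : n × n => (W p.1 p.2).natDegree) (Finset.mem_univ (i, j))

variable [Algebra (ZMod 2) R]

variable (R) in
/-- the coefficient map -/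
noncomputable def φ : (ZMod 2)[X] →+* R[X] := Polynomial.mapRingHom (algebraMap _ _)

theorem hφ (a : (ZMod 2)[X]) (r : R) : Commute (C r) (φ R a) := by
  induction a using Polynomial.induction_on' with
  | add p q hp hq => rw [map_add]; exact hp.add_right hq
  | monomial k a =>
    rw [φ, coe_mapRingHom, Polynomial.map_monomial, Commute, SemiconjBy, C_mul_monomial,
      monomial_mul_C, Algebra.commutes]

theorem exists_B [Fintype α] {S : Sys α} (hC : CSStmt S) (g : α → R)
    (h1 : ∀ w w', S.Eqv w w' → mn g w = mn g w') (h2 : ∀ w, S.Zero w → mn g w = 0)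
    (ι : Type) [Fintype ι] [DecidableEq ι] :
    ∃ N : ℕ, ∀ ρ : α → Matrix ι ι (ZMod 2)[X], ∃ B : Matrix ι ι R[X], B ^ N = 0 ∧
      ∀ p q, B p q = ∑ x, φ R (ρ x p q) * C (g x) := by
  obtain ⟨N, hN⟩ := hC ι
  let Φ : Matrix ι ι (ZMod 2)[X] →+* Matrix ι ι R[X] := (φ R).mapMatrix
  let Ψ : R →+* Matrix ι ι R[X] := (Matrix.scalar ι).comp C
  refine ⟨N, fun ρ => ⟨_, pow_eq_zero (S := S) Φ Ψ g
    (fun a r => Matrix.scalar_commute_iff.2 ?_) ρ N h1 h2
    (hN _ CharTwo.add_self_eq_zero ρ N le_rfl), fun p q => ?_⟩⟩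
  · ext1 p q
    exact (hφ _ _).eq
  · simp [Φ, Ψ, Matrix.sum_apply, Matrix.mul_diagonal]


theorem main [Fintype α] {S : Sys α} (hC : CSStmt S) (g : α → R)
    (h1 : ∀ w w', S.Eqv w w' → mn g w = mn g w') (h2 : ∀ w, S.Zero w → mn g w = 0) {n : ℕ}
    (A : Matrix (Fin n) (Fin n) R) (l : Fin n → Fin n → List α →₀ ZMod 2)
    (hl : ∀ i j, ∀ w ∈ (l i j).support, w ≠ [])
    (hAl : ∀ i j, A i j = ∑ w ∈ (l i j).support, l i j w • mn g w) : IsNilpotent A := by
  classical
  have hm1 : ∀ u x, mn g u * g x = mn g (u ++ [x]) := fun u x => by simp [mn]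
  have hm2 : mn g [] = 1 := rfl
  obtain ⟨m, hm0, hm⟩ : ∃ m, 0 < m ∧ ∀ i j, ∀ w ∈ (l i j).support, w.length ≤ m := by
    refine ⟨(Finset.univ.sup fun p : Fin n × Fin n => (l p.1 p.2).support.sup List.length) + 1,
      Nat.succ_pos _, fun i j w hw => Nat.le_succ_of_le ?_⟩
    exact (Finset.le_sup (f := List.length) hw).trans (Finset.le_sup
      (f := fun p : Fin n × Fin n => (l p.1 p.2).support.sup List.length) (Finset.mem_univ (i, j)))
  obtain ⟨N, hN⟩ := exists_B hC g h1 h2 (Fin n × U α m)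
  let ρ : α → Matrix (Fin n × U α m) (Fin n × U α m) (ZMod 2)[X] := fun x => Matrix.of fun p q =>
    (if p.1 = q.1 ∧ q.2.1 = p.2.1 ++ [x] then 1 else 0) +
      if q.2.1 = [] then X * C (l p.1 q.1 (p.2.1 ++ [x])) else 0
  obtain ⟨B, hB, hBe⟩ := hN ρ
  let Y : Matrix (Fin n) (Fin n × U α m) R[X] := Matrix.of fun i q =>
    if i = q.1 then C (mn g q.2.1) else 0
  let P : Matrix (Fin n × U α m) (Fin n) R[X] := Matrix.of fun q i =>
    if i = q.1 ∧ q.2.1 = [] then 1 else 0
  have hP : ∀ (Z : Matrix (Fin n) (Fin n) R[X]) i q,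
      (Z * P.transpose) i q = if q.2.1 = [] then Z i q.1 else 0 := fun Z i q => by
    rw [Matrix.mul_apply, Finset.sum_eq_single q.1 (fun k _ hk => by simp [P, hk]) (by simp)]
    simp [P]
  have hYP : Y * P = 1 := by
    ext1 i j
    rw [Matrix.mul_apply, Finset.sum_eq_single (j, ⟨[], hm0⟩) (fun q _ hq => ?_) (by simp)]
    · simp [Y, P, Matrix.one_apply, hm2]
    · have : ¬ (j = q.1 ∧ q.2.1 = []) := fun h => hq (Prod.ext h.1.symm (Subtype.ext h.2))
      simp [P, this]
  have hY : Y * (1 - B) = (1 - Matrix.of fun i j => X * C (A i j)) * P.transpose := by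
    ext1 i q
    obtain ⟨j, u'⟩ := q
    rw [hP, Matrix.mul_sub, Matrix.mul_one, Matrix.sub_apply, Matrix.mul_apply,
      Fintype.sum_prod_type, Finset.sum_eq_single i (fun k _ hk => by simp [Y, hk.symm]) (by simp)]
    have e1 : ∀ u : U α m, Y i (i, u) * B (i, u) (j, u') =
        ∑ x, (if i = j ∧ u'.1 = u.1 ++ [x] then C (mn g (u.1 ++ [x])) else 0) +
          ∑ x, if u'.1 = [] then X * C (l i j (u.1 ++ [x]) • mn g (u.1 ++ [x])) else 0 := fun u => by
      rw [hBe, ← Finset.sum_add_distrib, Finset.mul_sum]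
      refine Finset.sum_congr rfl fun x _ => ?_
      simp only [Y, Matrix.of_apply, if_true]
      rw [← mul_assoc, (hφ _ _).eq, mul_assoc, ← C_mul, hm1]
      simp only [ρ, Matrix.of_apply, map_add, add_mul]
      congr 1
      · split_ifs <;> simp
      · split_ifs
        · simp only [φ, Algebra.smul_def, map_mul, coe_mapRingHom, map_X, map_C, mul_assoc]
        · simp
    simp only [e1, Finset.sum_add_distrib]
    rw [sum_snoc (fun w => if i = j ∧ u'.1 = w then C (mn g w) else 0)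
        (if u'.1 = [] then ∅ else {u'.1}) (fun w hw => ?_) (fun w hw hw' => ?_),
      sum_snoc (fun w => if u'.1 = [] then X * C (l i j w • mn g w) else 0) (l i j).support
        (fun w hw => ⟨hl i j w hw, hm i j w hw⟩) (fun w _ hw => ?_)]
    · by_cases hu : u'.1 = []
      · simp only [hu, if_true, Finset.sum_empty, zero_add, ← Finset.mul_sum, ← map_sum, ← hAl]
        simp [Y, hu, Matrix.one_apply, hm2]
      · simp [Y, hu]
    · simp [Finsupp.notMem_support_iff.1 hw]
    · split_ifs at hw with hu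
      · simp at hw
      · rw [Finset.mem_singleton.1 hw]; exact ⟨hu, u'.2.le⟩
    · rw [if_neg]
      rintro ⟨-, rfl⟩
      simp [hw] at hw'
  refine nil_of_inv A (P.transpose * (∑ k ∈ Finset.range N, B ^ k) * P) ?_
  rw [← Matrix.mul_assoc, ← Matrix.mul_assoc, ← hY, Matrix.mul_assoc Y, mul_neg_geom_sum, hB,
    sub_zero, Matrix.mul_one, hYP]

end Nil

theorem nilStmt [Fintype α] (S : Sys α) (_hL : LiftStmt S) (_hS : SpanStmt S) (hC : CSStmt S) :
    NilStmt S := by
  classical
  intro n A hA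
  have h1 : ∀ i j, ∃ l : List α →₀ ZMod 2, (∀ w ∈ l.support, w ≠ []) ∧
      A i j = ∑ w ∈ l.support, l w • mon S w := fun i j => by
    have h := hA i j
    have e : {r | ∃ w : List α, w ≠ [] ∧ r = mon S w} = mon S '' {w | w ≠ []} := by
      ext r; simp [eq_comm]
    rw [Rpl, e, Finsupp.mem_span_image_iff_linearCombination] at h
    obtain ⟨l, hl, h⟩ := h
    exact ⟨l, fun w hw => hl hw, h.symm⟩
  choose l hl hAl using h1
  exact Nil.main hC (gen S) (fun _ _ => mon_eqv) (fun _ => mon_zero) A l hl hAl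

end Crest.Agent.R176
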