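import Crest.Agent.R176.KDefs

/-! Row 176: the Peirce data of the algebra of a system with vertices. -/

set_option autoImplicit false

namespace Crest.Agent.R176

variable {α : Type} {S : Sys α}

namespace Pr

variable {X : Vtx S}

theorem mon_mul_zero {i j k l : Z5} {u w : List α} (hu : u ≠ []) (hw : w ≠ [])
    (h : Valid X i j u) (h' : Valid X k l w) (hjk : j ≠ k) : mon S u * mon S w = 0 := by
  rw [← mon_append]
  refine mon_zero ?_
  by_contra hz
  obtain ⟨a, u, rfl⟩ := List.exists_cons_of_ne_nil hu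
  obtain ⟨b, w, rfl⟩ := List.exists_cons_of_ne_nil hw
  have h1 := valid_of_not_zero (X := X) (a := a) (w := u ++ b :: w) hz
  have h2 := (valid_append_iff (u := a :: u) (w := b :: w)).1 h1
  apply hjk
  rw [h.end_eq, ← h'.1, h2.2.1, h.1]

theorem valid_unique {i j k l : Z5} {w : List α} (hw : w ≠ []) (h : Valid X i j w)
    (h' : Valid X k l w) : k = i ∧ l = j := by
  obtain ⟨a, w, rfl⟩ := List.exists_cons_of_ne_nil hw
  have h1 : k = i := h'.1.symm.trans h.1
  exact ⟨h1, by rw [h.end_eq, h'.end_eq, h1]⟩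

theorem Jsp_le_Rpl (i j : Z5) {r : Alg S} (h : r ∈ Jsp X i j) : r ∈ Rpl S := by
  have : Jsp X i j ≤ (Rpl S).toAddSubgroup := by
    refine (AddSubgroup.closure_le _).2 ?_
    rintro _ ⟨w, hw, -, rfl⟩
    exact Submodule.subset_span ⟨w, hw, rfl⟩
  exact this h

theorem mul_mem_of {i j k l : Z5} {T : AddSubgroup (Alg S)}
    (h : ∀ u w, u ≠ [] → w ≠ [] → Valid X i j u → Valid X k l w → mon S u * mon S w ∈ T)
    {a b : Alg S} (ha : a ∈ Jsp X i j) (hb : b ∈ Jsp X k l) : a * b ∈ T := by
  refine AddSubgroup.closure_induction (p := fun a _ => a * b ∈ T) ?_ ?_ ?_ ?_ ha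
  · rintro _ ⟨u, hu, hu', rfl⟩
    refine AddSubgroup.closure_induction (p := fun b _ => mon S u * b ∈ T) ?_ ?_ ?_ ?_ hb
    · rintro _ ⟨w, hw, hw', rfl⟩
      exact h u w hu hw hu' hw'
    · simp
    · intro a b _ _ h h'; rw [mul_add]; exact add_mem h h'
    · intro a _ h; rwa [neg_eq_of_add_eq_zero_left (alg_two a)]
  · simp
  · intro a c _ _ h h'; rw [add_mul]; exact add_mem h h'
  · intro a _ h; rwa [neg_eq_of_add_eq_zero_left (alg_two a)]

end Pr

theorem prStmt (X : Vtx S) (hL : LiftStmt S) (hN : NilStmt S) : PR (Jsp X) where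
  two := alg_two
  mul_mem ha hb := Pr.mul_mem_of (fun u w hu _ h h' => by
    rw [← mon_append]
    exact mon_mem_Jsp (by simp [hu]) (valid_append h h')) ha hb
  mul_zero ha hb hjk := AddSubgroup.mem_bot.1 (Pr.mul_mem_of (fun u w hu hw h h' =>
    AddSubgroup.mem_bot.2 (Pr.mon_mul_zero hu hw h h' hjk)) ha hb)
  nil := by
    intro i a ha
    obtain ⟨n, hn⟩ := hN 1 (Matrix.scalar (Fin 1) a) fun i' j' => by
      rw [Subsingleton.elim i' j']
      simpa using Pr.Jsp_le_Rpl i i ha
    rw [← map_pow] at hn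
    exact ⟨n, by simpa using congrFun (congrFun hn 0) 0⟩
  pr := by
    classical
    intro i j
    obtain ⟨φ, hφ⟩ := hL (Alg S) (fun w => if w ≠ [] ∧ Valid X i j w then mon S w else 0)
      (fun w w' h => by
        have h1 : w ≠ [] ↔ w' ≠ [] := by
          rw [← List.length_pos_iff, ← List.length_pos_iff, h.length_eq]
        simp only [h1, Valid.step_iff h, mon_step h])
      (fun w h => by simp [mon_zpat h])
    refine ⟨φ.toAddMonoidHom, fun r hr => ?_, fun k l hkl r hr => ?_, ?_⟩
    · refine AddSubgroup.closure_induction (p := fun r _ => φ r = r) ?_ ?_ ?_ ?_ hr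
      · rintro _ ⟨w, hw, hw', rfl⟩
        rw [hφ, if_pos ⟨hw, hw'⟩]
      · simp
      · intro a b _ _ h h'; rw [map_add, h, h']
      · intro a _ h; rw [map_neg, h]
    · refine AddSubgroup.closure_induction (p := fun r _ => φ r = 0) ?_ ?_ ?_ ?_ hr
      · rintro _ ⟨w, hw, hw', rfl⟩
        rw [hφ, if_neg fun h => hkl (Pr.valid_unique hw h.2 hw')]
      · simp
      · intro a b _ _ h h'; rw [map_add, h, h', add_zero]
      · intro a _ h; rw [map_neg, h, neg_zero]
    · have := hφ []
      simpa using this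
  fact := by
    intro i j h hi hlt
    refine (AddSubgroup.closure_le _).2 ?_
    rintro _ ⟨w, hw, hw', rfl⟩
    have h1 : (j - i).val ≤ w.length := by
      rw [hw'.end_eq, add_sub_cancel_left, ZMod.val_natCast]
      exact Nat.mod_le _ _
    have h2 : 0 < (h - i).val := by
      rw [Nat.pos_iff_ne_zero, Ne, ZMod.val_eq_zero, sub_eq_zero]; exact hi
    have h3 : (w.take (h - i).val).length = (h - i).val := by
      rw [List.length_take]; omega
    have h4 := hw'
    rw [← List.take_append_drop (h - i).val w, valid_append_iff, h3, ZMod.natCast_zmod_val,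
      add_sub_cancel] at h4
    refine AddSubgroup.subset_closure ⟨_, mon_mem_Jsp ?_ h4.1, _, mon_mem_Jsp ?_ h4.2, ?_⟩
    · rw [← List.length_pos_iff, h3]; exact h2
    · rw [← List.length_pos_iff, List.length_drop]; omega
    · rw [← mon_append, List.take_append_drop]

end Crest.Agent.R176
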