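import Crest.Agent.R176.KBas1

/-! Row 176: path sums. -/

set_option autoImplicit false

namespace Crest.Agent.R176

variable {R : Type} [Ring R] {J : Z5 → Z5 → AddSubgroup R}

namespace PwAux

variable {ι : Type}

theorem pw_one (ν : ι → ι → R) (Q : Z5 → List ι) (z : Z5) : pw ν Q 1 z = ν := rfl

theorem pw_succ (ν : ι → ι → R) (Q : Z5 → List ι) (d : ℕ) (z : Z5) :
    pw ν Q (d + 2) z = mulL (Q (z + 1)) ν (pw ν Q (d + 1) (z + 1)) := rfl

theorem cast_succ2 (z : Z5) (d : ℕ) : z + ((d + 2 : ℕ) : Z5) = z + 1 + ((d + 1 : ℕ) : Z5) := by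
  push_cast; ring

theorem add (ν : ι → ι → R) (Q : Z5 → List ι) (d e : ℕ) (z : Z5) :
    pw ν Q ((d + 1) + (e + 1)) z =
      mulL (Q (z + ((d + 1 : ℕ) : Z5))) (pw ν Q (d + 1) z)
        (pw ν Q (e + 1) (z + ((d + 1 : ℕ) : Z5))) := by
  induction d generalizing z with
  | zero =>
    have e1 : 0 + 1 + (e + 1) = e + 2 := by omega
    rw [e1, pw_succ]
    simp [pw_one]
  | succ d ih =>
    have e1 : d + 1 + 1 + (e + 1) = (d + 1 + e) + 2 := by omega
    have e2 : d + 1 + e + 1 = d + 1 + (e + 1) := by omega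
    rw [e1, pw_succ, e2, ih, show d + 1 + 1 = d + 2 from rfl, pw_succ, mulL_assoc, cast_succ2]

theorem memJ (P : PR J) {Λ : Lev R} {ν : ι → ι → R} {Q : Z5 → List ι} (h : CoreOK J Λ ν Q)
    (d : ℕ) (z : Z5) : InJ J z (z + d) (Q z) (Q (z + d)) (pw ν Q d z) := by
  induction d using Nat.strong_induction_on generalizing z with
  | _ d ih =>
    match d, ih with
    | 0, _ => intro p _ q _; exact zero_mem _
    | 1, _ =>
      intro p hp q hq
      simp only [Nat.cast_one] at hq ⊢
      exact h.fit z p hp q hq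
    | d + 2, ih =>
      rw [pw_succ, cast_succ2]
      exact InJ.mulL P (h.fit z) (ih (d + 1) (by omega) (z + 1))

theorem memH {Λ : Lev R} (hΛ : LevOK J Λ) {ν : ι → ι → R} {Q : Z5 → List ι}
    (h : CoreOK J Λ ν Q) (d : ℕ) (z : Z5) :
    ∀ p ∈ Q z, ∀ q ∈ Q (z + d), pw ν Q d z p q ∈ Λ.Hm d := by
  induction d using Nat.strong_induction_on generalizing z with
  | _ d ih =>
    match d, ih with
    | 0, _ => intro p _ q _; exact zero_mem _
    | 1, _ =>
      intro p hp q hq
      simp only [Nat.cast_one] at hq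
      exact h.deg z p hp q hq
    | d + 2, ih =>
      intro p hp q hq
      rw [cast_succ2] at hq
      rw [pw_succ]
      refine mulL_mem _ fun r hr => ?_
      have := hΛ.Hm_mul (h.deg z p hp r hr) (ih (d + 1) (by omega) (z + 1) r hr q hq)
      rwa [show 1 + (d + 1) = d + 2 by omega] at this

theorem acyc {ν : ι → ι → R} {Q : Z5 → List ι} (rk : ι → ℕ)
    (h : ∀ z, ∀ p ∈ Q z, ∀ q ∈ Q (z + 1), ν p q ≠ 0 → rk p < rk q) (d : ℕ) (z : Z5) :
    ∀ p ∈ Q z, ∀ q ∈ Q (z + d), pw ν Q d z p q ≠ 0 → rk p < rk q := by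
  induction d using Nat.strong_induction_on generalizing z with
  | _ d ih =>
    match d, ih with
    | 0, _ => intro p _ q _ h0; exact absurd rfl h0
    | 1, _ =>
      intro p hp q hq
      simp only [Nat.cast_one] at hq
      exact h z p hp q hq
    | d + 2, ih =>
      intro p hp q hq h0
      rw [cast_succ2] at hq
      rw [pw_succ] at h0
      by_contra hlt
      refine h0 (mulL_eq_zero fun r hr => ?_)
      by_cases h1 : ν p r = 0
      · rw [h1, zero_mul]
      by_cases h2 : pw ν Q (d + 1) (z + 1) r q = 0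
      · rw [h2, mul_zero]
      exact absurd ((h z p hp r hr h1).trans (ih (d + 1) (by omega) (z + 1) r hr q hq h2)) hlt

theorem onev {i : Z5} {ν ν' : ι → ι → R} {Q Q' : Z5 → List ι} (h : OneV i ν ν' Q Q')
    (d : ℕ) (z : Z5) (hz : z ≠ i) (hd : z + d ≠ i) :
    ∀ p ∈ Q z, ∀ q ∈ Q (z + d), pw ν' Q' d z p q = pw ν Q d z p q := by
  have two : ∀ z : Z5, z + 1 = i → ∀ p ∈ Q z, ∀ q ∈ Q (z + 2),
      pw ν' Q' 2 z p q = pw ν Q 2 z p q := by
    intro z hz1 p hp q hq
    have e1 : i - 1 = z := by rw [← hz1]; ring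
    have e2 : i + 1 = z + 2 := by rw [← hz1]; ring
    have := h.hm p (by rw [e1]; exact hp) q (by rw [e2]; exact hq)
    rw [show (2 : ℕ) = 0 + 2 from rfl, pw_succ, pw_succ, hz1]
    exact this
  induction d using Nat.strong_induction_on generalizing z with
  | _ d ih =>
    match d, ih, hd with
    | 0, _, _ => intro p _ q _; rfl
    | 1, _, hd =>
      intro p hp q hq
      simp only [Nat.cast_one] at hq hd
      exact h.hν z hz hd p hp q hq
    | d + 2, ih, hd =>
      intro p hp q hq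
      by_cases h1 : z + 1 = i
      · match d, ih, hd, hq with
        | 0, _, _, hq => exact two z h1 p hp q (by simpa using hq)
        | d + 1, ih, hd, hq =>
          have h2 : z + ((1 + 1 : ℕ) : Z5) ≠ i := by
            rw [← h1]; intro h3
            have : z + ((1 + 1 : ℕ) : Z5) - (z + 1) = 1 := by push_cast; ring
            rw [h3, sub_self] at this
            exact absurd this (by decide)
          have e3 : z + ((d + 1 + 2 : ℕ) : Z5) = z + ((1 + 1 : ℕ) : Z5) + ((d + 1 : ℕ) : Z5) := by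
            push_cast; ring
          rw [e3] at hq hd
          rw [show d + 1 + 2 = (1 + 1) + (d + 1) by omega, add ν' Q' 1 d z, add ν Q 1 d z,
            h.hQ _ h2]
          refine mulL_congr fun r hr => ?_
          have hr2 : r ∈ Q (z + 2) := by
            have e4 : z + ((1 + 1 : ℕ) : Z5) = z + 2 := by norm_num
            rwa [e4] at hr
          rw [show 1 + 1 = 2 from rfl, two z h1 p hp r hr2]
          exact congrArg _ (ih (d + 1) (by omega) _ h2 hd r hr q hq)
      · rw [cast_succ2] at hq hd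
        rw [pw_succ, pw_succ, h.hQ _ h1]
        refine mulL_congr fun r hr => ?_
        rw [h.hν z hz h1 p hp r hr, ih (d + 1) (by omega) _ h1 hd r hr q hq]

theorem nil {Λ : Lev R} (hΛ : LevOK J Λ) {ν : ι → ι → R} {Q : Z5 → List ι}
    (h : CoreOK J Λ ν Q) : ∃ n : ℕ,
    ∀ d, n ≤ d → ∀ z : Z5, ∀ p ∈ Q z, ∀ q ∈ Q (z + d), pw ν Q d z p q = 0 := by
  classical
  let κ : Type := Σ z : Z5, Fin (Q z).length
  let st : κ → ι := fun k => (Q k.1)[k.2]
  let A : Matrix κ κ R := fun a b => if b.1 = a.1 + 1 then ν (st a) (st b) else 0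
  have hA : ∀ a b, A a b ∈ Λ.Hm 1 := by
    intro a b
    by_cases hab : b.1 = a.1 + 1
    · simp only [A, if_pos hab]
      refine h.deg a.1 _ (List.getElem_mem _) _ ?_
      rw [← hab]; exact List.getElem_mem _
    · simp only [A, if_neg hab]; exact zero_mem _
  have hN : IsNilpotent A := by
    let e := Fintype.equivFin κ
    have h1 := hΛ.nil1 _ (Matrix.reindexAlgEquiv ℤ R e A) (fun i j => hA _ _)
    have h2 := h1.map (Matrix.reindexAlgEquiv ℤ R e).symm
    rwa [AlgEquiv.symm_apply_apply] at h2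
  have key : ∀ d : ℕ, ∀ a b : κ, (A ^ (d + 1)) a b =
      if b.1 = a.1 + ((d + 1 : ℕ) : Z5) then pw ν Q (d + 1) a.1 (st a) (st b) else 0 := by
    intro d
    induction d with
    | zero => intro a b; rw [zero_add, pow_one]; simp [A, pw_one]
    | succ d ih =>
      intro a b
      rw [pow_succ', Matrix.mul_apply, Fintype.sum_sigma, Finset.sum_eq_single (a.1 + 1)]
      · simp only [ih, A, if_true]
        rw [show d + 1 + 1 = d + 2 from rfl, cast_succ2]
        split_ifs with hb
        · rw [pw_succ]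
          exact Fin.sum_univ_fun_getElem (Q (a.1 + 1))
            (fun r => ν (st a) r * pw ν Q (d + 1) (a.1 + 1) r (st b))
        · simp
      · intro z _ hz
        refine Finset.sum_eq_zero fun k _ => ?_
        simp only [A, if_neg hz, zero_mul]
      · intro h0; exact absurd (Finset.mem_univ _) h0
  obtain ⟨n, hn⟩ := hN
  refine ⟨n + 1, fun d hd z p hp q hq => ?_⟩
  obtain ⟨d, rfl⟩ : ∃ d', d = d' + 1 := ⟨d - 1, by omega⟩
  obtain ⟨a, ha, rfl⟩ := List.getElem_of_mem hp
  obtain ⟨b, hb, rfl⟩ := List.getElem_of_mem hq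
  have := key d ⟨z, ⟨a, ha⟩⟩ ⟨z + ((d + 1 : ℕ) : Z5), ⟨b, hb⟩⟩
  rw [if_pos rfl, pow_eq_zero_of_le (show n ≤ d + 1 by omega) hn] at this
  exact this.symm

end PwAux

theorem pwFacts (P : PR J) {Λ : Lev R} (hΛ : LevOK J Λ) : PwFacts J Λ where
  add ν Q d e z hd he := by
    obtain ⟨d, rfl⟩ : ∃ d', d = d' + 1 := ⟨d - 1, by omega⟩
    obtain ⟨e, rfl⟩ : ∃ e', e = e' + 1 := ⟨e - 1, by omega⟩
    exact PwAux.add ν Q d e z
  memJ h := PwAux.memJ P h
  memH h := PwAux.memH hΛ h
  nil h := PwAux.nil hΛ h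
  onev h := PwAux.onev h
  acyc rk h := PwAux.acyc rk h

end Crest.Agent.R176
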