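import Crest.Agent.R176.KBas1

/-! Row 176: the square lemma. -/

set_option autoImplicit false

namespace Crest.Agent.R176

variable {R : Type} [Ring R] {J : Z5 → Z5 → AddSubgroup R} {Λ : Lev R}

namespace Sq

variable {ι : Type} {ν : ι → ι → R} {Q : Z5 → List ι}

theorem N_cast (hΛ : LevOK J Λ) (l : ℕ) : ((Λ.N l : ℕ) : Z5) = 0 := by
  rw [ZMod.natCast_eq_zero_iff]
  induction l with
  | zero => rw [hΛ.N_zero]
  | succ l ih => exact ih.trans (hΛ.N_dvd l)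

theorem prj_mul_prj (hΛ : LevOK J Λ) (l c c' : ℕ) {d e : ℕ} {x y : R} (hx : x ∈ Λ.Hm d)
    (hd : Λ.lam l ≤ d) (hy : y ∈ Λ.Hm e) (he : Λ.lam l ≤ e) :
    Λ.prj l c x * Λ.prj l c' y = if c + d ≡ c' [MOD Λ.N l] then Λ.prj l c (x * y) else 0 := by
  rw [← hΛ.prj_left l c hx hd (hΛ.prj_Hm l c' hy), hΛ.prj_right l c hx (hΛ.prj_Hm l c' hy) he,
    hΛ.prj_prj, hΛ.prj_right l c hx hy he]
  split_ifs <;> simp

theorem pw_split (hW : PwFacts J Λ) (f : R →+ R) {d e n : ℕ} {x y : Z5} (hd : 0 < d) (he : 0 < e)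
    (hn : n = d + e) (hy : y = x + d) (p r : ι) :
    f (pw ν Q n x p r) = ((Q y).map fun q => f (pw ν Q d x p q * pw ν Q e y q r)).sum := by
  subst hn hy
  rw [hW.add ν Q d e x hd he, map_mulL]

theorem memH (hW : PwFacts J Λ) (hC : CoreOK J Λ ν Q) (d : ℕ) {x y : Z5} (hy : y = x + d)
    {p q : ι} (hp : p ∈ Q x) (hq : q ∈ Q y) : pw ν Q d x p q ∈ Λ.Hm d := by
  subst hy; exact hW.memH hC d x p hp q hq

theorem memJ (hW : PwFacts J Λ) (hC : CoreOK J Λ ν Q) (d : ℕ) {x y : Z5} (hy : y = x + d)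
    {p q : ι} (hp : p ∈ Q x) (hq : q ∈ Q y) : pw ν Q d x p q ∈ J x y := by
  subst hy; exact hW.memJ hC d x p hp q hq

theorem sumL (hΛ : LevOK J Λ) (hW : PwFacts J Λ) (hC : CoreOK J Λ ν Q) (l c : ℕ) {d e n : ℕ}
    {x y t : Z5} (hd : 0 < d) (he : 0 < e) (hl : Λ.lam l ≤ d) (hn : n = d + e) (hy : y = x + d)
    (ht : t = y + e) {p r : ι} (hp : p ∈ Q x) (hr : r ∈ Q t) :
    ((Q y).map fun q => Λ.prj l c (pw ν Q d x p q) * pw ν Q e y q r).sum =
      Λ.prj l c (pw ν Q n x p r) := by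
  rw [pw_split hW _ hd he hn hy]
  refine congrArg List.sum (List.map_congr_left fun q hq => ?_)
  rw [hΛ.prj_left l c (memH hW hC d hy hp hq) hl (memH hW hC e ht hq hr)]

theorem sumR (hΛ : LevOK J Λ) (hW : PwFacts J Λ) (hC : CoreOK J Λ ν Q) (l c : ℕ) {c' d e n : ℕ}
    {x y t : Z5} (hd : 0 < d) (he : 0 < e) (hl : Λ.lam l ≤ e) (hn : n = d + e) (hc : c' = c + d)
    (hy : y = x + d) (ht : t = y + e) {p r : ι} (hp : p ∈ Q x) (hr : r ∈ Q t) :
    ((Q y).map fun q => pw ν Q d x p q * Λ.prj l c' (pw ν Q e y q r)).sum =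
      Λ.prj l c (pw ν Q n x p r) := by
  rw [pw_split hW _ hd he hn hy, hc]
  refine congrArg List.sum (List.map_congr_left fun q hq => ?_)
  rw [hΛ.prj_right l c (memH hW hC d hy hp hq) (memH hW hC e ht hq hr) hl]

theorem sumB (hΛ : LevOK J Λ) (hW : PwFacts J Λ) (hC : CoreOK J Λ ν Q) (l c c' : ℕ) {d e n : ℕ}
    {x y t : Z5} (hd : 0 < d) (he : 0 < e) (hl : Λ.lam l ≤ d) (hl' : Λ.lam l ≤ e) (hn : n = d + e)
    (hy : y = x + d) (ht : t = y + e) {p r : ι} (hp : p ∈ Q x) (hr : r ∈ Q t) :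
    ((Q y).map fun q => Λ.prj l c (pw ν Q d x p q) * Λ.prj l c' (pw ν Q e y q r)).sum =
      if c + d ≡ c' [MOD Λ.N l] then Λ.prj l c (pw ν Q n x p r) else 0 := by
  rw [pw_split hW _ hd he hn hy, List.map_congr_left fun q hq =>
    prj_mul_prj hΛ l c c' (memH hW hC d hy hp hq) hl (memH hW hC e ht hq hr) hl']
  split_ifs <;> simp

theorem lam_pos (hΛ : LevOK J Λ) (l : ℕ) : 0 < Λ.lam l := by
  induction l with
  | zero => rw [hΛ.lam_zero]; exact one_pos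
  | succ l ih => exact ih.trans_le (hΛ.lam_mono l)

theorem cyc_eq (hΛ : LevOK J Λ) (hW : PwFacts J Λ) (hC : CoreOK J Λ ν Q) (l c : ℕ) {N : ℕ}
    (hN : ((N : ℕ) : Z5) = 0) (hl : Λ.lam l + 1 ≤ N) (x : Z5) (k : ℕ) :
    ∀ h ∈ Q (x + 1), ∀ p ∈ Q x,
      cycProd (Q x) (Q (x + 1)) ν (fun k h p => Λ.prj l (c + k * N) (pw ν Q (N - 1) (x + 1) h p))
        k h p = Λ.prj l c (pw ν Q ((k + 1) * N - 1) (x + 1) h p) := by
  have hp := lam_pos hΛ l
  have hN1 : ∀ m : ℕ, x = x + 1 + (((m + 1) * N - 1 : ℕ) : Z5) := fun m => by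
    rw [Nat.cast_sub (by nlinarith)]; push_cast; rw [hN]; ring
  induction k with
  | zero => intro h _ p _; simp [cycProd]
  | succ k ih =>
    intro h hh p hp'
    have hkN : N ≤ (k + 1) * N := by nlinarith
    have h1 : ∀ q ∈ Q (x + 1), mulL (Q x) (cycProd (Q x) (Q (x + 1)) ν
        (fun k h p => Λ.prj l (c + k * N) (pw ν Q (N - 1) (x + 1) h p)) k) ν h q =
        Λ.prj l c (pw ν Q ((k + 1) * N) (x + 1) h q) := fun q hq => by
      rw [← sumL hΛ hW hC l c (d := (k + 1) * N - 1) (e := 1) (by omega) one_pos (by omega)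
        (by omega) (hN1 k) (by simp) hh hq]
      exact congrArg List.sum (List.map_congr_left fun r hr => by rw [ih h hh r hr]; rfl)
    have h2 := sumB hΛ hW hC l c (c + (k + 1) * N) (d := (k + 1) * N) (e := N - 1)
      (n := (k + 1 + 1) * N - 1) (x := x + 1) (y := x + 1) (t := x) (by omega) (by omega) (by omega)
      (by omega) (by rw [add_mul (k + 1)]; omega) (by push_cast; rw [hN]; ring)
      (by simpa using hN1 0) hh hp'
    rw [if_pos (Nat.ModEq.refl _)] at h2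
    rw [← h2]
    exact congrArg List.sum (List.map_congr_left fun q hq => by rw [h1 q hq])

theorem mod_iff {N K z k k' : ℕ} (hN : 0 < N) (hk : k < K) :
    z + (k' + 1) * N ≡ z + k * N [MOD K * N] ↔ k = (k' + 1) % K := by
  rw [Nat.ModEq.add_iff_left (Nat.ModEq.refl z), Nat.ModEq.mul_right_cancel_iff' hN.ne',
    Nat.ModEq, Nat.mod_eq_of_lt hk, eq_comm]

end Sq

open Sq in
theorem sqStmt (P : PR J) {G : Type} [Group G] {E : StG J G} (hΛ : LevOK J Λ) (hW : PwFacts J Λ)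
    {τ : Tr E} (hD : DDFacts τ) (hC : CycStmt τ) : SqStmt τ Λ := by
  intro ι ν Q hQ l z
  have _ := P
  have hN0 := N_cast hΛ l
  have hlo := hΛ.dd_lo l
  have hhi := hΛ.dd_hi l
  have hlp := lam_pos hΛ (l + 1)
  have hNp := hΛ.N_pos l
  have hKN : Λ.N (l + 1) = Λ.N (l + 1) / Λ.N l * Λ.N l := (Nat.div_mul_cancel (hΛ.N_dvd l)).symm
  have hK : 0 < Λ.N (l + 1) / Λ.N l := Nat.div_pos (Nat.le_of_dvd (hΛ.N_pos _) (hΛ.N_dvd l)) hNp
  have hδ : ((Λ.dd l : ℕ) : Z5) = 2 ∨ ((Λ.dd l : ℕ) : Z5) = 3 := by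
    rw [← ZMod.natCast_mod (Λ.dd l) 5, hΛ.dd_mod]
    split_ifs
    · left; rfl
    · right; rfl
  have hsucc : ∀ {x : R}, x ∈ Λ.Hm (Λ.N l - 1) → Λ.prj l (z + 1) x =
      ∑ k ∈ Finset.range (Λ.N (l + 1) / Λ.N l), Λ.prj (l + 1) (z + 1 + k * Λ.N l) x :=
    fun hx => hΛ.prj_succ l (z + 1) hx (by omega)
  simp only [Trn, Rg, Nat.cast_add, Nat.cast_one]
  rw [add_right_comm (z : Z5) 1 (Λ.dd l : Z5)]
  generalize Λ.N (l + 1) / Λ.N l = K at *
  generalize hN' : Λ.N (l + 1) = N' at *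
  generalize Λ.N l = N at *
  generalize Λ.dd l = d at *
  generalize (z : Z5) = w
  have c1 : w = w + d + 1 + ((N - d - 1 : ℕ) : Z5) := by
    rw [Nat.cast_sub (by omega), Nat.cast_sub (by omega), hN0]; push_cast; ring
  have c2 : w = w + d + ((N - d : ℕ) : Z5) := by
    rw [Nat.cast_sub (by omega), hN0]; ring
  have c3 : w = w + 1 + ((N - 1 : ℕ) : Z5) := by
    rw [Nat.cast_sub (by omega), hN0]; push_cast; ring
  have c4 : w + d = w + d + 1 + ((N - 1 : ℕ) : Z5) := by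
    rw [Nat.cast_sub (by omega), hN0]; push_cast; ring
  have c5 : w + 1 = w + d + 1 + ((N - d : ℕ) : Z5) := by
    rw [Nat.cast_sub (by omega), hN0]; ring
  have c6 : w + d + 1 = w + 1 + d := by ring
  have c7 : w + d + 1 = w + ((d + 1 : ℕ) : Z5) := by push_cast; ring
  have c8 : ∀ x : Z5, x + 1 = x + ((1 : ℕ) : Z5) := fun x => by simp
  have n1 : ∀ x : Z5, x ≠ x + 1 := by decide
  obtain ⟨n2, n3, n4⟩ := (by decide : ∀ x y : Z5, y = 2 ∨ y = 3 →
    x + 1 ≠ x + y + 1 ∧ x ≠ x + y + 1 ∧ x ≠ x + y) w d hδ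
  have fst : ∀ {x : Z5} {p : ι × ℕ}, p ∈ cblk K (Q x) → p.1 ∈ Q x := fun h => ((mem_cblk hK).1 h).1
  have snd : ∀ {x : Z5} {p : ι × ℕ}, p ∈ cblk K (Q x) → p.2 < K := fun h => ((mem_cblk hK).1 h).2
  -- the matrices
  set c : ι × ℕ → ι → R := fun hk p =>
    Λ.prj (l + 1) (z + 1 + d + hk.2 * N) (pw ν Q (N - d - 1) (w + d + 1) hk.1 p) with hc
  set ab : ι → ι × ℕ → R := fun p hk =>
    Λ.prj (l + 1) (z + hk.2 * N) (pw ν Q (d + 1) w p hk.1) with hab
  set b₁ : ι → ι × ℕ → R := fun p hk =>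
    Λ.prj (l + 1) (z + 1 + hk.2 * N) (pw ν Q d (w + 1) p hk.1) with hb₁
  set a₂ : ι → ι × ℕ → R := fun p hk =>
    Λ.prj (l + 1) (z + hk.2 * N) (pw ν Q d w p hk.1) with ha₂
  set b₂ : ι × ℕ → ι × ℕ → R := fun p q => if p.2 = q.2 then ν p.1 q.1 else 0 with hb₂
  set γ : ℕ → ι → ι → R := fun k h p =>
    Λ.prj (l + 1) (z + d + 1 + k * N) (pw ν Q (N - 1) (w + d + 1) h p) with hγ
  have Jν : ∀ x, InJ J x (x + 1) (Q x) (Q (x + 1)) ν := fun x => hQ.fit x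
  have Jc : InJ J (w + d + 1) w (cblk K (Q (w + d + 1))) (Q w) c := fun _ h _ h' =>
    hΛ.prj_J _ _ (memJ hW hQ _ c1 (fst h) h')
  have Jab : InJ J w (w + d + 1) (Q w) (cblk K (Q (w + d + 1))) ab := fun _ h _ h' =>
    hΛ.prj_J _ _ (memJ hW hQ _ c7 h (fst h'))
  have Jb₁ : InJ J (w + 1) (w + d + 1) (Q (w + 1)) (cblk K (Q (w + d + 1))) b₁ := fun _ h _ h' =>
    hΛ.prj_J _ _ (memJ hW hQ _ c6 h (fst h'))
  have Ja₂ : InJ J w (w + d) (Q w) (cblk K (Q (w + d))) a₂ := fun _ h _ h' =>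
    hΛ.prj_J _ _ (memJ hW hQ _ rfl h (fst h'))
  have Jb₂ : InJ J (w + d) (w + d + 1) (cblk K (Q (w + d))) (cblk K (Q (w + d + 1))) b₂ :=
    fun p h q h' => by
      simp only [hb₂]
      split_ifs
      · exact hQ.fit _ _ (fst h) _ (fst h')
      · exact zero_mem _
  have Jγ : ∀ k, InJ J (w + d + 1) (w + d) (Q (w + d + 1)) (Q (w + d)) (γ k) := fun _ _ h _ h' =>
    hΛ.prj_J _ _ (memJ hW hQ _ c4 h h')
  have H1 := hD.hex (n1 w) n2 n3 (Jν w) Jb₁ Jc
  have H2 := hD.hex n4 (n1 _) n3 Ja₂ Jb₂ Jc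
  rw [hD.congr (a := ab) (b := c) n3 Jab Jc (fun p hp q hq => ?_) fun _ _ _ _ => rfl] at H1 H2
  · rw [← hD.congr n2 Jb₁ (b' := mulL (Q w) c ν) (fun _ h _ h' =>
        hΛ.prj_J _ _ (memJ hW hQ _ c5 (fst h) h')) (fun _ _ _ _ => rfl) fun q hq p hp => ?_,
      ← hD.congr (n1 w) (Jν w) (b' := mulL (cblk K (Q (w + d + 1))) b₁ c) (fun _ h _ h' =>
        hΛ.prj_J _ _ (memJ hW hQ _ c3 h h')) (fun _ _ _ _ => rfl) fun q hq p hp => ?_,
      ← hD.congr n4 Ja₂ (b' := mulL (cblk K (Q (w + d + 1))) b₂ c) (fun _ h _ h' =>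
        hΛ.prj_J _ _ (memJ hW hQ _ c2 (fst h) h')) (fun _ _ _ _ => rfl) fun q hq p hp => ?_,
      ← H1, H2]
    · congr 1
      have Jγ' : InJ J (w + d + 1) (w + d) (cblk K (Q (w + d + 1))) (cblk K (Q (w + d)))
          (fun q p => if p.2 = (q.2 + 1) % K then γ q.2 q.1 p.1 else 0) := fun q h p h' => by
        dsimp only
        split_ifs
        · exact Jγ _ _ (fst h) _ (fst h')
        · exact zero_mem _
      rw [hD.congr (n1 _) Jb₂ Jγ' (fun _ _ _ _ => rfl) fun q hq p hp => ?_,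
        hC ι ι _ _ _ _ ν γ K hK (n1 _) (Jν _) Jγ]
      · refine hD.congr (n1 _) (Jν _) (fun _ h _ h' => hΛ.prj_J _ _ (memJ hW hQ _ ?_ h h'))
          (fun _ _ _ _ => rfl) fun q hq p hp => ?_
        · rw [Nat.cast_sub (by rw [hKN]; nlinarith), hKN]; push_cast; rw [hN0]; ring
        · rw [hγ, cyc_eq hΛ hW hQ (l + 1) (z + d + 1) hN0 (by omega) (w + d) (K - 1) q hq p hp,
            Nat.sub_add_cancel hK, hKN]
      · refine (sumB hΛ hW hQ (l + 1) _ _ (n := N - 1) (by omega) (by omega) (by omega) (by omega)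
          (by omega) c1 rfl (fst hq) (fst hp)).trans ?_
        have e : z + 1 + d + q.2 * N + (N - d - 1) = z + (q.2 + 1) * N := by
          rw [add_mul]; omega
        rw [e, hN', hKN, add_right_comm z 1 d]
        simp only [mod_iff hNp (snd hp), hγ]
    · rw [mulL, sum_cblk hK, Finset.sum_eq_single q.2 (fun k _ hk => by simp [hb₂, Ne.symm hk])
        fun h => absurd (Finset.mem_range.2 (snd hq)) h]
      simp only [hb₂, if_true, hc]
      exact sumR hΛ hW hQ (l + 1) _ (d := 1) one_pos (by omega) (by omega) (by omega) (by omega)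
        (c8 _) c1 (fst hq) hp
    · rw [mulL, sum_cblk hK, hsucc (memH hW hQ _ c3 hq hp)]
      refine Finset.sum_congr rfl fun k _ => ?_
      refine (sumB hΛ hW hQ (l + 1) (z + 1 + k * N) (z + 1 + d + k * N) (n := N - 1) (by omega)
        (by omega) (by omega) (by omega) (by omega) c6 c1 hq hp).trans (if_pos ?_)
      rw [add_right_comm]
    · exact sumL hΛ hW hQ (l + 1) _ (e := 1) (by omega) one_pos (by omega) (by omega) c1 (c8 _)
        (fst hq) hp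
  · rw [mulL, sum_cblk hK, Finset.sum_eq_single q.2 (fun k _ hk => by simp [hb₂, hk])
      fun h => absurd (Finset.mem_range.2 (snd hq)) h]
    simp only [hb₂, if_true, ha₂]
    exact sumL hΛ hW hQ (l + 1) _ (e := 1) (by omega) one_pos (by omega) rfl rfl (c8 _) hp (fst hq)
  · exact sumR hΛ hW hQ (l + 1) _ (d := 1) one_pos (by omega) (by omega) (by omega) (by omega)
      (c8 _) c6 hp (fst hq)

end Crest.Agent.R176
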