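import Crest.Agent.R176.KBasic

/-! Row 176: existence of a coherent system of transports. -/

set_option autoImplicit false

open scoped commutatorElement

namespace Crest.Agent.R176

variable {R : Type} [Ring R] {J : Z5 → Z5 → AddSubgroup R}

namespace Swap

variable {ι : Type}

/-- insertion -/
def ins (v : ι → Z5) (q : ι) : List ι → List ι
  | [] => [q]
  | s :: σ => if (v s).val < (v q).val then s :: ins v q σ else q :: s :: σ

/-- insertion sort by vertex -/
def srt (v : ι → Z5) : List ι → List ι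
  | [] => []
  | q :: L => ins v q (srt v L)

theorem mem_ins {v : ι → Z5} {q p : ι} {σ : List ι} : p ∈ ins v q σ ↔ p = q ∨ p ∈ σ := by
  induction σ with
  | nil => simp [ins]
  | cons s σ ih =>
    unfold ins
    split_ifs
    · simp only [List.mem_cons, ih]
      tauto
    · simp only [List.mem_cons]

theorem mem_srt {v : ι → Z5} {p : ι} {L : List ι} : p ∈ srt v L ↔ p ∈ L := by
  induction L with
  | nil => simp [srt]
  | cons q L ih => simp only [srt, mem_ins, ih, List.mem_cons]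

theorem ins_lt {v : ι → Z5} {q s : ι} (σ : List ι) (h : (v s).val < (v q).val) :
    ins v q (s :: σ) = s :: ins v q σ := by
  rw [ins, if_pos h]

theorem ins_ge {v : ι → Z5} {q s : ι} (σ : List ι) (h : ¬ (v s).val < (v q).val) :
    ins v q (s :: σ) = q :: s :: σ := by
  rw [ins, if_neg h]

theorem ins_comm_lt {v : ι → Z5} {q r : ι} (h : (v q).val < (v r).val) (σ : List ι) :
    ins v q (ins v r σ) = ins v r (ins v q σ) := by
  have h' : ¬ (v r).val < (v q).val := by omega
  induction σ with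
  | nil =>
    show ins v q [r] = ins v r [q]
    rw [ins_ge _ h', ins_lt _ h]
    rfl
  | cons s σ ih =>
    by_cases h1 : (v s).val < (v q).val
    · have h2 : (v s).val < (v r).val := h1.trans h
      rw [ins_lt _ h2, ins_lt _ h1, ins_lt _ h1, ins_lt _ h2, ih]
    · by_cases h2 : (v s).val < (v r).val
      · rw [ins_lt _ h2, ins_ge _ h1, ins_ge _ h1, ins_lt _ h, ins_lt _ h2]
      · rw [ins_ge _ h2, ins_ge _ h', ins_ge _ h1, ins_lt _ h, ins_ge _ h2]

theorem val_lt_or {a b : Z5} (h : a ≠ b) : a.val < b.val ∨ b.val < a.val :=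
  lt_or_gt_of_ne fun h' => h (ZMod.val_injective 5 h')

theorem ne_of_val_lt {a b : Z5} (h : a.val < b.val) : a ≠ b := by
  rintro rfl
  exact lt_irrefl _ h

theorem srt_sh {v : ι → Z5} {L L' : List ι} (h : Sh v L L') : srt v L = srt v L' := by
  induction h with
  | refl L => rfl
  | swap X Y q r h =>
    induction X with
    | nil =>
      show ins v q (ins v r (srt v Y)) = ins v r (ins v q (srt v Y))
      rcases val_lt_or h with h | h
      · exact ins_comm_lt h _
      · exact (ins_comm_lt h _).symm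
    | cons x X ih =>
      show ins v x (srt v (X ++ q :: r :: Y)) = ins v x (srt v (X ++ r :: q :: Y))
      rw [ih]
  | trans _ _ ih ih' => exact ih.trans ih'

variable {G : Type} [Group G] (E : StG J G)

/-- transport from `q :: σ` to `ins q σ` -/
noncomputable def bub (v : ι → Z5) (q : ι) : (ι → ι → R) → List ι → G
  | _, [] => 1
  | ν, s :: σ => if (v s).val < (v q).val then
      E.h (v s) (ν s s) * bub v q (elim s ν) σ * (E.h (v s) (ν s s))⁻¹ * E.om v ν q s else 1

/-- transport from `L` to `srt L` -/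
noncomputable def NN (v : ι → Z5) : (ι → ι → R) → List ι → G
  | _, [] => 1
  | ν, q :: L => bub E v q ν (srt v L) *
      (E.h (v q) (ν q q) * NN v (elim q ν) L * (E.h (v q) (ν q q))⁻¹)

theorem bub_nil (v : ι → Z5) (q : ι) (ν : ι → ι → R) : bub E v q ν [] = 1 := rfl

theorem bub_lt {v : ι → Z5} {q s : ι} (ν : ι → ι → R) (σ : List ι) (h : (v s).val < (v q).val) :
    bub E v q ν (s :: σ) =
      E.h (v s) (ν s s) * bub E v q (elim s ν) σ * (E.h (v s) (ν s s))⁻¹ * E.om v ν q s := by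
  rw [bub, if_pos h]

theorem bub_ge {v : ι → Z5} {q s : ι} (ν : ι → ι → R) (σ : List ι)
    (h : ¬ (v s).val < (v q).val) : bub E v q ν (s :: σ) = 1 := by
  rw [bub, if_neg h]

theorem NN_cons (v : ι → Z5) (ν : ι → ι → R) (q : ι) (L : List ι) :
    NN E v ν (q :: L) = bub E v q ν (srt v L) *
      (E.h (v q) (ν q q) * NN E v (elim q ν) L * (E.h (v q) (ν q q))⁻¹) := rfl

variable {E}

theorem bub_mem (P : PR J) (hO : OmStmt E) {v : ι → Z5} {q : ι} (σ : List ι) :
    ∀ {ν : ι → ι → R}, Fits J v ν (q :: σ) → bub E v q ν σ ∈ E.C := by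
  induction σ with
  | nil => exact fun _ => one_mem _
  | cons s σ ih =>
    intro ν hf
    by_cases h : (v s).val < (v q).val
    · rw [bub_lt E ν σ h]
      refine mul_mem (E.h_conj_mem_C P (hf s (by simp) s (by simp)) (ih ?_))
        (hO ι v ν q s (ne_of_val_lt h).symm (hf.mono (by simp)))
      exact (hf.elim P (q := s) (by simp)).mono (by simp +contextual)
    · rw [bub_ge E ν σ h]
      exact one_mem _

theorem NN_mem (P : PR J) (hO : OmStmt E) {v : ι → Z5} (L : List ι) :
    ∀ {ν : ι → ι → R}, Fits J v ν L → NN E v ν L ∈ E.C := by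
  induction L with
  | nil => exact fun _ => one_mem _
  | cons q L ih =>
    intro ν hf
    rw [NN_cons]
    refine mul_mem (bub_mem P hO _ (hf.mono ?_))
      (E.h_conj_mem_C P (hf q (by simp) q (by simp)) (ih ?_))
    · simp +contextual [mem_srt]
    · exact (hf.elim P (q := q) (by simp)).mono (by simp +contextual)

theorem peiffer (P : PR J) {v : ι → Z5} {ν : ι → ι → R} {q r : ι} (hf : Fits J v ν [q, r])
    {κ : G} (hκ : κ ∈ E.C) :
    E.om v ν q r * (E.h (v q) (ν q q) * (E.h (v r) (elim q ν r r) * κ *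
      (E.h (v r) (elim q ν r r))⁻¹) * (E.h (v q) (ν q q))⁻¹) =
    E.h (v r) (ν r r) * (E.h (v q) (elim r ν q q) * κ *
      (E.h (v q) (elim r ν q q))⁻¹) * (E.h (v r) (ν r r))⁻¹ * E.om v ν q r := by
  have h1 := E.Lam_conj P hf hκ
  have h2 := E.Lam_conj P (X := [r, q]) (hf.mono (by simp)) hκ
  simp only [StG.det, mul_one] at h1 h2
  have e1 : E.h (v q) (ν q q) * (E.h (v r) (elim q ν r r) * κ *
      (E.h (v r) (elim q ν r r))⁻¹) * (E.h (v q) (ν q q))⁻¹ =
      E.Lam v ν [q, r] * κ * (E.Lam v ν [q, r])⁻¹ := by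
    rw [h1]
    group
  have e2 : E.h (v r) (ν r r) * (E.h (v q) (elim r ν q q) * κ *
      (E.h (v q) (elim r ν q q))⁻¹) * (E.h (v r) (ν r r))⁻¹ =
      E.Lam v ν [r, q] * κ * (E.Lam v ν [r, q])⁻¹ := by
    rw [h2]
    group
  rw [e1, e2, StG.om]
  group

theorem commute_col {g : G} (hg : g ∈ E.C) (v : ι → Z5) (ν : ι → ι → R) (q : ι) (L : List ι) :
    Commute g (E.col v ν q L) := by
  refine Commute.list_prod_right _ _ fun x hx => ?_
  obtain ⟨a, -, rfl⟩ := List.mem_map.1 hx
  exact E.mem_C.1 hg _ _ _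

theorem chart_one (P : PR J) (hO : OmStmt E) {v : ι → Z5} {ν : ι → ι → R} {p a b : ι}
    (hf : Fits J v ν [p, a, b]) (ha : v a ≠ v p) (hb : v b ≠ v p) (hab : v a ≠ v b) :
    E.Lam v ν [p, b, a] = E.h (v p) (ν p p) * E.om v (elim p ν) a b * (E.h (v p) (ν p p))⁻¹ *
      E.Lam v ν [p, a, b] := by
  have hq : ∀ c ∈ [a, b], v c ≠ v p := by simp [ha, hb]
  have hp : [a, b].Perm [b, a] := List.Perm.swap _ _ _
  have hm : E.h (v p) (ν p p) * E.om v (elim p ν) a b * (E.h (v p) (ν p p))⁻¹ ∈ E.C :=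
    E.h_conj_mem_C P (hf p (by simp) p (by simp))
      (hO ι v _ a b hab ((hf.elim P (q := p) (by simp)).mono (by simp)))
  have e1 : E.Lam v ν [p, b, a] = E.col v ν p [b, a] * E.h (v p) (ν p p) *
    E.Lam v (elim p ν) [b, a] * E.row v ν p [b, a] := rfl
  have e2 : E.Lam v ν [p, a, b] = E.col v ν p [a, b] * E.h (v p) (ν p p) *
    E.Lam v (elim p ν) [a, b] * E.row v ν p [a, b] := rfl
  have e3 : E.Lam v (elim p ν) [b, a] = E.om v (elim p ν) a b * E.Lam v (elim p ν) [a, b] := by
    rw [StG.om, inv_mul_cancel_right]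
  rw [e1, e2, e3, ← E.col_perm P hf hq hp, ← E.row_perm P hf hq hp, ← mul_assoc, ← mul_assoc,
    ← mul_assoc, ← mul_assoc, (commute_col hm v ν p [a, b]).eq]
  group

theorem hexagon (P : PR J) (hO : OmStmt E) (hC : ChartStmt E) {v : ι → Z5} {ν : ι → ι → R}
    {q r s : ι} (hf : Fits J v ν [q, r, s]) (hqr : v q ≠ v r) (hqs : v q ≠ v s)
    (hrs : v r ≠ v s) :
    E.h (v s) (ν s s) * E.om v (elim s ν) q r * (E.h (v s) (ν s s))⁻¹ * E.om v ν q s *
      (E.h (v q) (ν q q) * E.om v (elim q ν) r s * (E.h (v q) (ν q q))⁻¹) =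
    E.om v ν r s * (E.h (v r) (ν r r) * E.om v (elim r ν) q s * (E.h (v r) (ν r r))⁻¹) *
      E.om v ν q r := by
  have a1 := chart_one P hO hf hqr.symm hqs.symm hrs
  have a2 := hC ι v ν q s [r] (hf.mono (by simp)) (by simp [hqr, hqs, hrs.symm])
  have a3 := chart_one P hO (p := s) (a := q) (b := r) (hf.mono (by simp)) hqs hrs hqr
  have b1 := hC ι v ν q r [s] hf (by simp [hqr, hqs, hrs])
  have b2 := chart_one P hO (p := r) (a := q) (b := s) (hf.mono (by simp)) hqr hrs.symm hqs
  have b3 := hC ι v ν r s [q] (hf.mono (by simp)) (by simp [hqr.symm, hqs.symm, hrs])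
  rw [a2, a1] at a3
  rw [b2, b1, a3] at b3
  refine mul_right_cancel (b := E.Lam v ν [q, r, s]) ?_
  simpa only [mul_assoc] using b3

theorem elim_comm' (P : PR J) {v : ι → Z5} {ν : ι → ι → R} {q r : ι} (hqr : v q ≠ v r)
    (h : Fits J v ν [q, r]) : elim r (elim q ν) = elim q (elim r ν) :=
  funext fun a => funext fun b => elim_comm P hqr h a b

theorem key (P : PR J) (hO : OmStmt E) (hC : ChartStmt E) {v : ι → Z5} {q r : ι}
    (h : (v q).val < (v r).val) (σ : List ι) : ∀ {ν : ι → ι → R}, Fits J v ν (q :: r :: σ) →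
    bub E v q ν (ins v r σ) *
      (E.h (v q) (ν q q) * bub E v r (elim q ν) σ * (E.h (v q) (ν q q))⁻¹) =
    bub E v r ν (ins v q σ) *
      (E.h (v r) (ν r r) * bub E v q (elim r ν) σ * (E.h (v r) (ν r r))⁻¹) * E.om v ν q r := by
  have h' : ¬ (v r).val < (v q).val := by omega
  induction σ with
  | nil =>
    intro ν _
    show bub E v q ν [r] * _ = bub E v r ν [q] * _ * _
    rw [bub_ge E _ _ h', bub_lt E _ _ h, E.om_symm v ν q r]
    simp only [bub_nil]
    group
  | cons s σ ih =>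
    intro ν hf
    by_cases h1 : (v s).val < (v q).val
    · have h2 : (v s).val < (v r).val := h1.trans h
      have hqs : v q ≠ v s := (ne_of_val_lt h1).symm
      have hrs : v r ≠ v s := (ne_of_val_lt h2).symm
      have fs : Fits J v (elim s ν) (q :: r :: s :: σ) := hf.elim P (by simp)
      have fqs : Fits J v ν [q, s] := hf.mono (by simp)
      have frs : Fits J v ν [r, s] := hf.mono (by simp)
      have k1 : bub E v r (elim q (elim s ν)) σ ∈ E.C :=
        bub_mem P hO σ ((fs.elim P (q := q) (by simp)).mono (by simp +contextual))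
      have k2 : bub E v q (elim r (elim s ν)) σ ∈ E.C :=
        bub_mem P hO σ ((fs.elim P (q := r) (by simp)).mono (by simp +contextual))
      have p1 := peiffer P fqs k1
      have p2 := peiffer P frs k2
      have hx := hexagon P hO hC (hf.mono (L' := [q, r, s]) (by simp)) (ne_of_val_lt h) hqs hrs
      have ih' := ih (ν := elim s ν) (fs.mono (by simp +contextual))
      rw [ins_lt _ h2, ins_lt _ h1, bub_lt E _ _ h1, bub_lt E _ _ h2, bub_lt E _ _ h2,
        bub_lt E _ _ h1, elim_comm' P hqs fqs, elim_comm' P hrs frs]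
      set hs := E.h (v s) (ν s s)
      set hq := E.h (v q) (ν q q)
      set hr := E.h (v r) (ν r r)
      set κ₁ := bub E v r (elim q (elim s ν)) σ
      set κ₂ := bub E v q (elim r (elim s ν)) σ
      set B₁ := bub E v q (elim s ν) (ins v r σ)
      set B₂ := bub E v r (elim s ν) (ins v q σ)
      set a₁ := E.h (v s) (elim q ν s s)
      set a₂ := E.h (v s) (elim r ν s s)
      set c₁ := E.h (v q) (elim s ν q q)
      set c₂ := E.h (v r) (elim s ν r r)
      calc hs * B₁ * hs⁻¹ * E.om v ν q s * (hq * (a₁ * κ₁ * a₁⁻¹ * E.om v (elim q ν) r s) * hq⁻¹)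
          = hs * B₁ * hs⁻¹ * (E.om v ν q s * (hq * (a₁ * κ₁ * a₁⁻¹) * hq⁻¹)) *
            (hq * E.om v (elim q ν) r s * hq⁻¹) := by group
        _ = hs * (B₁ * (c₁ * κ₁ * c₁⁻¹)) * hs⁻¹ * E.om v ν q s *
            (hq * E.om v (elim q ν) r s * hq⁻¹) := by rw [p1]; group
        _ = hs * B₂ * hs⁻¹ * (hs * (c₂ * κ₂ * c₂⁻¹) * hs⁻¹) *
            (hs * E.om v (elim s ν) q r * hs⁻¹ * E.om v ν q s *
            (hq * E.om v (elim q ν) r s * hq⁻¹)) := by rw [ih']; group
        _ = hs * B₂ * hs⁻¹ * (hs * (c₂ * κ₂ * c₂⁻¹) * hs⁻¹ * E.om v ν r s) *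
            (hr * E.om v (elim r ν) q s * hr⁻¹) * E.om v ν q r := by rw [hx]; group
        _ = _ := by rw [← p2]; group
    · by_cases h2 : (v s).val < (v r).val
      · rw [ins_lt _ h2, ins_ge _ h1, bub_ge E _ _ h1, bub_ge E _ _ h1, bub_lt E _ _ h,
          E.om_symm v ν q r]
        group
      · rw [ins_ge _ h2, ins_ge _ h1, bub_ge E _ _ h', bub_ge E _ _ h1, bub_lt E _ _ h,
          bub_ge E _ _ h2, E.om_symm v ν q r]
        group

theorem NN_swap (P : PR J) (hO : OmStmt E) (hC : ChartStmt E) {v : ι → Z5} {ν : ι → ι → R}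
    {q r : ι} {Y : List ι} (hf : Fits J v ν (q :: r :: Y)) (h : (v q).val < (v r).val) :
    NN E v ν (q :: r :: Y) = NN E v ν (r :: q :: Y) * E.om v ν q r := by
  have fqr : Fits J v ν [q, r] := hf.mono (by simp)
  have k : NN E v (elim q (elim r ν)) Y ∈ E.C :=
    NN_mem P hO Y (((hf.elim P (q := r) (by simp)).elim P (q := q) (by simp)).mono
      (by simp +contextual))
  have p := peiffer P fqr k
  have ky := key P hO hC h (srt v Y) (ν := ν) (hf.mono (by simp +contextual [mem_srt]))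
  rw [NN_cons, NN_cons, NN_cons, NN_cons, elim_comm' P (ne_of_val_lt h) fqr]
  show bub E v q ν (ins v r (srt v Y)) * _ = bub E v r ν (ins v q (srt v Y)) * _ * _
  set hq := E.h (v q) (ν q q)
  set hr := E.h (v r) (ν r r)
  set κ := NN E v (elim q (elim r ν)) Y
  set B₁ := bub E v q ν (ins v r (srt v Y))
  set B₂ := bub E v r ν (ins v q (srt v Y))
  set D₁ := bub E v r (elim q ν) (srt v Y)
  set D₂ := bub E v q (elim r ν) (srt v Y)
  set a₁ := E.h (v r) (elim q ν r r)
  set a₂ := E.h (v q) (elim r ν q q)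
  calc B₁ * (hq * (D₁ * (a₁ * κ * a₁⁻¹)) * hq⁻¹)
      = B₁ * (hq * D₁ * hq⁻¹) * (hq * (a₁ * κ * a₁⁻¹) * hq⁻¹) := by group
    _ = B₂ * (hr * D₂ * hr⁻¹) * (E.om v ν q r * (hq * (a₁ * κ * a₁⁻¹) * hq⁻¹)) := by
        rw [ky]; group
    _ = _ := by rw [p]; group

end Swap

/-- K-SWAP -/
theorem exists_tr (P : PR J) {G : Type} [Group G] {E : StG J G} (hO : OmStmt E)
    (hC : ChartStmt E) : Nonempty (Tr E) := by
  refine ⟨⟨fun v ν L L' => (Swap.NN E v ν L')⁻¹ * Swap.NN E v ν L, ?_, ?_, ?_, ?_⟩⟩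
  · intro ι v ν L
    exact inv_mul_cancel _
  · intro ι v ν L L' L''
    group
  · intro ι v ν q r Y hf h
    rcases Swap.val_lt_or h with h | h
    · simp only [Swap.NN_swap P hO hC hf h, inv_mul_cancel_left]
    · simp only [Swap.NN_swap P hO hC (q := r) (r := q) (Y := Y)
        (hf.mono (by simp +contextual)) h, E.om_symm v ν q r]
      group
  · intro ι v ν q L L' _ hs
    simp only [Swap.NN_cons, Swap.srt_sh hs]
    group

end Crest.Agent.R176
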