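import Crest.Agent.R176.KAut

/-! Row 176: right multiplication by a generator (`T3Stmt`). -/

set_option autoImplicit false

open scoped commutatorElement

namespace Crest.Agent.R176

variable {R : Type} [Ring R] {J : Z5 → Z5 → AddSubgroup R} {ι : Type} {G : Type} [Group G]
  {E : StG J G} {τ : Tr E} {Λ : Lev R}

namespace T3

lemma z5_cases : ∀ i z : Z5, z = i ∨ z = i + 1 ∨ z = i + 2 ∨ z = i + 3 ∨ z = i + 4 := by decide

lemma z5_ne : ∀ i : Z5, i + 1 ≠ i ∧ i + 2 ≠ i ∧ i + 3 ≠ i ∧ i + 4 ≠ i ∧ i + 2 ≠ i + 1 ∧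
    i + 3 ≠ i + 1 ∧ i + 4 ≠ i + 1 ∧ i + 3 ≠ i + 2 ∧ i + 4 ≠ i + 2 ∧ i + 4 ≠ i + 3 ∧ i - 1 ≠ i := by
  decide

lemma sh_cancel {v : ι → Z5} {Y Y' W : List ι} (h : Sh v (Y ++ W) (Y' ++ W)) : Sh v Y Y' :=
  Sh.of_filter fun z => by
    have := h.filter_eq z
    rw [List.filter_append, List.filter_append] at this
    exact List.append_cancel_right this

/-- the interior states away from `i` -/
def Rr (A : Aut ι R) (i : Z5) : List ι := A.I (i + 1) ++ A.I (i + 2) ++ A.I (i + 3) ++ A.I (i + 4)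

/-- the boundary states other than `b i` and `b (i + 1)` -/
def Vr (A : Aut ι R) (i : Z5) : List ι := [A.b (i + 2), A.b (i + 3), A.b (i + 4)]

variable {A : Aut ι R}

lemma sh_Int (h : A.OK J Λ) (i : Z5) : Sh A.v A.Int (A.I i ++ Rr A i) :=
  Sh.of_filter fun z => by
    obtain ⟨h1, h2, h3, h4, h5, h6, h7, h8, h9, h10, -⟩ := z5_ne i
    simp only [h.filter_Int, Rr, List.filter_append, h.filter_I]
    rcases z5_cases i z with rfl | rfl | rfl | rfl | rfl <;>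
      simp [h1, h2, h3, h4, h5, h6, h7, h8, h9, h10, h1.symm, h2.symm, h3.symm, h4.symm, h5.symm,
        h6.symm, h7.symm, h8.symm, h9.symm, h10.symm]

lemma sh_Vl (h : A.OK J Λ) (i : Z5) : Sh A.v A.Vl (A.b i :: (Vr A i ++ [A.b (i + 1)])) := by
  refine Sh.of_perm_nodup ?_ h.nodup_Vl
  have : ∀ i : Z5, ([0, 1, 2, 3, 4] : List Z5).Perm [i, i + 2, i + 3, i + 4, i + 1] := by decide
  exact (this i).map A.b

lemma mem_Rr (h : A.OK J Λ) {i : Z5} {p : ι} (hp : p ∈ Rr A i) : p ∈ A.Int ∧ A.v p ≠ i := by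
  obtain ⟨h1, h2, h3, h4, -⟩ := z5_ne i
  simp only [Rr, List.mem_append] at hp
  rcases hp with ((hp | hp) | hp) | hp <;>
    exact ⟨Aut.mem_Int.2 ⟨_, hp⟩, by rw [h.vI _ _ hp]; assumption⟩

lemma mem_Vr (h : A.OK J Λ) {i : Z5} {p : ι} (hp : p ∈ Vr A i) :
    p ∈ A.All ∧ A.v p ≠ i ∧ A.v p ≠ i + 1 := by
  obtain ⟨h1, h2, h3, h4, h5, h6, h7, -⟩ := z5_ne i
  simp only [Vr, List.mem_cons, List.not_mem_nil, or_false] at hp
  rcases hp with rfl | rfl | rfl <;>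
    exact ⟨Aut.mem_All'.2 (Or.inr ⟨_, rfl⟩), by rw [h.vb]; assumption, by rw [h.vb]; assumption⟩

omit [Ring R] in
lemma int_all {p : ι} (hp : p ∈ A.Int) : p ∈ A.All := List.mem_append_left _ hp

lemma b_all (z : Z5) : A.b z ∈ A.All := Aut.mem_All'.2 (Or.inr ⟨_, rfl⟩)

/-- change of chart -/
lemma reduce (P : PR J) (hM : TrMore τ) (h : A.OK J Λ) (t : Z5) {σ Z Y : List ι}
    (h1 : Sh A.v A.Vl σ) (h2 : Sh A.v A.Int Z) (h3 : Sh A.v A.All (Y ++ A.Q t)) :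
    τ.tr A.v A.ν A.All (A.Lz t) * E.Lam A.v (elimL A.Int A.ν) A.Vl =
      τ.tr A.v A.ν (Z ++ σ) (Y ++ A.Q t) * E.Lam A.v (elimL Z A.ν) σ := by
  have hfI : Fits J A.v A.ν A.Int := h.fit.mono fun _ => int_all
  have e0 : elimL Z A.ν = elimL A.Int A.ν := by
    funext a b; exact (elimL_sh P hfI h2 a b).symm
  have hfV : Fits J A.v (elimL A.Int A.ν) A.Vl :=
    (h.fit.elimL P fun _ => int_all).mono fun _ hp => List.mem_append_right _ hp
  have e1 := hM.chart hfV h.nodup_Vl h1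
  have e2 := hM.pref A.Int (L := A.Vl) h.fit h1
  rw [E.det_acyc h.acy, one_mul, inv_one, mul_one] at e2
  have e3 : τ.tr A.v A.ν (A.Int ++ σ) (Z ++ σ) = 1 := by
    rw [hM.suffix σ (h.fit.mono fun p hp => (h1.append_left A.Int).mem_iff.2 hp) h2]
    exact hM.acyc hfI h.acy h2
  have h4 : Sh A.v Y (A.Q (t + 1) ++ A.Q (t + 2) ++ A.Q (t + 3) ++ A.Q (t + 4)) :=
    sh_cancel (W := A.Q t) (h3.symm.trans (h.sh_Lz t))
  have hfY : Fits J A.v A.ν (Y ++ A.Q t) := h.fit.mono fun p hp => h3.mem_iff.2 hp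
  have e4 : τ.tr A.v A.ν (Y ++ A.Q t) (A.Lz t) = 1 := by
    rw [Aut.Lz, hM.suffix _ hfY h4]
    refine hM.acyc (hfY.mono fun p hp => List.mem_append_left _ hp)
      (h.acyc_of_ne t fun p hp => ⟨h3.mem_iff.2 (List.mem_append_left _ hp), ?_⟩) h4
    obtain ⟨a1, a2, a3, a4, -⟩ := z5_ne t
    have := h4.mem_iff.1 hp
    simp only [List.mem_append] at this
    rcases this with ((hp | hp) | hp) | hp <;> rw [h.vQ hp] <;> assumption
  rw [e0, e1, ← e2, ← τ.trans A.v A.ν A.All (Y ++ A.Q t) (A.Lz t), e4, one_mul,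
    ← τ.trans A.v A.ν A.All (Z ++ σ) (Y ++ A.Q t), ← τ.trans A.v A.ν A.All (A.Int ++ σ) (Z ++ σ),
    e3, one_mul, mul_assoc]
  rfl

/-- `ν₂` arises from `ν₁` by adding to the column `c` the column `b` of `1 + ν₁` times `y` -/
structure ColOp (b c : ι) (y : R) (M : List ι) (ν₁ ν₂ : ι → ι → R) : Prop where
  ne : ∀ p ∈ M, ∀ r ∈ M, r ≠ c → ν₂ p r = ν₁ p r
  col : ∀ p ∈ M, p ≠ b → ν₂ p c = ν₁ p c + ν₁ p b * y
  piv : ν₂ b c = ν₁ b c + (1 + ν₁ b b) * y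

section ColOp
variable {b c : ι} {y : R} {M : List ι} {ν₁ ν₂ : ι → ι → R}

lemma ColOp.elim (h : ColOp b c y M ν₁ ν₂) (hb : b ∈ M) {m : ι} (hm : m ∈ M) (h1 : m ≠ b)
    (h2 : m ≠ c) : ColOp b c y M (elim m ν₁) (elim m ν₂) where
  ne p hp r hr hrc := by
    simp only [R176.elim, h.ne p hp r hr hrc, h.ne p hp m hm h2, h.ne m hm m hm h2,
      h.ne m hm r hr hrc]
  col p hp hpb := by
    simp only [R176.elim, h.col p hp hpb, h.ne p hp m hm h2, h.ne m hm m hm h2, h.col m hm h1]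
    noncomm_ring
  piv := by
    simp only [R176.elim, h.piv, h.ne b hb m hm h2, h.ne m hm m hm h2, h.col m hm h1]
    noncomm_ring

lemma ColOp.elimL (hb : b ∈ M) {X : List ι} (hX : ∀ m ∈ X, m ∈ M ∧ m ≠ b ∧ m ≠ c) :
    ∀ {ν₁ ν₂ : ι → ι → R}, ColOp b c y M ν₁ ν₂ → ColOp b c y M (elimL X ν₁) (elimL X ν₂) := by
  induction X with
  | nil => exact fun h => h
  | cons m X ih =>
    intro ν₁ ν₂ h
    obtain ⟨h1, h2, h3⟩ := hX m List.mem_cons_self
    exact ih (fun p hp => hX p (List.mem_cons_of_mem _ hp)) (h.elim hb h1 h2 h3)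

lemma ColOp.elim_b (P : PR J) (h : ColOp b c y M ν₁ ν₂) (hb : b ∈ M) (hbc : b ≠ c) {i : Z5}
    (hi : ν₁ b b ∈ J i i) {p r : ι} (hp : p ∈ M) (hr : r ∈ M) (hpb : p ≠ b) :
    R176.elim b ν₂ p r = R176.elim b ν₁ p r := by
  simp only [R176.elim, h.ne p hp b hb hbc, h.ne b hb b hb hbc]
  by_cases hrc : r = c
  · subst hrc
    rw [h.col p hp hpb, h.piv, mul_add, ← mul_assoc, mul_assoc (ν₁ p b) _ (1 + _), P.iv_mul hi,
      mul_one]
    have := P.two (ν₁ p b * y)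
    calc _ = ν₁ p r + ν₁ p b * iv (ν₁ b b) * ν₁ b r + (ν₁ p b * y + ν₁ p b * y) := by abel
      _ = _ := by rw [this, add_zero]
  · rw [h.ne p hp r hr hrc, h.ne b hb r hr hrc]

lemma ColOp.Lam (P : PR J) (h : ColOp b c y M ν₁ ν₂) {v v' : ι → Z5} {V : List ι}
    (hv : ∀ p ∈ M, v' p = v p) (hf : Fits J v ν₁ M) (hb : b ∈ M) (hc : c ∈ M) (hbc : b ≠ c)
    (hV : ∀ p ∈ V, p ∈ M ∧ p ≠ b ∧ p ≠ c) (hy : y ∈ J (v b) (v c)) :
    E.Lam v' ν₂ (b :: (V ++ [c])) = E.Lam v ν₁ (b :: (V ++ [c])) * E.x (v b) (v c) y := by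
  have hV' : ∀ p ∈ V ++ [c], p ∈ M ∧ p ≠ b := fun p hp => by
    rcases List.mem_append.1 hp with hp | hp
    · exact ⟨(hV p hp).1, (hV p hp).2.1⟩
    · rw [List.mem_singleton.1 hp]; exact ⟨hc, hbc.symm⟩
  have hbb := h.ne b hb b hb hbc
  have hi := hf b hb b hb
  have e1 : E.col v' ν₂ b (V ++ [c]) = E.col v ν₁ b (V ++ [c]) := by
    unfold StG.col
    congr 1
    refine List.map_congr_left fun a ha => ?_
    rw [hv a (hV' a ha).1, hv b hb, hbb, h.ne a (hV' a ha).1 b hb hbc]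
  have e2 : E.Lam v' (R176.elim b ν₂) (V ++ [c]) = E.Lam v (R176.elim b ν₁) (V ++ [c]) :=
    E.Lam_congr (fun p hp => hv p (hV' p hp).1) fun p hp r hr =>
      h.elim_b P hb hbc hi (hV' p hp).1 (hV' r hr).1 (hV' p hp).2
  have e3 : E.row v' ν₂ b (V ++ [c]) = E.row v ν₁ b (V ++ [c]) * E.x (v b) (v c) y := by
    unfold StG.row
    simp only [List.map_append, List.prod_append, List.map_cons, List.map_nil, List.prod_cons,
      List.prod_nil, mul_one]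
    rw [mul_assoc, E.rels.add (P.iv_mul_mem hi (hf b hb c hc)) hy, hv b hb, hv c hc, hbb, h.piv,
      mul_add, ← mul_assoc, P.iv_mul hi, one_mul]
    congr 2
    refine List.map_congr_left fun a ha => ?_
    rw [hv a (hV a ha).1, h.ne b hb a (hV a ha).1 (hV a ha).2.2]
  simp only [StG.Lam]
  rw [e1, e2, e3, hv b hb, hbb, ← mul_assoc]

lemma tr_congr (hM : TrMore τ) {v v' : ι → Z5} {ν ν' : ι → ι → R} {L L' : List ι}
    (hf : Fits J v ν L) (hs : Sh v L L') (hv : ∀ p ∈ L, v' p = v p)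
    (h : ∀ p ∈ L, ∀ q ∈ L, ν' p q = ν p q) : τ.tr v' ν' L L' = τ.tr v ν L L' := by
  simpa using hM.map id hf hs hv h

lemma ColOp.tr (P : PR J) (hM : TrMore τ) (h : ColOp b c y M ν₁ ν₂) {v v' : ι → Z5}
    {X Y V W : List ι} (hv : ∀ p ∈ M, v' p = v p) (hf : Fits J v ν₁ M) (hf' : Fits J v' ν₂ M)
    (hb : b ∈ M) (hbc : b ≠ c) (hX : ∀ p ∈ X, p ∈ M ∧ p ≠ b ∧ p ≠ c)
    (hY : ∀ p ∈ Y, p ∈ M ∧ v p ≠ v b ∧ p ≠ c) (hV : ∀ p ∈ V, p ∈ M ∧ p ≠ b)
    (hs : Sh v (Y ++ V) W) :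
    τ.tr v' ν₂ (X ++ Y ++ b :: V) (X ++ [b] ++ W) = τ.tr v ν₁ (X ++ Y ++ b :: V) (X ++ [b] ++ W) := by
  have m1 : ∀ p ∈ X ++ (Y ++ [b]), p ∈ M ∧ p ≠ c := fun p hp => by
    simp only [List.mem_append, List.mem_singleton] at hp
    rcases hp with hp | hp | rfl
    · exact ⟨(hX p hp).1, (hX p hp).2.2⟩
    · exact ⟨(hY p hp).1, (hY p hp).2.2⟩
    · exact ⟨hb, hbc⟩
  have m2 : ∀ p ∈ Y ++ V, p ∈ M ∧ p ≠ b := fun p hp => by
    rcases List.mem_append.1 hp with hp | hp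
    · exact ⟨(hY p hp).1, fun e => (hY p hp).2.1 (by rw [e])⟩
    · exact hV p hp
  have m3 : ∀ p ∈ X ++ [b], p ∈ M ∧ p ≠ c := fun p hp => m1 p (by
    simp only [List.mem_append] at hp ⊢; tauto)
  have m4 : ∀ p ∈ X ++ (Y ++ [b]) ++ V, p ∈ M := fun p hp => by
    rcases List.mem_append.1 hp with hp | hp
    · exact (m1 p hp).1
    · exact (hV p hp).1
  have m5 : ∀ p ∈ X ++ [b] ++ (Y ++ V), p ∈ M := fun p hp => by
    rcases List.mem_append.1 hp with hp | hp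
    · exact (m3 p hp).1
    · exact (m2 p hp).1
  have s1 : Sh v (X ++ (Y ++ [b])) (X ++ ([b] ++ Y)) :=
    (Sh.append_comm fun a ha b' hb' => by
      rw [List.mem_singleton.1 hb']; exact (hY a ha).2.1).append_left X
  have l1 : X ++ Y ++ b :: V = X ++ (Y ++ [b]) ++ V := by simp
  have l2 : X ++ [b] ++ (Y ++ V) = X ++ ([b] ++ Y) ++ V := by simp
  have e1 : τ.tr v' ν₂ (X ++ Y ++ b :: V) (X ++ [b] ++ (Y ++ V)) =
      τ.tr v ν₁ (X ++ Y ++ b :: V) (X ++ [b] ++ (Y ++ V)) := by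
    rw [l1, l2, hM.suffix V (hf.mono m4) s1,
      hM.suffix V (hf'.mono m4) (s1.congr fun p hp => hv p (m1 p hp).1)]
    exact tr_congr hM (hf.mono fun p hp => (m1 p hp).1) s1 (fun p hp => hv p (m1 p hp).1)
      fun p hp r hr => h.ne p (m1 p hp).1 r (m1 r hr).1 (m1 r hr).2
  have e2 : τ.tr v' ν₂ (X ++ [b] ++ (Y ++ V)) (X ++ [b] ++ W) =
      τ.tr v ν₁ (X ++ [b] ++ (Y ++ V)) (X ++ [b] ++ W) := by
    have hfX : Fits J v (R176.elimL X ν₁) M := hf.elimL P fun p hp => (hX p hp).1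
    rw [hM.pref _ (hf.mono m5) hs,
      hM.pref _ (hf'.mono m5) (hs.congr fun p hp => hv p (m2 p hp).1),
      E.det_congr (v := v) (ν := ν₁) (fun p hp => hv p (m3 p hp).1)
        fun p hp r hr => h.ne p (m3 p hp).1 r (m3 r hr).1 (m3 r hr).2,
      tr_congr hM (v := v) (ν := R176.elimL (X ++ [b]) ν₁)
        ((hf.elimL P fun p hp => (m3 p hp).1).mono fun p hp => (m2 p hp).1) hs
        (fun p hp => hv p (m2 p hp).1)]
    intro p hp r hr
    rw [elimL_append, elimL_append]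
    exact (ColOp.elimL hb hX h).elim_b P hb hbc (hfX b hb b hb) (m2 p hp).1 (m2 r hr).1
      (m2 p hp).2
  rw [← τ.trans v' ν₂ _ (X ++ [b] ++ (Y ++ V)), ← τ.trans v ν₁ _ (X ++ [b] ++ (Y ++ V)), e1, e2]

end ColOp

lemma sh_All (h : A.OK J Λ) (i : Z5) :
    Sh A.v A.All (A.I i ++ [A.b i] ++ (Rr A i ++ (Vr A i ++ [A.b (i + 1)]))) := by
  have s1 : Sh A.v (Rr A i ++ [A.b i]) ([A.b i] ++ Rr A i) :=
    Sh.append_comm fun a ha b' hb' => by
      rw [List.mem_singleton.1 hb', h.vb]; exact (mem_Rr h ha).2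
  have s2 := (s1.append_left (A.I i)).append_right (Vr A i ++ [A.b (i + 1)])
  have s3 := ((sh_Int h i).append_right A.Vl).trans ((sh_Vl h i).append_left _)
  refine s3.trans ?_
  simpa using s2

lemma exists_W (h : A.OK J Λ) {i t : Z5} (ht : t ≠ i) :
    ∃ W, Sh A.v (Rr A i ++ (Vr A i ++ [A.b (i + 1)])) (W ++ A.Q t) := by
  have e := (sh_All h i).filter_eq t
  rw [h.filter_All, List.filter_append, show A.I i ++ [A.b i] = A.Q i from rfl, h.filter_Q,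
    if_neg ht.symm, List.nil_append] at e
  generalize Rr A i ++ (Vr A i ++ [A.b (i + 1)]) = M at e
  refine ⟨M.filter fun p => A.v p ≠ t, Sh.of_filter fun z => ?_⟩
  rw [List.filter_append, h.filter_Q, List.filter_filter]
  by_cases hz : t = z
  · subst hz
    rw [if_pos rfl, ← e]
    simp
  · rw [if_neg hz, List.append_nil]
    refine List.filter_congr fun p _ => ?_
    by_cases hp : A.v p = z
    · simp [hp, Ne.symm hz]
    · simp [hp]

end T3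

open T3 in
theorem t3Stmt (P : PR J) (hΛ : LevOK J Λ) (hW : PwFacts J Λ) (hM : TrMore τ)
    (hT : ThFacts τ Λ) : T3Stmt τ Λ := by
  intro ι A A' i q y h h' hy hb hI hIi hbI hν hbb hq hq0 hqy
  obtain ⟨t, ht, ht1, ht2⟩ : ∃ t : ℕ, (t = 0 ∨ t = 1) ∧ (t : Z5) ≠ i ∧ (t : Z5) + 2 ≠ i := by
    have : ∀ i : Z5, (((0 : ℕ) : Z5) ≠ i ∧ ((0 : ℕ) : Z5) + 2 ≠ i) ∨
      (((1 : ℕ) : Z5) ≠ i ∧ ((1 : ℕ) : Z5) + 2 ≠ i) := by decide
    rcases this i with h | h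
    · exact ⟨0, Or.inl rfl, h⟩
    · exact ⟨1, Or.inr rfl, h⟩
  obtain ⟨z1, z2, z3, z4, -, -, -, -, -, -, z5⟩ := z5_ne i
  have hbc : A.b i ≠ A.b (i + 1) := fun e => z1 (by rw [← h.vb (i + 1), ← e, h.vb])
  have hsub : ∀ z, ∀ p ∈ A.I z, p ∈ A'.I z := fun z p hp => by
    by_cases hz : z = i
    · rw [hz, hIi]; exact List.mem_cons_of_mem _ (hz ▸ hp)
    · rwa [hI z hz]
  have hAll : ∀ p ∈ A.All, p ∈ A'.All ∧ A'.v p = A.v p := fun p hp => by
    rcases Aut.mem_All'.1 hp with ⟨z, hz⟩ | ⟨z, rfl⟩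
    · exact ⟨Aut.mem_All'.2 (Or.inl ⟨z, hsub z p hz⟩), by rw [h.vI z p hz, h'.vI z p (hsub z p hz)]⟩
    · exact ⟨hb ▸ b_all z, by rw [h.vb, ← hb, h'.vb]⟩
  have hv : ∀ p ∈ A.All, A'.v p = A.v p := fun p hp => (hAll p hp).2
  have hqA : q ∈ A'.All := Aut.mem_All'.2 (Or.inl ⟨i, by rw [hIi]; exact List.mem_cons_self⟩)
  have hqq : A'.ν q q = 0 := h'.zero_of_eq hqA hqA rfl
  have hQ : ∀ z, z ≠ i → A'.Q z = A.Q z := fun z hz => by rw [Aut.Q, Aut.Q, hI z hz, hb]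
  have hQA : ∀ {z p}, p ∈ A.Q z → p ∈ A.All := fun hp => Aut.mem_All.2 ⟨_, hp⟩
  have hInt : ∀ p ∈ A.Int, p ∈ A.All ∧ p ≠ A.b i ∧ p ≠ A.b (i + 1) := fun p hp =>
    ⟨int_all hp, fun e => hbI _ (e ▸ hp), fun e => hbI _ (e ▸ hp)⟩
  have hIi' : ∀ p ∈ A.I i, p ∈ A.Int := fun p hp => Aut.mem_Int.2 ⟨i, hp⟩
  -- the trivialisations agree
  have hone : OneV i A.ν A'.ν A.Q A'.Q := by
    refine ⟨hQ, fun z hz _ p hp r hr => hν p (hQA hp) r (hQA hr) fun e => hz ?_,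
      fun p hp r hr => ?_⟩
    · rw [← h.vQ hp, e.1, h.vb]
    have hpb : p ≠ A.b i := fun e => z5 (by rw [← h.vQ hp, e, h.vb])
    have e1 : mulL (A.I i) A'.ν A'.ν p r = mulL (A.I i) A.ν A.ν p r :=
      mulL_congr fun m hm => by
        rw [hν p (hQA hp) m (hInt m (hIi' m hm)).1 fun e => hpb e.1,
          hν m (hInt m (hIi' m hm)).1 r (hQA hr) fun e => (hInt m (hIi' m hm)).2.1 e.1]
    rw [Aut.Q, Aut.Q, hIi, hb, List.cons_append, mulL_cons, mulL_append, mulL_append, e1,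
      mulL_cons, mulL_cons, mulL_nil, mulL_nil, hq p (hQA hp),
      hν p (hQA hp) _ (b_all i) fun e => hpb e.1]
    by_cases hr' : r = A.b (i + 1)
    · rw [hr', hqy, hbb, mul_add]
      have := P.two (A.ν p (A.b i) * y)
      calc _ = mulL (A.I i) A.ν A.ν p (A.b (i + 1)) + (A.ν p (A.b i) * A.ν (A.b i) (A.b (i + 1)) + 0)
          + (A.ν p (A.b i) * y + A.ν p (A.b i) * y) := by abel
        _ = _ := by rw [this, add_zero]
    · rw [hq0 r (hQA hr) hr', hν _ (b_all i) r (hQA hr) fun e => hr' e.2, mul_zero, zero_add]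
  -- the column operation
  have hC : ColOp (A.b i) (A.b (i + 1)) y A.All A.ν (elim q A'.ν) := by
    refine ⟨fun p hp r hr hrc => ?_, fun p hp hpb => ?_, ?_⟩
    · rw [elim, hq0 r hr hrc, mul_zero, add_zero, hν p hp r hr fun e => hrc e.2]
    · rw [elim, hqq, iv_zero, mul_one, hqy, hq p hp, hν p hp _ (b_all _) fun e => hpb e.1]
    · rw [elim, hqq, iv_zero, mul_one, hqy, hq _ (b_all i), hbb, add_mul, one_mul, add_assoc]
  have hfq : Fits J A'.v (elim q A'.ν) A.All :=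
    (h'.fit.elim P hqA).mono fun p hp => (hAll p hp).1
  obtain ⟨W, hW'⟩ := exists_W h ht1
  have hRr : Rr A' i = Rr A i := by rw [Rr, Rr, hI _ z1, hI _ z2, hI _ z3, hI _ z4]
  have hVr : Vr A' i = Vr A i := by rw [Vr, Vr, hb]
  have hVm : ∀ p ∈ Vr A i, p ∈ A.All ∧ p ≠ A.b i ∧ p ≠ A.b (i + 1) := fun p hp =>
    ⟨(mem_Vr h hp).1, fun e => (mem_Vr h hp).2.1 (by rw [e, h.vb]),
      fun e => (mem_Vr h hp).2.2 (by rw [e, h.vb])⟩
  have hVm' : ∀ p ∈ Vr A i ++ [A.b (i + 1)], p ∈ A.All ∧ p ≠ A.b i := fun p hp => by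
    rcases List.mem_append.1 hp with hp | hp
    · exact ⟨(hVm p hp).1, (hVm p hp).2.1⟩
    · rw [List.mem_singleton.1 hp]; exact ⟨b_all _, hbc.symm⟩
  have hMm : ∀ p ∈ Rr A i ++ (Vr A i ++ [A.b (i + 1)]), p ∈ A.All := fun p hp => by
    rcases List.mem_append.1 hp with hp | hp
    · exact int_all (mem_Rr h hp).1
    · exact (hVm' p hp).1
  have s3 : Sh A.v A.All (A.I i ++ [A.b i] ++ W ++ A.Q t) := by
    rw [List.append_assoc _ W]
    exact (sh_All h i).trans (hW'.append_left _)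
  have s3' : Sh A'.v A'.All (q :: (A.I i ++ [A.b i] ++ W) ++ A'.Q t) := by
    have := sh_All h' i
    rw [hRr, hVr, hb, hIi] at this
    rw [hQ _ ht1, List.cons_append, List.append_assoc _ W]
    exact this.trans ((hW'.congr fun p hp => hv p (hMm p hp)).append_left (q :: A.I i ++ [A.b i]))
  have r1 := reduce P hM h t (sh_Vl h i) (sh_Int h i) s3
  have r2 := reduce P hM h' t (sh_Vl h' i) (sh_Int h' i) s3'
  have hZ : ∀ p ∈ A.I i ++ Rr A i, p ∈ A.Int := fun p hp => (sh_Int h i).mem_iff.2 hp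
  have s4 : Sh A.v A.All (A.I i ++ Rr A i ++ A.b i :: (Vr A i ++ [A.b (i + 1)])) :=
    ((sh_Int h i).append_right A.Vl).trans ((sh_Vl h i).append_left _)
  rw [hRr, hVr, hb, hIi, hQ _ ht1, List.cons_append, List.cons_append, List.cons_append,
    τ.cons _ _ q _ _ (h'.fit.mono fun p hp => by
      rcases List.mem_cons.1 hp with rfl | hp
      · exact hqA
      · exact (hAll p (s4.mem_iff.2 hp)).1)
      ((s4.symm.trans s3).congr fun p hp => hv p (s4.mem_iff.2 hp)),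
    hqq, E.h_zero, one_mul, inv_one, mul_one, elimL, List.append_assoc _ W,
    hC.tr P hM hv h.fit hfq (b_all i) hbc (fun p hp => hInt p (hIi' p hp))
      (fun p hp => ⟨int_all (mem_Rr h hp).1, by rw [h.vb]; exact (mem_Rr h hp).2,
        (hInt p (mem_Rr h hp).1).2.2⟩) hVm' hW',
    (ColOp.elimL (b_all i) (fun p hp => hInt p (hZ p hp)) hC).Lam P hv
      (h.fit.elimL P fun p hp => int_all (hZ p hp)) (b_all i) (b_all _) hbc hVm
      (by rw [h.vb, h.vb]; exact hy), h.vb, h.vb, ← List.append_assoc _ W, ← mul_assoc,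
    ← r1] at r2
  filter_upwards [h.switch P hΛ hW hM hT t ht, h'.switch P hΛ hW hM hT t ht] with L e1 e2
  rw [e1, e2, hT.onev h.core hone t ht1 ht2, mul_assoc, r2]
  simp only [mul_assoc]

end Crest.Agent.R176
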