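import Crest.Agent.R176.KBas1

/-! Row 176: the canonical trivialisations `theta`. -/

set_option autoImplicit false

namespace Crest.Agent.R176

variable {R : Type} [Ring R] {J : Z5 → Z5 → AddSubgroup R}

namespace ThAux

variable {Λ : Lev R} {ι : Type}

theorem five_dvd (hΛ : LevOK J Λ) (l : ℕ) : 5 ∣ Λ.N l := by
  induction l with
  | zero => rw [hΛ.N_zero]
  | succ l ih => exact ih.trans (hΛ.N_dvd l)

theorem N_cast (hΛ : LevOK J Λ) (l : ℕ) : ((Λ.N l : ℕ) : Z5) = 0 :=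
  (ZMod.natCast_eq_zero_iff _ _).2 (five_dvd hΛ l)

theorem N_sub_cast (hΛ : LevOK J Λ) (l : ℕ) {d : ℕ} (hd : d ≤ Λ.N l) :
    ((Λ.N l - d : ℕ) : Z5) = -(d : Z5) := by
  rw [Nat.cast_sub hd, N_cast hΛ, zero_sub]

theorem dd_cast (hΛ : LevOK J Λ) (l : ℕ) :
    ((Λ.dd l : ℕ) : Z5) = if l % 2 = 0 then 2 else 3 := by
  rw [← ZMod.natCast_mod (Λ.dd l) 5, hΛ.dd_mod]
  split_ifs <;> rfl

theorem dd_ne (hΛ : LevOK J Λ) (l : ℕ) (z : Z5) : z ≠ z + (Λ.dd l : Z5) := by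
  intro h
  have h0 : (Λ.dd l : Z5) = 0 := by simpa using h
  rw [dd_cast hΛ] at h0
  split_ifs at h0
  · exact absurd h0 (by decide)
  · exact absurd h0 (by decide)

theorem succ_ne (z : Z5) : z ≠ z + 1 := by
  intro h
  have h0 : (1 : Z5) = 0 := by simpa using h
  exact absurd h0 (by decide)

theorem dd_le (hΛ : LevOK J Λ) (l : ℕ) : Λ.dd l ≤ Λ.N l := by
  have := hΛ.dd_hi l; omega

theorem K_pos (hΛ : LevOK J Λ) (l : ℕ) : 0 < Λ.N (l + 1) / Λ.N l :=
  Nat.div_pos (Nat.le_of_dvd (hΛ.N_pos _) (hΛ.N_dvd l)) (hΛ.N_pos l)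

theorem posn_cast (hΛ : LevOK J Λ) (t l : ℕ) :
    ((posn Λ t l : ℕ) : Z5) = if l % 2 = 0 then (t : Z5) else (t : Z5) + 2 := by
  induction l with
  | zero => simp [posn]
  | succ l ih =>
    rw [posn, Nat.cast_add, ih, dd_cast hΛ]
    rcases Nat.mod_two_eq_zero_or_one l with h | h
    · have h' : ¬ ((l + 1) % 2 = 0) := by omega
      rw [if_pos h, if_pos h, if_neg h']
    · have h1 : ¬ (l % 2 = 0) := by omega
      have h' : (l + 1) % 2 = 0 := by omega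
      rw [if_neg h1, if_neg h1, if_pos h', add_assoc]
      have : (2 + 3 : Z5) = 0 := by decide
      rw [this, add_zero]

theorem posn_one (l : ℕ) : posn Λ 1 l = posn Λ 0 l + 1 := by
  induction l with
  | zero => rfl
  | succ l ih => simp only [posn, ih]; omega

theorem back (hΛ : LevOK J Λ) (l : ℕ) {d : ℕ} (hd : d ≤ Λ.N l) (z : Z5) :
    z + (d : Z5) + ((Λ.N l - d : ℕ) : Z5) = z := by
  rw [N_sub_cast hΛ l hd]; ring

theorem back1 (hΛ : LevOK J Λ) (l : ℕ) (z : Z5) : z + 1 + ((Λ.N l - 1 : ℕ) : Z5) = z := by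
  have := back hΛ l (d := 1) (hΛ.N_pos l) z
  rwa [Nat.cast_one] at this

variable {ν : ι → ι → R} {Q : Z5 → List ι}

theorem trn_a (hΛ : LevOK J Λ) (hW : PwFacts J Λ) (h : CoreOK J Λ ν Q) (l z : ℕ) :
    InJ J (z : Z5) ((z : Z5) + (Λ.dd l : Z5)) (Q z)
      (cblk (Λ.N (l + 1) / Λ.N l) (Q ((z : Z5) + (Λ.dd l : Z5))))
      (fun p hk => Λ.prj (l + 1) (z + hk.2 * Λ.N l) (pw ν Q (Λ.dd l) z p hk.1)) :=
  fun p hp hk hh =>
    hΛ.prj_J _ _ (hW.memJ h _ _ p hp hk.1 ((mem_cblk (K_pos hΛ l)).1 hh).1)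

theorem trn_b (hΛ : LevOK J Λ) (hW : PwFacts J Λ) (h : CoreOK J Λ ν Q) (l z : ℕ) :
    InJ J ((z : Z5) + (Λ.dd l : Z5)) (z : Z5)
      (cblk (Λ.N (l + 1) / Λ.N l) (Q ((z : Z5) + (Λ.dd l : Z5)))) (Q z)
      (fun hk p => Λ.prj (l + 1) (z + Λ.dd l + hk.2 * Λ.N l)
        (pw ν Q (Λ.N l - Λ.dd l) ((z : Z5) + (Λ.dd l : Z5)) hk.1 p)) := by
  intro hk hh p hp
  have := hW.memJ h (Λ.N l - Λ.dd l) ((z : Z5) + (Λ.dd l : Z5))
  rw [back hΛ l (dd_le hΛ l)] at this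
  exact hΛ.prj_J _ _ (this hk.1 ((mem_cblk (K_pos hΛ l)).1 hh).1 p hp)

theorem rg_b (hΛ : LevOK J Λ) (hW : PwFacts J Λ) (h : CoreOK J Λ ν Q) (l z : ℕ) :
    InJ J ((z : Z5) + 1) (z : Z5) (Q ((z : Z5) + 1)) (Q z)
      (fun h p => Λ.prj l (z + 1) (pw ν Q (Λ.N l - 1) ((z : Z5) + 1) h p)) := by
  intro q hq p hp
  have := hW.memJ h (Λ.N l - 1) ((z : Z5) + 1)
  rw [back1 hΛ l] at this
  exact hΛ.prj_J _ _ (this q hq p hp)

end ThAux

open ThAux in
theorem thFacts (_P : PR J) {Λ : Lev R} (hΛ : LevOK J Λ) (hW : PwFacts J Λ) {G : Type} [Group G]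
    {E : StG J G} {τ : Tr E} (hD : DDFacts τ) (hS : SqStmt τ Λ) : ThFacts τ Λ where
  mem h t L := by
    induction L with
    | zero => exact one_mem _
    | succ L ih =>
      exact mul_mem (hD.mem (dd_ne hΛ L _) (trn_a hΛ hW h L _) (trn_b hΛ hW h L _)) ih
  cmp {ι ν Q} h := by
    have key : ∀ L, theta τ Λ ν Q 1 L * Rg τ Λ ν Q 0 0 =
        Rg τ Λ ν Q L (posn Λ 0 L) * theta τ Λ ν Q 0 L := by
      intro L
      induction L with
      | zero => simp [theta, posn]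
      | succ L ih =>
        rw [theta, theta, mul_assoc, ih, ← mul_assoc, posn_one, hS ι ν Q h, mul_assoc]
        rfl
    obtain ⟨n, hn⟩ := hW.nil h
    obtain ⟨l0, hl0⟩ := hΛ.N_big (n + 1)
    filter_upwards [Filter.eventually_ge_atTop l0] with L hL
    have h1 : Rg τ Λ ν Q L (posn Λ 0 L) = 1 := by
      refine hD.acyc (fun _ => 0) (fun _ => 1) (succ_ne _) (h.fit _) (rg_b hΛ hW h L _)
        (fun _ _ _ _ _ => Nat.zero_lt_one) ?_
      intro q hq p hp h0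
      refine absurd ?_ h0
      have := hl0 L hL
      rw [hn (Λ.N L - 1) (by omega) _ q hq p (by rw [back1 hΛ L]; exact hp), map_zero]
    rw [key, h1, one_mul]
  onev {ι i ν ν' Q Q'} h hO t h1 h2 L := by
    have hp : ∀ l, ((posn Λ t l : ℕ) : Z5) ≠ i := by
      intro l; rw [posn_cast hΛ]; split_ifs
      · exact h1
      · exact h2
    induction L with
    | zero => rfl
    | succ L ih =>
      rw [theta, theta, ih]
      congr 1
      have ha := hp L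
      have hb := hp (L + 1)
      rw [posn, Nat.cast_add] at hb
      generalize posn Λ t L = z at ha hb
      unfold Trn
      rw [hO.hQ _ ha, hO.hQ _ hb]
      refine hD.congr (dd_ne hΛ L _) (trn_a hΛ hW h L _) (trn_b hΛ hW h L _) ?_ ?_
      · intro p hp hk hh
        rw [hW.onev hO _ _ ha hb p hp hk.1 ((mem_cblk (K_pos hΛ L)).1 hh).1]
      · intro hk hh p hp
        have e := back hΛ L (dd_le hΛ L) (z : Z5)
        rw [hW.onev hO _ _ hb (by rw [e]; exact ha) hk.1 ((mem_cblk (K_pos hΛ L)).1 hh).1 p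
          (by rw [e]; exact hp)]
  acyc {ι ν Q} rk h hr t L := by
    induction L with
    | zero => rfl
    | succ L ih =>
      rw [theta, ih, mul_one]
      generalize posn Λ t L = z
      refine hD.acyc rk (fun hk => rk hk.1) (dd_ne hΛ L _) (trn_a hΛ hW h L _)
        (trn_b hΛ hW h L _) ?_ ?_
      · intro p hp hk hh h0
        refine hW.acyc rk hr _ _ p hp hk.1 ((mem_cblk (K_pos hΛ L)).1 hh).1 fun h1 => h0 ?_
        rw [h1, map_zero]
      · intro hk hh p hp h0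
        have e := back hΛ L (dd_le hΛ L) (z : Z5)
        refine hW.acyc rk hr (Λ.N L - Λ.dd L) _ hk.1 ((mem_cblk (K_pos hΛ L)).1 hh).1 p
          (by rw [e]; exact hp) fun h1 => h0 ?_
        rw [h1, map_zero]

end Crest.Agent.R176
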