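import Crest.Agent.R176.KBasic

/-! Row 176: consequences of the axioms of a transport system. -/

set_option autoImplicit false

open scoped commutatorElement

namespace Crest.Agent.R176

variable {R : Type} [Ring R] {J : Z5 → Z5 → AddSubgroup R} {G : Type} [Group G] {E : StG J G}

namespace TrM
variable {ι : Type} {v : ι → Z5} {ν : ι → ι → R}

theorem pref (P : PR J) (τ : Tr E) (X : List ι) {L L' : List ι} (h : Fits J v ν (X ++ L))
    (hs : Sh v L L') :
    τ.tr v ν (X ++ L) (X ++ L') = E.det v ν X * τ.tr v (elimL X ν) L L' * (E.det v ν X)⁻¹ := by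
  induction X generalizing ν with
  | nil => simp [StG.det, elimL]
  | cons q X ih =>
    rw [List.cons_append, List.cons_append, τ.cons v ν q (X ++ L) (X ++ L') h (hs.append_left X),
      ih ((h.elim P List.mem_cons_self).mono fun p hp => List.mem_cons_of_mem _ hp), StG.det,
      elimL]
    group

theorem fits_tail (P : PR J) {X L : List ι} (h : Fits J v ν (X ++ L)) : Fits J v (elimL X ν) L :=
  (h.elimL P fun _ hq => List.mem_append_left _ hq).mono fun _ hp => List.mem_append_right _ hp

theorem swap (P : PR J) (τ : Tr E) (X Y : List ι) {q r : ι} (h : Fits J v ν (X ++ q :: r :: Y))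
    (hqr : v q ≠ v r) : τ.tr v ν (X ++ q :: r :: Y) (X ++ r :: q :: Y) =
      E.det v ν X * E.om v (elimL X ν) q r * (E.det v ν X)⁻¹ := by
  rw [pref P τ X (L' := r :: q :: Y) h (Sh.swap [] Y q r hqr), τ.swap _ _ _ _ _ (fits_tail P h) hqr]

theorem swap_mem (P : PR J) (hO : OmStmt E) (X Y : List ι) {q r : ι}
    (h : Fits J v ν (X ++ q :: r :: Y)) (hqr : v q ≠ v r) :
    E.det v ν X * E.om v (elimL X ν) q r * (E.det v ν X)⁻¹ ∈ E.C :=
  E.det_conj_mem_C P (h.mono fun _ hp => List.mem_append_left _ hp)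
    (hO _ _ _ _ _ hqr ((fits_tail P h).mono (by simp)))

theorem chart_swap (P : PR J) (hO : OmStmt E) (hC : ChartStmt E) (X Y : List ι) {q r : ι}
    (h : Fits J v ν (X ++ q :: r :: Y)) (hn : ((X ++ q :: r :: Y).map v).Nodup) (hqr : v q ≠ v r) :
    E.Lam v ν (X ++ r :: q :: Y) =
      E.det v ν X * E.om v (elimL X ν) q r * (E.det v ν X)⁻¹ * E.Lam v ν (X ++ q :: r :: Y) := by
  induction X generalizing ν with
  | nil => simpa [StG.det, elimL] using hC _ _ _ _ _ _ h hn
  | cons p X ih =>
    have hm := (E.commute_col (swap_mem P hO (p :: X) Y h hqr) v ν p (X ++ q :: r :: Y)).eq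
    rw [List.cons_append, List.map_cons, List.nodup_cons] at hn
    have hp : ∀ a ∈ X ++ q :: r :: Y, v a ≠ v p := fun a ha e =>
      hn.1 (e ▸ List.mem_map_of_mem ha)
    have hperm : (X ++ q :: r :: Y).Perm (X ++ r :: q :: Y) := (Sh.swap X Y q r hqr).perm
    have h' : Fits J v ν (p :: (X ++ q :: r :: Y)) := h
    rw [List.cons_append, List.cons_append, StG.Lam, StG.Lam, ← E.col_perm P h' hp hperm,
      ← E.row_perm P h' hp hperm,
      ih ((h.elim P List.mem_cons_self).mono fun p hp => List.mem_cons_of_mem _ hp) hn.2]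
    rw [← mul_assoc (_ * (E.det v ν (p :: X))⁻¹), ← mul_assoc (_ * (E.det v ν (p :: X))⁻¹),
      ← mul_assoc (_ * (E.det v ν (p :: X))⁻¹), hm, StG.det, elimL]
    group

end TrM

theorem trMore (P : PR J) (hO : OmStmt E) (hC : ChartStmt E) (τ : Tr E) : TrMore τ where
  mem {ι v ν L L'} h hs := by
    induction hs with
    | refl L => rw [τ.refl]; exact one_mem _
    | swap X Y q r hqr => rw [TrM.swap P τ X Y h hqr]; exact TrM.swap_mem P hO X Y h hqr
    | trans h1 h2 ih1 ih2 =>
      rw [← τ.trans v ν _ _ _]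
      exact mul_mem (ih2 (h.mono fun p hp => h1.mem_iff.2 hp)) (ih1 h)
  suffix {ι v ν L L'} Y h hs := by
    induction hs with
    | refl L => rw [τ.refl, τ.refl]
    | swap X Z q r hqr =>
      simp only [List.append_assoc, List.cons_append] at h ⊢
      rw [TrM.swap P τ X _ h hqr, TrM.swap P τ X Z (h.mono (by simp; tauto)) hqr]
    | @trans L L' L'' h1 h2 ih1 ih2 =>
      rw [← τ.trans v ν _ (L' ++ Y) _, ← τ.trans v ν L L' L'', ih1 h,
        ih2 (h.mono fun p hp => (h1.append_right Y).mem_iff.2 hp)]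
  pref X _ _ h hs := TrM.pref P τ X h hs
  map {ι ι' v ν v' ν'} f {L L'} h hs hv hν := by
    induction hs with
    | refl L => rw [τ.refl, τ.refl]
    | swap X Y q r hqr =>
      have hq : q ∈ X ++ q :: r :: Y := by simp
      have hr : r ∈ X ++ q :: r :: Y := by simp
      have hX : ∀ p ∈ X, p ∈ X ++ q :: r :: Y := fun _ hp => List.mem_append_left _ hp
      have h' : Fits J v' ν' ((X ++ q :: r :: Y).map f) := fun a ha b hb => by
        obtain ⟨a, ha', rfl⟩ := List.mem_map.1 ha
        obtain ⟨b, hb', rfl⟩ := List.mem_map.1 hb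
        rw [hv a ha', hv b hb', hν a ha' b hb']
        exact h a ha' b hb'
      have he := elimL_map f hX hν
      have hsub : ∀ p ∈ [q, r], p ∈ X ++ q :: r :: Y := by simp
      have hsub' : ∀ p ∈ [r, q], p ∈ X ++ q :: r :: Y := by simp
      have h1 := E.Lam_map f (fun p hp => hv p (hsub p hp))
        fun a ha b hb => he a (hsub a ha) b (hsub b hb)
      have h2 := E.Lam_map f (fun p hp => hv p (hsub' p hp))
        fun a ha b hb => he a (hsub' a ha) b (hsub' b hb)
      simp only [List.map_append, List.map_cons, List.map_nil] at h' h1 h2 ⊢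
      rw [TrM.swap P τ X Y h hqr, TrM.swap P τ _ _ h' (by rwa [hv q hq, hv r hr]),
        E.det_map f (fun p hp => hv p (hX p hp)) fun a ha b hb => hν a (hX a ha) b (hX b hb),
        StG.om, StG.om, h1, h2]
    | @trans L L' L'' h1 h2 ih1 ih2 =>
      rw [← τ.trans v' ν' _ (L'.map f) _, ← τ.trans v ν L L' L'', ih1 h hv hν,
        ih2 (h.mono fun p hp => h1.mem_iff.2 hp) (fun p hp => hv p (h1.mem_iff.2 hp))
          fun a ha b hb => hν a (h1.mem_iff.2 ha) b (h1.mem_iff.2 hb)]
  acyc {ι v ν L L'} h ha hs := by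
    induction hs with
    | refl L => rw [τ.refl]
    | swap X Y q r hqr =>
      rw [TrM.swap P τ X Y h hqr,
        E.om_acyc ((ha.elimL fun _ hp => List.mem_append_left _ hp).mono (by simp))]
      simp
    | @trans L L' L'' h1 h2 ih1 ih2 =>
      rw [← τ.trans v ν L L' L'', ih1 h ha,
        ih2 (h.mono fun p hp => h1.mem_iff.2 hp) (ha.mono fun p hp => h1.mem_iff.2 hp), one_mul]
  chart {ι v ν L L'} h hn hs := by
    induction hs with
    | refl L => rw [τ.refl, one_mul]
    | swap X Y q r hqr => rw [TrM.swap P τ X Y h hqr, TrM.chart_swap P hO hC X Y h hn hqr]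
    | @trans L L' L'' h1 h2 ih1 ih2 =>
      rw [← τ.trans v ν L L' L'', ih2 (h.mono fun p hp => h1.mem_iff.2 hp)
        ((h1.perm.map v).nodup_iff.1 hn), ih1 h hn, mul_assoc]

end Crest.Agent.R176
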