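import Crest.Agent.R176.KDefs2

/-! Row 176: bridges with vanishing total monomial can be removed. -/

set_option autoImplicit false

namespace Crest.Agent.R176

open Filter

variable {α : Type} {S : Sys α} {X : Vtx S}

namespace TrieA

theorem wst_step {w w' : List α} (h : S.Step w w') : wst X w = wst X w' := by
  cases h with
  | one l r a b h => cases l <;> simp [wst, X.vtx_r1 a b h]
  | two l r a b c d h => cases l <;> simp [wst, (X.vtx_r2 a b c d h).1]

theorem isWd_step {n : ℕ} {w w' : List α} (h : S.Step w w') : IsWd X n w ↔ IsWd X n w' := by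
  simp only [IsWd, ← List.length_pos_iff, ← wst_step (X := X) h, ← h.length_eq, Valid.step_iff h]

theorem isWd_eqv {n : ℕ} {w w' : List α} (h : S.Eqv w w') : IsWd X n w ↔ IsWd X n w' :=
  Sys.Eqv.induct (P := IsWd X n) (fun _ _ h => (isWd_step h).1) (fun _ _ h => (isWd_step h).2) h

theorem bok_cons {n : ℕ} {t : List α × α × List α} {B : List (List α × α × List α)} :
    BOK X n (t :: B) ↔ IsWd X n (bw t) ∧ BOK X n B := List.forall_mem_cons

theorem nuB_perm {B B' : List (List α × α × List α)} (h : B.Perm B') : nuB X B = nuB X B' := by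
  funext p q
  exact (h.map _).sum_eq

theorem nuB_dup (t : List α × α × List α) (B : List (List α × α × List α)) :
    nuB X (t :: t :: B) = nuB X B := by
  funext p q
  simp only [nuB, List.map_cons, List.sum_cons, ← add_assoc, alg_two, zero_add]

theorem nuB_r1 {a b : α} (hv : X.vtx b = X.vtx a) (hg : gen S a = gen S b) (l r : List α)
    (B : List (List α × α × List α)) : nuB X ((l, a, r) :: B) = nuB X ((l, b, r) :: B) := by
  have h1 : tsrc X l a = tsrc X l b := by cases l <;> simp [tsrc, hv]
  have h2 : tdst X a r = tdst X b r := by cases r <;> simp [tdst, hv]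
  funext p q
  simp only [nuB, List.map_cons, List.sum_cons]
  rw [h1, h2, hg]

theorem nuB_z1 {a : α} (hg : gen S a = 0) (l r : List α) (B : List (List α × α × List α)) :
    nuB X ((l, a, r) :: B) = nuB X B := by
  funext p q
  simp only [nuB, List.map_cons, List.sum_cons, hg, ite_self, zero_add]

variable [Finite α] {G : Type} [Group G] {E : StG (Jsp X) G} {τ : Tr E} {Λ : Lev (Alg S)}

variable (τ Λ) in
/-- the sequence of lifts -/
noncomputable def sg (n : ℕ) (B : List (List α × α × List α)) (L : ℕ) : G := (autPS X n B).s τ Λ L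

variable {n : ℕ} {B : List (List α × α × List α)}

theorem sg_congr {B' : List (List α × α × List α)} (h : nuB X B = nuB X B') :
    sg τ Λ n B = sg τ Λ n B' := by
  have : nuT X B = nuT X B' := by
    funext p q
    simp only [nuT, h]
  funext L
  simp only [sg, autPS, this]

theorem shift_all (hM : MoveStmt X τ Λ) (hB : BOK X n B) (v : List α) (y : α) (w : List α) :
    ∀ (u : List α) (x : α), IsWd X n (u ++ x :: (v ++ y :: w)) →
      sg τ Λ n ((u, x, v ++ y :: w) :: B) =ᶠ[atTop] sg τ Λ n ((u ++ x :: v, y, w) :: B) := by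
  induction v with
  | nil => exact fun u x h => EventuallyEq.symm (hM.shift n B u x y w (bok_cons.2 ⟨h, hB⟩))
  | cons z v ih =>
    intro u x h
    refine (EventuallyEq.symm (hM.shift n B u x z (v ++ y :: w) (bok_cons.2 ⟨h, hB⟩))).trans ?_
    have := ih (u ++ [x]) z (by simpa using h)
    rwa [List.append_assoc, List.singleton_append] at this

theorem sg_bw (hM : MoveStmt X τ Λ) (hB : BOK X n B) {t t' : List α × α × List α}
    (h : IsWd X n (bw t)) (e : bw t = bw t') :
    sg τ Λ n (t :: B) =ᶠ[atTop] sg τ Λ n (t' :: B) := by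
  have key : ∀ (u : List α) (x : α) (w : List α) (x' : α) (w' a : List α),
      IsWd X n (u ++ x :: w) → x :: w = a ++ x' :: w' →
        sg τ Λ n ((u, x, w) :: B) =ᶠ[atTop] sg τ Λ n ((u ++ a, x', w') :: B) := by
    intro u x w x' w' a h e
    cases a with
    | nil =>
      obtain ⟨rfl, rfl⟩ := List.cons.inj e
      rw [List.append_nil]
    | cons z v =>
      obtain ⟨rfl, rfl⟩ := List.cons.inj e
      exact shift_all hM hB v x' w' u x h
  obtain ⟨u, x, w⟩ := t
  obtain ⟨u', x', w'⟩ := t'
  rcases List.append_eq_append_iff.1 e with ⟨a, rfl, h2⟩ | ⟨a, rfl, h2⟩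
  · exact key u x w x' w' a h h2
  · exact (key u' x' w' x w a (by rw [e] at h; exact h) h2).symm

theorem sg_step (hM : MoveStmt X τ Λ) (hB : BOK X n B) {w w' : List α} (hs : S.Step w w')
    (h : IsWd X n w) {t t' : List α × α × List α} (e : bw t = w) (e' : bw t' = w') :
    sg τ Λ n (t :: B) =ᶠ[atTop] sg τ Λ n (t' :: B) := by
  have h' := (isWd_step hs).1 h
  cases hs with
  | one l r a b hr =>
    refine (sg_bw hM hB (t' := (l, a, r)) (e ▸ h) e).trans ?_
    rw [sg_congr (nuB_r1 (X.vtx_r1 a b hr) (gen_r1 hr) l r B)]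
    exact sg_bw hM hB h' e'.symm
  | two l r a b c d hr =>
    have e1 : bw (l ++ [a], b, r) = l ++ a :: b :: r := by simp [bw]
    have e2 : bw (l ++ [c], d, r) = l ++ c :: d :: r := by simp [bw]
    refine (sg_bw hM hB (t' := (l ++ [a], b, r)) (e ▸ h) (e.trans e1.symm)).trans ?_
    refine (EventuallyEq.symm (hM.rule n B l a b c d r (bok_cons.2 ⟨e1 ▸ h, hB⟩)
      (X.vtx_r2 a b c d hr).1 (X.vtx_r2 a b c d hr).2 (gen_r2 hr))).trans ?_
    exact sg_bw hM hB (e2 ▸ h') (e2.trans e'.symm)

theorem sg_eqv (hM : MoveStmt X τ Λ) (hB : BOK X n B) {w w' : List α} (hs : S.Eqv w w') :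
    IsWd X n w → ∀ t t' : List α × α × List α, bw t = w → bw t' = w' →
      sg τ Λ n (t :: B) =ᶠ[atTop] sg τ Λ n (t' :: B) := by
  induction hs with
  | rel a b h => exact fun hw t t' e e' => sg_step hM hB h hw e e'
  | refl a => exact fun hw t t' e e' => sg_bw hM hB (e ▸ hw) (e.trans e'.symm)
  | symm a b h ih => exact fun hw t t' e e' => (ih ((isWd_eqv h).2 hw) t' t e' e).symm
  | trans a b c h _ ih1 ih2 =>
    intro hw t t' e e'
    have hb := (isWd_eqv h).1 hw
    obtain ⟨x, v, rfl⟩ := List.exists_cons_of_ne_nil hb.1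
    exact (ih1 hw t ([], x, v) e rfl).trans (ih2 hb ([], x, v) t' rfl e')

theorem sg_zero (hM : MoveStmt X τ Λ) (hB : BOK X n B) {t : List α × α × List α}
    (h : IsWd X n (bw t)) (hz : S.Zero (bw t)) : sg τ Λ n (t :: B) =ᶠ[atTop] sg τ Λ n B := by
  obtain ⟨w, h1, h2⟩ := hz
  have h' := (isWd_eqv h1).1 h
  cases h2 with
  | one l r a hr =>
    refine (sg_eqv hM hB h1 h t (l, a, r) rfl rfl).trans ?_
    rw [sg_congr (nuB_z1 (gen_z1 hr) l r B)]
  | two l r a b hr =>
    have e1 : bw (l ++ [a], b, r) = l ++ a :: b :: r := by simp [bw]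
    exact (sg_eqv hM hB h1 h t (l ++ [a], b, r) rfl e1).trans
      (hM.kill n B l a b r (bok_cons.2 ⟨e1 ▸ h', hB⟩) (gen_z2 hr))

omit [Finite α] in
theorem exists_partner (hL : LiftStmt S) {t : List α × α × List α} (hz : ¬ S.Zero (bw t))
    (h0 : ((t :: B).map fun t => mon S (bw t)).sum = 0) : ∃ t' ∈ B, S.Eqv (bw t) (bw t') := by
  classical
  obtain ⟨φ, hφ⟩ := hL (ZMod 2) (fun w => if S.Eqv (bw t) w then 1 else 0)
    (fun w w' h => by
      have : S.Eqv (bw t) w ↔ S.Eqv (bw t) w' := ⟨fun h' => h'.trans h.eqv, fun h' => h'.trans h.eqv.symm⟩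
      simp only [this])
    (fun w h => if_neg fun h' => hz ⟨w, h', h⟩)
  by_contra hc
  push Not at hc
  have h1 := congrArg φ h0
  rw [List.map_cons, List.sum_cons, map_add, hφ, if_pos (Sys.Eqv.refl _), map_list_sum,
    List.sum_eq_zero, add_zero, map_zero] at h1
  · exact one_ne_zero h1
  · intro x hx
    simp only [List.map_map, List.mem_map, Function.comp] at hx
    obtain ⟨t', ht', rfl⟩ := hx
    rw [hφ, if_neg (hc t' ht')]

end TrieA

open TrieA in
theorem trieAStmt [Finite α] {G : Type} [Group G] {E : StG (Jsp X) G} {τ : Tr E}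
    {Λ : Lev (Alg S)} (hL : LiftStmt S) (hM : MoveStmt X τ Λ) : TrieAStmt X τ Λ := by
  intro n B
  change _ → _ → sg τ Λ n B =ᶠ[atTop] sg τ Λ n []
  induction hm : B.length using Nat.strong_induction_on generalizing B with
  | _ m ih =>
    intro hB h0
    cases B with
    | nil => rfl
    | cons t B =>
      obtain ⟨ht, hB'⟩ := bok_cons.1 hB
      by_cases hz : S.Zero (bw t)
      · refine (sg_zero hM hB' ht hz).trans (ih B.length (by simp [← hm]) B rfl hB' ?_)
        rwa [List.map_cons, List.sum_cons, mon_zero hz, zero_add] at h0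
      · obtain ⟨t', ht', he⟩ := exists_partner hL hz h0
        obtain ⟨s, r, rfl⟩ := List.append_of_mem ht'
        have hp : (s ++ t' :: r).Perm (t' :: (s ++ r)) := List.perm_middle
        refine (sg_eqv hM hB' he ht t t' rfl rfl).trans ?_
        rw [sg_congr ((nuB_perm (hp.cons t')).trans (nuB_dup t' _))]
        refine ih (s ++ r).length (by simp [← hm]) _ rfl
          (fun x hx => hB' x (hp.mem_iff.2 (List.mem_cons_of_mem _ hx))) ?_
        rwa [List.map_cons, List.sum_cons, (hp.map _).sum_eq, List.map_cons, List.sum_cons,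
          mon_eqv he, ← add_assoc, alg_two, zero_add] at h0

end Crest.Agent.R176
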