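import Crest.Agent.R176.Lift
import Crest.Agent.R176.Pr
import Crest.Agent.R176.CS
import Crest.Agent.R176.Nil
import Crest.Agent.R176.G266
import Crest.Agent.R176.G265
import Crest.Agent.R176.Hat
import Crest.Agent.R176.Ds1
import Crest.Agent.R176.Ds2
import Crest.Agent.R176.Chart
import Crest.Agent.R176.Swap
import Crest.Agent.R176.TrMore
import Crest.Agent.R176.DD
import Crest.Agent.R176.Cyc
import Crest.Agent.R176.Pw
import Crest.Agent.R176.Th
import Crest.Agent.R176.Sq
import Crest.Agent.R176.T3
import Crest.Agent.R176.T4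
import Crest.Agent.R176.InvA
import Crest.Agent.R176.Lev
import Crest.Agent.R176.Fp1
import Crest.Agent.R176.Fp2
import Crest.Agent.R176.Move
import Crest.Agent.R176.TrieA
import Crest.Agent.R176.Inj

/-! Row 176: from a nice rewriting system to the two goals. -/

set_option autoImplicit false

namespace Crest.Agent.R176

variable {α : Type} [Fintype α] {S : Sys α}

theorem nil_of_perm (h : PermP S) : NilStmt S :=
  nilStmt S (liftStmt S) (spanStmt S) (csStmt S h)

theorem goal266_of (h : PermP S) (hl : LongP S) : Goal266 :=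
  goal266 S (liftStmt S) (spanStmt S) (nil_of_perm h) hl

theorem goal265_of (X : Vtx S) (A : Addr S X) (h : PermP S) (hl : LongP S) : Goal265 := by
  have hL := liftStmt S
  have hS := spanStmt S
  have hN := nil_of_perm h
  have P : PR (Jsp X) := prStmt X hL hN
  obtain ⟨G, _, E, e, he, hx⟩ := hatStmt P
  have hO : OmStmt E := omStmt_of E P (dsStmt_of E P (ds1Stmt E P))
  have hC : ChartStmt E := chartStmt_of E P hO
  obtain ⟨τ⟩ := exists_tr P hO hC
  have hM : TrMore τ := trMore P hO hC τ
  obtain ⟨Λ, hΛ, hH⟩ := levStmt X A hL hS hN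
  have hW := pwFacts P hΛ
  have hD := ddFacts P hM
  have hT : ThFacts τ Λ := thFacts P hΛ hW hD (sqStmt P hΛ hW hD (cycStmt P hM))
  have hI : InvAStmt τ Λ := invAStmt P hΛ hW hM hT
  have hK : TokStmt X Λ := tokStmt X Λ hH
  have hInj : InjStmt X := injStmt P E e he hx τ Λ (genStmt X P) hK
    (trieAStmt hL (moveStmt X τ Λ hK hI)) (trieBStmt P hH hK hI (t3Stmt P hΛ hW hM hT))
    (t4Stmt P hM hT) (unrStmt_of hI)
  exact goal265 X P hL hS hN hl hInj (fpStmt X P hL (fp1Stmt X))

end Crest.Agent.R176
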