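import Crest.Agent.R176.Tower

/-! Row 176: exchanging the physical words of two items (T-SWAP). -/

set_option autoImplicit false

namespace Crest.Agent.R176

namespace SwapT

variable {s : ℕ}

theorem chain (hT : TowFacts) (W : ℕ → List C0) (X : ℕ → Cell (mS s)) (fl ll : ℕ → List V)
    (m : ℕ) (h1 : ∀ k ≤ m, TB s (W k) [X k] (fl k) (ll k))
    (h2 : ∀ k < m, List.Forall₂ LK (ll k) (fl (k + 1)))
    (h3 : ∀ k < m, ColAdj (X k).a (X (k + 1)).a) :
    TB s ((List.range (m + 1)).map W).flatten ((List.range (m + 1)).map X) (fl 0) (ll m) := by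
  induction m with
  | zero => simpa using h1 0 le_rfl
  | succ m ih =>
    have ih' := ih (fun k hk => h1 k (by omega)) (fun k hk => h2 k (by omega))
      (fun k hk => h3 k (by omega))
    have := hT.tb_append ih' (h1 (m + 1) le_rfl) (h2 m (by omega)) (by
      intro A hA B hB
      rw [List.range_succ] at hA
      simp at hA hB
      subst hA hB
      exact h3 m (by omega))
    rw [List.range_succ (n := m + 1)]
    simpa using this

theorem length_flat (W : ℕ → List C0) (D m : ℕ) (h : ∀ k < m, (W k).length = D) :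
    ((List.range m).map W).flatten.length = m * D := by
  induction m with
  | zero => simp
  | succ m ih =>
    rw [List.range_succ, List.map_append, List.flatten_append, List.length_append,
      ih fun k hk => h k (by omega)]
    simp [h m (by omega), Nat.succ_mul]

theorem len1 (hT : TowFacts) {W : List C0} {X : Cell (mS s)} {f l : List V}
    (h : TB s W [X] f l) : W.length = DL s := by
  simpa using hT.length (hT.tower_of_tb h)

theorem unchain (hT : TowFacts) (W : ℕ → List C0) (X : ℕ → Cell (mS s)) (fl ll : ℕ → List V)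
    (m : ℕ) (h1 : ∀ k ≤ m, TB s (W k) [X k] (fl k) (ll k)) (f l : List V)
    (h : TB s ((List.range (m + 1)).map W).flatten ((List.range (m + 1)).map X) f l) :
    f = fl 0 ∧ l = ll m ∧ ∀ k < m, List.Forall₂ LK (ll k) (fl (k + 1)) := by
  induction m generalizing l with
  | zero =>
    have := hT.tb_unique (by simpa using h) (h1 0 le_rfl)
    exact ⟨this.2.1, this.2.2, fun k hk => absurd hk (by omega)⟩
  | succ m ih =>
    rw [List.range_succ (n := m + 1), List.map_append, List.map_append, List.flatten_append] at h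
    obtain ⟨W1, W2, l1, f2, hW, t1, t2, hk⟩ := hT.tb_split h (by simp) (by simp)
    have hlen : ((List.map W [m + 1]).flatten).length = W2.length := by
      have a1 := len1 hT (h1 (m + 1) le_rfl)
      have a2 := len1 hT (by simpa using t2)
      simp [a1, a2]
    obtain ⟨e1, e2⟩ := List.append_inj' hW hlen
    subst e1
    have e3 : W2 = W (m + 1) := by simpa using e2.symm
    subst e3
    have u2 := hT.tb_unique (by simpa using t2) (h1 (m + 1) le_rfl)
    obtain ⟨i1, i2, i3⟩ := ih (fun k hk => h1 k (by omega)) l1 t1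
    refine ⟨i1, u2.2.2, fun k hk' => ?_⟩
    rcases Nat.lt_succ_iff_lt_or_eq.1 hk' with hk' | rfl
    · exact i3 k hk'
    · rw [← i2, ← u2.2.1]; exact hk

theorem jcL (hJ : JcStmt) : ∀ (l f l' g h f' : List V), List.Forall₂ LK l f →
    List.Forall₂ LK l' g → List.Forall₂ LK h f' → (∀ a ∈ l, a.st.E = true) →
    (∀ a ∈ l', a.st.E = true) → ((∀ a ∈ l, Simple Side.L a) ∨ ∀ a ∈ f, Simple Side.R a) →
    l'.map (cls Side.L) = l.map (cls Side.L) → f'.map (cls Side.R) = f.map (cls Side.R) →
    List.Forall₂ LK l' f' := by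
  intro l
  induction l with
  | nil =>
    intro f l' g h f' h1 _ _ _ _ _ h7 h8
    cases h1
    simp only [List.map_nil, List.map_eq_nil_iff] at h7 h8
    subst h7 h8
    exact List.Forall₂.nil
  | cons a l ih =>
    intro f l' g h f' h1 h2 h3 h4 h5 h6 h7 h8
    cases h1 with
    | @cons _ b _ f h1 h1' =>
      cases l' with
      | nil => simp at h7
      | cons a' l' =>
        cases f' with
        | nil => simp at h8
        | cons b' f' =>
          cases h2 with
          | @cons _ c _ g h2 h2' =>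
            cases h3 with
            | @cons d _ h _ h3 h3' =>
              simp only [List.map_cons, List.cons.injEq] at h7 h8
              refine List.Forall₂.cons (hJ a b a' c d b' (h4 a (by simp)) (h5 a' (by simp)) h1 h2 h3
                ?_ h7.1 h8.1) (ih f l' g h f' h1' h2' h3' (fun x hx => h4 x (by simp [hx]))
                (fun x hx => h5 x (by simp [hx])) ?_ h7.2 h8.2)
              · exact h6.imp (fun H => H a (by simp)) (fun H => H b (by simp))
              · exact h6.imp (fun H x hx => H x (by simp [hx])) (fun H x hx => H x (by simp [hx]))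

theorem flat_ends (W : ℕ → List C0) (m : ℕ) :
    ((List.range (m + 2)).map W).flatten =
      W 0 ++ ((List.range m).map fun k => W (k + 1)).flatten ++ W (m + 1) := by
  rw [List.range_succ, List.range_succ_eq_map]
  simp [List.map_map, Function.comp_def]

/-- After freeing the two outer junctions the block normalises. -/
theorem normal (hT : TowFacts) (W : ℕ → List C0) (X : ℕ → Cell (mS s)) (fl ll : ℕ → List V)
    (m : ℕ) (h1 : ∀ k ≤ m + 1, TB s (W k) [X k] (fl k) (ll k))
    (h2 : ∀ k < m + 1, List.Forall₂ LK (ll k) (fl (k + 1)))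
    (h3 : ∀ k < m + 1, ColAdj (X k).a (X (k + 1)).a) {Wx Wx' W0 Wl Wy Wy' : List C0}
    {f0 l0 : List V} (e1 : S0.Eqv (Wx ++ W 0) (Wx' ++ W0)) (t1 : TB s W0 [X 0] f0 (ll 0))
    (r1 : ∀ f ∈ f0, ¬ f.isR) (e2 : S0.Eqv (W (m + 1) ++ Wy) (Wl ++ Wy'))
    (t2 : TB s Wl [X (m + 1)] (fl (m + 1)) l0) (r2 : ∀ l ∈ l0, ¬ l.isL) :
    S0.Eqv (Wx ++ ((List.range (m + 2)).map W).flatten ++ Wy)
      (Wx' ++ encS s ((List.range (m + 2)).map X) ++ Wy') := by
  classical
  let U : ℕ → List C0 := fun k => if k = 0 then W0 else if k = m + 1 then Wl else W k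
  let fU : ℕ → List V := fun k => if k = 0 then f0 else fl k
  let lU : ℕ → List V := fun k => if k = m + 1 then l0 else ll k
  have hc := chain hT U X fU lU (m + 1) (by
      intro k hk
      by_cases k0 : k = 0
      · subst k0; simpa [U, fU, lU] using t1
      · by_cases k1 : k = m + 1
        · subst k1; simpa [U, fU, lU] using t2
        · simpa [U, fU, lU, k0, k1] using h1 k hk)
    (by
      intro k hk
      have : k ≠ m + 1 := by omega
      simpa [fU, lU, this] using h2 k hk) h3
  have hn := hT.norm hc (by simpa [fU] using r1) (by simpa [lU] using r2)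
  rw [flat_ends] at hn ⊢
  have hmid : ((List.range m).map fun k => U (k + 1)) = (List.range m).map fun k => W (k + 1) := by
    apply List.map_congr_left
    intro k hk
    have : k ≠ m := by have := List.mem_range.1 hk; omega
    simp [U, this]
  rw [hmid] at hn
  have u0 : U 0 = W0 := by simp [U]
  have u1 : U (m + 1) = Wl := by simp [U]
  rw [u0, u1] at hn
  set mid := ((List.range m).map fun k => W (k + 1)).flatten
  calc S0.Eqv (Wx ++ (W 0 ++ mid ++ W (m + 1)) ++ Wy) ((Wx ++ W 0) ++ mid ++ (W (m + 1) ++ Wy)) :=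
        Sys.Eqv.of_eq (by simp)
    S0.Eqv _ ((Wx' ++ W0) ++ mid ++ (Wl ++ Wy')) := (e1.append_right mid).append e2
    S0.Eqv _ (Wx' ++ (W0 ++ mid ++ Wl) ++ Wy') := Sys.Eqv.of_eq (by simp)
    S0.Eqv _ _ := hn.ctx Wx' Wy'

/-- Extension of a family on `Fin n` to `ℕ`. -/
def ext {β : Type} {n : ℕ} (f : Fin n → β) (d : β) (k : ℕ) : β := if h : k < n then f ⟨k, h⟩ else d

theorem ofFn_eq {β : Type} {n : ℕ} (f : Fin n → β) (d : β) :
    List.ofFn f = (List.range n).map (ext f d) := by
  apply List.ext_getElem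
  · simp
  · intro k h1 h2
    have : k < n := by simpa using h1
    simp [ext, this]

theorem ofFn_swap {β : Type} {n : ℕ} (f : Fin n → β) (d : β) (i j : Fin n) :
    List.ofFn (f ∘ Equiv.swap i j) =
      (List.range n).map fun k => ext f d (Equiv.swap i.val j.val k) := by
  apply List.ext_getElem
  · simp
  · intro k h1 h2
    have hk : k < n := by simpa using h1
    simp only [List.getElem_ofFn, Function.comp, List.getElem_map, List.getElem_range]
    by_cases a : k = i.val
    · subst a; simp [ext]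
    · by_cases b : k = j.val
      · subst b; simp [ext]
      · rw [Equiv.swap_apply_of_ne_of_ne a b, Equiv.swap_apply_of_ne_of_ne
          (fun h => a (congrArg Fin.val h)) (fun h => b (congrArg Fin.val h))]
        simp [ext, hk]

end SwapT

open SwapT in
theorem swapStmt (h : OneLevel) (hT : TowFacts) (hF : FreeStmt) : SwapStmt := by
  intro s Z X Wc fl ll x y Wx Wy i j hG hTB hTow hlen hch hi1 hi2 hj1 hj2 hτ hlk ha hcf hcl
  obtain ⟨hsw, hG'⟩ := h.swp (mS s) Z X i j hG hi1 hi2 hj1 hj2 hτ hlk ha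
  obtain ⟨m, hm⟩ : ∃ m, nb (mS s) = m + 2 := ⟨nb (mS s) - 2, by omega⟩
  set W := ext Wc [] with hWd
  set Y := ext X x with hYd
  set F := ext fl [] with hFd
  set L := ext ll [] with hLd
  set σ : ℕ → ℕ := fun k => Equiv.swap i.val j.val k with hσ
  have eW : List.ofFn Wc = (List.range (m + 2)).map W := by rw [← hm]; exact ofFn_eq _ _
  have eX : List.ofFn X = (List.range (m + 2)).map Y := by rw [← hm]; exact ofFn_eq _ _
  have eW' : List.ofFn (Wc ∘ Equiv.swap i j) = (List.range (m + 2)).map fun k => W (σ k) := by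
    rw [← hm]; exact ofFn_swap _ _ _ _
  have eX' : List.ofFn (X ∘ Equiv.swap i j) = (List.range (m + 2)).map fun k => Y (σ k) := by
    rw [← hm]; exact ofFn_swap _ _ _ _
  have h1 : ∀ k ≤ m + 1, TB s (W k) [Y k] (F k) (L k) := by
    intro k hk
    have hk' : k < nb (mS s) := by omega
    simpa [hWd, hYd, hFd, hLd, ext, hk'] using hTB ⟨k, hk'⟩
  have hYi : Y i = X i := by simp [hYd, ext]
  have hYj : Y j = X j := by simp [hYd, ext]
  have σcases : ∀ k, (k = i.val ∧ σ k = j.val) ∨ (k = j.val ∧ σ k = i.val) ∨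
      (k ≠ i.val ∧ k ≠ j.val ∧ σ k = k) := by
    intro k
    by_cases a : k = i.val
    · left; exact ⟨a, by simp [hσ, a]⟩
    · by_cases b : k = j.val
      · right; left; exact ⟨b, by simp [hσ, b]⟩
      · right; right; exact ⟨a, b, Equiv.swap_apply_of_ne_of_ne a b⟩
  have σa : ∀ k, (Y (σ k)).a = (Y k).a := by
    intro k
    rcases σcases k with ⟨a, b⟩ | ⟨a, b⟩ | ⟨-, -, b⟩
    · rw [b, a, hYi, hYj, ha]
    · rw [b, a, hYi, hYj, ha]
    · rw [b]
  have hFi : F i = fl i := by simp [hFd, ext]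
  have hFj : F j = fl j := by simp [hFd, ext]
  have hLi : L i = ll i := by simp [hLd, ext]
  have hLj : L j = ll j := by simp [hLd, ext]
  have σf : ∀ k, (F (σ k)).map (cls Side.R) = (F k).map (cls Side.R) := by
    intro k
    rcases σcases k with ⟨a, b⟩ | ⟨a, b⟩ | ⟨-, -, b⟩
    · rw [b, a, hFi, hFj, hcf]
    · rw [b, a, hFi, hFj, hcf]
    · rw [b]
  have σl : ∀ k, (L (σ k)).map (cls Side.L) = (L k).map (cls Side.L) := by
    intro k
    rcases σcases k with ⟨a, b⟩ | ⟨a, b⟩ | ⟨-, -, b⟩
    · rw [b, a, hLi, hLj, hcl]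
    · rw [b, a, hLi, hLj, hcl]
    · rw [b]
  have unl : ∀ k, σ k ≠ k → (Y k).a.lk = Lk.none := by
    intro k hk
    rcases σcases k with ⟨a, -⟩ | ⟨a, -⟩ | ⟨-, -, b⟩
    · rw [a, hYi]; exact hlk
    · rw [a, hYj, ha]; exact hlk
    · exact absurd b hk
  -- colours
  rw [eX] at hch
  have hcol : ∀ k < m + 1, ColAdj (Y k).a (Y (k + 1)).a := by
    intro k hk
    have hc := (List.isChain_iff_getElem.1 hch) (k + 1) (by simp; omega)
    simpa [List.getElem_append_left, List.getElem_cons_succ, show k < m + 2 by omega,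
      show k + 1 < m + 2 by omega] using hc
  have hcx : ColAdj x.a (Y 0).a := by
    have hc := (List.isChain_iff_getElem.1 hch) 0 (by simp)
    simpa [List.getElem_append_left] using hc
  have hcy : ColAdj (Y (m + 1)).a y.a := by
    have hc := (List.isChain_iff_getElem.1 hch) (m + 2) (by simp)
    simpa [List.getElem_append_left, List.getElem_append_right] using hc
  -- splitting the big tower
  rw [eW, eX] at hTow
  obtain ⟨fx, ly, hb⟩ := hT.tb_of_tower hTow (by simp)
  have hb' : TB s (Wx ++ ((List.range (m + 2)).map W).flatten ++ Wy)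
      ([x] ++ ((List.range (m + 2)).map Y ++ [y])) fx ly := by simpa using hb
  obtain ⟨W1, W2, lx, f2, hW, t1, t2, k1⟩ := hT.tb_split hb' (by simp) (by simp)
  rw [List.append_assoc] at hW
  obtain ⟨e1, e2⟩ := List.append_inj hW (by rw [hlen, len1 hT t1])
  subst e1 e2
  obtain ⟨W3, W4, lm, fy, hW', t3, t4, k2⟩ := hT.tb_split t2 (by simp) (by simp)
  obtain ⟨e3, e4⟩ := List.append_inj hW' (by
    rw [length_flat W (DL s) (m + 2) fun k hk => len1 hT (h1 k (by omega)),
      hT.length (hT.tower_of_tb t3)]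
    simp)
  subst e3 e4
  obtain ⟨u1, u2, h2⟩ := unchain hT W Y F L (m + 1) h1 f2 lm t3
  subst u1 u2
  -- the swapped family
  have σle : ∀ k ≤ m + 1, σ k ≤ m + 1 := by
    intro k hk
    rcases σcases k with ⟨-, b⟩ | ⟨-, b⟩ | ⟨-, -, b⟩ <;> omega
  have h1' : ∀ k ≤ m + 1, TB s (W (σ k)) [Y (σ k)] (F (σ k)) (L (σ k)) :=
    fun k hk => h1 _ (σle k hk)
  have h3' : ∀ k < m + 1, ColAdj (Y (σ k)).a (Y (σ (k + 1))).a := by
    intro k hk; rw [σa, σa]; exact hcol k hk
  have h2' : ∀ k < m + 1, List.Forall₂ LK (L (σ k)) (F (σ (k + 1))) := by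
    intro k hk
    by_cases c : σ k = k ∧ σ (k + 1) = k + 1
    · rw [c.1, c.2]; exact h2 k hk
    have a1 : σ k < m + 1 := by
      rcases σcases k with ⟨-, b⟩ | ⟨-, b⟩ | ⟨-, -, b⟩ <;> omega
    obtain ⟨p, hp, hp'⟩ : ∃ p, σ (k + 1) = p + 1 ∧ p < m + 1 := by
      refine ⟨σ (k + 1) - 1, ?_, ?_⟩ <;>
        rcases σcases (k + 1) with ⟨-, b⟩ | ⟨-, b⟩ | ⟨-, -, b⟩ <;> omega
    refine jcL h.jc (L k) (F (k + 1)) _ (F (σ k + 1)) (L p) _ (h2 k hk) (h2 _ a1)
      (by rw [hp]; exact h2 p hp') (hT.tb_E (h1 k hk.le)) (hT.tb_E (h1 _ a1.le)) ?_ (σl k)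
      (σf (k + 1))
    by_cases c1 : σ k = k
    · right
      have c2 : σ (k + 1) ≠ k + 1 := fun e => c ⟨c1, e⟩
      refine hT.simpleR (h1 (k + 1) hk) rfl ?_ (h2 k hk) (hT.tb_E (h1 k hk.le))
      intro κ hκ
      rw [V.sk_of_none (unl _ c2)] at hκ; cases hκ
    · left
      refine hT.simpleL (X := Y k) (h1 k hk.le) rfl ?_ (h2 k hk)
      intro κ hκ
      rw [V.sk_of_none (unl _ c1)] at hκ; cases hκ
  have σ0 : σ 0 = 0 := by
    rcases σcases 0 with ⟨a, -⟩ | ⟨a, -⟩ | ⟨-, -, b⟩ <;> omega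
  have σm : σ (m + 1) = m + 1 := by
    rcases σcases (m + 1) with ⟨a, -⟩ | ⟨a, -⟩ | ⟨-, -, b⟩ <;> omega
  refine ⟨?_, ?_⟩
  · obtain ⟨Wx', W0, lx', f0, e1, -, s1, -, r1⟩ := hF s _ _ _ _ _ _ _ _ t1 (h1 0 (by omega))
      (by simp) (by simp) k1 (by simpa using hcx)
    obtain ⟨Wl, Wy', l0, fy', e2, s2, -, r2, -⟩ := hF s _ _ _ _ _ _ _ _ (h1 (m + 1) le_rfl) t4
      (by simp) (by simp) k2 (by simpa using hcy)
    have n1 := normal hT W Y F L m h1 h2 hcol e1 s1 r1 e2 s2 r2
    have n2 := normal hT (fun k => W (σ k)) (fun k => Y (σ k)) (fun k => F (σ k))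
      (fun k => L (σ k)) m h1' h2' h3' (Wx := Wx) (Wx' := Wx') (W0 := W0) (Wl := Wl) (Wy := Wy)
      (Wy' := Wy') (f0 := f0) (l0 := l0) (by simpa [σ0] using e1) (by simpa [σ0] using s1) r1
      (by simpa [σm] using e2) (by simpa [σm] using s2) r2
    rw [eW, eW']
    refine n1.trans (Sys.Eqv.trans ?_ n2.symm)
    rw [← eX, ← eX']
    exact (hT.sim_eqv hsw).ctx _ _
  · have hc := chain hT (fun k => W (σ k)) (fun k => Y (σ k)) (fun k => F (σ k))
      (fun k => L (σ k)) (m + 1) h1' h2' h3'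
    rw [← eW', ← eX'] at hc
    exact ⟨_, hT.tower_of_tb hc, hG'⟩

end Crest.Agent.R176
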