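import Mathlib

/-! Row 176: length-preserving rewriting systems with zero patterns, and the interface `Nice`. -/

set_option autoImplicit false

namespace Crest.Agent.R176

/-- One- and two-letter rules, one- and two-letter zero patterns. -/
structure Sys (α : Type) where
  r1 : α → α → Prop
  r2 : α → α → α → α → Prop
  z1 : α → Prop
  z2 : α → α → Prop

namespace Sys

variable {α : Type} (S : Sys α)

inductive Step : List α → List α → Prop
  | one (l r : List α) (a b : α) (h : S.r1 a b) : Step (l ++ a :: r) (l ++ b :: r)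
  | two (l r : List α) (a b c d : α) (h : S.r2 a b c d) :
      Step (l ++ a :: b :: r) (l ++ c :: d :: r)

def Eqv : List α → List α → Prop := Relation.EqvGen S.Step

inductive ZPat : List α → Prop
  | one (l r : List α) (a : α) (h : S.z1 a) : ZPat (l ++ a :: r)
  | two (l r : List α) (a b : α) (h : S.z2 a b) : ZPat (l ++ a :: b :: r)

def Zero (w : List α) : Prop := ∃ w', S.Eqv w w' ∧ S.ZPat w'

variable {S}

theorem Eqv.refl (w : List α) : S.Eqv w w := Relation.EqvGen.refl w

theorem Eqv.symm {w w' : List α} (h : S.Eqv w w') : S.Eqv w' w := Relation.EqvGen.symm _ _ h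

theorem Eqv.trans {w w' w'' : List α} (h : S.Eqv w w') (h' : S.Eqv w' w'') : S.Eqv w w'' :=
  Relation.EqvGen.trans _ _ _ h h'

theorem Eqv.of_eq {w w' : List α} (h : w = w') : S.Eqv w w' := h ▸ Eqv.refl w

theorem Step.eqv {w w' : List α} (h : S.Step w w') : S.Eqv w w' := Relation.EqvGen.rel _ _ h

instance : Trans S.Eqv S.Eqv S.Eqv := ⟨Eqv.trans⟩

theorem Step.ctx {w w' : List α} (h : S.Step w w') (l r : List α) :
    S.Step (l ++ w ++ r) (l ++ w' ++ r) := by
  cases h with
  | one l' r' a b h =>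
    have := Step.one (S := S) (l ++ l') (r' ++ r) a b h
    simpa [List.append_assoc] using this
  | two l' r' a b c d h =>
    have := Step.two (S := S) (l ++ l') (r' ++ r) a b c d h
    simpa [List.append_assoc] using this

theorem Step.length_eq {w w' : List α} (h : S.Step w w') : w.length = w'.length := by
  cases h <;> simp

/-- Induction principle for `Eqv`: a property stable under steps in both directions. -/
theorem Eqv.induct {P : List α → Prop} (h1 : ∀ w w', S.Step w w' → P w → P w')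
    (h2 : ∀ w w', S.Step w w' → P w' → P w) {w w' : List α} (h : S.Eqv w w') : P w ↔ P w' := by
  induction h with
  | rel a b h => exact ⟨h1 a b h, h2 a b h⟩
  | refl a => exact Iff.rfl
  | symm a b _ ih => exact ih.symm
  | trans a b c _ _ ih1 ih2 => exact ih1.trans ih2

/-- A function invariant under steps is invariant under `Eqv`. -/
theorem Eqv.fun_eq {β : Sort*} {f : List α → β} (h1 : ∀ w w', S.Step w w' → f w = f w')
    {w w' : List α} (h : S.Eqv w w') : f w = f w' := by
  induction h with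
  | rel a b h => exact h1 a b h
  | refl a => rfl
  | symm a b _ ih => exact ih.symm
  | trans a b c _ _ ih1 ih2 => exact ih1.trans ih2

theorem Eqv.length_eq {w w' : List α} (h : S.Eqv w w') : w.length = w'.length :=
  Eqv.fun_eq (f := List.length) (fun _ _ h => h.length_eq) h

theorem Eqv.ctx {w w' : List α} (h : S.Eqv w w') (l r : List α) :
    S.Eqv (l ++ w ++ r) (l ++ w' ++ r) := by
  induction h with
  | rel a b h => exact (h.ctx l r).eqv
  | refl a => exact Eqv.refl _
  | symm a b _ ih => exact ih.symm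
  | trans a b c _ _ ih1 ih2 => exact ih1.trans ih2

theorem Eqv.append_left {w w' : List α} (h : S.Eqv w w') (l : List α) :
    S.Eqv (l ++ w) (l ++ w') := by simpa using h.ctx l []

theorem Eqv.append_right {w w' : List α} (h : S.Eqv w w') (r : List α) :
    S.Eqv (w ++ r) (w' ++ r) := by simpa using h.ctx [] r

theorem Eqv.cons {w w' : List α} (h : S.Eqv w w') (a : α) : S.Eqv (a :: w) (a :: w') :=
  h.append_left [a]

theorem Eqv.append {w w' v v' : List α} (h : S.Eqv w w') (h' : S.Eqv v v') :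
    S.Eqv (w ++ v) (w' ++ v') := (h.append_right v).trans (h'.append_left w')

theorem Eqv.of_r1 {a b : α} (h : S.r1 a b) : S.Eqv [a] [b] := (Step.one [] [] a b h).eqv

theorem Eqv.of_r2 {a b c d : α} (h : S.r2 a b c d) : S.Eqv [a, b] [c, d] :=
  (Step.two [] [] a b c d h).eqv

theorem ZPat.ctx {w : List α} (h : S.ZPat w) (l r : List α) : S.ZPat (l ++ w ++ r) := by
  cases h with
  | one l' r' a h =>
    have := ZPat.one (S := S) (l ++ l') (r' ++ r) a h
    simpa [List.append_assoc] using this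
  | two l' r' a b h =>
    have := ZPat.two (S := S) (l ++ l') (r' ++ r) a b h
    simpa [List.append_assoc] using this

theorem ZPat.zero {w : List α} (h : S.ZPat w) : S.Zero w := ⟨w, Eqv.refl w, h⟩

theorem Zero.of_eqv {w w' : List α} (h : S.Eqv w w') (hz : S.Zero w') : S.Zero w := by
  obtain ⟨v, h1, h2⟩ := hz
  exact ⟨v, h.trans h1, h2⟩

theorem Eqv.zero_iff {w w' : List α} (h : S.Eqv w w') : S.Zero w ↔ S.Zero w' :=
  ⟨Zero.of_eqv h.symm, Zero.of_eqv h⟩

theorem Zero.ctx {w : List α} (h : S.Zero w) (l r : List α) : S.Zero (l ++ w ++ r) := by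
  obtain ⟨v, h1, h2⟩ := h
  exact ⟨l ++ v ++ r, h1.ctx l r, h2.ctx l r⟩

theorem Zero.append_left {w : List α} (h : S.Zero w) (l : List α) : S.Zero (l ++ w) := by
  simpa using h.ctx l []

theorem Zero.append_right {w : List α} (h : S.Zero w) (r : List α) : S.Zero (w ++ r) := by
  simpa using h.ctx [] r

theorem Zero.of_infix {w w' : List α} (h : S.Zero w) (hi : w <:+: w') : S.Zero w' := by
  obtain ⟨l, r, rfl⟩ := hi
  exact h.ctx l r

theorem Zero.of_z1 {a : α} (h : S.z1 a) : S.Zero [a] := (ZPat.one [] [] a h).zero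

theorem Zero.of_z2 {a b : α} (h : S.z2 a b) : S.Zero [a, b] := (ZPat.two [] [] a b h).zero

theorem not_zero_nil : ¬ S.Zero [] := by
  rintro ⟨v, h1, h2⟩
  have := h1.length_eq
  cases h2 <;> simp at this <;> omega

end Sys

/-- Long nonzero words contain many distinct chunks that can be permuted inside the class,
the choice of the chunks being equivariant. -/
def PermP {α : Type} (S : Sys α) : Prop :=
  ∀ r : ℕ, ∃ N n : ℕ, ∃ (pre post : List α → List α) (ch : List α → Fin n → List α)
    (sel : List α → Fin r → Fin n), ∀ w, ¬ S.Zero w → N ≤ w.length →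
      w = pre w ++ (List.ofFn (ch w)).flatten ++ post w ∧
      (∀ i j, i ≠ j → ch w (sel w i) ≠ ch w (sel w j)) ∧
      ∀ i j, ∀ w', w' = pre w ++ (List.ofFn (ch w ∘ Equiv.swap (sel w i) (sel w j))).flatten ++ post w →
        S.Eqv w w' ∧ pre w' = pre w ∧ post w' = post w ∧
          ch w' = ch w ∘ Equiv.swap (sel w i) (sel w j) ∧ sel w' = sel w

/-- Letterwise vertices in `ZMod 5`. -/
structure Vtx {α : Type} (S : Sys α) where
  vtx : α → ZMod 5
  vtx_r1 : ∀ a b, S.r1 a b → vtx b = vtx a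
  vtx_r2 : ∀ a b c d, S.r2 a b c d → vtx c = vtx a ∧ vtx d = vtx b
  vtx_z : ∀ a b, vtx b ≠ vtx a + 1 → S.z2 a b

/-- Multi-level addresses of nonzero words. -/
structure Addr {α : Type} (S : Sys α) (X : Vtx S) where
  N : ℕ → ℕ
  lam : ℕ → ℕ
  dd : ℕ → ℕ
  ad : ℕ → List α → ℕ
  N_zero : N 0 = 5
  lam_zero : lam 0 = 1
  ad_zero : ∀ a w, ((ad 0 (a :: w) : ℕ) : ZMod 5) = X.vtx a
  N_dvd : ∀ l, N l ∣ N (l + 1)
  N_pos : ∀ l, 0 < N l
  N_big : ∀ n, ∃ l0, ∀ l, l0 ≤ l → n ≤ N l
  lam_mono : ∀ l, lam l ≤ lam (l + 1)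
  ad_step : ∀ l w w', ¬ S.Zero w → lam l ≤ w.length → S.Step w w' → ad l w ≡ ad l w' [MOD N l]
  ad_left : ∀ l s t, ¬ S.Zero (s ++ t) → lam l ≤ s.length → ad l (s ++ t) ≡ ad l s [MOD N l]
  ad_right : ∀ l s t, ¬ S.Zero (s ++ t) → lam l ≤ t.length →
    ad l (s ++ t) + s.length ≡ ad l t [MOD N l]
  ad_succ : ∀ l w, ¬ S.Zero w → lam (l + 1) ≤ w.length → ad (l + 1) w ≡ ad l w [MOD N l]
  dd_mod : ∀ l, dd l % 5 = if l % 2 = 0 then 2 else 3
  dd_lo : ∀ l, lam (l + 1) ≤ dd l
  dd_hi : ∀ l, lam (l + 1) + dd l < N l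

/-- There are arbitrarily long nonzero words. -/
def LongP {α : Type} (S : Sys α) : Prop := ∀ n : ℕ, ∃ w, ¬ S.Zero w ∧ n ≤ w.length

end Crest.Agent.R176
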