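import Crest.Agent.R176.KAut

/-! Row 176: an automaton without edges into the boundary has trivial lift. -/

set_option autoImplicit false

namespace Crest.Agent.R176

variable {R : Type} [Ring R] {J : Z5 → Z5 → AddSubgroup R} {G : Type} [Group G] {E : StG J G}
  {τ : Tr E} {Λ : Lev R}

theorem t4Stmt (P : PR J) (hM : TrMore τ) (hT : ThFacts τ Λ) : T4Stmt τ Λ := by
  intro ι A h hA h0 L
  have h1 : theta τ Λ A.ν A.Q 0 L = 1 := by
    obtain ⟨rk, hrk⟩ := hA
    exact hT.acyc rk h.core (fun z p hp q hq =>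
      hrk p (Aut.mem_All.2 ⟨_, hp⟩) q (Aut.mem_All.2 ⟨_, hq⟩)) 0 L
  have h2 : τ.tr A.v A.ν A.All (A.Lz 0) = 1 := hM.acyc h.fit hA (h.sh_Lz 0)
  have h3 : E.Lam A.v (elimL A.Int A.ν) A.Vl = 1 := by
    refine E.Lam_zero fun p hp q hq => ?_
    obtain ⟨z, rfl⟩ := Aut.mem_Vl.1 hq
    rw [AUT.elimL_col fun r hr => h0 r (List.mem_append_left _ hr) z]
    exact h0 p (List.mem_append_right _ hp) z
  rw [Aut.s, h1, h2, h3, one_mul, one_mul]

end Crest.Agent.R176
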