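import Crest.Agent.R176.CBasic

/-! Row 176: towers of encodings and the multi-level statements. -/

set_option autoImplicit false

namespace Crest.Agent.R176

/-- The data range at level `s`. -/
def mS : ℕ → ℕ
  | 0 => 1
  | s + 1 => mS s * BB

theorem mS_eq (s : ℕ) : mS s = BB ^ s := by
  induction s with
  | zero => rfl
  | succ s ih => rw [mS, ih, pow_succ]

instance (s : ℕ) : NeZero (mS s) := ⟨by rw [mS_eq]; exact pow_ne_zero _ BB_pos.ne'⟩

/-- The physical length of a cell of level `s`. -/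
def DL : ℕ → ℕ
  | 0 => 1
  | s + 1 => nb (mS s) * DL s

theorem DL_pos (s : ℕ) : 0 < DL s := by
  induction s with
  | zero => exact one_pos
  | succ s ih => exact Nat.mul_pos (by have := nb_ge (M := mS s); omega) ih

theorem DL_succ_ge (s : ℕ) : 2000 * DL s ≤ DL (s + 1) :=
  Nat.mul_le_mul_right _ (nb_ge (M := mS s))

/-- The physical alphabet and system. -/
abbrev C0 : Type := Cell 1
abbrev S0 : Sys C0 := RS 1

/-- `W` represents the level `s` word `u`. -/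
def Tower : (s : ℕ) → List C0 → List (Cell (mS s)) → Prop
  | 0, W, u => W = u
  | s + 1, W, u => ∃ v : List (Cell (mS s)), Tower s W v ∧ Good (M := mS s) v u

/-- A tower together with the first and last controls of the levels below `s`. -/
def TB : (s : ℕ) → List C0 → List (Cell (mS s)) → List V → List V → Prop
  | 0, W, u, fl, ll => W = u ∧ fl = [] ∧ ll = []
  | s + 1, W, u, fl, ll => ∃ (v : List (Cell (mS s))) (x y : Cell (mS s)) (fl' ll' : List V),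
      TB s W v fl' ll' ∧ Good (M := mS s) v u ∧ v.head? = some x ∧ v.getLast? = some y ∧
        fl = x.a :: fl' ∧ ll = y.a :: ll'

noncomputable def encS : (s : ℕ) → List (Cell (mS s)) → List C0
  | 0, u => u
  | s + 1, u => encS s (enc (M := mS s) u)

/-- All one-level facts. -/
structure OneLevel : Prop where
  enc : ∀ (M : ℕ) [NeZero M], EncStmt M
  sim : ∀ (M : ℕ) [NeZero M], SimStmt M
  nz : ∀ (M : ℕ) [NeZero M], NzStmt M
  nrm : ∀ (M : ℕ) [NeZero M], NrmStmt M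
  adr : ∀ (M : ℕ) [NeZero M], AdrStmt M
  exa : ∀ (M : ℕ) [NeZero M], ExaStmt M
  swp : ∀ (M : ℕ) [NeZero M], SwpStmt M
  cnt : ∀ (M : ℕ) [NeZero M], CntStmt M
  sc : ∀ (M : ℕ) [NeZero M], ScStmt M
  jc : JcStmt

/-- T-BAS: structure of towers. -/
structure TowFacts : Prop where
  length : ∀ {s W u}, Tower s W u → W.length = u.length * DL s
  unique : ∀ {s W u u'}, Tower s W u → Tower s W u' → u = u'
  tb_unique : ∀ {s W u u' fl fl' ll ll'}, TB s W u fl ll → TB s W u' fl' ll' →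
    u = u' ∧ fl = fl' ∧ ll = ll'
  tower_of_tb : ∀ {s W u fl ll}, TB s W u fl ll → Tower s W u
  tb_of_tower : ∀ {s W u}, Tower s W u → u ≠ [] → ∃ fl ll, TB s W u fl ll
  tb_length : ∀ {s W u fl ll}, TB s W u fl ll → fl.length = s ∧ ll.length = s
  tb_E : ∀ {s W u fl ll}, TB s W u fl ll → ∀ l ∈ ll, l.st.E = true
  split : ∀ {s W u u'}, Tower s W (u ++ u') →
    ∃ W1 W2, W = W1 ++ W2 ∧ Tower s W1 u ∧ Tower s W2 u'
  tb_split : ∀ {s W u u' fl ll}, TB s W (u ++ u') fl ll → u ≠ [] → u' ≠ [] →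
    ∃ W1 W2 ll1 fl2, W = W1 ++ W2 ∧ TB s W1 u fl ll1 ∧ TB s W2 u' fl2 ll ∧
      List.Forall₂ LK ll1 fl2
  tb_append : ∀ {s W1 W2 u u' fl ll1 fl2 ll}, TB s W1 u fl ll1 → TB s W2 u' fl2 ll →
    List.Forall₂ LK ll1 fl2 → (∀ X ∈ u.getLast?, ∀ Y ∈ u'.head?, ColAdj X.a Y.a) →
      TB s (W1 ++ W2) (u ++ u') fl ll
  align : ∀ {s l W r u u'}, Tower s (l ++ W ++ r) u → Tower s W u' → u' ≠ [] →
    ∃ x y, u = x ++ u' ++ y ∧ Tower s l x ∧ Tower s r y
  simpleL : ∀ {s W u fl ll fl' X}, TB s W u fl ll → u.getLast? = some X → Simple Side.L X.a →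
    List.Forall₂ LK ll fl' → ∀ l ∈ ll, Simple Side.L l
  simpleR : ∀ {s W u fl ll ll' X}, TB s W u fl ll → u.head? = some X → Simple Side.R X.a →
    List.Forall₂ LK ll' fl → (∀ l ∈ ll', l.st.E = true) → ∀ f ∈ fl, Simple Side.R f
  sim_eqv : ∀ {s u u'}, (RS (mS s)).Eqv u u' → S0.Eqv (encS s u) (encS s u')
  sim_zero : ∀ {s u}, (RS (mS s)).Zero u → S0.Zero (encS s u)
  nz : ∀ {s W u}, Tower s W u → S0.Zero W → (RS (mS s)).Zero u
  encS_append : ∀ {s} (u u' : List (Cell (mS s))), encS s (u ++ u') = encS s u ++ encS s u'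
  tb_enc : ∀ {s} (u : List (Cell (mS s))), u ≠ [] → (u.IsChain fun X Y => ColAdj X.a Y.a) →
    ∃ fl ll, TB s (encS s u) u fl ll ∧ (∀ f ∈ fl, ¬ f.isR) ∧ ∀ l ∈ ll, ¬ l.isL
  norm : ∀ {s W u fl ll}, TB s W u fl ll → (∀ f ∈ fl, ¬ f.isR) → (∀ l ∈ ll, ¬ l.isL) →
    S0.Eqv W (encS s u)

/-- T-FREE: a junction of two towers can be freed without touching the outer ends. -/
def FreeStmt : Prop :=
  ∀ (s : ℕ) (W1 W2 : List C0) (u u' : List (Cell (mS s))) (fl ll1 fl2 ll : List V),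
    TB s W1 u fl ll1 → TB s W2 u' fl2 ll → u ≠ [] → u' ≠ [] → List.Forall₂ LK ll1 fl2 →
    (∀ X ∈ u.getLast?, ∀ Y ∈ u'.head?, ColAdj X.a Y.a) →
      ∃ W1' W2' ll1' fl2', S0.Eqv (W1 ++ W2) (W1' ++ W2') ∧ TB s W1' u fl ll1' ∧
        TB s W2' u' fl2' ll ∧ (∀ l ∈ ll1', ¬ l.isL) ∧ ∀ f ∈ fl2', ¬ f.isR

/-- T-X: exactness at all levels. -/
structure XFacts : Prop where
  nzint : ∀ {s W} {x y : Cell (mS s)} {v : List (Cell (mS s))}, Tower s W (x :: v ++ [y]) →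
    (RS (mS s)).Zero v → S0.Zero W
  exact : ∀ (s : ℕ) (w : List C0), ¬ S0.Zero w → ∃ l W r v, w = l ++ W ++ r ∧ Tower s W v ∧
    ¬ (RS (mS s)).Zero v ∧ l.length ≤ 3 * DL s ∧ r.length ≤ 3 * DL s

/-- The vertices of the physical letters. -/
def vx0 : Vtx S0 where
  vtx x := (x.a.st.κ.val : ZMod 5)
  vtx_r1 a b h := by rw [(TIV.st_eq h.1).1]
  vtx_r2 a b c d h := by
    rcases h with ⟨h, -⟩ | ⟨-, -, rfl, rfl⟩ | ⟨k, -, -, -, h1, -, h2, -⟩
    · rw [(TI.st_eq h).1, (TI.st_eq h).2]; exact ⟨rfl, rfl⟩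
    · simp
    · rw [h1, h2]; exact ⟨rfl, rfl⟩
  vtx_z a b h := by
    refine Or.inl (Or.inl fun h2 => h ?_)
    have h5 : 5 ∣ qq := Dvd.dvd.trans (by norm_num) ten_dvd_qq
    rw [h2.col]
    have : (((a.a.st.κ.val + 1) % qq : ℕ) : ZMod 5) = ((a.a.st.κ.val + 1 : ℕ) : ZMod 5) :=
      (ZMod.natCast_eq_natCast_iff' _ _ _).2 (Nat.mod_mod_of_dvd _ h5)
    rw [this]; push_cast; rfl

/-- A level `s` address candidate of the physical word `w`: a `P`-cell far from both ends. -/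
def Cand (s : ℕ) (w : List C0) (p : ℕ) (X : Cell (mS s)) : Prop :=
  ∃ l W r, w = l ++ W ++ r ∧ l.length = p ∧ Tower s W [X] ∧ X.a.mb.τ = Tag.P ∧
    30 * DL s ≤ l.length ∧ 30 * DL s ≤ r.length

/-- T-CAND: address candidates exist and agree. -/
structure CandFacts : Prop where
  agree : ∀ (s : ℕ) (w : List C0), ¬ S0.Zero w → ∃ z : ℕ, ∀ p X, Cand s w p X →
    z + p ≡ av X * DL s [MOD qq * DL (s + 1)]
  two : ∀ (s : ℕ) (w : List C0), ¬ S0.Zero w → 100 * DL s ≤ w.length →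
    ∃ p X p' X', Cand s w p X ∧ Cand s w p' X' ∧ p + DL s + 2 ≤ p'
  ok : ∀ (s : ℕ) (w : List C0) (p : ℕ) (X : Cell (mS s)), ¬ S0.Zero w → Cand s w p X → OK1 X.a
  down : ∀ (s : ℕ) (w : List C0) (p : ℕ) (Y : Cell (mS (s + 1))), Cand (s + 1) w p Y →
    ∃ (γ : ℕ) (X : Cell (mS s)), Cand s w (p + γ * DL s) X ∧ av X = Y.a.st.κ.val * nb (mS s) + γ

/-- T-SWAP: exchanging the physical words of two items of the same type. -/
def SwapStmt : Prop :=
  ∀ (s : ℕ) (Z : Cell (mS (s + 1))) (X : Fin (nb (mS s)) → Cell (mS s))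
    (Wc : Fin (nb (mS s)) → List C0) (fl ll : Fin (nb (mS s)) → List V) (x y : Cell (mS s))
    (Wx Wy : List C0) (i j : Fin (nb (mS s))),
    Good (M := mS s) (List.ofFn X) [Z] → (∀ k, TB s (Wc k) [X k] (fl k) (ll k)) →
    Tower s (Wx ++ (List.ofFn Wc).flatten ++ Wy) (x :: List.ofFn X ++ [y]) →
    Wx.length = DL s → ((x :: List.ofFn X ++ [y]).IsChain fun a b => ColAdj a.a b.a) →
    10 ≤ i.val → i.val + 10 < nb (mS s) → 10 ≤ j.val → j.val + 10 < nb (mS s) →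
    (X i).a.mb.τ = Tag.I → (X i).a.lk = Lk.none → (X j).a = (X i).a →
    (fl j).map (cls Side.R) = (fl i).map (cls Side.R) →
    (ll j).map (cls Side.L) = (ll i).map (cls Side.L) →
      S0.Eqv (Wx ++ (List.ofFn Wc).flatten ++ Wy)
        (Wx ++ (List.ofFn (Wc ∘ Equiv.swap i j)).flatten ++ Wy) ∧
      Tower (s + 1) (List.ofFn (Wc ∘ Equiv.swap i j)).flatten [Z]

set_option linter.unusedVariables false in
theorem realize_Tower : True := by
  have := @DL.eq_1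
  have := @DL.eq_2
  have := @DL.eq_def
  trivial

end Crest.Agent.R176
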